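import Crest.Agent.R248.Ops

/-!
# R248: levels of cylinders (`Pre`, `base`, `step`) and their properties

`B` is the truncated (coskeletal) model, `η : 𝟭 ⟶ B`. A level is a functor `P` to globular presheaves with
`p0 : P → und` and `p1 : P → und ∘ B`.
-/

set_option autoImplicit false
open CategoryTheory CategoryTheory.Limits Opposite
open Crest.GeometryTopology.Coherator Crest.GeometryTopology.Coherator.GlobTheory

universe u

namespace Crest.Agent.R248

variable {C : GlobTheory.{u}}

/-- the coskeletal truncation in dimensions `≥ N` -/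
structure BSys (C : GlobTheory.{u}) (N : ℕ) where
  B : GlobModel C ⥤ GlobModel C
  η : ∀ A : GlobModel C, A ⟶ B.obj A
  nat : ∀ {A A' : GlobModel C} (g : A ⟶ A'), g ≫ η A' = η A ≫ B.map g
  low : ∀ (A : GlobModel C) (e : ℕ), e < N →
    Function.Bijective (((und C).map (η A)).app e)
  high : ∀ (A : GlobModel C) (e : ℕ), N ≤ e → ∀ x y : (undGP (B.obj A)).c e,
    (undGP (B.obj A)).Par x y → x = y

/-- `η` on cells -/
noncomputable def BSys.e {N : ℕ} (b : BSys C N) (A : GlobModel C) {e : ℕ} (x : (undGP A).c e) :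
    (undGP (b.B.obj A)).c e := ((und C).map (b.η A)).app e x

noncomputable def BSys.ηG {N : ℕ} (b : BSys C N) : NG (und C) ((und C).comp b.B) where
  app A e x := b.e A x
  natF A _ _ a x := ((und C).map (b.η A)).nat a x
  natM {A A'} g e x := by
    have h := congrArg (fun φ => ((und C).map φ).app e x) (b.nat g)
    exact h

/-- a level -/
structure Pre (C : GlobTheory.{u}) (B : GlobModel C ⥤ GlobModel C) where
  P : GPF C
  p0 : NG P (und C)
  p1 : NG P ((und C).comp B)

noncomputable def basePre {N : ℕ} (b : BSys C N) : Pre C b.B := ⟨und C, NG.id _, b.ηG⟩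

/-- the next level (of index `n`, from a level of index `n+1`): pairs of a half cylinder and a
cylinder of index `n+1` over the conjugated cell -/
noncomputable def stepPre {B : GlobModel C ⥤ GlobModel C} (O : Ops C) (n : ℕ) (X : Pre C B) :
    Pre C B where
  P := PbG (Conj O n) X.p0
  p0 := (PbG.fst (Conj O n) X.p0).comp (HC.y n)
  p1 := (PbG.snd (Conj O n) X.p0).comp X.p1

/-- the level of a functor `M` with maps to the identity and to `B` -/
noncomputable def ofM {B : GlobModel C ⥤ GlobModel C} (M : GlobModel C ⥤ GlobModel C)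
    (f0 : M ⟶ 𝟭 (GlobModel C)) (f1 : M ⟶ B) : Pre C B where
  P := (und C).comp M
  p0 := { app := fun A e x => ((und C).map (f0.app A)).app e x
          natF := fun A _ _ a x => ((und C).map (f0.app A)).nat a x
          natM := fun {A A'} g e x => by
            have h := congrArg (fun φ => ((und C).map φ).app e x) (f0.naturality g)
            exact h }
  p1 := { app := fun A e x => ((und C).map (f1.app A)).app e x
          natF := fun A _ _ a x => ((und C).map (f1.app A)).nat a x
          natM := fun {A A'} g e x => by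
            have h := congrArg (fun φ => ((und C).map φ).app e x) (f1.naturality g)
            exact h }

/-! ## Properties -/

section props

variable {N : ℕ} (b : BSys C N)

/-- in dimensions `< n` the map `p0` is bijective and `p1 = η p0` -/
def LowP (n : ℕ) (X : Pre C b.B) : Prop :=
  ∀ e, e < n → ∀ A : GlobModel C, Function.Bijective (X.p0.app A e) ∧
    ∀ x, X.p1.app A e x = b.e A (X.p0.app A e x)

/-- (R) existence of cylinders with given boundary and given ends -/
def RProp (n : ℕ) (X : Pre C b.B) : Prop :=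
  ∀ e, n ≤ e → ∀ F : Fam C, (Contr F e ∨ N ≤ e) →
    ∀ (d : NT F (X.P.bd e)) (y : NT F ((und C).cel e)) (y' : NT F (((und C).comp b.B).cel e)),
      (∀ A x, (undGP A).bdy (y.app A x) = (d.app A x).push (X.p0.at A)) →
      (∀ A x, (undGP (b.B.obj A)).bdy (y'.app A x) = (d.app A x).push (X.p1.at A)) →
      ∃ κ : NT F (X.P.cel e), (∀ A x, (X.P.gp A).bdy (κ.app A x) = d.app A x) ∧
        (∀ A x, X.p0.app A e (κ.app A x) = y.app A x) ∧
        ∀ A x, X.p1.app A e (κ.app A x) = y'.app A x

/-- (T) transport -/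
def TProp (X : Pre C b.B) : Prop :=
  ∀ i, i < N → ∀ F : Fam C, ∀ (x y : NT F (X.P.cel i)) (z : NT F ((und C).cel (i + 1))),
    (∀ A w, (X.P.gp A).Par (x.app A w) (y.app A w)) →
    (∀ A w, b.e A ((undGP A).fc (fac i false) (z.app A w)) = X.p1.app A i (x.app A w)) →
    (∀ A w, b.e A ((undGP A).fc (fac i true) (z.app A w)) = X.p1.app A i (y.app A w)) →
    ∃ z' : NT F ((und C).cel (i + 1)),
      (∀ A w, (undGP A).fc (fac i false) (z'.app A w) = X.p0.app A i (x.app A w)) ∧
      ∀ A w, (undGP A).fc (fac i true) (z'.app A w) = X.p0.app A i (y.app A w)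

/-- pairs `(c, b)`: `c` a cylinder over the source of the `(e+1)`-cell `b` -/
noncomputable def JDom {B : GlobModel C ⥤ GlobModel C} (X : Pre C B) (e : ℕ) : Fam C :=
  PbF (X.p0.cel e) ((und C).face (fac e false))

/-- (J) extension of a cylinder along a cell starting at its base -/
def JProp {B : GlobModel C ⥤ GlobModel C} (O : Ops C) (n : ℕ) (X : Pre C B) : Prop :=
  ∀ e, n ≤ e → ∃ J : NT (JDom X e) (X.P.cel (e + 1)),
    (∀ (A : GlobModel C) (w : (JDom X e).obj A),
      (X.P.gp A).fc (fac e false) (J.app A w) = w.1.1) ∧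
    (∀ (A : GlobModel C) (w : (JDom X e).obj A), X.p0.app A (e + 1) (J.app A w) = w.1.2) ∧
    ∀ (A : GlobModel C) (w : (JDom X e).obj A),
      X.p1.app A (e + 1) (J.app A w) = O.un (B.obj A) (X.p1.app A e w.1.1)

/-- (E) `p0` is a trivial fibration -/
def EProp {B : GlobModel C ⥤ GlobModel C} (X : Pre C B) : Prop :=
  ∀ (A : GlobModel C) (e : ℕ) (d : Bd (X.P.gp A) e) (y : (undGP A).c e),
    (undGP A).bdy y = d.push (X.p0.at A) →
    ∃ κ : (X.P.gp A).c e, (X.P.gp A).bdy κ = d ∧ X.p0.app A e κ = y

/-- (L) lifting of cylinders to the models `M A`, with the canonical section `δ` -/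
def LProp (O : Ops C) (n : ℕ) (X : Pre C b.B) : Prop :=
  ∃ δ : NG (und C) X.P, (∀ A e x, X.p0.app A e (δ.app A e x) = x) ∧
    ∀ (M : GlobModel C ⥤ GlobModel C) (f0 : M ⟶ 𝟭 (GlobModel C)) (f1 : M ⟶ b.B),
      JProp O n (ofM M f0 f1) →
      ∃ Λ : NG (PbG (ofM M f0 f1).p0 X.p0) (X.P.comp M),
        (∀ (A : GlobModel C) (e : ℕ) (w : ((PbG (ofM M f0 f1).p0 X.p0).gp A).c e),
          X.p0.app (M.obj A) e (Λ.app A e w) = w.1.1) ∧
        (∀ (A : GlobModel C) (e : ℕ) (w : ((PbG (ofM M f0 f1).p0 X.p0).gp A).c e),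
          (X.P.map (f0.app A)).app e (Λ.app A e w) = w.1.2) ∧
        ∀ (A : GlobModel C) (e : ℕ) (w : ((PbG (ofM M f0 f1).p0 X.p0).gp A).c e),
          (X.P.map (f1.app A)).app e (Λ.app A e w) =
            δ.app (b.B.obj A) e ((ofM M f0 f1).p1.app A e w.1.1)

/-- (C) `P` underlies a functor to models such that `p0`, `p1` are maps of models -/
def CStP {B : GlobModel C ⥤ GlobModel C} (X : Pre C B) : Prop :=
  ∃ (M : GlobModel C ⥤ GlobModel C) (f0 : M ⟶ 𝟭 (GlobModel C)) (f1 : M ⟶ B)
    (a : NG ((und C).comp M) X.P) (c : NG X.P ((und C).comp M)),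
    (∀ A e x, a.app A e (c.app A e x) = x) ∧ (∀ A e x, c.app A e (a.app A e x) = x) ∧
    (∀ A e x, X.p0.app A e (a.app A e x) = (ofM M f0 f1).p0.app A e x) ∧
    ∀ A e x, X.p1.app A e (a.app A e x) = (ofM M f0 f1).p1.app A e x

/-- all properties of a level -/
structure Good (O : Ops C) (n : ℕ) (X : Pre C b.B) : Prop where
  low : LowP b n X
  r : RProp b n X
  t : TProp b X
  j : JProp O n X
  e : EProp X
  l : LProp b O n X
  c : CStP X

end props

end Crest.Agent.R248
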