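import Crest.Agent.R248.RTDefs
import Crest.Agent.R248.Cyl

/-!
# R248 piece ACTM: from an action to a functor to models

* `actM`: `(M.obj A).functor`: `op ⟨T⟩ ↦ Dg (P.gp A) T`, `o ↦ (Φ.a o).app A`; `sums` from `dg_glue_ext`, `dg_glue_exists`, `Φ.shape`
  (`IsPullback` in `Type u`, e.g. via `Types.isPullback_iff` or `PullbackCone.isLimitAux`); `M.map g` is `Dg.push (P.map g)` on every shape.
  `a := Dg.cell`, `c := Dg.ofCell`. The last property: write `x = nrv (M A) T x'` (`x' : Dg (P.gp A) T`), then
  `(nrv (M A) T x').push (a.at A) = x'` (both sides have the same value at a cell `t` of the shape: `(x'.res (shHat t)).cell`).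
* `cst_of_act`: `f0.app A : M.obj A ⟶ A` from `homLift` applied to the globular map `p0 ∘ a` (hypothesis from the last
  property of `actM` and `h0`); naturality by `und_faithful`; the same for `f1 : M ⟶ B`.
* `cst_base`: `M = 𝟭`, `a = c = id`, `f0 = 𝟙`, `f1 = b.η`.
-/

set_option autoImplicit false
set_option linter.unusedVariables false
open CategoryTheory CategoryTheory.Limits Opposite
open Crest.GeometryTopology.Coherator Crest.GeometryTopology.Coherator.GlobTheory

universe u

namespace Crest.Agent.R248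

variable {C : GlobTheory.{u}}

/-- the presheaf of diagrams of an action at a model -/
noncomputable def ActM.fn (P : GPF C) (Φ : Act P) (A : GlobModel C) : C.Obᵒᵖ ⥤ Type u where
  obj X := Dg (P.gp A) X.unop.shape
  map {X Y} f := TypeCat.ofHom (fun x => (Φ.a (S := Y.unop.shape) (T := X.unop.shape) f.unop).app A x)
  map_id X := by
    refine ConcreteCategory.hom_ext _ _ fun x => ?_
    exact Φ.one X.unop.shape A x
  map_comp {X Y Z} f g := by
    refine ConcreteCategory.hom_ext _ _ fun x => ?_
    exact Φ.seq (R := Z.unop.shape) (S := Y.unop.shape) (T := X.unop.shape) g.unop f.unop A x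

/-- the model of diagrams of an action at a model -/
noncomputable def ActM.mod (P : GPF C) (Φ : Act P) (A : GlobModel C) : GlobModel C where
  functor := ActM.fn P Φ A
  sums S b h hb hh := by
    have hL : ∀ x : Dg (P.gp A) (S.glue b h hb hh),
        (Φ.a (C.ofShape (S.inLeft b h hb hh))).app A x = x.res (S.inLeft b h hb hh) :=
      fun x => Φ.shape _ A x
    have hR : ∀ x : Dg (P.gp A) (S.glue b h hb hh),
        (Φ.a (C.ofShape (S.inRight b h hb hh))).app A x = x.res (S.inRight b h hb hh) :=
      fun x => Φ.shape _ A x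
    have hH : ∀ x : Dg (P.gp A) S,
        (Φ.a (C.ofShape (S.hinge hb))).app A x = x.res (S.hinge hb) :=
      fun x => Φ.shape _ A x
    have hF : ∀ x : Dg (P.gp A) (Shape.globe h),
        (Φ.a (C.ofShape (Shape.faceMap hh false))).app A x = x.res (Shape.faceMap hh false) :=
      fun x => Φ.shape _ A x
    rw [Types.isPullback_iff]
    refine ⟨?_, ?_, ?_⟩
    · rw [← Functor.map_comp, ← Functor.map_comp, ← op_comp, ← op_comp, ← Functor.map_comp,
        ← Functor.map_comp]
      congr 3
      exact pushout.condition (f := GlobPsh.globeRepFace hb true ≫ S.apex)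
        (g := GlobPsh.globeRepFace hh false)
    · rintro x y ⟨h1, h2⟩
      have h1' : (Φ.a (C.ofShape (S.inLeft b h hb hh))).app A x =
        (Φ.a (C.ofShape (S.inLeft b h hb hh))).app A y := h1
      have h2' : (Φ.a (C.ofShape (S.inRight b h hb hh))).app A x =
        (Φ.a (C.ofShape (S.inRight b h hb hh))).app A y := h2
      exact dg_glue_ext S b h hb hh ((hL x).symm.trans (h1'.trans (hL y)))
        ((hR x).symm.trans (h2'.trans (hR y)))
    · intro x y hxy
      let x' : Dg (P.gp A) S := x
      let y' : Dg (P.gp A) (Shape.globe h) := y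
      have hxy' : x'.res (S.hinge hb) = y'.res (Shape.faceMap hh false) :=
        (hH x').symm.trans (Eq.trans (show (Φ.a (C.ofShape (S.hinge hb))).app A x' =
          (Φ.a (C.ofShape (Shape.faceMap hh false))).app A y' from hxy) (hF y'))
      obtain ⟨z, hz1, hz2⟩ := dg_glue_exists S b h hb hh x' y'.cell (by
        rw [← Dg.cell_res_hinge, hxy', Dg.cell_res_face])
      refine ⟨z, (hL z).trans hz1, (hR z).trans ?_⟩
      exact (Dg.ofCell_cell _).symm.trans ((congrArg Dg.ofCell hz2).trans (Dg.ofCell_cell y'))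

/-- functor to models from an action -/
noncomputable def ActM.M (P : GPF C) (Φ : Act P) : GlobModel C ⥤ GlobModel C where
  obj A := ActM.mod P Φ A
  map {A A'} g :=
    ({ app := fun X => TypeCat.ofHom (fun x => Dg.push (P.map g) x)
       naturality := fun X Y f => by
        ext x
        exact ((Φ.a (S := Y.unop.shape) (T := X.unop.shape) f.unop).nat g x).symm } :
      ActM.fn P Φ A ⟶ ActM.fn P Φ A')
  map_id A := by
    apply NatTrans.ext
    funext X
    ext x
    exact (P.dg X.unop.shape).map_id A x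
  map_comp {A A' A''} f g := by
    apply NatTrans.ext
    funext X
    ext x
    exact (P.dg X.unop.shape).map_comp f g x

theorem ActM.fc (P : GPF C) (Φ : Act P) (A : GlobModel C) {f e : ℕ} (a : Ar f e)
    (x : Dg (P.gp A) (Shape.globe e)) :
    (undGP ((ActM.M P Φ).obj A)).fc a x =
      Dg.res (show Shape.globe f ⟶ Shape.globe e from
        yoneda.map (show GlobeObj.mk f ⟶ GlobeObj.mk e from a)) x :=
  Φ.shape _ A x

theorem ActM.cell_res (P : GPF C) (A : GlobModel C) {f e : ℕ} (a : Ar f e)
    (x : Dg (P.gp A) (Shape.globe e)) :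
    (Dg.res (show Shape.globe f ⟶ Shape.globe e from
        yoneda.map (show GlobeObj.mk f ⟶ GlobeObj.mk e from a)) x).cell =
      (P.gp A).fc a x.cell := by
  have h1 : (show shc (Shape.globe e) f from sq (ide f) a) = shf (Shape.globe e) a (ide e) :=
    (sq_ide a).symm
  exact (congrArg (x.v f) h1).trans (x.nat a (ide e))

/-- cells of the underlying presheaf -/
noncomputable def ActM.a (P : GPF C) (Φ : Act P) : NG ((und C).comp (ActM.M P Φ)) P where
  app A e x := Dg.cell (show Dg (P.gp A) (Shape.globe e) from x)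
  natF A f e a x :=
    (congrArg Dg.cell (ActM.fc P Φ A a x)).trans (ActM.cell_res P A a x)
  natM _ _ _ := rfl

noncomputable def ActM.c (P : GPF C) (Φ : Act P) : NG P ((und C).comp (ActM.M P Φ)) where
  app A e x := show Dg (P.gp A) (Shape.globe e) from Dg.ofCell x
  natF A f e a x := by
    have h1 := ActM.fc P Φ A a (Dg.ofCell x)
    have h2 := ActM.cell_res P A a (Dg.ofCell x)
    rw [Dg.cell_ofCell] at h2
    refine Eq.trans ?_ h1.symm
    refine Eq.trans ?_ (Dg.ofCell_cell _)
    exact congrArg Dg.ofCell h2.symm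
  natM {A A'} g e x := (dgOf P e).nat g x

theorem ActM.push_nrv (P : GPF C) (Φ : Act P) (A : GlobModel C) (T : Shape)
    (x : Dg (P.gp A) T) :
    Dg.push ((ActM.a P Φ).at A) (nrv ((ActM.M P Φ).obj A) T x) = x := by
  refine Dg.ext (funext fun e => funext fun t => ?_)
  have h1 : Dg.cell ((Φ.a (C.ofShape (shHat t))).app A x) = Dg.cell (x.res (shHat t)) :=
    congrArg Dg.cell (Φ.shape (shHat t) A x)
  refine Eq.trans h1 ?_
  show x.v e (shm (shHat t) (ide e)) = x.v e t
  have key : shm (shHat t) (ide e) = t :=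
    Equiv.apply_symm_apply (yonedaEquiv (X := GlobeObj.mk e) (F := T.psh)) t
  rw [key]

theorem actM (P : GPF C) (Φ : Act P) :
    ∃ (M : GlobModel C ⥤ GlobModel C) (a : NG ((und C).comp M) P) (c : NG P ((und C).comp M)),
      (∀ A e x, a.app A e (c.app A e x) = x) ∧ (∀ A e x, c.app A e (a.app A e x) = x) ∧
      ∀ {S T : Shape} (o : C.arr S T) (A : GlobModel C) (x : Dg (undGP (M.obj A)) T),
        Dg.push (a.at A) (dact (M.obj A) o x) = (Φ.a o).app A (Dg.push (a.at A) x) := by
  refine ⟨ActM.M P Φ, ActM.a P Φ, ActM.c P Φ, fun A e x => Dg.cell_ofCell x,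
    fun A e x => Dg.ofCell_cell (show Dg (P.gp A) (Shape.globe e) from x), ?_⟩
  intro S T o A x
  let x' : Dg (P.gp A) T := nrvInv ((ActM.M P Φ).obj A) T x
  have hx : nrv ((ActM.M P Φ).obj A) T x' = x := nrv_nrvInv _ T x
  have h1 : dact ((ActM.M P Φ).obj A) o x = nrv ((ActM.M P Φ).obj A) S ((Φ.a o).app A x') := rfl
  rw [h1]
  refine (ActM.push_nrv P Φ A S ((Φ.a o).app A x')).trans ?_
  rw [← hx]
  exact congrArg ((Φ.a o).app A) (ActM.push_nrv P Φ A T x').symm

/-- composition of globular maps -/
private def gphComp {P Q R : GP.{u}} (s : GPH P Q) (t : GPH Q R) : GPH P R :=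
  ⟨fun e x => t.app e (s.app e x), fun a x => by rw [s.nat, t.nat]⟩

/-- a map from the functor underlying `M` to the functor underlying `M'` compatible with the action
lifts to a natural transformation -/
private theorem lift_nat {M M' : GlobModel C ⥤ GlobModel C}
    (s : NG ((und C).comp M) ((und C).comp M'))
    (h : ∀ {S T : Shape} (o : C.arr S T) (A : GlobModel C) (x : Dg (undGP (M.obj A)) T),
      Dg.push (s.at A) (dact (M.obj A) o x) = dact (M'.obj A) o (Dg.push (s.at A) x)) :
    ∃ f : M ⟶ M', ∀ A e x, ((und C).map (f.app A)).app e x = s.app A e x := by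
  have hex : ∀ A, ∃ g : M.obj A ⟶ M'.obj A, (und C).map g = s.at A := fun A =>
    homLift (s.at A) fun o x => h o A x
  choose g hg using hex
  have hg' : ∀ A e x, ((und C).map (g A)).app e x = s.app A e x := by
    intro A e x
    rw [hg A]
    rfl
  refine ⟨{ app := g, naturality := ?_ }, hg'⟩
  intro A A' k
  apply und_faithful
  intro e x
  have h1 : ((und C).map (M.map k ≫ g A')).app e x =
      ((und C).map (g A')).app e (((und C).map (M.map k)).app e x) :=
    (und C).map_comp _ _ e x
  have h2 : ((und C).map (g A ≫ M'.map k)).app e x =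
      ((und C).map (M'.map k)).app e (((und C).map (g A)).app e x) :=
    (und C).map_comp _ _ e x
  rw [h1, h2, hg', hg']
  exact s.natM k e x

theorem cst_of_act {B : GlobModel C ⥤ GlobModel C} (X : Pre C B) (Φ : Act X.P)
    (h0 : ∀ {S T : Shape} (o : C.arr S T) (A : GlobModel C) (x : Dg (X.P.gp A) T),
      Dg.push (X.p0.at A) ((Φ.a o).app A x) = dact A o (Dg.push (X.p0.at A) x))
    (h1 : ∀ {S T : Shape} (o : C.arr S T) (A : GlobModel C) (x : Dg (X.P.gp A) T),
      Dg.push (X.p1.at A) ((Φ.a o).app A x) = dact (B.obj A) o (Dg.push (X.p1.at A) x)) :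
    CStP X := by
  obtain ⟨M, a, c, hac, hca, hact⟩ := actM X.P Φ
  have key0 : ∀ {S T : Shape} (o : C.arr S T) (A : GlobModel C) (x : Dg (undGP (M.obj A)) T),
      Dg.push ((a.comp X.p0).at A) (dact (M.obj A) o x) =
        dact A o (Dg.push ((a.comp X.p0).at A) x) := by
    intro S T o A x
    have h2 := h0 o A (Dg.push (a.at A) x)
    rw [← hact o A x] at h2
    exact h2
  have key1 : ∀ {S T : Shape} (o : C.arr S T) (A : GlobModel C) (x : Dg (undGP (M.obj A)) T),
      Dg.push ((a.comp X.p1).at A) (dact (M.obj A) o x) =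
        dact (B.obj A) o (Dg.push ((a.comp X.p1).at A) x) := by
    intro S T o A x
    have h2 := h1 o A (Dg.push (a.at A) x)
    rw [← hact o A x] at h2
    exact h2
  let s0 : NG ((und C).comp M) ((und C).comp (𝟭 (GlobModel C))) :=
    ⟨(a.comp X.p0).app, (a.comp X.p0).natF, (a.comp X.p0).natM⟩
  obtain ⟨f0, hf0⟩ := lift_nat (M := M) (M' := 𝟭 (GlobModel C)) s0 fun o A x => key0 o A x
  obtain ⟨f1, hf1⟩ := lift_nat (M := M) (M' := B) (a.comp X.p1) fun o A x => key1 o A x
  exact ⟨M, f0, f1, a, c, hac, hca, fun A e x => (hf0 A e x).symm, fun A e x => (hf1 A e x).symm⟩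

theorem cst_base {N : ℕ} (b : BSys C N) : CStP (basePre b) := by
  refine ⟨𝟭 (GlobModel C), 𝟙 _, { app := b.η, naturality := fun _ _ g => b.nat g },
    ⟨fun _ _ x => x, fun _ _ _ _ _ => rfl, fun _ _ _ => rfl⟩,
    ⟨fun _ _ x => x, fun _ _ _ _ _ => rfl, fun _ _ _ => rfl⟩,
    fun _ _ _ => rfl, fun _ _ _ => rfl, fun _ _ _ => rfl, fun _ _ _ => rfl⟩

end Crest.Agent.R248
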