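import Mathlib
import Crest.Prelude.Def_GlobularCoherator

/-!
# Row 248 (S0382), the pushout lemma: basic definitions (helper26)

Elementwise structures: `GP` globular presheaves (all iterated faces), `Dg Q T` = `T`-diagrams in `Q`,
`Fam C` = set valued functors on the category of models, `NT` natural families, `GPF C` = functors
from models to globular presheaves, `NG` natural globular maps.
-/

set_option autoImplicit false
open CategoryTheory CategoryTheory.Limits Opposite
open Crest.GeometryTopology.Coherator Crest.GeometryTopology.Coherator.GlobTheory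

universe u

namespace Crest.Agent.R248

/-! ## Arrows between globes -/

abbrev Ar (f e : ℕ) : Type := GlobeObj.Arrow f e

abbrev pole {f e : ℕ} (h : f < e) (ε : Bool) : Ar f e := GlobeObj.Arrow.pole h ε

abbrev ide (e : ℕ) : Ar e e := GlobeObj.Arrow.refl e

/-- composition: first `f → e`, then `e → d` -/
abbrev sq {f e d : ℕ} (a : Ar f e) (b : Ar e d) : Ar f d := GlobeObj.Arrow.seq a b

/-- source (`ε = false`) and target (`ε = true`) faces of codimension one -/
abbrev fac (e : ℕ) (ε : Bool) : Ar e (e + 1) := pole (Nat.lt_succ_self e) ε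

theorem pole_sq {f e d : ℕ} (h : f < e) (ε : Bool) (b : Ar e d) (hfd : f < d) :
    sq (pole h ε) b = pole hfd ε := by
  cases b <;> rfl

theorem pole_sq' {f e d : ℕ} (h : f < e) (ε : Bool) (h' : e < d) (ε' : Bool) :
    sq (pole h ε) (pole h' ε') = pole (h.trans h') ε := rfl

theorem sq_ide {f e : ℕ} (a : Ar f e) : sq a (ide e) = a := by cases a <;> rfl

theorem ide_sq {f e : ℕ} (a : Ar f e) : sq (ide f) a = a := rfl

theorem ar_le {f e : ℕ} (a : Ar f e) : f ≤ e := by
  cases a with
  | refl => exact le_rfl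
  | pole h _ => exact h.le

theorem ar_self {e : ℕ} (a : Ar e e) : a = ide e := by
  cases a with
  | refl => rfl
  | pole h _ => exact absurd h (lt_irrefl _)

/-! ## Globular presheaves -/

structure GP where
  c : ℕ → Type u
  fc : ∀ {f e : ℕ}, Ar f e → c e → c f
  fc_ide : ∀ {e : ℕ} (x : c e), fc (ide e) x = x
  fc_fc : ∀ {f e d : ℕ} (a : Ar f e) (b : Ar e d) (x : c d), fc a (fc b x) = fc (sq a b) x

@[ext]
structure GPH (P Q : GP.{u}) where
  app : ∀ e : ℕ, P.c e → Q.c e
  nat : ∀ {f e : ℕ} (a : Ar f e) (x : P.c e), app f (P.fc a x) = Q.fc a (app e x)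

theorem GPH.face_eq {P Q : GP.{u}} (φ : GPH P Q) {f e d : ℕ} (a : Ar f e) (b : Ar f d)
    {x : P.c e} {y : P.c d} (h : P.fc a x = P.fc b y) :
    Q.fc a (φ.app e x) = Q.fc b (φ.app d y) := by
  rw [← φ.nat, h, φ.nat]

/-- `x` and `y` have the same proper faces -/
def GP.Par (Q : GP.{u}) {e : ℕ} (x y : Q.c e) : Prop :=
  ∀ (f : ℕ) (h : f < e) (ε : Bool), Q.fc (pole h ε) x = Q.fc (pole h ε) y

/-- the `e`-cells of a shape -/
def shc (T : Shape) (e : ℕ) : Type := T.psh.obj (op (GlobeObj.mk e))

/-- faces of cells of a shape -/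
noncomputable def shf (T : Shape) {f e : ℕ} (a : Ar f e) (t : shc T e) : shc T f :=
  T.psh.map (Quiver.Hom.op (X := GlobeObj.mk f) (Y := GlobeObj.mk e) a) t

/-- cells of shapes under maps of shapes -/
noncomputable def shm {S T : Shape} (g : S ⟶ T) {e : ℕ} (t : shc S e) : shc T e :=
  NatTrans.app (F := S.psh) (G := T.psh) g (op (GlobeObj.mk e)) t

theorem shm_shf {S T : Shape} (g : S ⟶ T) {f e : ℕ} (a : Ar f e) (t : shc S e) :
    shm g (shf S a t) = shf T a (shm g t) :=
  types_congr_hom (NatTrans.naturality (F := S.psh) (G := T.psh) g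
    (Quiver.Hom.op (X := GlobeObj.mk f) (Y := GlobeObj.mk e) a)) t

/-- the last cell of a shape -/
noncomputable def lastc (T : Shape) : shc T T.last :=
  T.apex.app (op (GlobeObj.mk T.last)) (ide T.last)

/-- `T`-diagrams in a globular presheaf -/
@[ext]
structure Dg (Q : GP.{u}) (T : Shape) where
  v : ∀ e : ℕ, shc T e → Q.c e
  nat : ∀ {f e : ℕ} (a : Ar f e) (t : shc T e), v f (shf T a t) = Q.fc a (v e t)

/-- restriction of diagrams along a map of shapes -/
noncomputable def Dg.res {Q : GP.{u}} {S T : Shape} (g : S ⟶ T) (x : Dg Q T) : Dg Q S where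
  v e t := x.v e (shm g t)
  nat a t := by rw [shm_shf, x.nat]

/-- image of a diagram under a map of globular presheaves -/
def Dg.push {P Q : GP.{u}} {T : Shape} (φ : GPH P Q) (x : Dg P T) : Dg Q T where
  v e t := φ.app e (x.v e t)
  nat a t := by rw [x.nat, φ.nat]

/-- the cell of a diagram of globe shape -/
def Dg.cell {Q : GP.{u}} {n : ℕ} (x : Dg Q (Shape.globe n)) : Q.c n :=
  x.v n (ide n)

/-- the diagram of globe shape of a cell -/
def Dg.ofCell {Q : GP.{u}} {n : ℕ} (x : Q.c n) : Dg Q (Shape.globe n) where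
  v e a := Q.fc (show Ar e n from a) x
  nat {f e} a t := (Q.fc_fc a (show Ar e n from t) x).symm

/-- the last cell of a diagram -/
noncomputable def Dg.last {Q : GP.{u}} {T : Shape} (x : Dg Q T) : Q.c T.last :=
  x.v T.last (lastc T)

/-! ## Functors on models -/

variable (C : GlobTheory.{u})

/-- set valued functors on models -/
structure Fam where
  obj : GlobModel C → Type u
  map : ∀ {A A' : GlobModel C}, (A ⟶ A') → obj A → obj A'
  map_id : ∀ (A : GlobModel C) (x : obj A), map (𝟙 A) x = x
  map_comp : ∀ {A A' A'' : GlobModel C} (f : A ⟶ A') (g : A' ⟶ A'') (x : obj A),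
    map (f ≫ g) x = map g (map f x)

/-- functors from models to globular presheaves -/
structure GPF where
  gp : GlobModel C → GP.{u}
  map : ∀ {A A' : GlobModel C}, (A ⟶ A') → GPH (gp A) (gp A')
  map_id : ∀ (A : GlobModel C) (e : ℕ) (x : (gp A).c e), (map (𝟙 A)).app e x = x
  map_comp : ∀ {A A' A'' : GlobModel C} (f : A ⟶ A') (g : A' ⟶ A'') (e : ℕ) (x : (gp A).c e),
    (map (f ≫ g)).app e x = (map g).app e ((map f).app e x)

variable {C}

/-- natural families -/
@[ext]
structure NT (F G : Fam C) where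
  app : ∀ A : GlobModel C, F.obj A → G.obj A
  nat : ∀ {A A' : GlobModel C} (f : A ⟶ A') (x : F.obj A), app A' (F.map f x) = G.map f (app A x)

def NT.comp {F G H : Fam C} (s : NT F G) (t : NT G H) : NT F H :=
  ⟨fun A x => t.app A (s.app A x), fun f x => by rw [s.nat, t.nat]⟩

def NT.id (F : Fam C) : NT F F := ⟨fun _ x => x, fun _ _ => rfl⟩

/-- natural globular maps -/
@[ext]
structure NG (P Q : GPF C) where
  app : ∀ (A : GlobModel C) (e : ℕ), (P.gp A).c e → (Q.gp A).c e
  natF : ∀ (A : GlobModel C) {f e : ℕ} (a : Ar f e) (x : (P.gp A).c e),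
    app A f ((P.gp A).fc a x) = (Q.gp A).fc a (app A e x)
  natM : ∀ {A A' : GlobModel C} (g : A ⟶ A') (e : ℕ) (x : (P.gp A).c e),
    app A' e ((P.map g).app e x) = (Q.map g).app e (app A e x)

def NG.comp {P Q R : GPF C} (s : NG P Q) (t : NG Q R) : NG P R :=
  ⟨fun A e x => t.app A e (s.app A e x), fun A _ _ a x => by rw [s.natF, t.natF],
    fun g e x => by rw [s.natM, t.natM]⟩

def NG.id (P : GPF C) : NG P P := ⟨fun _ _ x => x, fun _ _ _ _ _ => rfl, fun _ _ _ => rfl⟩

/-- the globular map at one model -/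
def NG.at {P Q : GPF C} (s : NG P Q) (A : GlobModel C) : GPH (P.gp A) (Q.gp A) :=
  ⟨s.app A, s.natF A⟩

/-- `e`-cells of a functor to globular presheaves -/
def GPF.cel (P : GPF C) (e : ℕ) : Fam C where
  obj A := (P.gp A).c e
  map f := (P.map f).app e
  map_id A x := P.map_id A e x
  map_comp f g x := P.map_comp f g e x

/-- `T`-diagrams of a functor to globular presheaves -/
def GPF.dg (P : GPF C) (T : Shape) : Fam C where
  obj A := Dg (P.gp A) T
  map f := Dg.push (P.map f)
  map_id A _ := Dg.ext (funext fun e => funext fun _ => P.map_id A e _)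
  map_comp f g _ := Dg.ext (funext fun e => funext fun _ => P.map_comp f g e _)

/-- face maps -/
def GPF.face (P : GPF C) {f e : ℕ} (a : Ar f e) : NT (P.cel e) (P.cel f) :=
  ⟨fun A x => (P.gp A).fc a x, fun g x => ((P.map g).nat a x).symm⟩

def NG.cel {P Q : GPF C} (s : NG P Q) (e : ℕ) : NT (P.cel e) (Q.cel e) :=
  ⟨fun A x => s.app A e x, fun g x => s.natM g e x⟩

def NG.dg {P Q : GPF C} (s : NG P Q) (T : Shape) : NT (P.dg T) (Q.dg T) :=
  ⟨fun A x => Dg.push (s.at A) x,
    fun g _ => Dg.ext (funext fun e => funext fun _ => s.natM g e _)⟩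

/-- precomposition with an endofunctor of the category of models -/
def GPF.comp (P : GPF C) (M : GlobModel C ⥤ GlobModel C) : GPF C where
  gp A := P.gp (M.obj A)
  map f := P.map (M.map f)
  map_id A e x := by rw [M.map_id]; exact P.map_id _ e x
  map_comp f g e x := by rw [M.map_comp]; exact P.map_comp _ _ e x

def Fam.comp (F : Fam C) (M : GlobModel C ⥤ GlobModel C) : Fam C where
  obj A := F.obj (M.obj A)
  map f := F.map (M.map f)
  map_id A x := by rw [M.map_id]; exact F.map_id _ x
  map_comp f g x := by rw [M.map_comp]; exact F.map_comp _ _ x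

/-- whiskering on the left: `s` at the models `M A` -/
def NG.atM {P Q : GPF C} (s : NG P Q) (M : GlobModel C ⥤ GlobModel C) :
    NG (P.comp M) (Q.comp M) :=
  ⟨fun A e x => s.app (M.obj A) e x, fun A _ _ a x => s.natF (M.obj A) a x,
    fun g e x => s.natM (M.map g) e x⟩

def NT.atM {F G : Fam C} (s : NT F G) (M : GlobModel C ⥤ GlobModel C) :
    NT (F.comp M) (G.comp M) :=
  ⟨fun A x => s.app (M.obj A) x, fun g x => s.nat (M.map g) x⟩

/-- whiskering on the right: `P` applied to a natural transformation of endofunctors -/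
def GPF.app₂ (P : GPF C) {M M' : GlobModel C ⥤ GlobModel C} (φ : M ⟶ M') :
    NG (P.comp M) (P.comp M') :=
  ⟨fun A e x => (P.map (φ.app A)).app e x, fun A _ _ a x => (P.map (φ.app A)).nat a x, by
    intro A A' g e x
    show (P.map (φ.app A')).app e ((P.map (M.map g)).app e x) =
      (P.map (M'.map g)).app e ((P.map (φ.app A)).app e x)
    rw [← P.map_comp, ← P.map_comp, φ.naturality]⟩

/-- explicit pullback of functors to globular presheaves -/
def PbG {P Q R : GPF C} (s : NG P R) (t : NG Q R) : GPF C where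
  gp A :=
    { c := fun e => { x : (P.gp A).c e × (Q.gp A).c e // s.app A e x.1 = t.app A e x.2 }
      fc := fun a x => ⟨((P.gp A).fc a x.1.1, (Q.gp A).fc a x.1.2), by
        show s.app A _ _ = t.app A _ _
        rw [s.natF, t.natF, x.2]⟩
      fc_ide := fun x => Subtype.ext (Prod.ext ((P.gp A).fc_ide _) ((Q.gp A).fc_ide _))
      fc_fc := fun a b x =>
        Subtype.ext (Prod.ext ((P.gp A).fc_fc a b _) ((Q.gp A).fc_fc a b _)) }
  map {A A'} g :=
    { app := fun e x => ⟨((P.map g).app e x.1.1, (Q.map g).app e x.1.2), by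
        show s.app A' _ _ = t.app A' _ _
        rw [s.natM, t.natM, x.2]⟩
      nat := fun a x => Subtype.ext (Prod.ext ((P.map g).nat a _) ((Q.map g).nat a _)) }
  map_id A e _ := Subtype.ext (Prod.ext (P.map_id A e _) (Q.map_id A e _))
  map_comp f g e _ := Subtype.ext (Prod.ext (P.map_comp f g e _) (Q.map_comp f g e _))

def PbG.fst {P Q R : GPF C} (s : NG P R) (t : NG Q R) : NG (PbG s t) P where
  app A e (x : { x : (P.gp A).c e × (Q.gp A).c e // s.app A e x.1 = t.app A e x.2 }) := x.1.1
  natF _ _ _ _ _ := rfl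
  natM _ _ _ := rfl

def PbG.snd {P Q R : GPF C} (s : NG P R) (t : NG Q R) : NG (PbG s t) Q where
  app A e (x : { x : (P.gp A).c e × (Q.gp A).c e // s.app A e x.1 = t.app A e x.2 }) := x.1.2
  natF _ _ _ _ _ := rfl
  natM _ _ _ := rfl

/-! ## Models -/

/-- the globular presheaf underlying a model -/
noncomputable def undGP (A : GlobModel C) : GP.{u} where
  c e := A.functor.obj (op (⟨Shape.globe e⟩ : C.Ob))
  fc {f e} a x := A.functor.map
    (C.globes.map (show GlobeObj.mk f ⟶ GlobeObj.mk e from a)).op x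
  fc_ide {e} x := by
    have h : C.globes.map (show GlobeObj.mk e ⟶ GlobeObj.mk e from ide e) = 𝟙 _ :=
      C.globes.map_id (GlobeObj.mk e)
    rw [h, op_id, A.functor.map_id]; rfl
  fc_fc {f e d} a b x := by
    have h : C.globes.map (show GlobeObj.mk f ⟶ GlobeObj.mk d from sq a b) =
        C.globes.map (show GlobeObj.mk f ⟶ GlobeObj.mk e from a) ≫
          C.globes.map (show GlobeObj.mk e ⟶ GlobeObj.mk d from b) :=
      C.globes.map_comp (X := GlobeObj.mk f) (Y := GlobeObj.mk e) (Z := GlobeObj.mk d) a b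
    rw [h, op_comp, A.functor.map_comp]; rfl

variable (C) in
/-- the underlying globular presheaf as a functor of the model -/
noncomputable def und : GPF C where
  gp A := undGP A
  map {A A'} g :=
    { app := fun e x => g.app (op (⟨Shape.globe e⟩ : C.Ob)) x
      nat := fun a x => types_congr_hom (g.naturality _) x }
  map_id _ _ _ := rfl
  map_comp _ _ _ _ := rfl

variable (C) in
/-- `T`-tuples of a model -/
def ev (T : Shape) : Fam C where
  obj A := A.functor.obj (op (⟨T⟩ : C.Ob))
  map g := fun x => g.app (op (⟨T⟩ : C.Ob)) x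
  map_id _ _ := rfl
  map_comp _ _ _ := rfl

/-- the action of an operation -/
def actN {S T : Shape} (o : C.arr S T) : NT (ev C T) (ev C S) :=
  ⟨fun A x => A.act o x, fun g x =>
    (types_congr_hom
      (g.naturality (Quiver.Hom.op (X := (⟨S⟩ : C.Ob)) (Y := (⟨T⟩ : C.Ob)) o)) x).symm⟩

end Crest.Agent.R248
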