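import Crest.Agent.R248.Contr

/-!
# R248: boundaries (`Bd`), pullbacks of families, elementary lemmas (no `sorry` in this file)
-/

set_option autoImplicit false
open CategoryTheory CategoryTheory.Limits Opposite
open Crest.GeometryTopology.Coherator Crest.GeometryTopology.Coherator.GlobTheory

universe u

namespace Crest.Agent.R248

/-- boundaries of `e`-cells: compatible families of proper faces -/
@[ext]
structure Bd (Q : GP.{u}) (e : ℕ) where
  v : ∀ {f : ℕ}, f < e → Bool → Q.c f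
  glob : ∀ {g f : ℕ} (h : g < f) (h' : f < e) (ε ε' : Bool),
    Q.fc (pole h ε) (v h' ε') = v (h.trans h') ε

/-- the boundary of a cell -/
def GP.bdy (Q : GP.{u}) {e : ℕ} (x : Q.c e) : Bd Q e where
  v h ε := Q.fc (pole h ε) x
  glob h h' ε ε' := by rw [Q.fc_fc, pole_sq']

def Bd.push {P Q : GP.{u}} (φ : GPH P Q) {e : ℕ} (b : Bd P e) : Bd Q e where
  v h ε := φ.app _ (b.v h ε)
  glob h h' ε ε' := by rw [← φ.nat, b.glob]

theorem Bd.ext' {Q : GP.{u}} {e : ℕ} {b b' : Bd Q e}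
    (h : ∀ (f : ℕ) (hf : f < e) (ε : Bool), b.v hf ε = b'.v hf ε) : b = b' := by
  apply Bd.ext
  funext f hf ε
  exact h f hf ε

theorem bdy_push {P Q : GP.{u}} (φ : GPH P Q) {e : ℕ} (x : P.c e) :
    Q.bdy (φ.app e x) = (P.bdy x).push φ :=
  Bd.ext' fun _ hf ε => (φ.nat (pole hf ε) x).symm

theorem bdy_v {Q : GP.{u}} {e : ℕ} (x : Q.c e) {f : ℕ} (hf : f < e) (ε : Bool) :
    (Q.bdy x).v hf ε = Q.fc (pole hf ε) x := rfl

theorem fc_of_bdy {Q : GP.{u}} {e : ℕ} {x : Q.c e} {b : Bd Q e} (h : Q.bdy x = b) {f : ℕ}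
    (hf : f < e) (ε : Bool) : Q.fc (pole hf ε) x = b.v hf ε := by rw [← h]; rfl

theorem par_iff_bdy {Q : GP.{u}} {e : ℕ} (x y : Q.c e) : Q.Par x y ↔ Q.bdy x = Q.bdy y := by
  constructor
  · intro h
    exact Bd.ext' fun f hf ε => h f hf ε
  · intro h f hf ε
    exact (fc_of_bdy h hf ε).trans rfl

/-- the codimension one faces of a parallel pair give a boundary -/
def Bd.mk₂ {Q : GP.{u}} {i : ℕ} (x y : Q.c i) (h : Q.Par x y) : Bd Q (i + 1) where
  v {f} hf ε :=
    if hf' : f < i then Q.fc (pole hf' ε) x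
    else if ε then (Nat.le_antisymm (Nat.lt_succ_iff.1 hf) (not_lt.1 hf')) ▸ y
      else (Nat.le_antisymm (Nat.lt_succ_iff.1 hf) (not_lt.1 hf')) ▸ x
  glob {g f} hg hf ε ε' := by
    have hgi : g < i := hg.trans_le (Nat.lt_succ_iff.1 hf)
    rw [dif_pos hgi]
    by_cases hf' : f < i
    · rw [dif_pos hf', Q.fc_fc, pole_sq']
    · rw [dif_neg hf']
      obtain rfl : f = i := Nat.le_antisymm (Nat.lt_succ_iff.1 hf) (not_lt.1 hf')
      cases ε'
      · rfl
      · exact (h g hg ε).symm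

theorem Bd.mk₂_false {Q : GP.{u}} {i : ℕ} (x y : Q.c i) (h : Q.Par x y) :
    (Bd.mk₂ x y h).v (Nat.lt_succ_self i) false = x := by
  show (if hf' : i < i then Q.fc (pole hf' false) x
    else if false = true then _ else _) = x
  rw [dif_neg (lt_irrefl i)]
  rfl

theorem Bd.mk₂_true {Q : GP.{u}} {i : ℕ} (x y : Q.c i) (h : Q.Par x y) :
    (Bd.mk₂ x y h).v (Nat.lt_succ_self i) true = y := by
  show (if hf' : i < i then Q.fc (pole hf' true) x
    else if true = true then _ else _) = y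
  rw [dif_neg (lt_irrefl i)]
  rfl

/-- a boundary of dimension `i+1` is determined by its two codimension one faces -/
theorem Bd.ext_succ {Q : GP.{u}} {i : ℕ} {b b' : Bd Q (i + 1)}
    (h : ∀ ε, b.v (Nat.lt_succ_self i) ε = b'.v (Nat.lt_succ_self i) ε) : b = b' := by
  apply Bd.ext'
  intro f hf ε
  rcases Nat.lt_or_ge f i with hf' | hf'
  · rw [← b.glob hf' (Nat.lt_succ_self i) ε ε, ← b'.glob hf' (Nat.lt_succ_self i) ε ε, h]
  · obtain rfl : f = i := Nat.le_antisymm (Nat.lt_succ_iff.1 hf) hf'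
    exact h ε

theorem Bd.par {Q : GP.{u}} {i : ℕ} (b : Bd Q (i + 1)) :
    Q.Par (b.v (Nat.lt_succ_self i) false) (b.v (Nat.lt_succ_self i) true) := by
  intro f hf ε
  rw [b.glob, b.glob]

variable {C : GlobTheory.{u}}

/-- boundaries of `e`-cells of a functor to globular presheaves -/
def GPF.bd (P : GPF C) (e : ℕ) : Fam C where
  obj A := Bd (P.gp A) e
  map f b := b.push (P.map f)
  map_id A _ := Bd.ext' fun f _ _ => P.map_id A f _
  map_comp g g' _ := Bd.ext' fun f _ _ => P.map_comp g g' f _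

def GPF.bdN (P : GPF C) (e : ℕ) : NT (P.cel e) (P.bd e) :=
  ⟨fun A x => (P.gp A).bdy x, fun g x => bdy_push (P.map g) x⟩

def NG.bd {P Q : GPF C} (s : NG P Q) (e : ℕ) : NT (P.bd e) (Q.bd e) :=
  ⟨fun A b => b.push (s.at A), fun g _ => Bd.ext' fun f _ _ => s.natM g f _⟩

/-- one face of a natural boundary -/
def NT.bv {F : Fam C} {P : GPF C} {e : ℕ} (b : NT F (P.bd e)) {f : ℕ} (hf : f < e) (ε : Bool) :
    NT F (P.cel f) :=
  ⟨fun A x => (b.app A x).v hf ε, fun g x => by
    show (b.app _ _).v hf ε = (P.map g).app f ((b.app _ x).v hf ε)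
    rw [b.nat]; rfl⟩

/-- contractibility in terms of boundaries -/
theorem Contr.bd {F : Fam C} {i : ℕ} (h : Contr F i) (b : NT F ((und C).bd (i + 1))) :
    ∃ κ : NT F ((und C).cel (i + 1)), ∀ A x, (undGP A).bdy (κ.app A x) = b.app A x := by
  obtain ⟨γ, h1, h2⟩ := h (b.bv (Nat.lt_succ_self i) false) (b.bv (Nat.lt_succ_self i) true)
    (fun A x => Bd.par (b.app A x))
  refine ⟨γ, fun A x => Bd.ext_succ fun ε => ?_⟩
  cases ε
  · exact h1 A x
  · exact h2 A x

/-- pullback of families -/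
def PbF {F G H : Fam C} (s : NT F H) (t : NT G H) : Fam C where
  obj A := { x : F.obj A × G.obj A // s.app A x.1 = t.app A x.2 }
  map {A A'} g x := ⟨(F.map g x.1.1, G.map g x.1.2), by
    show s.app A' _ = t.app A' _
    rw [s.nat, t.nat, x.2]⟩
  map_id A x := Subtype.ext (Prod.ext (F.map_id A _) (G.map_id A _))
  map_comp f g x := Subtype.ext (Prod.ext (F.map_comp f g _) (G.map_comp f g _))

def PbF.fst {F G H : Fam C} (s : NT F H) (t : NT G H) : NT (PbF s t) F :=
  ⟨fun A (x : { x : F.obj A × G.obj A // s.app A x.1 = t.app A x.2 }) => x.1.1, fun _ _ => rfl⟩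

def PbF.snd {F G H : Fam C} (s : NT F H) (t : NT G H) : NT (PbF s t) G :=
  ⟨fun A (x : { x : F.obj A × G.obj A // s.app A x.1 = t.app A x.2 }) => x.1.2, fun _ _ => rfl⟩

def PbF.lift {E F G H : Fam C} (s : NT F H) (t : NT G H) (a : NT E F) (b : NT E G)
    (h : ∀ A x, s.app A (a.app A x) = t.app A (b.app A x)) : NT E (PbF s t) :=
  ⟨fun A x => ⟨(a.app A x, b.app A x), h A x⟩, fun g x =>
    Subtype.ext (Prod.ext (a.nat g x) (b.nat g x))⟩

/-- a natural bijection has a natural inverse -/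
theorem NT.exists_inv {F G : Fam C} (s : NT F G) (h : ∀ A, Function.Bijective (s.app A)) :
    ∃ t : NT G F, (∀ A x, s.app A (t.app A x) = x) ∧ ∀ A x, t.app A (s.app A x) = x := by
  refine ⟨⟨fun A x => (Equiv.ofBijective _ (h A)).symm x, fun {A A'} g x => ?_⟩, fun A x => ?_,
    fun A x => ?_⟩
  · apply (h A').1
    rw [s.nat]
    have h1 := (Equiv.ofBijective _ (h A)).apply_symm_apply x
    have h2 := (Equiv.ofBijective _ (h A')).apply_symm_apply (G.map g x)
    change s.app A _ = x at h1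
    change s.app A' _ = _ at h2
    rw [h1, h2]
  · exact (Equiv.ofBijective _ (h A)).apply_symm_apply x
  · exact (Equiv.ofBijective _ (h A)).symm_apply_apply x

theorem fc_globular (Q : GP.{u}) {g f e : ℕ} (h : g < f) (hf : f < e) (ε ε' : Bool) (x : Q.c e) :
    Q.fc (pole h ε) (Q.fc (pole hf ε') x) = Q.fc (pole (h.trans hf) ε) x := by
  rw [Q.fc_fc, pole_sq']

end Crest.Agent.R248
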