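import Crest.Agent.R248.Cyl

/-!
# R248 piece COHFAM: coherent families of cylinders

`grec0 W X.P` with `Φ A e w κ := X.p0 κ = y w ∧ X.p1 κ = y' w`.
`ext` at `e ≤ n`: `κ := ` the natural inverse of the bijection `X.p0` (`NT.exists_inv`) applied to `y w`; `p1 κ = η y = y'`
by `hX` and `hlow`; the boundary condition: injectivity of `X.p0` in dimensions `< e`.
`ext` at `e ≥ n + 1`: `hR` with `F = W.cel e`; `Φ` on the faces and naturality of `y`, `y'` give the hypotheses.
-/

set_option autoImplicit false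
open CategoryTheory CategoryTheory.Limits Opposite
open Crest.GeometryTopology.Coherator Crest.GeometryTopology.Coherator.GlobTheory

universe u

namespace Crest.Agent.R248

variable {C : GlobTheory.{u}}

theorem cohFam {N : ℕ} (b : BSys C N) (n : ℕ) (X : Pre C b.B)
    (hX : LowP b (n + 1) X) (hR : RProp b (n + 1) X)
    (W : GPF C) (y : NG W (und C)) (y' : NG W ((und C).comp b.B))
    (hlow : ∀ (A : GlobModel C) (e : ℕ), e ≤ n → ∀ w : (W.gp A).c e,
      y'.app A e w = b.e A (y.app A e w))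
    (hctr : ∀ e, n < e → e < N → Contr (W.cel e) e) :
    ∃ ρ : NG W X.P, (∀ (A : GlobModel C) (e : ℕ) (w : (W.gp A).c e),
        X.p0.app A e (ρ.app A e w) = y.app A e w) ∧
      ∀ (A : GlobModel C) (e : ℕ) (w : (W.gp A).c e),
        X.p1.app A e (ρ.app A e w) = y'.app A e w := by
  suffices hρ : ∃ ρ : NG W X.P, ∀ (A : GlobModel C) (e : ℕ) (w : (W.gp A).c e),
      X.p0.app A e (ρ.app A e w) = y.app A e w ∧ X.p1.app A e (ρ.app A e w) = y'.app A e w by
    obtain ⟨ρ, hρ⟩ := hρ
    exact ⟨ρ, fun A e w => (hρ A e w).1, fun A e w => (hρ A e w).2⟩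
  apply grec0 W X.P
    (fun A e w κ => X.p0.app A e κ = y.app A e w ∧ X.p1.app A e κ = y'.app A e w)
  intro e d hd
  rcases Nat.lt_or_ge e (n + 1) with he | he
  · obtain ⟨t, ht, -⟩ := NT.exists_inv (X.p0.cel e) (fun A => (hX e he A).1)
    refine ⟨(y.cel e).comp t, fun A w => Bd.ext' fun f hf ε => ?_, fun A w => ⟨?_, ?_⟩⟩
    · apply (hX f (hf.trans he) A).1.1
      have h1 : X.p0.app A e (t.app A (y.app A e w)) = y.app A e w := ht A (y.app A e w)
      have h2 := X.p0.natF A (pole hf ε) (t.app A (y.app A e w))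
      rw [h1, ← y.natF] at h2
      exact h2.trans (hd A w f hf ε).1.symm
    · exact ht A (y.app A e w)
    · have h1 : X.p0.app A e (t.app A (y.app A e w)) = y.app A e w := ht A (y.app A e w)
      have h2 := (hX e he A).2 (t.app A (y.app A e w))
      rw [h1] at h2
      exact h2.trans (hlow A e (Nat.lt_succ_iff.1 he) w).symm
  · have hc : Contr (W.cel e) e ∨ N ≤ e := by
      rcases Nat.lt_or_ge e N with h | h
      · exact Or.inl (hctr e he h)
      · exact Or.inr h
    have hb1 : ∀ A x, (undGP A).bdy ((y.cel e).app A x) = (d.app A x).push (X.p0.at A) := by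
      intro A w
      refine Bd.ext' fun f hf ε => ?_
      have h4 := (hd A w f hf ε).1
      rw [y.natF] at h4
      exact h4.symm
    have hb2 : ∀ A x, (undGP (b.B.obj A)).bdy ((y'.cel e).app A x) =
        (d.app A x).push (X.p1.at A) := by
      intro A w
      refine Bd.ext' fun f hf ε => ?_
      have h4 := (hd A w f hf ε).2
      rw [y'.natF] at h4
      exact h4.symm
    obtain ⟨κ, h1, h2, h3⟩ := hR e he (W.cel e) hc d (y.cel e) (y'.cel e) hb1 hb2
    exact ⟨κ, h1, fun A w => ⟨h2 A w, h3 A w⟩⟩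

/-- cylinders from `y` to `K(inv q, K(q,y,p), inv p)` -/
theorem exists_rho3 {N : ℕ} (b : BSys C N) (hC : Ctr C) (O : Ops C) (n : ℕ) (X : Pre C b.B)
    (hX : LowP b (n + 1) X) (hR : RProp b (n + 1) X) :
    ∃ ρ : NG (W3 C n) X.P,
      (∀ (A : GlobModel C) (e : ℕ) (w : W3c (undGP A) n e), X.p0.app A e (ρ.app A e w) = w.y) ∧
      ∀ (A : GlobModel C) (e : ℕ) (w : W3c (undGP A) n e),
        X.p1.app A e (ρ.app A e w) = b.e A (kkApp O n A e w) :=
  cohFam b n X hX hR (W3 C n) (W3.y n) ((KK O n).comp b.ηG)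
    (fun A e he w => congrArg (b.e A) (by
      show kkApp O n A e w = _
      rw [kkApp, dif_neg (not_lt.2 he)]; rfl))
    (fun e _ _ => contr_W3 hC n e e (Nat.le_succ e))

/-- cylinders from `y` to `L(L(y,p), inv p)` -/
theorem exists_rho2 {N : ℕ} (b : BSys C N) (hC : Ctr C) (O : Ops C) (n : ℕ) (X : Pre C b.B)
    (hX : LowP b (n + 1) X) (hR : RProp b (n + 1) X) :
    ∃ ρ : NG (W2 C n) X.P,
      (∀ (A : GlobModel C) (e : ℕ) (w : W2c (undGP A) n e), X.p0.app A e (ρ.app A e w) = w.y) ∧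
      ∀ (A : GlobModel C) (e : ℕ) (w : W2c (undGP A) n e),
        X.p1.app A e (ρ.app A e w) = b.e A (llApp O n A e w) :=
  cohFam b n X hX hR (W2 C n) (W2.y n) ((LL O n).comp b.ηG)
    (fun A e he w => congrArg (b.e A) (by
      show llApp O n A e w = _
      rw [llApp, dif_neg (not_lt.2 he)]; rfl))
    (fun e _ _ => contr_W2 hC n e e (Nat.le_succ e))

/-- cylinders from `p` to `inv inv p` -/
theorem exists_rhop {N : ℕ} (b : BSys C N) (hC : Ctr C) (O : Ops C) (n : ℕ) (X : Pre C b.B)
    (hX : LowP b (n + 1) X) (hR : RProp b (n + 1) X) :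
    ∃ ρ : NT ((und C).cel (n + 1)) (X.P.cel (n + 1)),
      (∀ (A : GlobModel C) (p : (undGP A).c (n + 1)), X.p0.app A (n + 1) (ρ.app A p) = p) ∧
      ∀ (A : GlobModel C) (p : (undGP A).c (n + 1)),
        X.p1.app A (n + 1) (ρ.app A p) = b.e A (O.iv A (O.iv A p)) := by
  have hinv : ∀ f, f < n + 1 → ∃ t : NT ((und C).cel f) (X.P.cel f),
      ∀ A x, X.p0.app A f (t.app A x) = x := fun f hf => by
    obtain ⟨t, ht, -⟩ := NT.exists_inv (X.p0.cel f) (fun A => (hX f hf A).1)
    exact ⟨t, ht⟩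
  choose t ht using hinv
  -- the boundary
  have hglob : ∀ (A : GlobModel C) (p : (undGP A).c (n + 1)) (g f : ℕ) (h : g < f)
      (h' : f < n + 1) (ε ε' : Bool),
      (X.P.gp A).fc (pole h ε) ((t f h').app A ((undGP A).fc (pole h' ε') p)) =
        (t g (h.trans h')).app A ((undGP A).fc (pole (h.trans h') ε) p) := by
    intro A p g f h h' ε ε'
    apply (hX g (h.trans h') A).1.1
    rw [ht g (h.trans h') A]
    have h2 := X.p0.natF A (pole h ε) ((t f h').app A ((undGP A).fc (pole h' ε') p))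
    rw [ht f h' A] at h2
    exact h2.trans (fc_globular (undGP A) h h' ε ε' p)
  let d : NT ((und C).cel (n + 1)) (X.P.bd (n + 1)) :=
    { app := fun A p =>
        { v := fun {f} hf ε => (t f hf).app A ((undGP A).fc (pole hf ε) p)
          glob := fun {g f} h h' ε ε' => hglob A p g f h h' ε ε' }
      nat := fun {A A'} g p => Bd.ext' fun f hf ε => by
        show (t f hf).app A' ((undGP A').fc (pole hf ε) (((und C).map g).app (n + 1) p)) =
          (X.P.map g).app f ((t f hf).app A ((undGP A).fc (pole hf ε) p))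
        have h1 : (undGP A').fc (pole hf ε) (((und C).map g).app (n + 1) p) =
            ((und C).map g).app f ((undGP A).fc (pole hf ε) p) :=
          (((und C).map g).nat (pole hf ε) p).symm
        rw [h1]
        exact (t f hf).nat g _ }
  have hbd : ∀ (A : GlobModel C) (p : (undGP A).c (n + 1)),
      (undGP A).bdy (O.iv A (O.iv A p)) = (undGP A).bdy p := by
    intro A p
    refine Bd.ext_succ fun ε => ?_
    cases ε
    · show (undGP A).fc (fac n false) (O.iv A (O.iv A p)) = (undGP A).fc (fac n false) p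
      rw [O.fc_iv_s, O.fc_iv_t]
    · show (undGP A).fc (fac n true) (O.iv A (O.iv A p)) = (undGP A).fc (fac n true) p
      rw [O.fc_iv_t, O.fc_iv_s]
  have hb1 : ∀ (A : GlobModel C) (p : (undGP A).c (n + 1)),
      (undGP A).bdy p = (d.app A p).push (X.p0.at A) := by
    intro A p
    refine Bd.ext' fun f hf ε => ?_
    exact (ht f hf A ((undGP A).fc (pole hf ε) p)).symm
  have hb2 : ∀ (A : GlobModel C) (p : (undGP A).c (n + 1)),
      (undGP (b.B.obj A)).bdy (b.e A (O.iv A (O.iv A p))) =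
        (d.app A p).push (X.p1.at A) := by
    intro A p
    refine Bd.ext' fun f hf ε => ?_
    show (undGP (b.B.obj A)).fc (pole hf ε) (b.e A (O.iv A (O.iv A p))) =
      X.p1.app A f ((t f hf).app A ((undGP A).fc (pole hf ε) p))
    have h4 : (undGP A).fc (pole hf ε) (O.iv A (O.iv A p)) = (undGP A).fc (pole hf ε) p :=
      congrArg (fun B : Bd (undGP A) (n + 1) => B.v hf ε) (hbd A p)
    have h5 : (undGP (b.B.obj A)).fc (pole hf ε) (b.e A (O.iv A (O.iv A p))) =
        b.e A ((undGP A).fc (pole hf ε) (O.iv A (O.iv A p))) :=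
      (((und C).map (b.η A)).nat (pole hf ε) (O.iv A (O.iv A p))).symm
    have h6 := (hX f hf A).2 ((t f hf).app A ((undGP A).fc (pole hf ε) p))
    rw [ht f hf A] at h6
    rw [h5, h4, h6]
  obtain ⟨κ, -, h2, h3⟩ := hR (n + 1) le_rfl ((und C).cel (n + 1))
    (Or.inl (contr_cel hC (n + 1) (n + 1) (Nat.le_succ _))) d (NT.id _)
    (((O.inv n).comp (O.inv n)).comp (b.ηG.cel (n + 1))) hb1 hb2
  exact ⟨κ, h2, h3⟩

end Crest.Agent.R248
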