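import Crest.Agent.R248.NerveB

/-!
# R248 piece CONTR: functors all of whose natural spheres are fillable

* `contr_ev`: Yoneda. A natural family `s : ev G → cells of dim i` is `x ↦ act (s₀) x` with
  `s₀ = s (1_G) ∈ C(D_i, G)`, evaluated at the model `freeOn C G` (`A.functor` is a presheaf; a map
  `freeOn C G ⟶ A` is `yonedaEquiv.symm x`). The pair `(s₀, t₀)` is an admissible pair, its filler acts.
* `contr_retract`: compose with the retraction.
-/

set_option autoImplicit false
open CategoryTheory CategoryTheory.Limits Opposite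
open Crest.GeometryTopology.Coherator Crest.GeometryTopology.Coherator.GlobTheory

universe u

namespace Crest.Agent.R248

variable {C : GlobTheory.{u}}

/-- natural parallel pairs of `i`-cells over `F` have natural fillers -/
def Contr (F : Fam C) (i : ℕ) : Prop :=
  ∀ s t : NT F ((und C).cel i), (∀ A x, (undGP A).Par (s.app A x) (t.app A x)) →
    ∃ γ : NT F ((und C).cel (i + 1)),
      (∀ A x, (undGP A).fc (fac i false) (γ.app A x) = s.app A x) ∧
      (∀ A x, (undGP A).fc (fac i true) (γ.app A x) = t.app A x)

/-- `C` is contractible -/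
def Ctr (C : GlobTheory.{u}) : Prop := ∀ p : C.Admissible, ∃ z, IsFillerAlong (TheoryMap.id C) p z

/-- the element `1_G` of the free model -/
private def oneF (C : GlobTheory.{u}) (G : Shape) : (ev C G).obj (GlobModel.freeOn C G) :=
  C.one G

/-- the map out of the free model classified by a tuple -/
private noncomputable def cls {G : Shape} (A : GlobModel C) (x : (ev C G).obj A) :
    GlobModel.freeOn C G ⟶ A :=
  show yoneda.obj (⟨G⟩ : C.Ob) ⟶ A.functor from yonedaEquiv.symm x

private theorem cls_one {G : Shape} (A : GlobModel C) (x : (ev C G).obj A) :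
    (ev C G).map (cls A x) (oneF C G) = x := by
  show (yonedaEquiv (F := A.functor) (X := (⟨G⟩ : C.Ob)) (yonedaEquiv.symm x)) = x
  exact Equiv.apply_symm_apply _ _

private theorem cls_app {G : Shape} (A : GlobModel C) (x : (ev C G).obj A) {S : Shape}
    (o : C.arr S G) :
    (cls A x).app (op (⟨S⟩ : C.Ob)) o = A.act o x := by
  rfl

private theorem act_seq' (A : GlobModel C) {R S T : Shape} (o : C.arr R S) (o' : C.arr S T)
    (x : A.functor.obj (op (⟨T⟩ : C.Ob))) :
    A.act (C.seq o o') x = A.act o (A.act o' x) := by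
  have h := A.functor.map_comp
    (Quiver.Hom.op (X := (⟨S⟩ : C.Ob)) (Y := (⟨T⟩ : C.Ob)) o')
    (Quiver.Hom.op (X := (⟨R⟩ : C.Ob)) (Y := (⟨S⟩ : C.Ob)) o)
  exact types_congr_hom h x

private theorem fc_false (A : GlobModel C) (i : ℕ) (x : (undGP A).c (i + 1)) :
    (undGP A).fc (fac i false) x = A.act (C.ofShape (Shape.σ i)) x := rfl

private theorem fc_true (A : GlobModel C) (i : ℕ) (x : (undGP A).c (i + 1)) :
    (undGP A).fc (fac i true) x = A.act (C.ofShape (Shape.τ i)) x := rfl

private theorem nt_eq {G : Shape} {i : ℕ} (s : NT (ev C G) ((und C).cel i)) (A : GlobModel C)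
    (x : (ev C G).obj A) :
    s.app A x = A.act (show C.arr (Shape.globe i) G from
      s.app (GlobModel.freeOn C G) (oneF C G)) x := by
  have h := s.nat (cls A x) (oneF C G)
  rw [cls_one] at h
  rw [h]
  rfl

theorem contr_ev (hC : Ctr C) (G : Shape) (i : ℕ) (h : G.dim ≤ i + 1) : Contr (ev C G) i := by
  intro s t hst
  have hpar : C.OpsParallel i
      (show C.arr (Shape.globe i) G from s.app (GlobModel.freeOn C G) (oneF C G))
      (show C.arr (Shape.globe i) G from t.app (GlobModel.freeOn C G) (oneF C G)) := by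
    cases i with
    | zero => trivial
    | succ k =>
      exact ⟨hst (GlobModel.freeOn C G) (oneF C G) k (Nat.lt_succ_self k) false,
        hst (GlobModel.freeOn C G) (oneF C G) k (Nat.lt_succ_self k) true⟩
  obtain ⟨z, hz1, hz2⟩ := hC ⟨i, G, h, _, _, hpar⟩
  refine ⟨⟨(actN z).app, (actN z).nat⟩, ?_, ?_⟩
  · intro A x
    rw [nt_eq s A x]
    show A.act (C.ofShape (Shape.σ i)) (A.act z x) = _
    rw [← act_seq']
    exact congrArg (fun o => A.act o x) hz1
  · intro A x
    rw [nt_eq t A x]
    show A.act (C.ofShape (Shape.τ i)) (A.act z x) = _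
    rw [← act_seq']
    exact congrArg (fun o => A.act o x) hz2

theorem contr_retract {F G : Fam C} (a : NT F G) (b : NT G F)
    (h : ∀ A x, b.app A (a.app A x) = x) (i : ℕ) (hG : Contr G i) : Contr F i := by
  intro s t hst
  obtain ⟨γ, h1, h2⟩ := hG (b.comp s) (b.comp t) (fun A x => hst A (b.app A x))
  refine ⟨a.comp γ, ?_, ?_⟩
  · intro A x
    have := h1 A (a.app A x)
    change _ = s.app A (b.app A (a.app A x)) at this
    rw [h] at this
    exact this
  · intro A x
    have := h2 A (a.app A x)
    change _ = t.app A (b.app A (a.app A x)) at this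
    rw [h] at this
    exact this

end Crest.Agent.R248
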