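import Crest.Agent.R248.Contr

/-!
# R248 piece CONTRW: the arities used for whiskering

`W3 n`: a cell `y` together with (if its dimension is `> n`) `(n+1)`-cells `q` ending in its `n`-source and `p`
starting at its `n`-target. For `e > n`: `(W3 n)_e = ev (D_{n+1} ∨_n D_e ∨_n D_{n+1})`, height `e`. For `e ≤ n` it is
`ev (D_e)`. `W2 n` : only `p`; `V2 n` : pairs of composable `(n+1)`-cells. Use `contr_retract` with the gluing of
diagrams (`Dg.glue`, `nrv`), all natural by `dg_glue_ext`.
-/

set_option autoImplicit false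
open CategoryTheory CategoryTheory.Limits Opposite
open Crest.GeometryTopology.Coherator Crest.GeometryTopology.Coherator.GlobTheory

universe u

namespace Crest.Agent.R248

variable (C : GlobTheory.{u})

/-- cells of `W3` -/
structure W3c (Q : GP.{u}) (n e : ℕ) where
  y : Q.c e
  q : n < e → Q.c (n + 1)
  p : n < e → Q.c (n + 1)
  hq : ∀ h : n < e, Q.fc (fac n true) (q h) = Q.fc (pole h false) y
  hp : ∀ h : n < e, Q.fc (pole h true) y = Q.fc (fac n false) (p h)

theorem W3c.ext' {Q : GP.{u}} {n e : ℕ} {x x' : W3c Q n e} (h1 : x.y = x'.y)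
    (h2 : ∀ h, x.q h = x'.q h) (h3 : ∀ h, x.p h = x'.p h) : x = x' := by
  cases x; cases x'
  obtain rfl : _ = _ := h1
  obtain rfl : _ = _ := funext h2
  obtain rfl : _ = _ := funext h3
  rfl

/-- cells of `W2` -/
structure W2c (Q : GP.{u}) (n e : ℕ) where
  y : Q.c e
  p : n < e → Q.c (n + 1)
  hp : ∀ h : n < e, Q.fc (pole h true) y = Q.fc (fac n false) (p h)

theorem W2c.ext' {Q : GP.{u}} {n e : ℕ} {x x' : W2c Q n e} (h1 : x.y = x'.y)
    (h3 : ∀ h, x.p h = x'.p h) : x = x' := by
  cases x; cases x'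
  obtain rfl : _ = _ := h1
  obtain rfl : _ = _ := funext h3
  rfl

/-- whiskering data on both sides -/
noncomputable def W3 (n : ℕ) : GPF C where
  gp A :=
    { c := W3c (undGP A) n
      fc := fun {f e} a x =>
        { y := (undGP A).fc a x.y
          q := fun h => x.q (h.trans_le (ar_le a))
          p := fun h => x.p (h.trans_le (ar_le a))
          hq := fun h => by
            rw [x.hq, (undGP A).fc_fc, pole_sq h false a (h.trans_le (ar_le a))]
          hp := fun h => by
            rw [(undGP A).fc_fc, pole_sq h true a (h.trans_le (ar_le a)), x.hp] }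
      fc_ide := fun x => W3c.ext' ((undGP A).fc_ide _) (fun _ => rfl) (fun _ => rfl)
      fc_fc := fun a b x => W3c.ext' ((undGP A).fc_fc a b _) (fun _ => rfl) (fun _ => rfl) }
  map {A A'} g :=
    { app := fun e x =>
        { y := ((und C).map g).app e x.y
          q := fun h => ((und C).map g).app _ (x.q h)
          p := fun h => ((und C).map g).app _ (x.p h)
          hq := fun h => ((und C).map g).face_eq _ _ (x.hq h)
          hp := fun h => ((und C).map g).face_eq _ _ (x.hp h) }
      nat := fun a x => W3c.ext' (((und C).map g).nat a _) (fun _ => rfl) (fun _ => rfl) }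
  map_id A e x := W3c.ext' ((und C).map_id A e _) (fun _ => rfl) (fun _ => rfl)
  map_comp f g e x := W3c.ext' ((und C).map_comp f g e _) (fun _ => rfl) (fun _ => rfl)

/-- whiskering data on the right -/
noncomputable def W2 (n : ℕ) : GPF C where
  gp A :=
    { c := W2c (undGP A) n
      fc := fun {f e} a x =>
        { y := (undGP A).fc a x.y
          p := fun h => x.p (h.trans_le (ar_le a))
          hp := fun h => by
            rw [(undGP A).fc_fc, pole_sq h true a (h.trans_le (ar_le a)), x.hp] }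
      fc_ide := fun x => W2c.ext' ((undGP A).fc_ide _) (fun _ => rfl)
      fc_fc := fun a b x => W2c.ext' ((undGP A).fc_fc a b _) (fun _ => rfl) }
  map {A A'} g :=
    { app := fun e x =>
        { y := ((und C).map g).app e x.y
          p := fun h => ((und C).map g).app _ (x.p h)
          hp := fun h => ((und C).map g).face_eq _ _ (x.hp h) }
      nat := fun a x => W2c.ext' (((und C).map g).nat a _) (fun _ => rfl) }
  map_id A e x := W2c.ext' ((und C).map_id A e _) (fun _ => rfl)
  map_comp f g e x := W2c.ext' ((und C).map_comp f g e _) (fun _ => rfl)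

/-- composable pairs of `(n+1)`-cells -/
noncomputable def V2 (n : ℕ) : Fam C where
  obj A := { x : (undGP A).c (n + 1) × (undGP A).c (n + 1) //
    (undGP A).fc (fac n true) x.1 = (undGP A).fc (fac n false) x.2 }
  map {A A'} g x := ⟨(((und C).map g).app _ x.1.1, ((und C).map g).app _ x.1.2),
    ((und C).map g).face_eq _ _ x.2⟩
  map_id A x := rfl
  map_comp f g x := rfl

variable {C}

namespace CWaux

theorem contr_dg (hC : Ctr C) (G : Shape) (i : ℕ) (h : G.dim ≤ i + 1) :
    Contr ((und C).dg G) i :=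
  contr_retract (nrvInvN G) (nrvN G) (fun A x => nrv_nrvInv A G x) i (contr_ev hC G i h)

theorem ofCell_push {P Q : GP.{u}} (φ : GPH P Q) {n : ℕ} (x : P.c n) :
    Dg.ofCell (φ.app n x) = (Dg.ofCell x).push φ :=
  Dg.ext (funext fun _ => funext fun _ => (φ.nat _ _).symm)

theorem last_ofCell {Q : GP.{u}} {n : ℕ} (x : Q.c n) :
    (Dg.ofCell x : Dg Q (Shape.globe n)).last = x := by
  rw [Dg.last_globe, Dg.cell_ofCell]

theorem glue_congr {Q : GP.{u}} (S : Shape) (b h : ℕ) (hb : b < S.last) (hh : b < h)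
    {x x' : Dg Q S} {y y' : Q.c h} (hxy : Q.fc (pole hb true) x.last = Q.fc (pole hh false) y)
    (hxy' : Q.fc (pole hb true) x'.last = Q.fc (pole hh false) y') (h1 : x = x') (h2 : y = y') :
    Dg.glue S b h hb hh x y hxy = Dg.glue S b h hb hh x' y' hxy' := by
  subst h1
  subst h2
  rfl

theorem glue_push {P Q : GP.{u}} (φ : GPH P Q) (S : Shape) (b h : ℕ) (hb : b < S.last)
    (hh : b < h) (x : Dg P S) (y : P.c h)
    (hxy : P.fc (pole hb true) x.last = P.fc (pole hh false) y) {x' : Dg Q S} {y' : Q.c h}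
    (hxy' : Q.fc (pole hb true) x'.last = Q.fc (pole hh false) y') (h1 : x' = x.push φ)
    (h2 : y' = φ.app h y) :
    Dg.glue S b h hb hh x' y' hxy' = (Dg.glue S b h hb hh x y hxy).push φ := by
  apply dg_glue_ext' S b h hb hh
  · rw [Dg.glue_left, Dg.push_res, Dg.glue_left, h1]
  · rw [Dg.glue_right, Dg.push_res, Dg.cell_push, Dg.glue_right, h2]

/-! ### `V2` -/

/-- shape of composable pairs -/
def G2 (n : ℕ) : Shape :=
  (Shape.globe (n + 1)).glue n (n + 1) (Nat.lt_succ_self n) (Nat.lt_succ_self n)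

noncomputable def v2to (Q : GP.{u}) (n : ℕ) (a b : Q.c (n + 1))
    (h : Q.fc (fac n true) a = Q.fc (fac n false) b) : Dg Q (G2 n) :=
  Dg.glue (Shape.globe (n + 1)) n (n + 1) (Nat.lt_succ_self n) (Nat.lt_succ_self n)
    (Dg.ofCell a) b (by rw [last_ofCell]; exact h)

/-! ### `W2` -/

/-- shape of `W2` -/
def GW2 (n e : ℕ) (h : n < e) : Shape :=
  (Shape.globe e).glue n (n + 1) h (Nat.lt_succ_self n)

noncomputable def w2to {Q : GP.{u}} {n e : ℕ} (h : n < e) (x : W2c Q n e) : Dg Q (GW2 n e h) :=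
  Dg.glue (Shape.globe e) n (n + 1) h (Nat.lt_succ_self n)
    (Dg.ofCell x.y) (x.p h) (by rw [last_ofCell]; exact x.hp h)

noncomputable def w2from {Q : GP.{u}} {n e : ℕ} (h : n < e) (z : Dg Q (GW2 n e h)) :
    W2c Q n e where
  y := (z.res ((Shape.globe e).inLeft n (n + 1) h (Nat.lt_succ_self n))).cell
  p := fun _ => (z.res ((Shape.globe e).inRight n (n + 1) h (Nat.lt_succ_self n))).cell
  hp := fun _ => by
    have := Dg.glue_cond (Shape.globe e) n (n + 1) h (Nat.lt_succ_self n) z
    rw [Dg.last_globe] at this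
    exact this

theorem w2_from_to {Q : GP.{u}} {n e : ℕ} (h : n < e) (x : W2c Q n e) :
    w2from h (w2to h x) = x := by
  refine W2c.ext' ?_ (fun h' => ?_)
  · exact (congrArg Dg.cell (Dg.glue_left (Shape.globe e) n (n + 1) h (Nat.lt_succ_self n)
      (Dg.ofCell x.y) (x.p h) _)).trans (Dg.cell_ofCell _)
  · exact Dg.glue_right (Shape.globe e) n (n + 1) h (Nat.lt_succ_self n)
      (Dg.ofCell x.y) (x.p h) _

/-! ### `W3` -/

/-- first part of the shape of `W3` -/
def GW1 (n e : ℕ) (h : n < e) : Shape :=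
  (Shape.globe (n + 1)).glue n e (Nat.lt_succ_self n) h

/-- shape of `W3` -/
def GW3 (n e : ℕ) (h : n < e) : Shape :=
  (GW1 n e h).glue n (n + 1) h (Nat.lt_succ_self n)

noncomputable def w3to1 {Q : GP.{u}} {n e : ℕ} (h : n < e) (x : W3c Q n e) : Dg Q (GW1 n e h) :=
  Dg.glue (Shape.globe (n + 1)) n e (Nat.lt_succ_self n) h
    (Dg.ofCell (x.q h)) x.y (by rw [last_ofCell]; exact x.hq h)

theorem w3to1_last {Q : GP.{u}} {n e : ℕ} (h : n < e) (x : W3c Q n e) :
    (w3to1 h x).last = x.y := Dg.glue_last _ _ _ _ _ _ _ _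

noncomputable def w3to {Q : GP.{u}} {n e : ℕ} (h : n < e) (x : W3c Q n e) : Dg Q (GW3 n e h) :=
  Dg.glue (GW1 n e h) n (n + 1) h (Nat.lt_succ_self n)
    (w3to1 h x) (x.p h) (by rw [w3to1_last]; exact x.hp h)

noncomputable def w3from {Q : GP.{u}} {n e : ℕ} (h : n < e) (z : Dg Q (GW3 n e h)) :
    W3c Q n e where
  y := ((z.res ((GW1 n e h).inLeft n (n + 1) h (Nat.lt_succ_self n))).res
    ((Shape.globe (n + 1)).inRight n e (Nat.lt_succ_self n) h)).cell
  q := fun _ => ((z.res ((GW1 n e h).inLeft n (n + 1) h (Nat.lt_succ_self n))).res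
    ((Shape.globe (n + 1)).inLeft n e (Nat.lt_succ_self n) h)).cell
  p := fun _ => (z.res ((GW1 n e h).inRight n (n + 1) h (Nat.lt_succ_self n))).cell
  hq := fun _ => by
    have := Dg.glue_cond (Shape.globe (n + 1)) n e (Nat.lt_succ_self n) h
      (z.res ((GW1 n e h).inLeft n (n + 1) h (Nat.lt_succ_self n)))
    rw [Dg.last_globe] at this
    exact this
  hp := fun _ => by
    have := Dg.glue_cond (GW1 n e h) n (n + 1) h (Nat.lt_succ_self n) z
    rw [show (z.res ((GW1 n e h).inLeft n (n + 1) h (Nat.lt_succ_self n))).last =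
      ((z.res ((GW1 n e h).inLeft n (n + 1) h (Nat.lt_succ_self n))).res
        ((Shape.globe (n + 1)).inRight n e (Nat.lt_succ_self n) h)).cell from
      Dg.last_glue (Shape.globe (n + 1)) n e (Nat.lt_succ_self n) h _] at this
    exact this

theorem w3_from_to {Q : GP.{u}} {n e : ℕ} (h : n < e) (x : W3c Q n e) :
    w3from h (w3to h x) = x := by
  have h1 : (w3to h x).res ((GW1 n e h).inLeft n (n + 1) h (Nat.lt_succ_self n)) = w3to1 h x :=
    Dg.glue_left (GW1 n e h) n (n + 1) h (Nat.lt_succ_self n) (w3to1 h x) (x.p h) _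
  refine W3c.ext' ?_ (fun h' => ?_) (fun h' => ?_)
  · exact (congrArg (fun z => (Dg.res _ z).cell) h1).trans
      (Dg.glue_right (Shape.globe (n + 1)) n e (Nat.lt_succ_self n) h (Dg.ofCell (x.q h)) x.y _)
  · exact (congrArg (fun z => (Dg.res _ z).cell) h1).trans
      ((congrArg Dg.cell (Dg.glue_left (Shape.globe (n + 1)) n e (Nat.lt_succ_self n) h
        (Dg.ofCell (x.q h)) x.y _)).trans (Dg.cell_ofCell _))
  · exact Dg.glue_right (GW1 n e h) n (n + 1) h (Nat.lt_succ_self n) (w3to1 h x) (x.p h) _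

end CWaux

open CWaux

theorem contr_cel (hC : Ctr C) (e i : ℕ) (hi : e ≤ i + 1) : Contr ((und C).cel e) i := by
  let a : NT ((und C).cel e) ((und C).dg (Shape.globe e)) :=
    ⟨fun A (x : (undGP A).c e) => Dg.ofCell x, fun f x => ofCell_push ((und C).map f) x⟩
  let b : NT ((und C).dg (Shape.globe e)) ((und C).cel e) :=
    ⟨fun A (x : Dg (undGP A) (Shape.globe e)) => x.cell,
      fun f x => Dg.cell_push ((und C).map f) x⟩
  exact contr_retract a b (fun A (x : (undGP A).c e) => Dg.cell_ofCell x) i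
    (contr_dg hC (Shape.globe e) i hi)

theorem contr_W3 (hC : Ctr C) (n e i : ℕ) (hi : e ≤ i + 1) : Contr ((W3 C n).cel e) i := by
  by_cases h : n < e
  · let a : NT ((W3 C n).cel e) ((und C).dg (GW3 n e h)) :=
      ⟨fun A (x : W3c (undGP A) n e) => w3to h x, fun {A A'} f (x : W3c (undGP A) n e) => by
        refine glue_push ((und C).map f) _ _ _ _ _ _ _ _ _ ?_ rfl
        exact glue_push ((und C).map f) _ _ _ _ _ _ _ _ _ (ofCell_push ((und C).map f) _) rfl⟩
    let b : NT ((und C).dg (GW3 n e h)) ((W3 C n).cel e) :=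
      ⟨fun A (z : Dg (undGP A) (GW3 n e h)) => w3from h z,
        fun {A A'} f (z : Dg (undGP A) (GW3 n e h)) => ?_⟩
    · exact contr_retract a b (fun A (x : W3c (undGP A) n e) => w3_from_to h x) i
        (contr_dg hC (GW3 n e h) i (show max (max (n + 1) e) (n + 1) ≤ i + 1 by omega))
    · refine W3c.ext' ?_ (fun h' => ?_) (fun h' => ?_)
      · show (Dg.res _ (Dg.res _ (Dg.push ((und C).map f) z))).cell = ((und C).map f).app _ _
        rw [Dg.push_res, Dg.push_res, Dg.cell_push]
        rfl
      · show (Dg.res _ (Dg.res _ (Dg.push ((und C).map f) z))).cell = ((und C).map f).app _ _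
        rw [Dg.push_res, Dg.push_res, Dg.cell_push]
        rfl
      · show (Dg.res _ (Dg.push ((und C).map f) z)).cell = ((und C).map f).app _ _
        rw [Dg.push_res, Dg.cell_push]
        rfl
  · let a : NT ((W3 C n).cel e) ((und C).cel e) :=
      ⟨fun A (x : W3c (undGP A) n e) => x.y, fun {A A'} f x => rfl⟩
    let b : NT ((und C).cel e) ((W3 C n).cel e) :=
      ⟨fun A (y : (undGP A).c e) => (⟨y, fun h' => (h h').elim, fun h' => (h h').elim,
        fun h' => (h h').elim, fun h' => (h h').elim⟩ : W3c (undGP A) n e), fun {A A'} f x =>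
        W3c.ext' rfl (fun h' => (h h').elim) (fun h' => (h h').elim)⟩
    exact contr_retract a b (fun A (x : W3c (undGP A) n e) =>
      W3c.ext' rfl (fun h' => (h h').elim) (fun h' => (h h').elim)) i (contr_cel hC e i hi)

theorem contr_W2 (hC : Ctr C) (n e i : ℕ) (hi : e ≤ i + 1) : Contr ((W2 C n).cel e) i := by
  by_cases h : n < e
  · let a : NT ((W2 C n).cel e) ((und C).dg (GW2 n e h)) :=
      ⟨fun A (x : W2c (undGP A) n e) => w2to h x, fun {A A'} f (x : W2c (undGP A) n e) => by
        exact glue_push ((und C).map f) _ _ _ _ _ _ _ _ _ (ofCell_push ((und C).map f) _) rfl⟩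
    let b : NT ((und C).dg (GW2 n e h)) ((W2 C n).cel e) :=
      ⟨fun A (z : Dg (undGP A) (GW2 n e h)) => w2from h z,
        fun {A A'} f (z : Dg (undGP A) (GW2 n e h)) => ?_⟩
    · exact contr_retract a b (fun A (x : W2c (undGP A) n e) => w2_from_to h x) i
        (contr_dg hC (GW2 n e h) i (show max e (n + 1) ≤ i + 1 by omega))
    · refine W2c.ext' ?_ (fun h' => ?_)
      · show (Dg.res _ (Dg.push ((und C).map f) z)).cell = ((und C).map f).app _ _
        rw [Dg.push_res, Dg.cell_push]
        rfl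
      · show (Dg.res _ (Dg.push ((und C).map f) z)).cell = ((und C).map f).app _ _
        rw [Dg.push_res, Dg.cell_push]
        rfl
  · let a : NT ((W2 C n).cel e) ((und C).cel e) :=
      ⟨fun A (x : W2c (undGP A) n e) => x.y, fun {A A'} f x => rfl⟩
    let b : NT ((und C).cel e) ((W2 C n).cel e) :=
      ⟨fun A (y : (undGP A).c e) => (⟨y, fun h' => (h h').elim,
        fun h' => (h h').elim⟩ : W2c (undGP A) n e), fun {A A'} f x =>
        W2c.ext' rfl (fun h' => (h h').elim)⟩
    exact contr_retract a b (fun A (x : W2c (undGP A) n e) =>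
      W2c.ext' rfl (fun h' => (h h').elim)) i (contr_cel hC e i hi)

theorem contr_V2 (hC : Ctr C) (n i : ℕ) (hi : n ≤ i) : Contr (V2 C n) i := by
  let a : NT (V2 C n) ((und C).dg (G2 n)) :=
    ⟨fun A (x : { x : (undGP A).c (n + 1) × (undGP A).c (n + 1) //
        (undGP A).fc (fac n true) x.1 = (undGP A).fc (fac n false) x.2 }) =>
        v2to (undGP A) n x.1.1 x.1.2 x.2, fun {A A'} f x => by
      exact glue_push ((und C).map f) _ _ _ _ _ _ _ _ _ (ofCell_push ((und C).map f) _) rfl⟩
  let b : NT ((und C).dg (G2 n)) (V2 C n) :=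
    ⟨fun A (z : Dg (undGP A) (G2 n)) =>
      (⟨((z.res ((Shape.globe (n + 1)).inLeft n (n + 1) (Nat.lt_succ_self n)
        (Nat.lt_succ_self n))).cell,
      (z.res ((Shape.globe (n + 1)).inRight n (n + 1) (Nat.lt_succ_self n)
        (Nat.lt_succ_self n))).cell), by
        have := Dg.glue_cond (Shape.globe (n + 1)) n (n + 1) (Nat.lt_succ_self n)
          (Nat.lt_succ_self n) z
        rw [Dg.last_globe] at this
        exact this⟩ : { x : (undGP A).c (n + 1) × (undGP A).c (n + 1) //
        (undGP A).fc (fac n true) x.1 = (undGP A).fc (fac n false) x.2 }), fun {A A'} f z => ?_⟩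
  · refine contr_retract a b (fun A x => ?_) i
      (contr_dg hC (G2 n) i (show max (n + 1) (n + 1) ≤ i + 1 by omega))
    refine Subtype.ext (Prod.ext ?_ ?_)
    · exact (congrArg Dg.cell (Dg.glue_left (Shape.globe (n + 1)) n (n + 1)
        (Nat.lt_succ_self n) (Nat.lt_succ_self n) (Dg.ofCell x.1.1) x.1.2 _)).trans
        (Dg.cell_ofCell _)
    · exact Dg.glue_right (Shape.globe (n + 1)) n (n + 1)
        (Nat.lt_succ_self n) (Nat.lt_succ_self n) (Dg.ofCell x.1.1) x.1.2 _
  · refine Subtype.ext (Prod.ext ?_ ?_)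
    · show (Dg.res _ (Dg.push ((und C).map f) z)).cell = ((und C).map f).app _ _
      rw [Dg.push_res, Dg.cell_push]
      rfl
    · show (Dg.res _ (Dg.push ((und C).map f) z)).cell = ((und C).map f).app _ _
      rw [Dg.push_res, Dg.cell_push]
      rfl

end Crest.Agent.R248
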