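import Crest.Agent.R248.RTDefs

/-!
# R248 piece RTSMALL: a large theory over `C` with the filler lifting property has a small subtheory with that property

Terms: `inductive Tm : Shape → Shape → Type u` with constructors
`shape (g : S ⟶ T)`, `seq : Tm R S → Tm S T → Tm R T`,
`glue (S b h hb hh T) : Tm S T → Tm (Shape.globe h) T → Tm (S.glue b h hb hh) T`,
`fill (i : ℕ) (T : Shape) (o : C.arr (Shape.globe (i+1)) T) : Tm (Shape.globe i) T → Tm (Shape.globe i) T → Tm (Shape.globe (i+1)) T`
(the index `C` as a parameter). Evaluation `ev : Tm S T → Option (X.D.arr S T)` by structural recursion: `shape g ↦ D.ofShape g`,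
`seq ↦ D.seq`, `glue ↦` the `desc` of `X.D.respectsSums` if the two parts agree on the hinge (`dite`, else `none`), `fill ↦` a
chosen filler (`Classical.choose (X.fill ..)`) if the pair is admissible (height and parallel) and `o` fills its
image, else `none`. `E.arr S T := Shrink.{u} {x : X.D.arr S T // ∃ t, ev t = some x}` (`Small.{u}`: image of a subtype of
`Tm S T : Type u`, `small_of_surjective`). It is closed under `one = ofShape 𝟙`, `seq`, `ofShape`, `glue`, `fill`.
`RespectsSums` for `E`: existence by closure under `glue`, uniqueness from `X.D.respectsSums`.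
-/

set_option autoImplicit false
set_option linter.unusedVariables false
open CategoryTheory CategoryTheory.Limits Opposite
open Crest.GeometryTopology.Coherator Crest.GeometryTopology.Coherator.GlobTheory

universe u

namespace Crest.Agent.R248

variable {C : GlobTheory.{u}}

namespace RTS

/-- terms -/
inductive Tm (C : GlobTheory.{u}) : Shape → Shape → Type u
  | shape {S T : Shape} (g : S ⟶ T) : Tm C S T
  | seq {R S T : Shape} (a : Tm C R S) (b : Tm C S T) : Tm C R T
  | glue (S : Shape) (b h : ℕ) (hb : b < S.last) (hh : b < h) (T : Shape)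
      (x : Tm C S T) (y : Tm C (Shape.globe h) T) : Tm C (S.glue b h hb hh) T
  | fill (i : ℕ) (T : Shape) (o : C.arr (Shape.globe (i + 1)) T)
      (x : Tm C (Shape.globe i) T) (y : Tm C (Shape.globe i) T) : Tm C (Shape.globe (i + 1)) T

/-- gluing in a globular theory -/
theorem exists_desc (D : GlobTheory.{u}) (S : Shape) (b h : ℕ) (hb : b < S.last) (hh : b < h)
    (T : Shape) (x : D.arr S T) (y : D.arr (Shape.globe h) T)
    (w : D.seq (D.ofShape (S.hinge hb)) x = D.seq (D.ofShape (Shape.faceMap hh false)) y) :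
    ∃ d : D.arr (S.glue b h hb hh) T, D.seq (D.ofShape (S.inLeft b h hb hh)) d = x ∧
      D.seq (D.ofShape (S.inRight b h hb hh)) d = y := by
  have H := D.respectsSums S b h hb hh
  exact ⟨H.desc (W := (⟨T⟩ : D.Ob)) x y w, H.inl_desc _ _ _, H.inr_desc _ _ _⟩

theorem desc_ext (D : GlobTheory.{u}) (S : Shape) (b h : ℕ) (hb : b < S.last) (hh : b < h)
    (T : Shape) (d d' : D.arr (S.glue b h hb hh) T)
    (h1 : D.seq (D.ofShape (S.inLeft b h hb hh)) d = D.seq (D.ofShape (S.inLeft b h hb hh)) d')
    (h2 : D.seq (D.ofShape (S.inRight b h hb hh)) d =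
      D.seq (D.ofShape (S.inRight b h hb hh)) d') : d = d' := by
  have H := D.respectsSums S b h hb hh
  exact H.hom_ext (W := (⟨T⟩ : D.Ob)) (k := d) (l := d') h1 h2

theorem hinge_comm (S : Shape) (b h : ℕ) (hb : b < S.last) (hh : b < h) :
    S.hinge hb ≫ S.inLeft b h hb hh = Shape.faceMap hh false ≫ S.inRight b h hb hh :=
  (pushout.condition (f := GlobPsh.globeRepFace hb true ≫ S.apex)
    (g := GlobPsh.globeRepFace hh false) :)

/-- evaluation relation of terms, as a function to options -/
noncomputable def ev (X : BigTh C) : {S T : Shape} → Tm C S T → Option (X.D.arr S T)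
  | _, _, .shape g => some (X.D.ofShape g)
  | _, _, .seq a b => (ev X a).bind fun x => (ev X b).map fun y => X.D.seq x y
  | _, _, .glue S b h hb hh T a c => (ev X a).bind fun x => (ev X c).bind fun y =>
      open Classical in
      if w : X.D.seq (X.D.ofShape (S.hinge hb)) x =
          X.D.seq (X.D.ofShape (Shape.faceMap hh false)) y then
        some (Classical.choose (exists_desc X.D S b h hb hh T x y w)) else none
  | _, _, .fill i T o a c => (ev X a).bind fun x => (ev X c).bind fun y =>
      open Classical in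
      if w : ∃ w : X.D.arr (Shape.globe (i + 1)) T, X.p w = o ∧
          X.D.seq (X.D.ofShape (Shape.σ i)) w = x ∧
          X.D.seq (X.D.ofShape (Shape.τ i)) w = y then
        some (Classical.choose w) else none

/-- values of terms -/
def Sm (X : BigTh C) {S T : Shape} (x : X.D.arr S T) : Prop := ∃ t : Tm C S T, ev X t = some x

theorem sm_shape (X : BigTh C) {S T : Shape} (g : S ⟶ T) : Sm X (X.D.ofShape g) :=
  ⟨.shape g, by rw [ev]⟩

theorem sm_one (X : BigTh C) (S : Shape) : Sm X (X.D.one S) := by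
  rw [← X.D.ofShape_id]
  exact sm_shape X _

theorem sm_seq (X : BigTh C) {R S T : Shape} {x : X.D.arr R S} {y : X.D.arr S T} (hx : Sm X x)
    (hy : Sm X y) : Sm X (X.D.seq x y) := by
  obtain ⟨t, ht⟩ := hx
  obtain ⟨s, hs⟩ := hy
  exact ⟨.seq t s, by rw [ev, ht, hs]; rfl⟩

theorem sm_glue (X : BigTh C) (S : Shape) (b h : ℕ) (hb : b < S.last) (hh : b < h) (T : Shape)
    (d : X.D.arr (S.glue b h hb hh) T)
    (h1 : Sm X (X.D.seq (X.D.ofShape (S.inLeft b h hb hh)) d))
    (h2 : Sm X (X.D.seq (X.D.ofShape (S.inRight b h hb hh)) d)) : Sm X d := by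
  obtain ⟨t, ht⟩ := h1
  obtain ⟨s, hs⟩ := h2
  have w : X.D.seq (X.D.ofShape (S.hinge hb)) (X.D.seq (X.D.ofShape (S.inLeft b h hb hh)) d) =
      X.D.seq (X.D.ofShape (Shape.faceMap hh false))
        (X.D.seq (X.D.ofShape (S.inRight b h hb hh)) d) := by
    rw [← X.D.seq_assoc, ← X.D.seq_assoc, ← X.D.ofShape_comp, ← X.D.ofShape_comp, hinge_comm]
  refine ⟨.glue S b h hb hh T t s, ?_⟩
  rw [ev, ht, hs]
  simp only [Option.bind_some]
  rw [dif_pos w]
  have h3 := Classical.choose_spec (exists_desc X.D S b h hb hh T _ _ w)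
  exact congrArg some (desc_ext X.D S b h hb hh T _ _ h3.1 h3.2)

theorem sm_fill (X : BigTh C) (i : ℕ) (T : Shape) (hd : T.dim ≤ i + 1)
    (x y : X.D.arr (Shape.globe i) T) (hx : Sm X x) (hy : Sm X y)
    (hp : X.D.OpsParallel i x y) (o : C.arr (Shape.globe (i + 1)) T)
    (h1 : C.seq (C.ofShape (Shape.σ i)) o = X.p x)
    (h2 : C.seq (C.ofShape (Shape.τ i)) o = X.p y) :
    ∃ w : X.D.arr (Shape.globe (i + 1)) T, Sm X w ∧ X.p w = o ∧
      X.D.seq (X.D.ofShape (Shape.σ i)) w = x ∧ X.D.seq (X.D.ofShape (Shape.τ i)) w = y := by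
  have hw : ∃ w : X.D.arr (Shape.globe (i + 1)) T, X.p w = o ∧
      X.D.seq (X.D.ofShape (Shape.σ i)) w = x ∧ X.D.seq (X.D.ofShape (Shape.τ i)) w = y :=
    X.fill ⟨i, T, hd, x, y, hp⟩ o h1 h2
  obtain ⟨t, ht⟩ := hx
  obtain ⟨s, hs⟩ := hy
  refine ⟨Classical.choose hw, ⟨.fill i T o t s, ?_⟩, Classical.choose_spec hw⟩
  rw [ev, ht, hs]
  simp only [Option.bind_some]
  rw [dif_pos hw]

instance sm_small (X : BigTh C) (S T : Shape) : Small.{u} { x : X.D.arr S T // Sm X x } := by
  refine small_of_injective (f := fun x : { x : X.D.arr S T // Sm X x } =>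
    Classical.choose x.2) ?_
  intro x y hxy
  have h1 := Classical.choose_spec x.2
  have h2 := Classical.choose_spec y.2
  have hxy' : Classical.choose x.2 = Classical.choose y.2 := hxy
  rw [hxy', h2] at h1
  exact Subtype.ext (Option.some.inj h1).symm

/-- operations of the small theory -/
def EA (X : BigTh C) (S T : Shape) : Type u := Shrink.{u} { x : X.D.arr S T // Sm X x }

noncomputable def mk (X : BigTh C) {S T : Shape} (x : X.D.arr S T) (h : Sm X x) : EA X S T :=
  equivShrink _ ⟨x, h⟩

noncomputable def j (X : BigTh C) {S T : Shape} (o : EA X S T) : X.D.arr S T :=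
  ((equivShrink _).symm o).1

theorem j_mk (X : BigTh C) {S T : Shape} (x : X.D.arr S T) (h : Sm X x) :
    j X (mk X x h) = x := by
  rw [j, mk, Equiv.symm_apply_apply]

theorem j_sm (X : BigTh C) {S T : Shape} (o : EA X S T) : Sm X (j X o) :=
  ((equivShrink _).symm o).2

theorem j_inj (X : BigTh C) {S T : Shape} {o o' : EA X S T} (h : j X o = j X o') : o = o' :=
  (equivShrink { x : X.D.arr S T // Sm X x }).symm.injective (Subtype.ext h)

/-- the small pretheory -/
noncomputable def EP (X : BigTh C) : PreTheory.{u} where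
  arr S T := EA X S T
  one S := mk X (X.D.one S) (sm_one X S)
  seq f g := mk X (X.D.seq (j X f) (j X g)) (sm_seq X (j_sm X f) (j_sm X g))
  one_seq f := j_inj X (by rw [j_mk, j_mk, X.D.one_seq])
  seq_one f := j_inj X (by rw [j_mk, j_mk, X.D.seq_one])
  seq_assoc f g h := j_inj X (by rw [j_mk, j_mk, j_mk, j_mk, X.D.seq_assoc])
  ofShape g := mk X (X.D.ofShape g) (sm_shape X g)
  ofShape_id S := j_inj X (by rw [j_mk, j_mk, X.D.ofShape_id])
  ofShape_comp f g := j_inj X (by rw [j_mk, j_mk, j_mk, j_mk, X.D.ofShape_comp])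

theorem EP_one (X : BigTh C) (S : Shape) : j X ((EP X).one S) = X.D.one S := j_mk X _ _

theorem EP_seq (X : BigTh C) {R S T : Shape} (f : (EP X).arr R S) (g : (EP X).arr S T) :
    j X ((EP X).seq f g) = X.D.seq (j X f) (j X g) := j_mk X _ _

theorem EP_shape (X : BigTh C) {S T : Shape} (g : S ⟶ T) :
    j X ((EP X).ofShape g) = X.D.ofShape g := j_mk X _ _

theorem EP_sums (X : BigTh C) : (EP X).RespectsSums := by
  intro S b h hb hh
  have hc : (EP X).incl.map (S.hinge hb) ≫ (EP X).incl.map (S.inLeft b h hb hh) =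
      (EP X).incl.map (Shape.faceMap hh false) ≫ (EP X).incl.map (S.inRight b h hb hh) := by
    rw [← (EP X).incl.map_comp, ← (EP X).incl.map_comp, hinge_comm]
  have hex : ∀ (T : Shape) (x : (EP X).arr S T) (y : (EP X).arr (Shape.globe h) T),
      (EP X).seq ((EP X).ofShape (S.hinge hb)) x =
        (EP X).seq ((EP X).ofShape (Shape.faceMap hh false)) y →
      ∃ d : (EP X).arr (S.glue b h hb hh) T,
        (EP X).seq ((EP X).ofShape (S.inLeft b h hb hh)) d = x ∧
        (EP X).seq ((EP X).ofShape (S.inRight b h hb hh)) d = y := by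
    intro T x y w
    have w' := congrArg (j X) w
    rw [EP_seq, EP_seq, EP_shape, EP_shape] at w'
    obtain ⟨d, h1, h2⟩ := exists_desc X.D S b h hb hh T (j X x) (j X y) w'
    have hd : Sm X d := sm_glue X S b h hb hh T d (by rw [h1]; exact j_sm X x)
      (by rw [h2]; exact j_sm X y)
    refine ⟨mk X d hd, j_inj X ?_, j_inj X ?_⟩
    · exact (EP_seq X _ _).trans ((congrArg₂ X.D.seq (EP_shape X _) (j_mk X d hd)).trans h1)
    · exact (EP_seq X _ _).trans ((congrArg₂ X.D.seq (EP_shape X _) (j_mk X d hd)).trans h2)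
  have huq : ∀ (T : Shape) (d d' : (EP X).arr (S.glue b h hb hh) T),
      (EP X).seq ((EP X).ofShape (S.inLeft b h hb hh)) d =
        (EP X).seq ((EP X).ofShape (S.inLeft b h hb hh)) d' →
      (EP X).seq ((EP X).ofShape (S.inRight b h hb hh)) d =
        (EP X).seq ((EP X).ofShape (S.inRight b h hb hh)) d' → d = d' := by
    intro T d d' h1 h2
    have h1' := congrArg (j X) h1
    have h2' := congrArg (j X) h2
    rw [EP_seq, EP_seq, EP_shape] at h1' h2'
    exact j_inj X (desc_ext X.D S b h hb hh T _ _ h1' h2')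
  refine ⟨⟨hc⟩, ⟨PushoutCocone.IsColimit.mk _
    (fun s => Classical.choose (hex s.pt.shape s.inl s.inr s.condition)) ?_ ?_ ?_⟩⟩
  · intro s
    exact (Classical.choose_spec (hex s.pt.shape s.inl s.inr s.condition)).1
  · intro s
    exact (Classical.choose_spec (hex s.pt.shape s.inl s.inr s.condition)).2
  · intro s m h1 h2
    have h3 := Classical.choose_spec (hex s.pt.shape s.inl s.inr s.condition)
    exact huq s.pt.shape m _ (h1.trans h3.1.symm) (h2.trans h3.2.symm)

/-- the small theory -/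
noncomputable def ET (X : BigTh C) : GlobTheory.{u} :=
  { EP X with respectsSums := EP_sums X }

theorem ET_one (X : BigTh C) (S : Shape) : j X ((ET X).one S) = X.D.one S := j_mk X _ _

theorem ET_seq (X : BigTh C) {R S T : Shape} (f : (ET X).arr R S) (g : (ET X).arr S T) :
    j X ((ET X).seq f g) = X.D.seq (j X f) (j X g) := j_mk X _ _

theorem ET_shape (X : BigTh C) {S T : Shape} (g : S ⟶ T) :
    j X ((ET X).ofShape g) = X.D.ofShape g := j_mk X _ _

noncomputable def Pi (X : BigTh C) : TheoryMap (ET X) C where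
  map o := X.p (j X o)
  map_one S := by rw [ET_one, X.p_one]
  map_seq f g := by rw [ET_seq, X.p_seq]
  map_ofShape g := by rw [ET_shape, X.p_shape]

theorem par (X : BigTh C) {T : Shape} : ∀ (n : ℕ) (x y : (ET X).arr (Shape.globe n) T),
    (ET X).OpsParallel n x y → X.D.OpsParallel n (j X x) (j X y)
  | 0, _, _, _ => trivial
  | n + 1, x, y, h => by
    have h1 := congrArg (j X) h.1
    have h2 := congrArg (j X) h.2
    rw [ET_seq, ET_seq, ET_shape] at h1 h2
    exact ⟨h1, h2⟩

end RTS

open RTS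

theorem small_sub (X : BigTh C) : ∃ (E : GlobTheory.{u}) (π : TheoryMap E C)
    (j : ∀ {S T : Shape}, E.arr S T → X.D.arr S T),
    (∀ T : Shape, j (E.one T) = X.D.one T) ∧
    (∀ {R S T : Shape} (o : E.arr R S) (o' : E.arr S T),
      j (E.seq o o') = X.D.seq (j o) (j o')) ∧
    (∀ {S T : Shape} (g : S ⟶ T), j (E.ofShape g) = X.D.ofShape g) ∧
    (∀ {S T : Shape} (o : E.arr S T), X.p (j o) = π.map o) ∧
    ∀ (q : E.Admissible) (z : C.arr (Shape.globe (q.n + 1)) q.shape),
      IsFillerAlong π q z →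
      ∃ w : E.arr (Shape.globe (q.n + 1)) q.shape, π.map w = z ∧
        IsFillerAlong (TheoryMap.id E) q w := by
  refine ⟨ET X, Pi X, @RTS.j _ X, ET_one X, ET_seq X, ET_shape X, fun o => rfl, ?_⟩
  intro q z hz
  obtain ⟨w, hw, h1, h2, h3⟩ := sm_fill X q.n q.shape q.dim_le (RTS.j X q.lower)
    (RTS.j X q.upper) (j_sm X q.lower) (j_sm X q.upper) (par X q.n _ _ q.parallel) z hz.1 hz.2
  refine ⟨RTS.mk X w hw, ?_, ?_, ?_⟩
  · show X.p (RTS.j X (RTS.mk X w hw)) = z
    rw [j_mk, h1]
  · exact j_inj X ((ET_seq X _ _).trans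
      ((congrArg₂ X.D.seq (ET_shape X _) (j_mk X w hw)).trans h2))
  · exact j_inj X ((ET_seq X _ _).trans
      ((congrArg₂ X.D.seq (ET_shape X _) (j_mk X w hw)).trans h3))

end Crest.Agent.R248
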