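import Crest.Agent.R248.RTDefs

/-!
# R248 piece RTTOWER: theory maps with the filler lifting property into `C` have sections if `C` has a tower

Construct `G r : TheoryMap (τ.stage r) E` with `(G r).comp π = τ.toEnd r` and `(τ.next r).comp (G (r+1)) = G r` by recursion:
`G 0` from `τ.stage_zero E` (and uniqueness into `C`); step: for `g : τ.gen r` the image of `τ.prob r g` under `G r` is an
admissible pair `q` of `E` (same `n`, `shape`; `OpsParallel` is preserved), `z := (τ.toEnd (r+1)).map (τ.fill r g)` fills its image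
in `C` (`(τ.free r).1 g`, `toEnd_comm`), `hπ` gives `w g`; `(τ.free r).2 E (G r) w` gives `G (r+1)`; `(G (r+1)).comp π = τ.toEnd (r+1)`
by the uniqueness in `(τ.free r).2 C (τ.toEnd r) _`. Then `τ.colim E G` gives `s`, and `s.comp π = id` by uniqueness in
`τ.colim C τ.toEnd`. (Use a sequence in the subtype `{G : TheoryMap (τ.stage r) E // G.comp π = τ.toEnd r}` and `Nat.rec`.)
-/

set_option autoImplicit false
set_option linter.unusedVariables false
open CategoryTheory CategoryTheory.Limits Opposite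
open Crest.GeometryTopology.Coherator Crest.GeometryTopology.Coherator.GlobTheory

universe u

namespace Crest.Agent.R248

variable {C : GlobTheory.{u}}

private theorem opsParallel_map {D E : GlobTheory.{u}} (F : TheoryMap D E) {S : Shape} :
    ∀ (n : ℕ) (f g : D.arr (Shape.globe n) S), D.OpsParallel n f g →
      E.OpsParallel n (F.map f) (F.map g)
  | 0, _, _, _ => trivial
  | n + 1, f, g, h => by
    refine ⟨?_, ?_⟩
    · have h1 := congrArg F.map h.1
      rwa [F.map_seq, F.map_seq, F.map_ofShape] at h1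
    · have h1 := congrArg F.map h.2
      rwa [F.map_seq, F.map_seq, F.map_ofShape] at h1

private theorem comp_map {D E F : GlobTheory.{u}} (G : TheoryMap D E) (H : TheoryMap E F)
    {S T : Shape} (o : D.arr S T) : (G.comp H).map o = H.map (G.map o) := rfl

private theorem tower_step (τ : C.Tower) {E : GlobTheory.{u}} (π : TheoryMap E C)
    (hπ : ∀ (q : E.Admissible) (z : C.arr (Shape.globe (q.n + 1)) q.shape),
      IsFillerAlong π q z →
      ∃ w : E.arr (Shape.globe (q.n + 1)) q.shape, π.map w = z ∧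
        IsFillerAlong (TheoryMap.id E) q w) (r : ℕ)
    (G : TheoryMap (τ.stage r) E) (hG : G.comp π = τ.toEnd r) :
    ∃ G' : TheoryMap (τ.stage (r + 1)) E, G'.comp π = τ.toEnd (r + 1) ∧
      (τ.next r).comp G' = G := by
  have key : ∀ g : τ.gen r, ∃ w : E.arr (Shape.globe ((τ.prob r g).n + 1)) (τ.prob r g).shape,
      π.map w = (τ.toEnd (r + 1)).map (τ.fill r g) ∧ IsFillerAlong G (τ.prob r g) w := by
    intro g
    have hmap : ∀ {S T : Shape} (o : (τ.stage r).arr S T),
        (τ.toEnd (r + 1)).map ((τ.next r).map o) = π.map (G.map o) := by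
      intro S T o
      have h1 : (τ.toEnd (r + 1)).map ((τ.next r).map o) = (τ.toEnd r).map o := by
        rw [← comp_map, τ.toEnd_comm]
      rw [h1, ← hG]
      rfl
    have h := hπ
      { n := (τ.prob r g).n
        shape := (τ.prob r g).shape
        dim_le := (τ.prob r g).dim_le
        lower := G.map (τ.prob r g).lower
        upper := G.map (τ.prob r g).upper
        parallel := opsParallel_map G _ _ _ (τ.prob r g).parallel }
      ((τ.toEnd (r + 1)).map (τ.fill r g)) ?_
    · obtain ⟨w, hw1, hw2⟩ := h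
      exact ⟨w, hw1, hw2⟩
    · have hf := (τ.free r).1 g
      refine ⟨?_, ?_⟩
      · have h1 := congrArg (τ.toEnd (r + 1)).map hf.1
        rw [(τ.toEnd (r + 1)).map_seq, (τ.toEnd (r + 1)).map_ofShape, hmap] at h1
        exact h1
      · have h1 := congrArg (τ.toEnd (r + 1)).map hf.2
        rw [(τ.toEnd (r + 1)).map_seq, (τ.toEnd (r + 1)).map_ofShape, hmap] at h1
        exact h1
  choose w hw1 hw2 using key
  obtain ⟨G', ⟨hG1, hG2⟩, -⟩ := (τ.free r).2 E G w hw2
  refine ⟨G', ?_, hG1⟩
  refine ExistsUnique.unique ((τ.free r).2 C (τ.toEnd r)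
    (fun g => (τ.toEnd (r + 1)).map (τ.fill r g)) ?_) (y₁ := G'.comp π)
    (y₂ := τ.toEnd (r + 1)) ⟨?_, ?_⟩ ⟨τ.toEnd_comm r, fun _ => rfl⟩
  · intro g
    have hf := (τ.free r).1 g
    have hmap : ∀ {S T : Shape} (o : (τ.stage r).arr S T),
        (τ.toEnd (r + 1)).map ((τ.next r).map o) = (τ.toEnd r).map o := by
      intro S T o
      rw [← comp_map, τ.toEnd_comm]
    refine ⟨?_, ?_⟩
    · have h1 := congrArg (τ.toEnd (r + 1)).map hf.1
      rw [(τ.toEnd (r + 1)).map_seq, (τ.toEnd (r + 1)).map_ofShape, hmap] at h1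
      exact h1
    · have h1 := congrArg (τ.toEnd (r + 1)).map hf.2
      rw [(τ.toEnd (r + 1)).map_seq, (τ.toEnd (r + 1)).map_ofShape, hmap] at h1
      exact h1
  · rw [← hG, ← hG1]
    rfl
  · intro g
    rw [comp_map, hG2, hw1]

theorem tower_section (τ : C.Tower) {E : GlobTheory.{u}} (π : TheoryMap E C)
    (hπ : ∀ (q : E.Admissible) (z : C.arr (Shape.globe (q.n + 1)) q.shape),
      IsFillerAlong π q z →
      ∃ w : E.arr (Shape.globe (q.n + 1)) q.shape, π.map w = z ∧
        IsFillerAlong (TheoryMap.id E) q w) :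
    ∃ s : TheoryMap C E, ∀ {S T : Shape} (o : C.arr S T), π.map (s.map o) = o := by
  obtain ⟨G0⟩ := τ.stage_zero E
  obtain ⟨U0⟩ := τ.stage_zero C
  let base : {G : TheoryMap (τ.stage 0) E // G.comp π = τ.toEnd 0} :=
    ⟨G0.default, (U0.uniq _).trans (U0.uniq _).symm⟩
  choose st hst1 hst2 using tower_step τ π hπ
  let Gs : ∀ r : ℕ, {G : TheoryMap (τ.stage r) E // G.comp π = τ.toEnd r} :=
    fun r => Nat.rec base (fun r G => ⟨st r G.1 G.2, hst1 r G.1 G.2⟩) r
  obtain ⟨s, hs, -⟩ := τ.colim E (fun r => (Gs r).1) (fun r => hst2 r (Gs r).1 (Gs r).2)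
  have hid : s.comp π = TheoryMap.id C := by
    refine ExistsUnique.unique (τ.colim C τ.toEnd τ.toEnd_comm) (fun r => ?_) (fun r => rfl)
    have h1 : (τ.toEnd r).comp (s.comp π) = ((τ.toEnd r).comp s).comp π := rfl
    rw [h1, hs r]
    exact (Gs r).2
  refine ⟨s, fun {S T} o => ?_⟩
  rw [← comp_map, hid]
  rfl

end Crest.Agent.R248
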