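import Crest.Agent.R248.RTPair
import Crest.Agent.R248.RTSmall
import Crest.Agent.R248.RTTower

/-!
# R248: the recursion theorem (assembly)
-/

set_option autoImplicit false
set_option linter.unusedVariables false
open CategoryTheory CategoryTheory.Limits Opposite
open Crest.GeometryTopology.Coherator Crest.GeometryTopology.Coherator.GlobTheory

universe u

namespace Crest.Agent.R248

variable {C : GlobTheory.{u}}

theorem rt (hT : Nonempty C.Tower) (P : GPF C)
    (K : ∀ {S T : Shape}, C.arr S T → NT (P.dg T) (P.dg S) → Prop) (hK : RTh P @K) :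
    ∃ Φ : Act P, ∀ {S T : Shape} (o : C.arr S T), K o (Φ.a o) := by
  obtain ⟨τ⟩ := hT
  obtain ⟨E, π, j, j1, j2, j3, j4, j5⟩ := small_sub (pairBig P @K hK)
  obtain ⟨s, hs⟩ := tower_section τ π j5
  have hj : ∀ {S T : Shape} (o : C.arr S T),
      (show { x : C.arr S T × NT (P.dg T) (P.dg S) // K x.1 x.2 } from
        j (s.map o)).1.1 = o := by
    intro S T o
    have h := j4 (s.map o)
    rw [hs] at h
    exact h
  refine ⟨{ a := fun {S T} o => (show { x : C.arr S T × NT (P.dg T) (P.dg S) // K x.1 x.2 } from
              j (s.map o)).1.2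
            one := ?_, seq := ?_, shape := ?_ }, ?_⟩
  · intro T A x
    have h : j (s.map (C.one T)) = (pairBig P @K hK).D.one T := by rw [s.map_one, j1]
    show NT.app (Subtype.val (j (s.map (C.one T)))).2 A x = x
    rw [h]; rfl
  · intro R S T o o' A x
    have h : j (s.map (C.seq o o')) = (pairBig P @K hK).D.seq (j (s.map o)) (j (s.map o')) := by
      rw [s.map_seq, j2]
    show NT.app (Subtype.val (j (s.map (C.seq o o')))).2 A x = _
    rw [h]; rfl
  · intro S T g A x
    have h : j (s.map (C.ofShape g)) = (pairBig P @K hK).D.ofShape g := by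
      rw [s.map_ofShape, j3]
    show NT.app (Subtype.val (j (s.map (C.ofShape g)))).2 A x = _
    rw [h]; rfl
  · intro S T o
    have h := (show { x : C.arr S T × NT (P.dg T) (P.dg S) // K x.1 x.2 } from
      j (s.map o)).2
    rw [hj o] at h
    exact h

end Crest.Agent.R248
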