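import Crest.Agent.R248.ActM
import Crest.Agent.R248.RT

/-!
# R248 piece COSK: the truncated models `B A` (coskeleton)

`coskG N`: an `e`-cell is a compatible family of cells indexed by the faces of dimension `< N` of the `e`-globe.
* `ckη_bij`: for `e < N` the inverse is `x ↦ x.v he (ide e)`.
* `ck_high`: for `N ≤ e` every `a : Ar f e` with `f < N` is a pole; evaluate `Par` at it.
* `ck_dg_bij`: a `T`-diagram of `coskG N` with `T.dim < N` only involves cells of dimension `< N` (`shc_empty`): inverse
  `v e t := (x.v e t).v _ (ide e)` for `e < N` (no cells otherwise).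
* `cosk_rth`: `K o f := ∀ A x, f (push ckη x) = push ckη (dact o x)`. `one`, `seq`, `shape`, `glue`: formal (`dact_one`, `dact_seq`,
  `dact_shape`, `dg_glue_ext`, `Dg.push_res`). `fill`: if `i + 1 < N` then (`T.dim < N`) `f := push ckη ∘ dact o ∘ (push ckη)⁻¹`
  (natural inverse, `NT.exists_inv`); `f ≫ σ = l` as both sides are determined on the image of the bijection `push ckη`.
  If `N ≤ i + 1`: the `(i+1)`-cell with faces `l`, `r`: `v hf a` for `a = pole _ ε`, `f < N ≤ i+1`: `(if ε then r else l).cell.v hf` of the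
  arrow `f → i` (`pole` if `f < i`, `ide` if `f = i`); `K`: `ck_high` in dimension `i + 1`.
* `exists_bsys`: `rt` gives `Φ`; `actM` gives `M, a, c`; `η A` from `homLift` applied to `c ∘ ckη` (hypothesis: `K` and the last
  property of `actM`, `a c = id`).
-/

set_option autoImplicit false
set_option linter.unusedVariables false
open CategoryTheory CategoryTheory.Limits Opposite
open Crest.GeometryTopology.Coherator Crest.GeometryTopology.Coherator.GlobTheory

universe u

namespace Crest.Agent.R248

structure CKc (Q : GP.{u}) (N e : ℕ) where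
  v : ∀ {f : ℕ}, f < N → Ar f e → Q.c f
  nat : ∀ {g f : ℕ} (hg : g < N) (hf : f < N) (a : Ar g f) (b : Ar f e),
    v hg (sq a b) = Q.fc a (v hf b)

theorem CKc.ext' {Q : GP.{u}} {N e : ℕ} {x x' : CKc Q N e}
    (h : ∀ (f : ℕ) (hf : f < N) (a : Ar f e), x.v hf a = x'.v hf a) : x = x' := by
  cases x with
  | mk v hv =>
    cases x' with
    | mk v' hv' =>
      have : @v = @v' := by
        funext f hf a
        exact h f hf a
      subst this
      rfl

theorem sq_assoc {g f e d : ℕ} (a : Ar g f) (b : Ar f e) (c : Ar e d) :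
    sq (sq a b) c = sq a (sq b c) := by
  cases a <;> cases b <;> cases c <;> rfl

variable {C : GlobTheory.{u}}

variable (C) in
noncomputable def coskG (N : ℕ) : GPF C where
  gp A :=
    { c := CKc (undGP A) N
      fc := fun a x =>
        { v := fun hf b => x.v hf (sq b a)
          nat := fun hg hf b c => by rw [sq_assoc, x.nat hg hf] }
      fc_ide := fun x => CKc.ext' fun f hf a => by
        show x.v hf (sq a (ide _)) = _
        rw [sq_ide]
      fc_fc := fun a b x => CKc.ext' fun f hf c => by
        show x.v hf (sq (sq c a) b) = x.v hf (sq c (sq a b))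
        rw [sq_assoc] }
  map {A A'} g :=
    { app := fun e x =>
        { v := fun {f} hf a => ((und C).map g).app f (x.v hf a)
          nat := fun hg hf a b => by
            rw [x.nat hg hf]
            exact ((und C).map g).nat a _ }
      nat := fun a x => rfl }
  map_id A e x := CKc.ext' fun f hf a => (und C).map_id A f _
  map_comp g g' e x := CKc.ext' fun f hf a => (und C).map_comp g g' f _

noncomputable def ckη (N : ℕ) : NG (und C) (coskG C N) where
  app A e x := show CKc (undGP A) N e from
    { v := fun hf a => (undGP A).fc a x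
      nat := fun hg hf a b => ((undGP A).fc_fc a b x).symm }
  natF A f e a x := CKc.ext' fun g hg b => (undGP A).fc_fc b a x
  natM {A A'} g e x := CKc.ext' fun f hf a => (((und C).map g).nat a x).symm

theorem ckη_bij (N : ℕ) (A : GlobModel C) (e : ℕ) (he : e < N) :
    Function.Bijective ((ckη (C := C) N).app A e) := by
  constructor
  · intro x y hxy
    have h : (undGP A).fc (ide e) x = (undGP A).fc (ide e) y :=
      congrArg (fun z : CKc (undGP A) N e => z.v he (ide e)) hxy
    have hx : (undGP A).fc (ide e) x = x := (undGP A).fc_ide x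
    have hy : (undGP A).fc (ide e) y = y := (undGP A).fc_ide y
    rw [← hx, h, hy]
  · intro y
    refine ⟨CKc.v (Q := undGP A) (N := N) (e := e) y he (ide e), ?_⟩
    refine CKc.ext' fun f hf a => ?_
    show (undGP A).fc a (CKc.v (Q := undGP A) (N := N) (e := e) y he (ide e)) =
      CKc.v (Q := undGP A) (N := N) (e := e) y hf a
    rw [← CKc.nat (Q := undGP A) (N := N) (e := e) y hf he a (ide e), sq_ide]

theorem ck_high (N : ℕ) (A : GlobModel C) (e : ℕ) (he : N ≤ e)
    (x y : ((coskG C N).gp A).c e) (h : ((coskG C N).gp A).Par x y) : x = y := by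
  refine CKc.ext' fun f hf a => ?_
  have hfe : f < e := lt_of_lt_of_le hf he
  cases a with
  | refl => exact absurd hfe (lt_irrefl _)
  | pole h' ε =>
    exact congrArg (fun z : CKc (undGP A) N f => z.v hf (ide f)) (h f hfe ε)

theorem ck_dg_bij (N : ℕ) (T : Shape) (hT : T.dim < N) (A : GlobModel C) :
    Function.Bijective (((ckη (C := C) N).dg T).app A) := by
  constructor
  · intro x y hxy
    refine Dg.ext_dim fun e he t => ?_
    apply (ckη_bij (C := C) N A e (lt_of_le_of_lt he hT)).1
    exact congrArg (fun z : Dg ((coskG C N).gp A) T => z.v e t) hxy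
  · intro y
    change Dg ((coskG C N).gp A) T at y
    have hv : ∀ (e : ℕ) (t : shc T e), e < N := fun e t => by
      by_contra hc
      exact (shc_empty T e (lt_of_lt_of_le hT (not_lt.1 hc)) t).elim
    refine ⟨⟨fun e t => CKc.v (Q := undGP A) (N := N) (e := e) (y.v e t) (hv e t) (ide e), ?_⟩, ?_⟩
    · intro f e a t
      have h1 := y.nat a t
      have h2 := congrArg (fun z : CKc (undGP A) N f => z.v (hv f (shf T a t)) (ide f)) h1
      refine h2.trans ?_
      show CKc.v (Q := undGP A) (N := N) (e := e) (y.v e t) (hv f (shf T a t)) (sq (ide f) a) =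
        (undGP A).fc a (CKc.v (Q := undGP A) (N := N) (e := e) (y.v e t) (hv e t) (ide e))
      rw [← CKc.nat (Q := undGP A) (N := N) (e := e) (y.v e t) (hv f (shf T a t)) (hv e t) a
        (ide e), sq_ide]
      rfl
    · refine Dg.ext (funext fun e => funext fun t => ?_)
      refine CKc.ext' fun f hf a => ?_
      show (undGP A).fc a (CKc.v (Q := undGP A) (N := N) (e := e) (y.v e t) (hv e t) (ide e)) =
        CKc.v (Q := undGP A) (N := N) (e := e) (y.v e t) hf a
      rw [← CKc.nat (Q := undGP A) (N := N) (e := e) (y.v e t) hf (hv e t) a (ide e), sq_ide]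

/-- the interpretations of operations on the coskeleton -/
def ckK (N : ℕ) {S T : Shape} (o : C.arr S T)
    (f : NT ((coskG C N).dg T) ((coskG C N).dg S)) : Prop :=
  ∀ (A : GlobModel C) (x : Dg (undGP A) T),
    f.app A (Dg.push ((ckη (C := C) N).at A) x) = Dg.push ((ckη (C := C) N).at A) (dact A o x)

theorem ck_fill_lt (N i : ℕ) (hi : i + 1 < N) (T : Shape) (hT : T.dim ≤ i + 1)
    (o : C.arr (Shape.globe (i + 1)) T)
    (l r : NT ((coskG C N).dg T) ((coskG C N).dg (Shape.globe i)))
    (hl : ckK N (C.seq (C.ofShape (Shape.σ i)) o) l)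
    (hr : ckK N (C.seq (C.ofShape (Shape.τ i)) o) r) :
    ∃ f : NT ((coskG C N).dg T) ((coskG C N).dg (Shape.globe (i + 1))), ckK N o f ∧
      f.comp (resN (coskG C N) (Shape.σ i)) = l ∧ f.comp (resN (coskG C N) (Shape.τ i)) = r := by
  obtain ⟨t, ht1, ht2⟩ := NT.exists_inv ((ckη (C := C) N).dg T)
    (ck_dg_bij N T (lt_of_le_of_lt hT hi))
  let d : NT ((und C).dg T) ((und C).dg (Shape.globe (i + 1))) :=
    ⟨fun A x => dact A o x, fun {A A'} g x => dact_natural g o x⟩
  have hf : ∀ (A : GlobModel C) (x : Dg (undGP A) T),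
      ((t.comp d).comp ((ckη (C := C) N).dg (Shape.globe (i + 1)))).app A
        (Dg.push ((ckη (C := C) N).at A) x) = Dg.push ((ckη (C := C) N).at A) (dact A o x) := by
    intro A x
    have h : t.app A (Dg.push ((ckη (C := C) N).at A) x) = x := ht2 A x
    show Dg.push ((ckη (C := C) N).at A)
      (dact A o (t.app A (Dg.push ((ckη (C := C) N).at A) x))) = _
    rw [h]
  have key : ∀ (g : Shape.globe i ⟶ Shape.globe (i + 1))
      (l : NT ((coskG C N).dg T) ((coskG C N).dg (Shape.globe i)))
      (_ : ckK N (C.seq (C.ofShape g) o) l),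
      ((t.comp d).comp ((ckη (C := C) N).dg (Shape.globe (i + 1)))).comp
        (resN (coskG C N) g) = l := by
    intro g l hl
    apply NT.ext
    funext A y
    have h1 : Dg.push ((ckη (C := C) N).at A) (t.app A y) = y := ht1 A y
    have h2 := hl A (t.app A y)
    rw [h1] at h2
    have h3 : ∀ z : Dg (undGP A) T, dact A (C.seq (C.ofShape g) o) z = (dact A o z).res g :=
      fun z => (dact_seq A _ _ _).trans (dact_shape A g _)
    exact (h2.trans (congrArg (Dg.push ((ckη (C := C) N).at A)) (h3 _))).symm
  exact ⟨_, hf, key _ l hl, key _ r hr⟩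

/-- the arrow `f → i` below `pole h ε : f → i + 1` -/
private def ckLow {f i : ℕ} (h : f < i + 1) (ε : Bool) : Ar f i :=
  if h' : f < i then pole h' ε
  else (Nat.le_antisymm (Nat.lt_succ_iff.1 h) (not_lt.1 h')) ▸ ide f

/-- the side of an arrow -/
private def ckTag {f e : ℕ} : Ar f e → Bool
  | .refl _ => false
  | .pole _ ε => ε

private theorem ckLow_lt {f i : ℕ} (h : f < i + 1) (ε : Bool) (h' : f < i) :
    ckLow h ε = pole h' ε := by
  rw [ckLow, dif_pos h']

private theorem ckLow_self {i : ℕ} (h : i < i + 1) (ε : Bool) : ckLow h ε = ide i := by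
  rw [ckLow, dif_neg (lt_irrefl i)]

private theorem ckLow_sq {f i : ℕ} (h : f < i + 1) (ε : Bool) :
    sq (ckLow h ε) (fac i ε) = pole h ε := by
  rcases Nat.lt_or_ge f i with h' | h'
  · rw [ckLow_lt h ε h']
    rfl
  · obtain rfl : f = i := Nat.le_antisymm (Nat.lt_succ_iff.1 h) h'
    rw [ckLow_self]
    rfl

private theorem sq_ckLow {f' f i : ℕ} (h : f < i + 1) (ε : Bool) (h' : f' < f) (ε' : Bool)
    (hi : f' < i) : sq (pole h' ε') (ckLow h ε) = pole hi ε' := by
  generalize ckLow h ε = c
  cases c <;> rfl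

/-- the `(i+1)`-cell with faces `x`, `y` -/
private theorem ck_fill_cell {Q : GP.{u}} (N i : ℕ) (hi : N ≤ i + 1) (x y : CKc Q N i)
    (h : ∀ (f : ℕ) (hf : f < N) (h' : f < i) (ε : Bool),
      x.v hf (pole h' ε) = y.v hf (pole h' ε)) :
    ∃ z : CKc Q N (i + 1), ∀ (f : ℕ) (hf : f < N) (a : Ar f i),
      z.v hf (sq a (fac i false)) = x.v hf a ∧ z.v hf (sq a (fac i true)) = y.v hf a := by
  let V : ∀ {f : ℕ}, f < N → Ar f (i + 1) → Q.c f := fun {f} hf a =>
    if ckTag a then y.v hf (ckLow (lt_of_lt_of_le hf hi) true)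
    else x.v hf (ckLow (lt_of_lt_of_le hf hi) false)
  have hVp : ∀ {f : ℕ} (hf : f < N) (h'' : f < i + 1) (ε : Bool),
      V hf (pole h'' ε) = if ε then y.v hf (ckLow h'' true) else x.v hf (ckLow h'' false) := by
    intro f hf h'' ε
    rfl
  have hVlt : ∀ {f : ℕ} (hf : f < N) (h'' : f < i + 1) (h' : f < i) (ε : Bool),
      V hf (pole h'' ε) = x.v hf (pole h' ε) := by
    intro f hf h'' h' ε
    refine (hVp hf h'' ε).trans ?_
    rw [ckLow_lt h'' true h', ckLow_lt h'' false h']
    cases ε
    · rfl
    · exact (h f hf h' true).symm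
  refine ⟨{ v := V, nat := ?_ }, ?_⟩
  · intro g f hg hf a b
    cases b with
    | refl => exact absurd (lt_of_lt_of_le hf hi) (lt_irrefl _)
    | pole h'' ε =>
      cases a with
      | refl =>
        rw [Q.fc_ide]
        rfl
      | pole h3 ε' =>
        have hgi : g < i := h3.trans_le (Nat.lt_succ_iff.1 h'')
        have e1 : V hg (sq (pole h3 ε') (pole h'' ε)) = x.v hg (pole hgi ε') :=
          hVlt hg (h3.trans h'') hgi ε'
        refine e1.trans ?_
        refine Eq.trans ?_ (congrArg (Q.fc (pole h3 ε')) (hVp hf h'' ε)).symm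
        cases ε
        · refine Eq.trans ?_ (x.nat hg hf (pole h3 ε') (ckLow h'' false))
          rw [sq_ckLow h'' false h3 ε' hgi]
        · refine Eq.trans ?_ (y.nat hg hf (pole h3 ε') (ckLow h'' true))
          rw [sq_ckLow h'' true h3 ε' hgi]
          exact h g hg hgi ε'
  · intro f hf a
    cases a with
    | refl =>
      refine ⟨(hVp hf (Nat.lt_succ_self _) false).trans ?_,
        (hVp hf (Nat.lt_succ_self _) true).trans ?_⟩
      · show x.v hf (ckLow _ false) = _
        rw [ckLow_self]
      · show y.v hf (ckLow _ true) = _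
        rw [ckLow_self]
    | pole h' ε =>
      refine ⟨hVlt hf (h'.trans (Nat.lt_succ_self i)) h' ε,
        (hVlt hf (h'.trans (Nat.lt_succ_self i)) h' ε).trans (h f hf h' ε)⟩

private theorem ck_fill_cell' (N i : ℕ) (hi : N ≤ i + 1) (A : GlobModel C)
    (x y : ((coskG C N).gp A).c i) (h : ((coskG C N).gp A).Par x y) :
    ∃ z : ((coskG C N).gp A).c (i + 1), ((coskG C N).gp A).fc (fac i false) z = x ∧
      ((coskG C N).gp A).fc (fac i true) z = y := by
  have h1 : ∀ (f : ℕ) (hf : f < N) (h' : f < i) (ε : Bool),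
      CKc.v (Q := undGP A) x hf (pole h' ε) = CKc.v (Q := undGP A) y hf (pole h' ε) := by
    intro f hf h' ε
    exact congrArg (fun w : CKc (undGP A) N f => w.v hf (ide f)) (h f h' ε)
  obtain ⟨z, hz⟩ := ck_fill_cell N i hi x y h1
  exact ⟨z, CKc.ext' fun f hf a => (hz f hf a).1, CKc.ext' fun f hf a => (hz f hf a).2⟩

private theorem ck_cell_ext (N i : ℕ) (hi : N ≤ i + 1) (A : GlobModel C)
    (z z' : ((coskG C N).gp A).c (i + 1))
    (h : ∀ ε, ((coskG C N).gp A).fc (fac i ε) z = ((coskG C N).gp A).fc (fac i ε) z') :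
    z = z' :=
  ck_high N A (i + 1) hi z z' ((par_iff_bdy z z').2 (Bd.ext_succ fun ε => h ε))

private theorem dg_globe_ext {Q : GP.{u}} {n : ℕ} {x y : Dg Q (Shape.globe n)}
    (h : x.cell = y.cell) : x = y := by
  rw [← Dg.ofCell_cell x, h, Dg.ofCell_cell]

theorem ck_fill_ge (N i : ℕ) (hi : N ≤ i + 1) (T : Shape)
    (o : C.arr (Shape.globe (i + 1)) T)
    (l r : NT ((coskG C N).dg T) ((coskG C N).dg (Shape.globe i)))
    (hl : ckK N (C.seq (C.ofShape (Shape.σ i)) o) l)
    (hr : ckK N (C.seq (C.ofShape (Shape.τ i)) o) r)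
    (hp : ∀ A x, ((coskG C N).gp A).Par (Dg.cell (l.app A x)) (Dg.cell (r.app A x))) :
    ∃ f : NT ((coskG C N).dg T) ((coskG C N).dg (Shape.globe (i + 1))), ckK N o f ∧
      f.comp (resN (coskG C N) (Shape.σ i)) = l ∧ f.comp (resN (coskG C N) (Shape.τ i)) = r := by
  classical
  have hz : ∀ (A : GlobModel C) (x : Dg ((coskG C N).gp A) T),
      ∃ z : ((coskG C N).gp A).c (i + 1),
        ((coskG C N).gp A).fc (fac i false) z = Dg.cell (l.app A x) ∧
        ((coskG C N).gp A).fc (fac i true) z = Dg.cell (r.app A x) :=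
    fun A x => ck_fill_cell' N i hi A _ _ (hp A x)
  choose z hz0 hz1 using hz
  have hl' : ∀ {A A' : GlobModel C} (g : A ⟶ A') (x : Dg ((coskG C N).gp A) T),
      Dg.cell (l.app A' (Dg.push ((coskG C N).map g) x)) =
        ((coskG C N).map g).app i (Dg.cell (l.app A x)) := fun g x =>
    congrArg Dg.cell (l.nat g x)
  have hr' : ∀ {A A' : GlobModel C} (g : A ⟶ A') (x : Dg ((coskG C N).gp A) T),
      Dg.cell (r.app A' (Dg.push ((coskG C N).map g) x)) =
        ((coskG C N).map g).app i (Dg.cell (r.app A x)) := fun g x =>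
    congrArg Dg.cell (r.nat g x)
  have hnat : ∀ {A A' : GlobModel C} (g : A ⟶ A') (x : Dg ((coskG C N).gp A) T),
      z A' (Dg.push ((coskG C N).map g) x) = ((coskG C N).map g).app (i + 1) (z A x) := by
    intro A A' g x
    apply ck_cell_ext N i hi A'
    intro ε
    cases ε
    · rw [hz0, hl' g x, ← ((coskG C N).map g).nat, hz0]
    · rw [hz1, hr' g x, ← ((coskG C N).map g).nat, hz1]
  refine ⟨⟨fun A x => Dg.ofCell (z A x), ?_⟩, ?_, ?_, ?_⟩
  · intro A A' g x
    apply dg_globe_ext
    show (Dg.ofCell (z A' (Dg.push ((coskG C N).map g) x))).cell =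
      (Dg.push ((coskG C N).map g) (Dg.ofCell (z A x))).cell
    rw [Dg.cell_ofCell, Dg.cell_push, Dg.cell_ofCell]
    exact hnat g x
  · intro A x
    apply dg_globe_ext
    show (Dg.ofCell (z A (Dg.push ((ckη (C := C) N).at A) x))).cell = _
    rw [Dg.cell_ofCell]
    apply ck_cell_ext N i hi A
    intro ε
    have hres : ∀ ε, ((coskG C N).gp A).fc (fac i ε)
        (Dg.push ((ckη (C := C) N).at A) (dact A o x)).cell =
        (Dg.push ((ckη (C := C) N).at A)
          (dact A (C.seq (C.ofShape (Shape.faceMap (Nat.lt_succ_self i) ε)) o) x)).cell := by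
      intro ε
      rw [dact_seq, dact_shape]
      exact (Dg.cell_res_face (Nat.lt_succ_self i) ε _).symm
    cases ε
    · rw [hz0, hres false]
      exact congrArg Dg.cell (hl A x)
    · rw [hz1, hres true]
      exact congrArg Dg.cell (hr A x)
  · refine NT.ext (funext fun A => funext fun x => ?_)
    apply dg_globe_ext
    refine Eq.trans ?_ (hz0 A x)
    show ((Dg.ofCell (z A x)).res (Shape.faceMap (Nat.lt_succ_self i) false)).cell = _
    rw [Dg.cell_res_face, Dg.cell_ofCell]
  · refine NT.ext (funext fun A => funext fun x => ?_)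
    apply dg_globe_ext
    refine Eq.trans ?_ (hz1 A x)
    show ((Dg.ofCell (z A x)).res (Shape.faceMap (Nat.lt_succ_self i) true)).cell = _
    rw [Dg.cell_res_face, Dg.cell_ofCell]

theorem cosk_rth (N : ℕ) : RTh (coskG C N) (fun {S T} o f => ckK N o f) where
  one T := by
    intro A x
    show Dg.push _ x = Dg.push _ (dact A (C.one T) x)
    rw [dact_one]
  seq o f o' f' h h' := by
    intro A x
    rw [dact_seq]
    exact (congrArg (f.app A) (h' A x)).trans (h A (dact A o' x))
  shape g := by
    intro A x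
    rw [dact_shape]
    rfl
  glue S b h hb hh T o f hl hr := by
    intro A x
    apply dg_glue_ext S b h hb hh
    · have h1 := hl A x
      rw [dact_seq, dact_shape] at h1
      exact h1
    · have h1 := hr A x
      rw [dact_seq, dact_shape] at h1
      exact h1
  fill i T hT o l r hl hr hp := by
    by_cases h : i + 1 < N
    · exact ck_fill_lt N i h T hT o l r hl hr
    · exact ck_fill_ge N i (not_lt.1 h) T o l r hl hr hp

theorem exists_bsys (hT : Nonempty C.Tower) (N : ℕ) : Nonempty (BSys C N) := by
  obtain ⟨Φ, hΦ⟩ := rt hT (coskG C N) (fun {S T} o f => ckK N o f) (cosk_rth N)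
  obtain ⟨M, a, c, hac, hca, hact⟩ := actM (coskG C N) Φ
  have hlift : ∀ A : GlobModel C, ∃ g : A ⟶ M.obj A,
      (und C).map g = ((ckη (C := C) N).comp c).at A := by
    intro A
    refine homLift (((ckη (C := C) N).comp c).at A) ?_
    intro S T o x
    have hinj : ∀ {R : Shape} (y z : Dg (undGP (M.obj A)) R),
        Dg.push (a.at A) y = Dg.push (a.at A) z → y = z := by
      intro R y z h
      refine Dg.ext (funext fun e => funext fun t => ?_)
      have h1 : a.app A e (y.v e t) = a.app A e (z.v e t) :=
        congrArg (fun w : Dg ((coskG C N).gp A) R => w.v e t) h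
      exact (hca A e (y.v e t)).symm.trans ((congrArg (c.app A e) h1).trans (hca A e (z.v e t)))
    apply hinj
    have h2 : ∀ {R : Shape} (y : Dg (undGP A) R),
        Dg.push (a.at A) (Dg.push (((ckη (C := C) N).comp c).at A) y) =
          Dg.push ((ckη (C := C) N).at A) y := by
      intro R y
      refine Dg.ext (funext fun e => funext fun t => ?_)
      exact hac A e _
    have h3 := hact o A (Dg.push (((ckη (C := C) N).comp c).at A) x)
    refine (h2 (dact A o x)).trans ?_
    refine Eq.trans ?_ h3.symm
    refine Eq.trans ?_ (congrArg ((Φ.a o).app A) (h2 x)).symm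
    exact (hΦ o A x).symm
  choose η hη using hlift
  have hη' : ∀ (A : GlobModel C) (e : ℕ) (x : (undGP A).c e),
      ((und C).map (η A)).app e x = c.app A e ((ckη (C := C) N).app A e x) := by
    intro A e x
    rw [hη A]
    rfl
  refine ⟨{ B := M
            η := η
            nat := ?_
            low := ?_
            high := ?_ }⟩
  · intro A A' g
    apply und_faithful
    intro e x
    have h1 : ((und C).map (g ≫ η A')).app e x =
        ((und C).map (η A')).app e (((und C).map g).app e x) := rfl
    have h2 : ((und C).map (η A ≫ M.map g)).app e x =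
        ((und C).map (M.map g)).app e (((und C).map (η A)).app e x) := rfl
    rw [h1, h2]
    refine (hη' A' e _).trans ?_
    refine Eq.trans ?_ (congrArg (((und C).map (M.map g)).app e) (hη' A e x)).symm
    refine (congrArg (c.app A' e) ((ckη (C := C) N).natM g e x)).trans ?_
    exact c.natM g e _
  · intro A e he
    have h1 : Function.Bijective (c.app A e) := by
      constructor
      · intro x y h
        rw [← hac A e x, h, hac]
      · intro y
        exact ⟨a.app A e y, hca A e y⟩
    have h2 : ((und C).map (η A)).app e = c.app A e ∘ (ckη (C := C) N).app A e := by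
      funext x
      exact hη' A e x
    rw [h2]
    exact h1.comp (ckη_bij N A e he)
  · intro A e he x y hxy
    have h1 : ((coskG C N).gp A).Par (a.app A e x) (a.app A e y) := by
      intro f hf ε
      exact ((a.natF A (pole hf ε) x).symm.trans (congrArg (a.app A f) (hxy f hf ε))).trans
        (a.natF A (pole hf ε) y)
    have h2 := ck_high N A e he _ _ h1
    exact (hca A e x).symm.trans ((congrArg (c.app A e) h2).trans (hca A e y))

end Crest.Agent.R248
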