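import Crest.Agent.R248.Ops

/-!
# R248: gluing of natural families of diagrams; data for the G-lemma (definitions, no `sorry`)
-/

set_option autoImplicit false
set_option linter.unusedVariables false
open CategoryTheory CategoryTheory.Limits Opposite
open Crest.GeometryTopology.Coherator Crest.GeometryTopology.Coherator.GlobTheory

universe u

namespace Crest.Agent.R248

variable {C : GlobTheory.{u}}

/-- restriction to the left part of a glued shape -/
noncomputable def dgL (P : GPF C) (S : Shape) (b h : ℕ) (hb : b < S.last) (hh : b < h) :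
    NT (P.dg (S.glue b h hb hh)) (P.dg S) :=
  ⟨fun A x => Dg.res (S.inLeft b h hb hh) x, fun g x => Dg.push_res _ _ _⟩

/-- the last cell of a diagram of a glued shape -/
noncomputable def dgR (P : GPF C) (S : Shape) (b h : ℕ) (hb : b < S.last) (hh : b < h) :
    NT (P.dg (S.glue b h hb hh)) (P.cel h) :=
  ⟨fun A x => (Dg.res (S.inRight b h hb hh) x).cell, fun g x => by
    show ((Dg.push (P.map g) x).res _).cell = (P.map g).app h _
    rw [Dg.push_res, Dg.cell_push]⟩

/-- last cell, naturally -/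
noncomputable def dgLast (P : GPF C) (T : Shape) : NT (P.dg T) (P.cel T.last) :=
  ⟨fun A x => Dg.last x, fun g x => Dg.last_push _ _⟩

/-- the diagram of globe shape of a cell, naturally -/
noncomputable def dgOf (P : GPF C) (n : ℕ) : NT (P.cel n) (P.dg (Shape.globe n)) :=
  ⟨fun A x => Dg.ofCell x, fun {A A'} g x => by
    show Dg.ofCell ((P.map g).app n x) = Dg.push (P.map g) (Dg.ofCell x)
    rw [← Dg.ofCell_cell (Dg.push (P.map g) (Dg.ofCell x)), Dg.cell_push, Dg.cell_ofCell]⟩

noncomputable def dgCell (P : GPF C) (n : ℕ) : NT (P.dg (Shape.globe n)) (P.cel n) :=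
  ⟨fun A x => Dg.cell x, fun g x => Dg.cell_push _ _⟩

/-- gluing of natural families -/
noncomputable def dgGlue (P : GPF C) {F : Fam C} (S : Shape) (b h : ℕ) (hb : b < S.last)
    (hh : b < h) (x : NT F (P.dg S)) (y : NT F (P.cel h))
    (hxy : ∀ A w, (P.gp A).fc (pole hb true) (Dg.last (x.app A w)) =
      (P.gp A).fc (pole hh false) (y.app A w)) :
    NT F (P.dg (S.glue b h hb hh)) :=
  ⟨fun A w => Dg.glue S b h hb hh (x.app A w) (y.app A w) (hxy A w), fun {A A'} g w => by
    apply dg_glue_ext' S b h hb hh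
    · rw [Dg.glue_left]
      refine (x.nat g w).trans ?_
      show Dg.push (P.map g) _ = (Dg.push (P.map g) _).res _
      rw [Dg.push_res, Dg.glue_left]
    · rw [Dg.glue_right]
      refine (y.nat g w).trans ?_
      show (P.map g).app h _ = ((Dg.push (P.map g) _).res _).cell
      rw [Dg.push_res, Dg.cell_push, Dg.glue_right]⟩

theorem dgGlue_left (P : GPF C) {F : Fam C} (S : Shape) (b h : ℕ) (hb : b < S.last)
    (hh : b < h) (x : NT F (P.dg S)) (y : NT F (P.cel h))
    (hxy : ∀ A w, (P.gp A).fc (pole hb true) (Dg.last (x.app A w)) =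
      (P.gp A).fc (pole hh false) (y.app A w)) (A : GlobModel C) (w : F.obj A) :
    Dg.res (S.inLeft b h hb hh) ((dgGlue P S b h hb hh x y hxy).app A w) = x.app A w :=
  Dg.glue_left S b h hb hh (x.app A w) (y.app A w) (hxy A w)

theorem dgGlue_right (P : GPF C) {F : Fam C} (S : Shape) (b h : ℕ) (hb : b < S.last)
    (hh : b < h) (x : NT F (P.dg S)) (y : NT F (P.cel h))
    (hxy : ∀ A w, (P.gp A).fc (pole hb true) (Dg.last (x.app A w)) =
      (P.gp A).fc (pole hh false) (y.app A w)) (A : GlobModel C) (w : F.obj A) :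
    (Dg.res (S.inRight b h hb hh) ((dgGlue P S b h hb hh x y hxy).app A w)).cell = y.app A w :=
  Dg.glue_right S b h hb hh (x.app A w) (y.app A w) (hxy A w)

theorem dgGlue_last (P : GPF C) {F : Fam C} (S : Shape) (b h : ℕ) (hb : b < S.last)
    (hh : b < h) (x : NT F (P.dg S)) (y : NT F (P.cel h))
    (hxy : ∀ A w, (P.gp A).fc (pole hb true) (Dg.last (x.app A w)) =
      (P.gp A).fc (pole hh false) (y.app A w)) (A : GlobModel C) (w : F.obj A) :
    Dg.last ((dgGlue P S b h hb hh x y hxy).app A w) = y.app A w :=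
  Dg.glue_last S b h hb hh (x.app A w) (y.app A w) (hxy A w)

/-- the `y`-component of a cell of `HC` -/
abbrev hcy {A : GlobModel C} {n e : ℕ} (x : ((HC C n).gp A).c e) : (undGP A).c e := HCc.y x

/-- the `p`-component of a cell of `HC` -/
abbrev hcp {A : GlobModel C} {n e : ℕ} (x : ((HC C n).gp A).c e) (a : Ar n e) :
    (undGP A).c (n + 1) := HCc.p x a

theorem hcy_fc {A : GlobModel C} {n f e : ℕ} (a : Ar f e) (x : ((HC C n).gp A).c e) :
    hcy (((HC C n).gp A).fc a x) = (undGP A).fc a (hcy x) := rfl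

theorem hcp_fc {A : GlobModel C} {n f e : ℕ} (a : Ar f e) (x : ((HC C n).gp A).c e)
    (c : Ar n f) : hcp (((HC C n).gp A).fc a x) c = hcp x (sq c a) := rfl

theorem hc_ext {A : GlobModel C} {n e : ℕ} {x x' : ((HC C n).gp A).c e}
    (h1 : hcy x = hcy x') (h2 : ∀ a, hcp x a = hcp x' a) : x = x' := HCc.ext' h1 h2

/-- cells of `HC` of dimension `< n` have no `p`-component -/
theorem hc_ext_lt {A : GlobModel C} {n e : ℕ} (he : e < n) {x x' : ((HC C n).gp A).c e}
    (h1 : hcy x = hcy x') : x = x' := HCc.ext' h1 fun a => absurd (ar_le a) (not_le.2 he)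

/-- a cell of `HC` of dimension `> n` from its two `p`-components -/
def hcMk {A : GlobModel C} {n e : ℕ} (h : n < e) (y : (undGP A).c e)
    (p0 p1 : (undGP A).c (n + 1))
    (h0 : (undGP A).fc (fac n false) p0 = (undGP A).fc (pole h false) y)
    (h1 : (undGP A).fc (fac n false) p1 = (undGP A).fc (pole h true) y) :
    ((HC C n).gp A).c e :=
  show HCc (undGP A) n e from
  { y := y
    p := fun a => match a with
      | .refl _ => p0
      | .pole _ ε => if ε then p1 else p0
    hp := fun a => by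
      cases a with
      | refl => exact absurd h (lt_irrefl _)
      | pole h' ε =>
        cases ε
        · exact h0
        · exact h1 }

theorem hcMk_y {A : GlobModel C} {n e : ℕ} (h : n < e) (y : (undGP A).c e)
    (p0 p1 : (undGP A).c (n + 1)) (h0) (h1) : hcy (hcMk h y p0 p1 h0 h1) = y := rfl

theorem hcMk_p0 {A : GlobModel C} {n e : ℕ} (h : n < e) (y : (undGP A).c e)
    (p0 p1 : (undGP A).c (n + 1)) (h0) (h1) :
    hcp (hcMk h y p0 p1 h0 h1) (pole h false) = p0 := rfl

theorem hcMk_p1 {A : GlobModel C} {n e : ℕ} (h : n < e) (y : (undGP A).c e)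
    (p0 p1 : (undGP A).c (n + 1)) (h0) (h1) :
    hcp (hcMk h y p0 p1 h0 h1) (pole h true) = p1 := rfl

theorem hc_ext_gt {A : GlobModel C} {n e : ℕ} (h : n < e) {x x' : ((HC C n).gp A).c e}
    (h1 : hcy x = hcy x') (h2 : ∀ ε, hcp x (pole h ε) = hcp x' (pole h ε)) : x = x' :=
  HCc.ext' h1 fun a => by
    cases a with
    | refl => exact absurd h (lt_irrefl _)
    | pole h' ε => exact h2 ε

/-- the cell of dimension `n` -/
def hcMk0 {A : GlobModel C} {n : ℕ} (y : (undGP A).c n) (p : (undGP A).c (n + 1))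
    (h : (undGP A).fc (fac n false) p = y) : ((HC C n).gp A).c n :=
  show HCc (undGP A) n n from
  { y := y
    p := fun _ => p
    hp := fun a => by rw [ar_self a, (undGP A).fc_ide]; exact h }

theorem hc_ext_eq {A : GlobModel C} {n : ℕ} {x x' : ((HC C n).gp A).c n}
    (h1 : hcy x = hcy x') (h2 : hcp x (ide n) = hcp x' (ide n)) : x = x' :=
  HCc.ext' h1 fun a => by rw [ar_self a]; exact h2

/-- the cell of dimension `< n` -/
def hcMkL {A : GlobModel C} {n e : ℕ} (he : e < n) (y : (undGP A).c e) :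
    ((HC C n).gp A).c e :=
  show HCc (undGP A) n e from
  { y := y
    p := fun a => absurd (ar_le a) (not_le.2 he)
    hp := fun a => absurd (ar_le a) (not_le.2 he) }

theorem Ops.fc_iv_low (O : Ops C) (A : GlobModel C) {n b : ℕ} (hb : b < n) (ε : Bool)
    (x : (undGP A).c (n + 1)) :
    (undGP A).fc (pole (hb.trans (Nat.lt_succ_self n)) ε) (O.iv A x) =
      (undGP A).fc (pole (hb.trans (Nat.lt_succ_self n)) ε) x := by
  rw [← fc_globular _ hb (Nat.lt_succ_self n) ε true (O.iv A x),
    ← fc_globular _ hb (Nat.lt_succ_self n) ε false x]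
  exact congrArg _ (O.fc_iv_t A x)

theorem Ops.fc_L_low (O : Ops C) (A : GlobModel C) {n b e : ℕ} (hb : b < n) (h : n < e)
    (ε : Bool) (x : W2c (undGP A) n e) :
    (undGP A).fc (pole (hb.trans h) ε) ((O.L h).app A x) =
      (undGP A).fc (pole (hb.trans h) ε) x.y := by
  exact (fc_globular (undGP A) hb h ε false _).symm.trans
    ((congrArg _ (O.L_s h A x)).trans (fc_globular (undGP A) hb h ε false _))

theorem thH_y_le (O : Ops C) {n e : ℕ} (he : e ≤ n) (A : GlobModel C)
    (x : ((HC C n).gp A).c e) : hcy ((thH O n).app A e x) = hcy x := by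
  show llApp O n A e _ = _
  rw [llApp, dif_neg (not_lt.2 he)]
  rfl

theorem thH_y_gt (O : Ops C) {n e : ℕ} (he : n < e) (A : GlobModel C)
    (x : ((HC C n).gp A).c e) :
    hcy ((thH O n).app A e x) = (O.L he).app A (W2inv O A he (toW2c x)) := by
  show llApp O n A e _ = _
  rw [llApp, dif_pos he]

theorem thH_p (O : Ops C) {n e : ℕ} (A : GlobModel C)
    (x : ((HC C n).gp A).c e) (a : Ar n e) :
    hcp ((thH O n).app A e x) a = O.iv A (O.iv A (hcp x a)) := rfl

/-! ## Data for the G-lemma -/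

/-- closed data -/
structure GD (O : Ops C) (n : ℕ) (T : Shape) where
  G : Shape
  dim_le : G.dim ≤ max T.dim (n + 1)
  ψ : NT ((HC C n).dg T) ((und C).dg G)
  θ : NT ((und C).dg G) ((HC C n).dg T)
  θψ : ∀ (A : GlobModel C) (x : Dg ((HC C n).gp A) T),
    θ.app A (ψ.app A x) = x.push ((thH O n).at A)
  lastlt : ∀ b, b < n → b < T.last → b < G.last
  lastψ : ∀ (b : ℕ) (hb : b < n) (hT : b < T.last) (A : GlobModel C)
    (x : Dg ((HC C n).gp A) T),
    (undGP A).fc (pole (lastlt b hb hT) true) (Dg.last (Q := undGP A) (ψ.app A x)) =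
      (undGP A).fc (pole hT true) (hcy x.last)
  lastθ : ∀ (b : ℕ) (hb : b < n) (hT : b < T.last) (A : GlobModel C) (g : Dg (undGP A) G),
    (undGP A).fc (pole hT true) (hcy (Dg.last (Q := (HC C n).gp A) (θ.app A g))) =
      (undGP A).fc (pole (lastlt b hb hT) true) g.last

/-- the closed shape of open data: the open part followed by an `(n+1)`-globe -/
def clo (n : ℕ) {ℓ : ℕ} (G : Pasting ℓ) (h : n < ℓ) : Shape :=
  Shape.glue ⟨ℓ, G⟩ n (n + 1) h (Nat.lt_succ_self n)

/-- the open part of a diagram of shape `clo n G h` -/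
noncomputable def cloL {n ℓ : ℕ} {G : Pasting ℓ} {h : n < ℓ} {Q : GP.{u}}
    (x : Dg Q (clo n G h)) : Dg Q ⟨ℓ, G⟩ :=
  x.res (Shape.inLeft ⟨ℓ, G⟩ n (n + 1) h (Nat.lt_succ_self n))

/-- the last cell of the open part -/
noncomputable def cloLast {n ℓ : ℕ} {G : Pasting ℓ} {h : n < ℓ} {Q : GP.{u}}
    (x : Dg Q (clo n G h)) : Q.c ℓ := (cloL x).last

/-- the last `(n+1)`-cell -/
noncomputable def cloR {n ℓ : ℕ} {G : Pasting ℓ} {h : n < ℓ} {Q : GP.{u}}
    (x : Dg Q (clo n G h)) : Q.c (n + 1) :=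
  (x.res (Shape.inRight ⟨ℓ, G⟩ n (n + 1) h (Nat.lt_succ_self n))).cell

theorem clo_cond {n ℓ : ℕ} {G : Pasting ℓ} {h : n < ℓ} {Q : GP.{u}}
    (x : Dg Q (clo n G h)) : Q.fc (pole h true) (cloLast x) = Q.fc (fac n false) (cloR x) :=
  Dg.glue_cond ⟨ℓ, G⟩ n (n + 1) h (Nat.lt_succ_self n) x

/-- the whiskering data at the end of a diagram of shape `clo n G h` -/
noncomputable def cloW {n ℓ : ℕ} {G : Pasting ℓ} {h : n < ℓ} {Q : GP.{u}}
    (x : Dg Q (clo n G h)) : W2c Q n ℓ where
  y := cloLast x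
  p _ := cloR x
  hp _ := clo_cond x

/-- open data (for `T.last > n`) -/
structure GDo (O : Ops C) (n : ℕ) (T : Shape) (hT : n < T.last) where
  G : Pasting T.last
  dim_le : G.dim ≤ T.dim
  ψ : NT ((HC C n).dg T) ((und C).dg (clo n G hT))
  θ : NT ((und C).dg (clo n G hT)) ((HC C n).dg T)
  θψ : ∀ (A : GlobModel C) (x : Dg ((HC C n).gp A) T),
    θ.app A (ψ.app A x) = x.push ((thH O n).at A)
  ψL : ∀ (A : GlobModel C) (x : Dg ((HC C n).gp A) T),
    cloLast (Q := undGP A) (ψ.app A x) = (O.L hT).app A (toW2c x.last)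
  ψR : ∀ (A : GlobModel C) (x : Dg ((HC C n).gp A) T),
    cloR (Q := undGP A) (ψ.app A x) = O.iv A (hcp x.last (pole hT true))
  θy : ∀ (A : GlobModel C) (g : Dg (undGP A) (clo n G hT)),
    hcy (Dg.last (Q := (HC C n).gp A) (θ.app A g)) = (O.L hT).app A (cloW g)
  θp : ∀ (A : GlobModel C) (g : Dg (undGP A) (clo n G hT)),
    hcp (Dg.last (Q := (HC C n).gp A) (θ.app A g)) (pole hT true) = O.iv A (cloR g)

end Crest.Agent.R248
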