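import Crest.Agent.R248.DiagA

/-!
# R248 piece DIAGB: diagrams of glued shapes

`(S.glue b h hb hh).psh = pushout (globeRepFace hb true ≫ S.apex) (globeRepFace hh false)` in `GlobPsh.{0}`.
* `dg_glue_ext`: every cell of the pushout comes from `inl` or `inr` (jointly surjective).
* `dg_glue_exists`: `Dg Q T` is the type of natural maps `T.psh ⋙ uliftFunctor ⟶ Q`; `uliftFunctor` preserves
  colimits (`Mathlib.CategoryTheory.Limits.Preserves.Ulift`), so does whiskering; use `IsPushout`/`desc`.
* `shc_empty`: induction on the scheme; the evaluation at `e` of a pushout of presheaves that are empty at `e`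
  is empty (joint surjectivity again); `shc (globe n) e = Ar e n`, empty for `n < e`.
-/

set_option autoImplicit false
open CategoryTheory CategoryTheory.Limits Opposite
open Crest.GeometryTopology.Coherator Crest.GeometryTopology.Coherator.GlobTheory

universe u

namespace Crest.Agent.R248

namespace DIAGBaux

theorem isPushout_glue (S : Shape) (b h : ℕ) (hb : b < S.last) (hh : b < h) (e : ℕ) :
    IsPushout
      ((GlobPsh.globeRepFace hb true ≫ S.apex).app (op (GlobeObj.mk e)))
      ((GlobPsh.globeRepFace hh false).app (op (GlobeObj.mk e)))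
      ((pushout.inl (GlobPsh.globeRepFace hb true ≫ S.apex)
        (GlobPsh.globeRepFace hh false)).app (op (GlobeObj.mk e)))
      ((pushout.inr (GlobPsh.globeRepFace hb true ≫ S.apex)
        (GlobPsh.globeRepFace hh false)).app (op (GlobeObj.mk e))) :=
  (IsPushout.of_hasPushout (GlobPsh.globeRepFace hb true ≫ S.apex)
    (GlobPsh.globeRepFace hh false)).map
      ((evaluation GlobeObjᵒᵖ (Type 0)).obj (op (GlobeObj.mk e)))

/-- joint surjectivity -/
theorem shc_glue_cases (S : Shape) (b h : ℕ) (hb : b < S.last) (hh : b < h) {e : ℕ}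
    (t : shc (S.glue b h hb hh) e) :
    (∃ s : shc S e, shm (S.inLeft b h hb hh) s = t) ∨
      ∃ s : shc (Shape.globe h) e, shm (S.inRight b h hb hh) s = t :=
  Types.eq_or_eq_of_isPushout (isPushout_glue S b h hb hh e) t

theorem lastc_glue (S : Shape) (b h : ℕ) (hb : b < S.last) (hh : b < h) :
    lastc (S.glue b h hb hh) = shm (S.inRight b h hb hh) (ide h) := rfl

theorem glue_w (S : Shape) (b h : ℕ) (hb : b < S.last) (hh : b < h) :
    S.hinge hb ≫ S.inLeft b h hb hh = Shape.faceMap hh false ≫ S.inRight b h hb hh :=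
  pushout.condition (f := GlobPsh.globeRepFace hb true ≫ S.apex)
    (g := GlobPsh.globeRepFace hh false)

/-- gluing functions out of the `e`-cells of a glued shape -/
theorem exists_desc (S : Shape) (b h : ℕ) (hb : b < S.last) (hh : b < h) (e : ℕ) {Z : Type u}
    (f : shc S e → Z) (g : shc (Shape.globe h) e → Z)
    (hfg : ∀ a : shc (Shape.globe b) e, f (shm (S.hinge hb) a) = g (shm (Shape.faceMap hh false) a)) :
    ∃ k : shc (S.glue b h hb hh) e → Z,
      (∀ s, k (shm (S.inLeft b h hb hh) s) = f s) ∧ ∀ s, k (shm (S.inRight b h hb hh) s) = g s := by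
  have hP := (isPushout_glue S b h hb hh e).map (uliftFunctor.{u, 0})
  have hw : (uliftFunctor.{u, 0}).map
      ((GlobPsh.globeRepFace hb true ≫ S.apex).app (op (GlobeObj.mk e))) ≫
        (↾ (fun x : ULift.{u, 0} (shc S e) => f x.down)) =
      (uliftFunctor.{u, 0}).map
      ((GlobPsh.globeRepFace hh false).app (op (GlobeObj.mk e))) ≫
        (↾ (fun x : ULift.{u, 0} (shc (Shape.globe h) e) => g x.down)) := by
    ext a
    exact hfg a.down
  refine ⟨fun t => hP.desc (↾ (fun x : ULift.{u, 0} (shc S e) => f x.down))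
    (↾ (fun x : ULift.{u, 0} (shc (Shape.globe h) e) => g x.down)) hw (ULift.up t), ?_, ?_⟩
  · intro s
    exact types_congr_hom (hP.inl_desc _ _ hw) (ULift.up s)
  · intro s
    exact types_congr_hom (hP.inr_desc _ _ hw) (ULift.up s)

end DIAGBaux

open DIAGBaux

theorem Dg.last_glue {Q : GP.{u}} (S : Shape) (b h : ℕ) (hb : b < S.last) (hh : b < h)
    (x : Dg Q (S.glue b h hb hh)) : x.last = (x.res (S.inRight b h hb hh)).cell := rfl

/-- two diagrams of a glued shape with the same restrictions are equal -/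
theorem dg_glue_ext {Q : GP.{u}} (S : Shape) (b h : ℕ) (hb : b < S.last) (hh : b < h)
    {x y : Dg Q (S.glue b h hb hh)} (h1 : x.res (S.inLeft b h hb hh) = y.res (S.inLeft b h hb hh))
    (h2 : x.res (S.inRight b h hb hh) = y.res (S.inRight b h hb hh)) : x = y := by
  refine Dg.ext (funext fun e => funext fun t => ?_)
  rcases shc_glue_cases S b h hb hh t with ⟨s, rfl⟩ | ⟨s, rfl⟩
  · exact congrFun (congrFun (congrArg Dg.v h1) e) s
  · exact congrFun (congrFun (congrArg Dg.v h2) e) s

theorem dg_glue_ext' {Q : GP.{u}} (S : Shape) (b h : ℕ) (hb : b < S.last) (hh : b < h)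
    {x y : Dg Q (S.glue b h hb hh)} (h1 : x.res (S.inLeft b h hb hh) = y.res (S.inLeft b h hb hh))
    (h2 : (x.res (S.inRight b h hb hh)).cell = (y.res (S.inRight b h hb hh)).cell) : x = y := by
  apply dg_glue_ext S b h hb hh h1
  rw [← Dg.ofCell_cell (x.res (S.inRight b h hb hh)), h2, Dg.ofCell_cell]

/-- gluing of diagrams -/
theorem dg_glue_exists {Q : GP.{u}} (S : Shape) (b h : ℕ) (hb : b < S.last) (hh : b < h)
    (x : Dg Q S) (y : Q.c h) (hxy : Q.fc (pole hb true) x.last = Q.fc (pole hh false) y) :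
    ∃ z : Dg Q (S.glue b h hb hh), z.res (S.inLeft b h hb hh) = x ∧
      (z.res (S.inRight b h hb hh)).cell = y := by
  have hcomp : x.res (S.hinge hb) = (Dg.ofCell y).res (Shape.faceMap hh false) := by
    rw [← Dg.ofCell_cell (x.res (S.hinge hb)),
      ← Dg.ofCell_cell ((Dg.ofCell y).res (Shape.faceMap hh false)), Dg.cell_res_hinge,
      Dg.cell_res_face, Dg.cell_ofCell, hxy]
  have hex : ∀ e : ℕ, ∃ k : shc (S.glue b h hb hh) e → Q.c e,
      (∀ s, k (shm (S.inLeft b h hb hh) s) = x.v e s) ∧
        ∀ s, k (shm (S.inRight b h hb hh) s) = (Dg.ofCell y).v e s := fun e =>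
    exists_desc S b h hb hh e (x.v e) ((Dg.ofCell y).v e)
      (fun a => congrFun (congrFun (congrArg Dg.v hcomp) e) a)
  choose k hk1 hk2 using hex
  refine ⟨⟨k, ?_⟩, ?_, ?_⟩
  · intro f e a t
    rcases shc_glue_cases S b h hb hh t with ⟨s, rfl⟩ | ⟨s, rfl⟩
    · rw [← shm_shf, hk1, hk1, x.nat]
    · rw [← shm_shf, hk2, hk2, (Dg.ofCell y).nat]
  · refine Dg.ext (funext fun e => funext fun t => ?_)
    exact hk1 e t
  · exact (hk2 h (ide h)).trans (Dg.cell_ofCell y)

/-- the glued diagram -/
noncomputable def Dg.glue {Q : GP.{u}} (S : Shape) (b h : ℕ) (hb : b < S.last) (hh : b < h)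
    (x : Dg Q S) (y : Q.c h) (hxy : Q.fc (pole hb true) x.last = Q.fc (pole hh false) y) :
    Dg Q (S.glue b h hb hh) :=
  Classical.choose (dg_glue_exists S b h hb hh x y hxy)

theorem Dg.glue_left {Q : GP.{u}} (S : Shape) (b h : ℕ) (hb : b < S.last) (hh : b < h)
    (x : Dg Q S) (y : Q.c h) (hxy : Q.fc (pole hb true) x.last = Q.fc (pole hh false) y) :
    (Dg.glue S b h hb hh x y hxy).res (S.inLeft b h hb hh) = x :=
  (Classical.choose_spec (dg_glue_exists S b h hb hh x y hxy)).1

theorem Dg.glue_right {Q : GP.{u}} (S : Shape) (b h : ℕ) (hb : b < S.last) (hh : b < h)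
    (x : Dg Q S) (y : Q.c h) (hxy : Q.fc (pole hb true) x.last = Q.fc (pole hh false) y) :
    ((Dg.glue S b h hb hh x y hxy).res (S.inRight b h hb hh)).cell = y :=
  (Classical.choose_spec (dg_glue_exists S b h hb hh x y hxy)).2

theorem Dg.glue_last {Q : GP.{u}} (S : Shape) (b h : ℕ) (hb : b < S.last) (hh : b < h)
    (x : Dg Q S) (y : Q.c h) (hxy : Q.fc (pole hb true) x.last = Q.fc (pole hh false) y) :
    (Dg.glue S b h hb hh x y hxy).last = y := by
  rw [Dg.last_glue, Dg.glue_right]

/-- the matching condition holds for the restrictions of a diagram of a glued shape -/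
theorem Dg.glue_cond {Q : GP.{u}} (S : Shape) (b h : ℕ) (hb : b < S.last) (hh : b < h)
    (z : Dg Q (S.glue b h hb hh)) :
    Q.fc (pole hb true) (z.res (S.inLeft b h hb hh)).last =
      Q.fc (pole hh false) (z.res (S.inRight b h hb hh)).cell := by
  rw [← Dg.cell_res_hinge S hb, ← Dg.cell_res_face hh false, ← Dg.res_comp, ← Dg.res_comp,
    glue_w]

/-- a shape has no cells above its height -/
theorem shc_empty (T : Shape) (e : ℕ) (h : T.dim < e) (t : shc T e) : False := by
  obtain ⟨l, P⟩ := T
  induction P with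
  | single n => exact absurd (ar_le (show Ar e n from t)) (not_le.2 h)
  | @glue last P b n hb hh ih =>
    have h' : max P.dim n < e := h
    rcases shc_glue_cases ⟨last, P⟩ b n hb hh t with ⟨s, -⟩ | ⟨s, -⟩
    · exact ih (lt_of_le_of_lt (le_max_left _ _) h') s
    · exact absurd (ar_le (show Ar e n from s)) (not_le.2 (lt_of_le_of_lt (le_max_right _ _) h'))

theorem Dg.ext_dim {Q : GP.{u}} {T : Shape} {x y : Dg Q T}
    (h : ∀ (e : ℕ), e ≤ T.dim → ∀ t, x.v e t = y.v e t) : x = y := by
  refine Dg.ext (funext fun e => funext fun t => ?_)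
  by_cases he : e ≤ T.dim
  · exact h e he t
  · exact (shc_empty T e (not_le.1 he) t).elim

theorem shape_last_le_dim (T : Shape) : T.last ≤ T.dim := by
  obtain ⟨l, P⟩ := T
  cases P with
  | single n => exact le_rfl
  | glue P b n hb hh => exact le_max_right _ _

end Crest.Agent.R248
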