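import Crest.Agent.R248.Base

/-!
# R248 piece DIAGA: easy lemmas on diagrams (unfold the definitions; yoneda for `ext_globes`)
-/

set_option autoImplicit false
open CategoryTheory CategoryTheory.Limits Opposite
open Crest.GeometryTopology.Coherator Crest.GeometryTopology.Coherator.GlobTheory

universe u

namespace Crest.Agent.R248

theorem shm_comp {R S T : Shape} (f : R ⟶ S) (g : S ⟶ T) {e : ℕ} (t : shc R e) :
    shm (f ≫ g) t = shm g (shm f t) := rfl

theorem shm_id (T : Shape) {e : ℕ} (t : shc T e) : shm (𝟙 T) t = t := rfl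

theorem Dg.res_comp {Q : GP.{u}} {R S T : Shape} (f : R ⟶ S) (g : S ⟶ T) (x : Dg Q T) :
    x.res (f ≫ g) = (x.res g).res f := rfl

theorem Dg.res_id {Q : GP.{u}} {T : Shape} (x : Dg Q T) : x.res (𝟙 T) = x := rfl

theorem Dg.push_res {P Q : GP.{u}} {S T : Shape} (φ : GPH P Q) (g : S ⟶ T) (x : Dg P T) :
    (x.push φ).res g = (x.res g).push φ := rfl

theorem Dg.cell_ofCell {Q : GP.{u}} {n : ℕ} (x : Q.c n) : (Dg.ofCell x).cell = x :=
  Q.fc_ide x

theorem Dg.ofCell_cell {Q : GP.{u}} {n : ℕ} (x : Dg Q (Shape.globe n)) : Dg.ofCell x.cell = x := by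
  refine Dg.ext (funext fun e => funext fun t => ?_)
  show Q.fc (show Ar e n from t) (x.v n (ide n)) = x.v e t
  rw [← x.nat]
  have : shf (Shape.globe n) (show Ar e n from t) (ide n) = t := sq_ide (show Ar e n from t)
  rw [this]

theorem Dg.cell_push {P Q : GP.{u}} (φ : GPH P Q) {n : ℕ} (x : Dg P (Shape.globe n)) :
    (x.push φ).cell = φ.app n x.cell := rfl

theorem Dg.last_push {P Q : GP.{u}} (φ : GPH P Q) {T : Shape} (x : Dg P T) :
    (x.push φ).last = φ.app _ x.last := rfl

theorem Dg.cell_res_face {Q : GP.{u}} {m n : ℕ} (h : m < n) (ε : Bool) (x : Dg Q (Shape.globe n)) :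
    (x.res (Shape.faceMap h ε)).cell = Q.fc (pole h ε) x.cell := by
  show x.v m (shm (Shape.faceMap h ε) (ide m)) = Q.fc (pole h ε) (x.v n (ide n))
  rw [← x.nat]
  have : shm (Shape.faceMap h ε) (ide m) = shf (Shape.globe n) (pole h ε) (ide n) := by
    show sq (ide m) (pole h ε) = sq (pole h ε) (ide n)
    rfl
  rw [this]

theorem Dg.cell_res_hinge {Q : GP.{u}} (S : Shape) {b : ℕ} (hb : b < S.last) (x : Dg Q S) :
    (x.res (S.hinge hb)).cell = Q.fc (pole hb true) x.last := by
  show x.v b (shm (S.hinge hb) (ide b)) = Q.fc (pole hb true) (x.v S.last (lastc S))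
  rw [← x.nat]
  have : shm (S.hinge hb) (ide b) = shf S (pole hb true) (lastc S) := by
    show S.apex.app (op (GlobeObj.mk b)) (sq (ide b) (pole hb true)) =
      S.psh.map (Quiver.Hom.op (X := GlobeObj.mk b) (Y := GlobeObj.mk S.last) (pole hb true))
        (S.apex.app (op (GlobeObj.mk S.last)) (ide S.last))
    exact types_congr_hom (NatTrans.naturality S.apex
      (Quiver.Hom.op (X := GlobeObj.mk b) (Y := GlobeObj.mk S.last) (pole hb true)))
      (ide S.last)
  rw [this]

theorem Dg.last_globe {Q : GP.{u}} {n : ℕ} (x : Dg Q (Shape.globe n)) : x.last = x.cell := rfl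

/-- induction principle: to compare two diagrams, compare all their globes (`last` of every
initial segment is not enough, but restrictions along all maps from globes are) -/
theorem Dg.ext_globes {Q : GP.{u}} {T : Shape} {x y : Dg Q T}
    (h : ∀ (e : ℕ) (g : Shape.globe e ⟶ T), (x.res g).cell = (y.res g).cell) : x = y := by
  refine Dg.ext (funext fun e => funext fun t => ?_)
  have := h e (yonedaEquiv (X := GlobeObj.mk e) (F := T.psh) |>.symm t :
    GlobPsh.globeRep e ⟶ T.psh)
  have key : shm (S := Shape.globe e) (T := T)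
      (yonedaEquiv (X := GlobeObj.mk e) (F := T.psh) |>.symm t :
        GlobPsh.globeRep e ⟶ T.psh) (ide e) = t := by
    show (yonedaEquiv (X := GlobeObj.mk e) (F := T.psh)
      (yonedaEquiv (X := GlobeObj.mk e) (F := T.psh) |>.symm t)) = t
    exact Equiv.apply_symm_apply _ _
  show x.v e t = y.v e t
  rw [← key]
  exact this

end Crest.Agent.R248
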