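import Crest.Agent.R248.Cyl

/-!
# R248 piece FINA: spheres; trivial fibrations and cellular models

* `par_of_areParallel`: cases `n = 0` (nothing), `n = k+1` (faces of dimension `< k` through `fc_globular`).
* `lift_attaching`: for a square `u ≫ f = j ≫ v` (`HasLiftingProperty`: `CommSq`): for each `k` the boundary
  `(sphBd X _ (h.sphere k)).push (und.map u)` and the cell `v (newCell k)` give by `hf` a cell `κ k` of `A`; `h.universal A u κ` gives
  `l : Y ⟶ A`; `l ≫ f = v` by uniqueness in `h.universal A' (u ≫ f) (v ∘ newCell)`.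
* `tf_section`: `fromStart : start ⟶ X` is a transfinite composition of maps in `(MorphismProperty.ofHoms .. f).llp` (build
  `MorphismProperty.TransfiniteCompositionOfShape` from `chain` and `attach`), use
  `Mathlib.CategoryTheory.SmallObject.TransfiniteCompositionLifting` (`isStableUnderTransfiniteCompositionOfShape_llp`), lift `𝟙 X` against
  `f` with the map `start ⟶ A` (initial).
-/

set_option autoImplicit false
set_option linter.unusedVariables false
open CategoryTheory CategoryTheory.Limits Opposite
open Crest.GeometryTopology.Coherator Crest.GeometryTopology.Coherator.GlobTheory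

universe u

namespace Crest.Agent.R248

variable {C : GlobTheory.{u}}

theorem par_of_areParallel (A : GlobModel C) (n : ℕ) (x y : A.cells.cell n)
    (h : A.cells.AreParallel n x y) :
    (undGP A).Par (show (undGP A).c n from x) (show (undGP A).c n from y) := by
  cases n with
  | zero => intro f hf; exact absurd hf (Nat.not_lt_zero _)
  | succ k =>
    have h0 : (undGP A).fc (fac k false) (show (undGP A).c (k + 1) from x) =
        (undGP A).fc (fac k false) (show (undGP A).c (k + 1) from y) := h.1
    have h1 : (undGP A).fc (fac k true) (show (undGP A).c (k + 1) from x) =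
        (undGP A).fc (fac k true) (show (undGP A).c (k + 1) from y) := h.2
    intro f hf ε
    rcases Nat.lt_or_ge f k with hf' | hf'
    · have e1 := fc_globular (undGP A) hf' (Nat.lt_succ_self k) ε false
        (show (undGP A).c (k + 1) from x)
      have e2 := fc_globular (undGP A) hf' (Nat.lt_succ_self k) ε false
        (show (undGP A).c (k + 1) from y)
      exact e1.symm.trans ((congrArg _ h0).trans e2)
    · obtain rfl : f = k := Nat.le_antisymm (Nat.lt_succ_iff.1 hf) hf'
      cases ε
      · exact h0
      · exact h1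

/-- spheres as boundaries -/
noncomputable def sphBd (A : GlobModel C) : (n : ℕ) → A.cells.Sphere n → Bd (undGP A) n
  | 0, _ => ⟨fun h _ => absurd h (Nat.not_lt_zero _), fun _ h => absurd h (Nat.not_lt_zero _)⟩
  | _ + 1, s => Bd.mk₂ _ _ (par_of_areParallel A _ s.1.1 s.1.2 s.2)

theorem sphBd_false (A : GlobModel C) (k : ℕ) (s : A.cells.Sphere (k + 1)) :
    (sphBd A (k + 1) s).v (Nat.lt_succ_self k) false = (show (undGP A).c k from s.1.1) :=
  Bd.mk₂_false (Q := undGP A) (i := k) _ _ (par_of_areParallel A k _ _ s.2)

theorem sphBd_true (A : GlobModel C) (k : ℕ) (s : A.cells.Sphere (k + 1)) :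
    (sphBd A (k + 1) s).v (Nat.lt_succ_self k) true = (show (undGP A).c k from s.1.2) :=
  Bd.mk₂_true (Q := undGP A) (i := k) _ _ (par_of_areParallel A k _ _ s.2)

theorem bdry_iff (A : GlobModel C) (n : ℕ) (x : A.cells.cell n) (s : A.cells.Sphere n) :
    A.cells.bdry n x = s ↔ (undGP A).bdy (show (undGP A).c n from x) = sphBd A n s := by
  cases n with
  | zero =>
    constructor
    · intro _
      exact Bd.ext' fun f hf _ => absurd hf (Nat.not_lt_zero _)
    · intro _
      rfl
  | succ k =>
    constructor
    · intro h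
      subst h
      refine Bd.ext_succ fun ε => ?_
      cases ε
      · exact (sphBd_false A k (A.cells.bdry (k + 1) x)).symm
      · exact (sphBd_true A k (A.cells.bdry (k + 1) x)).symm
    · intro h
      have e1 := (fc_of_bdy h (Nat.lt_succ_self k) false).trans (sphBd_false A k s)
      have e2 := (fc_of_bdy h (Nat.lt_succ_self k) true).trans (sphBd_true A k s)
      exact Subtype.ext (Prod.ext e1 e2)

theorem sphBd_map {A A' : GlobModel C} (f : A ⟶ A') (n : ℕ) (s : A.cells.Sphere n) :
    sphBd A' n ((GlobModel.cellsMap f).sphere n s) =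
      (sphBd A n s).push ((und C).map f) := by
  cases n with
  | zero => exact Bd.ext' fun f hf _ => absurd hf (Nat.not_lt_zero _)
  | succ k =>
    refine Bd.ext_succ fun ε => ?_
    cases ε
    · exact (sphBd_false A' k ((GlobModel.cellsMap f).sphere (k + 1) s)).trans
        (congrArg (((und C).map f).app k) (sphBd_false A k s).symm)
    · exact (sphBd_true A' k ((GlobModel.cellsMap f).sphere (k + 1) s)).trans
        (congrArg (((und C).map f).app k) (sphBd_true A k s).symm)

/-- trivial fibrations -/
def TFib {A A' : GlobModel C} (f : A ⟶ A') : Prop :=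
  ∀ (e : ℕ) (d : Bd (undGP A) e) (y : (undGP A').c e),
    (undGP A').bdy y = d.push ((und C).map f) →
    ∃ κ : (undGP A).c e, (undGP A).bdy κ = d ∧ ((und C).map f).app e κ = y

theorem lift_attaching {X Y : GlobModel C} {j : X ⟶ Y} (h : GlobModel.IsAttaching j)
    {A A' : GlobModel C} (f : A ⟶ A') (hf : TFib f) : HasLiftingProperty j f := by
  constructor
  intro u v sq
  have hbd : ∀ k, (undGP A').bdy (((und C).map v).app _
      (show (undGP Y).c (h.dimOf k) from h.newCell k)) =
      ((sphBd X _ (h.sphere k)).push ((und C).map u)).push ((und C).map f) := by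
    intro k
    have h1 := (bdry_iff Y _ (h.newCell k) _).1 (h.newCell_bdry k)
    have h2 := bdy_push ((und C).map v) (show (undGP Y).c (h.dimOf k) from h.newCell k)
    refine h2.trans ((congrArg (Bd.push ((und C).map v)) (h1.trans (sphBd_map j _ _))).trans ?_)
    refine Bd.ext' fun g hg ε => ?_
    exact congrArg (fun φ => ((und C).map φ).app g ((sphBd X _ (h.sphere k)).v hg ε)) sq.w.symm
  choose κ hκ1 hκ2 using fun k => hf (h.dimOf k) ((sphBd X _ (h.sphere k)).push ((und C).map u))
    (((und C).map v).app _ (show (undGP Y).c (h.dimOf k) from h.newCell k)) (hbd k)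
  obtain ⟨l, ⟨hl1, hl2⟩, -⟩ := h.universal A u κ (fun k => (bdry_iff A _ _ _).2
    ((hκ1 k).trans (sphBd_map u _ _).symm))
  refine ⟨⟨⟨l, hl1, ?_⟩⟩⟩
  obtain ⟨l', -, hl'⟩ := h.universal A' (u ≫ f)
    (fun k => ((und C).map v).app _ (show (undGP Y).c (h.dimOf k) from h.newCell k))
    (fun k => (bdry_iff A' _ _ _).2 ((hbd k).trans (by
      rw [sphBd_map]; rfl)))
  have e1 := hl' (l ≫ f) ⟨by rw [← Category.assoc, hl1], fun k => by
    have := hκ2 k
    rw [← this]
    exact congrArg (((und C).map f).app _) (hl2 k)⟩
  have e2 := hl' v ⟨sq.w.symm, fun k => rfl⟩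
  exact e1.trans e2.symm

theorem tf_section {X A : GlobModel C} (hX : X.IsCellularModel) (f : A ⟶ X) (hf : TFib f) :
    ∃ σ : X ⟶ A, σ ≫ f = 𝟙 X := by
  obtain ⟨P⟩ := hX
  let _ := P.linOrd
  let _ := P.bot
  let _ := P.succ
  have _ := P.wf
  let W : MorphismProperty (GlobModel C) := fun _ _ p => TFib p
  have hW : W.llp P.fromStart := by
    have h1 : (W.llp).TransfiniteCompositionOfShape P.J P.fromStart :=
      { P.chain with
        map_mem := fun j hj _ _ p hp => lift_attaching (P.attach j hj) p hp }
    exact (W.llp).transfiniteCompositionsOfShape_le P.J _ h1.mem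
  have := hW f hf
  have sq : CommSq (P.startIsInitial.to A) P.fromStart f (𝟙 X) :=
    ⟨P.startIsInitial.hom_ext _ _⟩
  exact ⟨sq.lift, sq.fac_right⟩

end Crest.Agent.R248
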