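import Crest.Agent.R248.Cyl

/-!
# R248 piece FINB: disks and the pushout (Yoneda; `diskModel C n = freeOn C (globe n)`)
-/

set_option autoImplicit false
set_option linter.unusedVariables false
open CategoryTheory CategoryTheory.Limits Opposite
open Crest.GeometryTopology.Coherator Crest.GeometryTopology.Coherator.GlobTheory

universe u

namespace Crest.Agent.R248

variable {C : GlobTheory.{u}}

/-- the cell of a map from a disk -/
noncomputable def dcell {n : ℕ} {A : GlobModel C} (g : GlobModel.diskModel C n ⟶ A) :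
    (undGP A).c n :=
  NatTrans.app (F := (GlobModel.diskModel C n).functor) (G := A.functor) g
    (op (⟨Shape.globe n⟩ : C.Ob)) (C.one (Shape.globe n))

theorem dcell_bij (n : ℕ) (A : GlobModel C) :
    Function.Bijective (dcell (n := n) (A := A)) := by
  exact (yonedaEquiv (X := (⟨Shape.globe n⟩ : C.Ob)) (F := A.functor)).bijective

theorem dcell_comp {n : ℕ} {A A' : GlobModel C} (g : GlobModel.diskModel C n ⟶ A)
    (f : A ⟶ A') : dcell (g ≫ f) = ((und C).map f).app n (dcell g) := by
  rfl

theorem dcell_source {n : ℕ} {A : GlobModel C} (g : GlobModel.diskModel C (n + 1) ⟶ A) :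
    dcell (GlobModel.sourceIncl C n ≫ g) = (undGP A).fc (fac n false) (dcell g) := by
  have h1 : dcell (GlobModel.sourceIncl C n ≫ g) =
      NatTrans.app (F := (GlobModel.diskModel C (n + 1)).functor) (G := A.functor) g
        (op (⟨Shape.globe n⟩ : C.Ob)) (C.seq (C.one (Shape.globe n)) (C.ofShape (Shape.σ n))) := rfl
  have h2 := types_congr_hom (NatTrans.naturality
    (F := (GlobModel.diskModel C (n + 1)).functor) (G := A.functor) g
    (Quiver.Hom.op (X := (⟨Shape.globe n⟩ : C.Ob)) (Y := (⟨Shape.globe (n + 1)⟩ : C.Ob))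
      (C.ofShape (Shape.σ n)))) (C.one (Shape.globe (n + 1)))
  have h3 : NatTrans.app (F := (GlobModel.diskModel C (n + 1)).functor) (G := A.functor) g
        (op (⟨Shape.globe n⟩ : C.Ob)) (C.seq (C.ofShape (Shape.σ n)) (C.one (Shape.globe (n + 1)))) =
      (undGP A).fc (fac n false) (dcell g) := h2
  rw [h1, ← h3, C.one_seq, C.seq_one]

section po

variable {X Y : GlobModel C} {n : ℕ} {a : GlobModel.diskModel C n ⟶ X} {i : X ⟶ Y}
  {b : GlobModel.diskModel C (n + 1) ⟶ Y} (sq : IsPushout a (GlobModel.sourceIncl C n) i b)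

include sq

theorem po_source : (undGP Y).fc (fac n false) (dcell b) = ((und C).map i).app n (dcell a) := by
  rw [← dcell_source, ← dcell_comp, sq.w]

theorem po_exists (Z : GlobModel C) (g : X ⟶ Z) (w : (undGP Z).c (n + 1))
    (hw : (undGP Z).fc (fac n false) w = ((und C).map g).app n (dcell a)) :
    ∃ h : Y ⟶ Z, i ≫ h = g ∧ ((und C).map h).app (n + 1) (dcell b) = w := by
  obtain ⟨w', hw'⟩ := (dcell_bij (n + 1) Z).2 w
  have hc : a ≫ g = GlobModel.sourceIncl C n ≫ w' := by
    apply (dcell_bij n Z).1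
    rw [dcell_source, dcell_comp, hw', hw]
  refine ⟨sq.desc g w' hc, sq.inl_desc _ _ _, ?_⟩
  rw [← dcell_comp, sq.inr_desc, hw']

theorem po_ext (Z : GlobModel C) (h h' : Y ⟶ Z) (h1 : i ≫ h = i ≫ h')
    (h2 : ((und C).map h).app (n + 1) (dcell b) = ((und C).map h').app (n + 1) (dcell b)) :
    h = h' := by
  refine sq.hom_ext h1 ?_
  apply (dcell_bij (n + 1) Z).1
  rw [dcell_comp, dcell_comp, h2]

end po

end Crest.Agent.R248
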