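import Crest.Agent.R248.DGlue

/-!
# R248 piece GCASEB: globes of dimension `n` and `> n`

* `gd_single_eq`: `G := globe (n+1)`; `ψ x := ofCell (inv (hcp x.cell (ide n)))`;
  `θ g := ofCell (hcMk0 (t g.cell) (inv g.cell))`. `θψ x = (t (inv p), inv inv p) = (y, inv inv p)`, `thH_y_le`.
* `gdo_single_gt` (`n < h`), `c := x.cell = (y, p₋, p₊)`: open part `(globe (n+1)).glue n h`, i.e. `Pasting.glue (.single (n+1)) n h`
  (height `max (n+1) h = h`). `ψ x := (inv p₋ ∨_n L (toW2c c)) ∨_n inv p₊`: matching by `fc_iv_t`, `hp`, `L_s` and `L_t`,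
  `fc_iv_s`. `θ g`, `g = (q₀ ∨ ỹ) ∨ q₁`: `ofCell (hcMk (L (cloW g)) (inv q₀) (inv q₁))` (`fc_iv_s`, `glue_cond`, `L_s`, `L_t`).
  `θψ`: `y`-component `L (W2inv (toW2c c))` (`thH_y_gt`; `W2c.ext`), `p`-components `inv inv`.
-/

set_option autoImplicit false
set_option linter.unusedVariables false
open CategoryTheory CategoryTheory.Limits Opposite
open Crest.GeometryTopology.Coherator Crest.GeometryTopology.Coherator.GlobTheory

universe u

namespace Crest.Agent.R248

variable {C : GlobTheory.{u}}

private theorem last_ofCell' {Q : GP.{u}} {n : ℕ} (x : Q.c n) :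
    (Dg.ofCell x : Dg Q (Shape.globe n)).last = x := by
  rw [Dg.last_globe, Dg.cell_ofCell]

private theorem push_eq_ofCell {P Q : GP.{u}} (φ : GPH P Q) {n : ℕ}
    (x : Dg P (Shape.globe n)) : x.push φ = Dg.ofCell (φ.app n x.cell) := by
  rw [← Dg.cell_push, Dg.ofCell_cell]

/-- `c ↦ inv (c.p a)` -/
private noncomputable def ivp (O : Ops C) (n : ℕ) {e : ℕ} (a : Ar n e) :
    NT ((HC C n).cel e) ((und C).cel (n + 1)) :=
  ⟨fun A (x : ((HC C n).gp A).c e) => O.iv A (hcp x a), fun g x => (O.map_iv g _).symm⟩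

private noncomputable def mk0N (O : Ops C) (n : ℕ) :
    NT ((und C).cel (n + 1)) ((HC C n).cel n) :=
  ⟨fun A (g : (undGP A).c (n + 1)) =>
      hcMk0 ((undGP A).fc (fac n true) g) (O.iv A g) (O.fc_iv_s A g), fun {A A'} f g => by
    refine hc_ext_eq ?_ ?_
    · exact (((und C).map f).nat (fac n true) g).symm
    · exact (O.map_iv f _).symm⟩

theorem gd_single_eq (O : Ops C) (n : ℕ) : Nonempty (GD O n (Shape.globe n)) := by
  refine ⟨{ G := Shape.globe (n + 1)
            dim_le := le_max_right _ _
            ψ := ((dgCell (HC C n) n).comp (ivp O n (ide n))).comp (dgOf (und C) (n + 1))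
            θ := ((dgCell (und C) (n + 1)).comp (mk0N O n)).comp (dgOf (HC C n) n)
            θψ := ?_
            lastlt := fun b hb _ => hb.trans (Nat.lt_succ_self n)
            lastψ := ?_
            lastθ := ?_ }⟩
  · intro A x
    rw [push_eq_ofCell]
    show Dg.ofCell (Q := (HC C n).gp A) (n := n) ((mk0N O n).app A
      (Dg.cell (Dg.ofCell (Q := undGP A) (O.iv A (hcp x.cell (ide n)))))) = _
    rw [Dg.cell_ofCell]
    refine congrArg (Dg.ofCell (Q := (HC C n).gp A) (n := n)) ?_
    refine hc_ext_eq ?_ ?_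
    · show (undGP A).fc (fac n true) (O.iv A (hcp x.cell (ide n))) =
        hcy ((thH O n).app A n x.cell)
      rw [thH_y_le O le_rfl, O.fc_iv_t]
      refine ((show HCc (undGP A) n n from x.cell).hp (ide n)).trans ?_
      exact (undGP A).fc_ide _
    · rfl
  · intro b hb hT A x
    show (undGP A).fc (pole (hb.trans (Nat.lt_succ_self n)) true)
      (Dg.last (Dg.ofCell (O.iv A (hcp x.cell (ide n))))) = _
    rw [last_ofCell']
    refine (O.fc_iv_low A hb true (hcp x.cell (ide n))).trans ?_
    refine (fc_globular _ hb (Nat.lt_succ_self n) true false _).symm.trans ?_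
    refine congrArg _ (((show HCc (undGP A) n n from x.cell).hp (ide n)).trans ?_)
    exact (undGP A).fc_ide _
  · intro b hb hT A g
    show (undGP A).fc (pole _ true) (hcy (Dg.last (Dg.ofCell (hcMk0
      ((undGP A).fc (fac n true) g.cell) (O.iv A g.cell) (O.fc_iv_s A g.cell))))) = _
    rw [last_ofCell']
    exact fc_globular _ hb (Nat.lt_succ_self n) true true g.cell

/-- the first `(n+1)`-cell -/
private noncomputable def q0 {Q : GP.{u}} (n h : ℕ) (hh : n < h)
    (g : Dg Q (clo n (Pasting.glue (.single (n + 1)) n h (Nat.lt_succ_self n) hh) hh)) :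
    Q.c (n + 1) :=
  (Dg.res ((Shape.globe (n + 1)).inLeft n h (Nat.lt_succ_self n) hh) (cloL g)).cell

private theorem q0_cond {Q : GP.{u}} (n h : ℕ) (hh : n < h)
    (g : Dg Q (clo n (Pasting.glue (.single (n + 1)) n h (Nat.lt_succ_self n) hh) hh)) :
    Q.fc (fac n true) (q0 n h hh g) = Q.fc (pole hh false) (cloLast g) := by
  have h1 := Dg.glue_cond (Shape.globe (n + 1)) n h (Nat.lt_succ_self n) hh (cloL g)
  have h2 := Dg.last_glue (Shape.globe (n + 1)) n h (Nat.lt_succ_self n) hh (cloL g)
  have h3 : cloLast g = _ := h2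
  rw [h3]
  exact h1

private noncomputable def mkN (O : Ops C) (n h : ℕ) (hh : n < h) :
    NT ((und C).dg (clo n (Pasting.glue (.single (n + 1)) n h (Nat.lt_succ_self n) hh) hh))
      ((HC C n).cel h) :=
  ⟨fun A g => hcMk hh ((O.L hh).app A (cloW g)) (O.iv A (q0 (Q := undGP A) n h hh g))
      (O.iv A (cloR g))
      (by
        refine (O.fc_iv_s A _).trans ?_
        refine (q0_cond (Q := undGP A) n h hh g).trans ?_
        exact (O.L_s hh A (cloW g)).symm)
      (by
        refine (O.fc_iv_s A _).trans ?_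
        exact (O.L_t hh A (cloW g)).symm),
    fun {A A'} f g => by
      refine hc_ext_gt hh ?_ (fun ε => ?_)
      · exact (O.L hh).nat f (cloW (Q := undGP A) g)
      · cases ε with
        | false => exact (O.map_iv f _).symm
        | true => exact (O.map_iv f _).symm⟩

private noncomputable def psiX (O : Ops C) (n h : ℕ) (hh : n < h) :
    NT ((HC C n).dg (Shape.globe h))
      ((und C).dg ((Shape.globe (n + 1)).glue n h (Nat.lt_succ_self n) hh)) :=
  dgGlue (und C) (Shape.globe (n + 1)) n h (Nat.lt_succ_self n) hh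
    (((dgCell (HC C n) h).comp (ivp O n (pole hh false))).comp (dgOf (und C) (n + 1)))
    (((dgCell (HC C n) h).comp ((toW2 n).cel h)).comp (O.L hh))
    (fun A x => by
      show (undGP A).fc (pole _ true) (Dg.last (Dg.ofCell
        (O.iv A (hcp x.cell (pole hh false))))) =
        (undGP A).fc (pole hh false) ((O.L hh).app A (toW2c x.cell))
      rw [last_ofCell', O.L_s hh A]
      refine (O.fc_iv_t A _).trans ?_
      exact (show HCc (undGP A) n h from x.cell).hp (pole hh false))

private theorem psiX_last (O : Ops C) (n h : ℕ) (hh : n < h) (A : GlobModel C)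
    (x : Dg ((HC C n).gp A) (Shape.globe h)) :
    Dg.last (Q := undGP A) ((psiX O n h hh).app A x) = (O.L hh).app A (toW2c x.cell) :=
  dgGlue_last (F := (HC C n).dg (Shape.globe h)) (und C) (Shape.globe (n + 1)) n h
    (Nat.lt_succ_self n) hh _ _ _ A x

private theorem psiX_left (O : Ops C) (n h : ℕ) (hh : n < h) (A : GlobModel C)
    (x : Dg ((HC C n).gp A) (Shape.globe h)) :
    Dg.res (Q := undGP A) ((Shape.globe (n + 1)).inLeft n h (Nat.lt_succ_self n) hh)
      ((psiX O n h hh).app A x) = Dg.ofCell (O.iv A (hcp x.cell (pole hh false))) :=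
  dgGlue_left (F := (HC C n).dg (Shape.globe h)) (und C) (Shape.globe (n + 1)) n h
    (Nat.lt_succ_self n) hh _ _ _ A x

private noncomputable def psiN (O : Ops C) (n h : ℕ) (hh : n < h) :
    NT ((HC C n).dg (Shape.globe h))
      ((und C).dg (clo n (Pasting.glue (.single (n + 1)) n h (Nat.lt_succ_self n) hh) hh)) :=
  dgGlue (und C) ((Shape.globe (n + 1)).glue n h (Nat.lt_succ_self n) hh) n (n + 1) hh
    (Nat.lt_succ_self n) (psiX O n h hh)
    ((dgCell (HC C n) h).comp (ivp O n (pole hh true)))
    (fun A x => by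
      refine (congrArg _ (psiX_last O n h hh A x)).trans ?_
      refine (O.L_t hh A _).trans ?_
      exact (O.fc_iv_s A (hcp x.cell (pole hh true))).symm)

private theorem psiN_L (O : Ops C) (n h : ℕ) (hh : n < h) (A : GlobModel C)
    (x : Dg ((HC C n).gp A) (Shape.globe h)) :
    cloL (Q := undGP A) ((psiN O n h hh).app A x) = (psiX O n h hh).app A x :=
  dgGlue_left (F := (HC C n).dg (Shape.globe h)) (und C)
    ((Shape.globe (n + 1)).glue n h (Nat.lt_succ_self n) hh) n (n + 1) hh
    (Nat.lt_succ_self n) _ _ _ A x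

private theorem psiN_last (O : Ops C) (n h : ℕ) (hh : n < h) (A : GlobModel C)
    (x : Dg ((HC C n).gp A) (Shape.globe h)) :
    cloLast (Q := undGP A) ((psiN O n h hh).app A x) = (O.L hh).app A (toW2c x.cell) := by
  unfold cloLast
  rw [psiN_L]
  exact psiX_last O n h hh A x

private theorem psiN_R (O : Ops C) (n h : ℕ) (hh : n < h) (A : GlobModel C)
    (x : Dg ((HC C n).gp A) (Shape.globe h)) :
    cloR (Q := undGP A) ((psiN O n h hh).app A x) = O.iv A (hcp x.cell (pole hh true)) :=
  dgGlue_right (F := (HC C n).dg (Shape.globe h)) (und C)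
    ((Shape.globe (n + 1)).glue n h (Nat.lt_succ_self n) hh) n (n + 1) hh
    (Nat.lt_succ_self n) _ _ _ A x

private theorem psiN_q0 (O : Ops C) (n h : ℕ) (hh : n < h) (A : GlobModel C)
    (x : Dg ((HC C n).gp A) (Shape.globe h)) :
    q0 (Q := undGP A) n h hh ((psiN O n h hh).app A x) =
      O.iv A (hcp x.cell (pole hh false)) :=
  (congrArg (fun z => (Dg.res (Q := undGP A)
    ((Shape.globe (n + 1)).inLeft n h (Nat.lt_succ_self n) hh) z).cell)
    (psiN_L O n h hh A x)).trans
    ((congrArg Dg.cell (psiX_left O n h hh A x)).trans (Dg.cell_ofCell _))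

theorem gdo_single_gt (O : Ops C) (n h : ℕ) (hh : n < h) :
    Nonempty (GDo O n (Shape.globe h) hh) := by
  refine ⟨{ G := Pasting.glue (.single (n + 1)) n h (Nat.lt_succ_self n) hh
            dim_le := ?_
            ψ := psiN O n h hh
            θ := (mkN O n h hh).comp (dgOf (HC C n) h)
            θψ := ?_
            ψL := fun A x => psiN_last O n h hh A x
            ψR := fun A x => psiN_R O n h hh A x
            θy := ?_
            θp := ?_ }⟩
  · show max (n + 1) h ≤ h
    exact max_le hh le_rfl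
  · intro A x
    rw [push_eq_ofCell]
    show Dg.ofCell (Q := (HC C n).gp A) (n := h)
      ((mkN O n h hh).app A ((psiN O n h hh).app A x)) = _
    refine congrArg (Dg.ofCell (Q := (HC C n).gp A) (n := h)) ?_
    refine hc_ext_gt hh ?_ (fun ε => ?_)
    · show (O.L hh).app A (cloW _) = hcy ((thH O n).app A h x.cell)
      rw [thH_y_gt O hh]
      congr 1
      exact W2c.ext' (psiN_last O n h hh A x) (fun _ => psiN_R O n h hh A x)
    · cases ε with
      | false =>
        show O.iv A (q0 (Q := undGP A) n h hh ((psiN O n h hh).app A x)) =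
          O.iv A (O.iv A (hcp x.cell (pole hh false)))
        exact congrArg (O.iv A) (psiN_q0 O n h hh A x)
      | true =>
        show O.iv A (cloR (Q := undGP A) ((psiN O n h hh).app A x)) =
          O.iv A (O.iv A (hcp x.cell (pole hh true)))
        rw [psiN_R]
  · intro A g
    show hcy (Dg.last (Dg.ofCell (Q := (HC C n).gp A) (n := h) ((mkN O n h hh).app A g))) = _
    rw [last_ofCell']
    rfl
  · intro A g
    show hcp (Dg.last (Dg.ofCell (Q := (HC C n).gp A) (n := h) ((mkN O n h hh).app A g)))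
      (pole hh true) = _
    rw [last_ofCell']
    rfl

end Crest.Agent.R248
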