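import Crest.Agent.R248.DGlue

/-!
# R248 piece GCASEC: gluing a globe of dimension `≤ n` along `b < n`

Write `x = (x₀, c)` with `x₀` the left part (`dgL`) and `c` the last cell (`dgR`) of `x : Dg HC (T.glue b h)`.
* `gd_glue_lt_lt` (`h < n`): `G := D.G.glue b h`; `ψ x := D.ψ x₀ ∨_b hcy c` (matching: `D.lastψ`, `Dg.glue_cond`),
  `θ (g₀, y) := D.θ g₀ ∨_b hcMkL y` (matching in `HC_b`, `b < n`: `hc_ext_lt`, `D.lastθ`). `θψ`: `dg_glue_ext`(`'`), `D.θψ`, push_res.
* `gd_glue_lt_eq` (`h = n`): `G := D.G.glue b (n+1)`; `ψ x := D.ψ x₀ ∨_b inv (hcp c (ide n))`,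
  `θ (g₀, q) := D.θ g₀ ∨_b hcMk0 (t q) (inv q)`; matching by `Ops.fc_iv_low`, `fc_globular`, `hp`.
-/

set_option autoImplicit false
set_option linter.unusedVariables false
open CategoryTheory CategoryTheory.Limits Opposite
open Crest.GeometryTopology.Coherator Crest.GeometryTopology.Coherator.GlobTheory

universe u

namespace Crest.Agent.R248

variable {C : GlobTheory.{u}}

namespace GCC

/-- `y ↦ (y)` for `e < n` -/
noncomputable def mkLN (n : ℕ) {e : ℕ} (he : e < n) : NT ((und C).cel e) ((HC C n).cel e) :=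
  ⟨fun A (y : (undGP A).c e) => hcMkL he y, fun {A A'} f y => by
    refine hc_ext_lt he ?_
    rfl⟩

/-- `c ↦ inv (c.p a)` -/
noncomputable def ivp (O : Ops C) (n : ℕ) {e : ℕ} (a : Ar n e) :
    NT ((HC C n).cel e) ((und C).cel (n + 1)) :=
  ⟨fun A (x : ((HC C n).gp A).c e) => O.iv A (hcp x a), fun g x => (O.map_iv g _).symm⟩

noncomputable def mk0N (O : Ops C) (n : ℕ) :
    NT ((und C).cel (n + 1)) ((HC C n).cel n) :=
  ⟨fun A (g : (undGP A).c (n + 1)) =>
      hcMk0 ((undGP A).fc (fac n true) g) (O.iv A g) (O.fc_iv_s A g), fun {A A'} f g => by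
    refine hc_ext_eq ?_ ?_
    · exact (((und C).map f).nat (fac n true) g).symm
    · exact (O.map_iv f _).symm⟩

theorem hcond {A : GlobModel C} {n : ℕ} (T : Shape) {b h : ℕ} (hb : b < T.last) (hh : b < h)
    (w : Dg ((HC C n).gp A) (T.glue b h hb hh)) :
    (undGP A).fc (pole hb true) (hcy (Dg.last (Q := (HC C n).gp A) (w.res (T.inLeft b h hb hh)))) =
      (undGP A).fc (pole hh false)
        (hcy (Dg.cell (Q := (HC C n).gp A) (w.res (T.inRight b h hb hh)))) :=
  congrArg hcy (Dg.glue_cond (Q := (HC C n).gp A) T b h hb hh w)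

theorem hcy_bdry {A : GlobModel C} {n b : ℕ} (hb : b < n) (c : ((HC C n).gp A).c n) (ε : Bool) :
    (undGP A).fc (pole (hb.trans (Nat.lt_succ_self n)) ε) (hcp c (ide n)) =
      (undGP A).fc (pole hb ε) (hcy c) := by
  refine (fc_globular _ hb (Nat.lt_succ_self n) ε false _).symm.trans ?_
  refine congrArg _ (((show HCc (undGP A) n n from c).hp (ide n)).trans ?_)
  exact (undGP A).fc_ide _

end GCC

theorem gd_glue_lt_lt (O : Ops C) (n : ℕ) (T : Shape) (D : GD O n T) (b h : ℕ)
    (hb : b < T.last) (hh : b < h) (hbn : b < n) (hhn : h < n) :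
    Nonempty (GD O n (T.glue b h hb hh)) := by
  have hb' : b < D.G.last := D.lastlt b hbn hb
  have hxy : ∀ (A : GlobModel C) (w : ((HC C n).dg (T.glue b h hb hh)).obj A),
      ((und C).gp A).fc (pole hb' true)
        (Dg.last (((dgL (HC C n) T b h hb hh).comp D.ψ).app A w)) =
      ((und C).gp A).fc (pole hh false)
        (((dgR (HC C n) T b h hb hh).comp ((HC.y n).cel h)).app A w) := fun A w =>
    (D.lastψ b hbn hb A (Dg.res (T.inLeft b h hb hh) w)).trans (GCC.hcond T hb hh w)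
  have hxy' : ∀ (A : GlobModel C) (w : ((und C).dg (D.G.glue b h hb' hh)).obj A),
      ((HC C n).gp A).fc (pole hb true)
        (Dg.last (((dgL (und C) D.G b h hb' hh).comp D.θ).app A w)) =
      ((HC C n).gp A).fc (pole hh false)
        (((dgR (und C) D.G b h hb' hh).comp (GCC.mkLN n hhn)).app A w) := by
    intro A w
    refine hc_ext_lt hbn ?_
    exact (D.lastθ b hbn hb A (Dg.res (D.G.inLeft b h hb' hh) w)).trans
      (Dg.glue_cond (Q := undGP A) D.G b h hb' hh w)
  let ψ := dgGlue (und C) D.G b h hb' hh ((dgL (HC C n) T b h hb hh).comp D.ψ)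
    ((dgR (HC C n) T b h hb hh).comp ((HC.y n).cel h)) hxy
  let θ := dgGlue (HC C n) T b h hb hh ((dgL (und C) D.G b h hb' hh).comp D.θ)
    ((dgR (und C) D.G b h hb' hh).comp (GCC.mkLN n hhn)) hxy'
  have ψL : ∀ (A : GlobModel C) (x : Dg ((HC C n).gp A) (T.glue b h hb hh)),
      Dg.res (D.G.inLeft b h hb' hh) (ψ.app A x) = D.ψ.app A (Dg.res (T.inLeft b h hb hh) x) :=
    fun A x => dgGlue_left _ _ _ _ _ _ _ _ _ _ _
  have ψR : ∀ (A : GlobModel C) (x : Dg ((HC C n).gp A) (T.glue b h hb hh)),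
      (Dg.res (D.G.inRight b h hb' hh) (ψ.app A x)).cell =
        hcy (Dg.cell (Q := (HC C n).gp A) (Dg.res (T.inRight b h hb hh) x)) :=
    fun A x => dgGlue_right _ _ _ _ _ _ _ _ _ _ _
  have θL : ∀ (A : GlobModel C) (g : Dg (undGP A) (D.G.glue b h hb' hh)),
      Dg.res (T.inLeft b h hb hh) (θ.app A g) = D.θ.app A (Dg.res (D.G.inLeft b h hb' hh) g) :=
    fun A x => dgGlue_left _ _ _ _ _ _ _ _ _ _ _
  have θR : ∀ (A : GlobModel C) (g : Dg (undGP A) (D.G.glue b h hb' hh)),
      (Dg.res (T.inRight b h hb hh) (θ.app A g)).cell =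
        hcMkL hhn ((Dg.res (D.G.inRight b h hb' hh) g).cell) :=
    fun A x => dgGlue_right _ _ _ _ _ _ _ _ _ _ _
  refine ⟨{ G := D.G.glue b h hb' hh
            dim_le := ?_
            ψ := ψ
            θ := θ
            θψ := ?_
            lastlt := fun b' _ h' => h'
            lastψ := ?_
            lastθ := ?_ }⟩
  · have h1 := D.dim_le
    show max D.G.dim h ≤ max (max T.dim h) (n + 1)
    omega
  · intro A x
    refine dg_glue_ext' (Q := (HC C n).gp A) T b h hb hh ?_ ?_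
    · exact (θL A (ψ.app A x)).trans ((congrArg (D.θ.app A) (ψL A x)).trans (D.θψ A _))
    · refine (θR A (ψ.app A x)).trans ((congrArg (hcMkL hhn) (ψR A x)).trans ?_)
      refine hc_ext_lt hhn ?_
      exact (thH_y_le O hhn.le A
        (Dg.cell (Q := (HC C n).gp A) (Dg.res (T.inRight b h hb hh) x))).symm
  · intro b' hb1 hT A x
    have h1 : Dg.last (Q := undGP A) (ψ.app A x) =
        hcy (Dg.cell (Q := (HC C n).gp A) (Dg.res (T.inRight b h hb hh) x)) := by
      exact (Dg.last_glue (Q := undGP A) D.G b h hb' hh (ψ.app A x)).trans (ψR A x)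
    have h2 : x.last = (Dg.res (T.inRight b h hb hh) x).cell :=
      Dg.last_glue (Q := (HC C n).gp A) T b h hb hh x
    show (undGP A).fc (pole _ true) (Dg.last (Q := undGP A) (ψ.app A x)) = _
    rw [h1, h2]
    rfl
  · intro b' hb1 hT A g
    have h1 : Dg.last (Q := (HC C n).gp A) (θ.app A g) =
        hcMkL hhn ((Dg.res (D.G.inRight b h hb' hh) g).cell) := by
      exact (Dg.last_glue (Q := (HC C n).gp A) T b h hb hh (θ.app A g)).trans (θR A g)
    have h2 : g.last = (Dg.res (D.G.inRight b h hb' hh) g).cell :=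
      Dg.last_glue (Q := undGP A) D.G b h hb' hh g
    show (undGP A).fc (pole _ true) (hcy (Dg.last (Q := (HC C n).gp A) (θ.app A g))) = _
    rw [h1, h2]
    rfl

theorem gd_glue_lt_eq (O : Ops C) (n : ℕ) (T : Shape) (D : GD O n T) (b : ℕ)
    (hb : b < T.last) (hbn : b < n) :
    Nonempty (GD O n (T.glue b n hb hbn)) := by
  have hb' : b < D.G.last := D.lastlt b hbn hb
  have hbs : b < n + 1 := hbn.trans (Nat.lt_succ_self n)
  have hxy : ∀ (A : GlobModel C) (w : ((HC C n).dg (T.glue b n hb hbn)).obj A),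
      ((und C).gp A).fc (pole hb' true)
        (Dg.last (((dgL (HC C n) T b n hb hbn).comp D.ψ).app A w)) =
      ((und C).gp A).fc (pole hbs false)
        (((dgR (HC C n) T b n hb hbn).comp (GCC.ivp O n (ide n))).app A w) := fun A w =>
    (D.lastψ b hbn hb A (Dg.res (T.inLeft b n hb hbn) w)).trans ((GCC.hcond T hb hbn w).trans
      ((GCC.hcy_bdry hbn _ false).symm.trans (O.fc_iv_low A hbn false _).symm))
  have hxy' : ∀ (A : GlobModel C) (w : ((und C).dg (D.G.glue b (n + 1) hb' hbs)).obj A),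
      ((HC C n).gp A).fc (pole hb true)
        (Dg.last (((dgL (und C) D.G b (n + 1) hb' hbs).comp D.θ).app A w)) =
      ((HC C n).gp A).fc (pole hbn false)
        (((dgR (und C) D.G b (n + 1) hb' hbs).comp (GCC.mk0N O n)).app A w) := by
    intro A w
    refine hc_ext_lt hbn ?_
    refine (D.lastθ b hbn hb A (Dg.res (D.G.inLeft b (n + 1) hb' hbs) w)).trans
      ((Dg.glue_cond (Q := undGP A) D.G b (n + 1) hb' hbs w).trans ?_)
    exact (fc_globular (undGP A) hbn (Nat.lt_succ_self n) false true _).symm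
  let ψ := dgGlue (und C) D.G b (n + 1) hb' hbs ((dgL (HC C n) T b n hb hbn).comp D.ψ)
    ((dgR (HC C n) T b n hb hbn).comp (GCC.ivp O n (ide n))) hxy
  let θ := dgGlue (HC C n) T b n hb hbn ((dgL (und C) D.G b (n + 1) hb' hbs).comp D.θ)
    ((dgR (und C) D.G b (n + 1) hb' hbs).comp (GCC.mk0N O n)) hxy'
  have ψL : ∀ (A : GlobModel C) (x : Dg ((HC C n).gp A) (T.glue b n hb hbn)),
      Dg.res (D.G.inLeft b (n + 1) hb' hbs) (ψ.app A x) =
        D.ψ.app A (Dg.res (T.inLeft b n hb hbn) x) :=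
    fun A x => dgGlue_left _ _ _ _ _ _ _ _ _ _ _
  have ψR : ∀ (A : GlobModel C) (x : Dg ((HC C n).gp A) (T.glue b n hb hbn)),
      (Dg.res (D.G.inRight b (n + 1) hb' hbs) (ψ.app A x)).cell =
        O.iv A (hcp (Dg.cell (Q := (HC C n).gp A) (Dg.res (T.inRight b n hb hbn) x)) (ide n)) :=
    fun A x => dgGlue_right _ _ _ _ _ _ _ _ _ _ _
  have θL : ∀ (A : GlobModel C) (g : Dg (undGP A) (D.G.glue b (n + 1) hb' hbs)),
      Dg.res (T.inLeft b n hb hbn) (θ.app A g) =
        D.θ.app A (Dg.res (D.G.inLeft b (n + 1) hb' hbs) g) :=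
    fun A x => dgGlue_left _ _ _ _ _ _ _ _ _ _ _
  have θR : ∀ (A : GlobModel C) (g : Dg (undGP A) (D.G.glue b (n + 1) hb' hbs)),
      (Dg.res (T.inRight b n hb hbn) (θ.app A g)).cell =
        (GCC.mk0N O n).app A ((Dg.res (D.G.inRight b (n + 1) hb' hbs) g).cell) :=
    fun A x => dgGlue_right _ _ _ _ _ _ _ _ _ _ _
  refine ⟨{ G := D.G.glue b (n + 1) hb' hbs
            dim_le := ?_
            ψ := ψ
            θ := θ
            θψ := ?_
            lastlt := fun b' _ h' => Nat.lt_succ_of_lt h'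
            lastψ := ?_
            lastθ := ?_ }⟩
  · have h1 := D.dim_le
    show max D.G.dim (n + 1) ≤ max (max T.dim n) (n + 1)
    omega
  · intro A x
    refine dg_glue_ext' (Q := (HC C n).gp A) T b n hb hbn ?_ ?_
    · exact (θL A (ψ.app A x)).trans ((congrArg (D.θ.app A) (ψL A x)).trans (D.θψ A _))
    · refine (θR A (ψ.app A x)).trans ((congrArg ((GCC.mk0N O n).app A) (ψR A x)).trans ?_)
      refine hc_ext_eq ?_ ?_
      · show (undGP A).fc (fac n true) (O.iv A (hcp (Dg.cell (Q := (HC C n).gp A)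
          (Dg.res (T.inRight b n hb hbn) x)) (ide n))) = _
        rw [O.fc_iv_t]
        refine (((show HCc (undGP A) n n from Dg.cell (Q := (HC C n).gp A)
          (Dg.res (T.inRight b n hb hbn) x)).hp (ide n)).trans ((undGP A).fc_ide _)).trans ?_
        exact (thH_y_le O le_rfl A _).symm
      · rfl
  · intro b' hb1 hT A x
    have h1 : Dg.last (Q := undGP A) (ψ.app A x) =
        O.iv A (hcp (Dg.cell (Q := (HC C n).gp A) (Dg.res (T.inRight b n hb hbn) x)) (ide n)) := by
      exact (Dg.last_glue (Q := undGP A) D.G b (n + 1) hb' hbs (ψ.app A x)).trans (ψR A x)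
    have h2 : x.last = (Dg.res (T.inRight b n hb hbn) x).cell :=
      Dg.last_glue (Q := (HC C n).gp A) T b n hb hbn x
    show (undGP A).fc (pole _ true) (Dg.last (Q := undGP A) (ψ.app A x)) = _
    rw [h1, h2]
    exact (O.fc_iv_low A hb1 true _).trans (GCC.hcy_bdry hb1 _ true)
  · intro b' hb1 hT A g
    have h1 : Dg.last (Q := (HC C n).gp A) (θ.app A g) =
        (GCC.mk0N O n).app A ((Dg.res (D.G.inRight b (n + 1) hb' hbs) g).cell) := by
      exact (Dg.last_glue (Q := (HC C n).gp A) T b n hb hbn (θ.app A g)).trans (θR A g)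
    have h2 : g.last = (Dg.res (D.G.inRight b (n + 1) hb' hbs) g).cell :=
      Dg.last_glue (Q := undGP A) D.G b (n + 1) hb' hbs g
    show (undGP A).fc (pole _ true) (hcy (Dg.last (Q := (HC C n).gp A) (θ.app A g))) = _
    rw [h1, h2]
    exact fc_globular (undGP A) hb1 (Nat.lt_succ_self n) true true _

end Crest.Agent.R248
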