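import Crest.Agent.R248.DGlue

/-!
# R248 piece GCASED: gluing a globe of dimension `h > n` along `b < n`

Write `x = (x₀, c)`, `c = (y, p₋, p₊)`. Open part `(D.G.glue b (n+1)).glue n h` (as a `Pasting h`), height
`max (max D.G.dim (n+1)) h ≤ max T.dim h` as `n + 1 ≤ h`.
`ψ x := ((D.ψ x₀ ∨_b inv p₋) ∨_n L (toW2c c)) ∨_n inv p₊`; matchings: `D.lastψ`, `glue_cond`, `Ops.fc_iv_low`, `fc_globular`, `hp`;
`fc_iv_t`, `L_s`; `L_t`, `fc_iv_s`.
`θ g`, `g = ((g₀ ∨ q₀) ∨ ỹ) ∨ q₁`: `D.θ g₀ ∨_b hcMk (L (cloW g)) (inv q₀) (inv q₁)`; matching in `HC_b` (`b < n`): `hc_ext_lt`,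
`D.lastθ`, `Ops.fc_L_low`, `fc_globular`. `θψ`: `dg_glue_ext'`, `D.θψ`, `hc_ext_gt`, `thH_y_gt`, `thH_p`.
-/

set_option autoImplicit false
set_option linter.unusedVariables false
open CategoryTheory CategoryTheory.Limits Opposite
open Crest.GeometryTopology.Coherator Crest.GeometryTopology.Coherator.GlobTheory

universe u

namespace Crest.Agent.R248

variable {C : GlobTheory.{u}}

namespace GCaseDAux

/-- the `p`-component, naturally -/
def pN {n e : ℕ} (a : Ar n e) : NT ((HC C n).cel e) ((und C).cel (n + 1)) :=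
  ⟨fun A x => hcp (A := A) x a, fun _ _ => rfl⟩

/-- the inverse of the `p`-component, naturally -/
noncomputable def ipN (O : Ops C) {n e : ℕ} (a : Ar n e) :
    NT ((HC C n).cel e) ((und C).cel (n + 1)) := (pN a).comp (O.inv n)

/-- the whiskered `y`-component, naturally -/
noncomputable def lN (O : Ops C) {n e : ℕ} (h : n < e) :
    NT ((HC C n).cel e) ((und C).cel e) := ((toW2 n).cel e).comp (O.L h)

theorem hc_hp {A : GlobModel C} {n e : ℕ} (c : ((HC C n).gp A).c e) (a : Ar n e) :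
    (undGP A).fc (fac n false) (hcp c a) = (undGP A).fc a (hcy c) := HCc.hp c a

section

variable (O : Ops C) (n : ℕ) (T : Shape) (D : GD O n T) (b h : ℕ)
    (hb : b < T.last) (hh : b < h) (hbn : b < n) (hhn : n < h)

/-- first glued shape -/
def S1 : Shape := D.G.glue b (n + 1) (D.lastlt b hbn hb) (hbn.trans (Nat.lt_succ_self n))

/-- second glued shape (the open part) -/
def S2 : Shape := (S1 O n T D b hb hbn).glue n h (Nat.lt_succ_self n) hhn

/-- left part and last cell -/
noncomputable def x0 {A : GlobModel C} (x : Dg ((HC C n).gp A) (T.glue b h hb hh)) :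
    Dg ((HC C n).gp A) T := x.res (T.inLeft b h hb hh)

noncomputable def c0 {A : GlobModel C} (x : Dg ((HC C n).gp A) (T.glue b h hb hh)) :
    ((HC C n).gp A).c h := (x.res (T.inRight b h hb hh)).cell

theorem x0_c0 {A : GlobModel C} (x : Dg ((HC C n).gp A) (T.glue b h hb hh)) :
    (undGP A).fc (pole hb true) (hcy (x0 n T b h hb hh x).last) =
      (undGP A).fc (pole hh false) (hcy (c0 n T b h hb hh x)) :=
  congrArg hcy (Dg.glue_cond T b h hb hh x)

theorem m1 (A : GlobModel C) (x : Dg ((HC C n).gp A) (T.glue b h hb hh)) :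
    (undGP A).fc (pole (D.lastlt b hbn hb) true)
      (Dg.last (Q := undGP A) (((dgL (HC C n) T b h hb hh).comp D.ψ).app A x)) =
    (undGP A).fc (pole (hbn.trans (Nat.lt_succ_self n)) false)
      (((dgR (HC C n) T b h hb hh).comp (ipN O (pole hhn false))).app A x) := by
  refine (D.lastψ b hbn hb A (x0 n T b h hb hh x)).trans ?_
  refine Eq.trans ?_ (O.fc_iv_low A hbn false (hcp (c0 n T b h hb hh x) (pole hhn false))).symm
  refine (x0_c0 n T b h hb hh x).trans ?_
  refine (fc_globular (undGP A) hbn hhn false false (hcy (c0 n T b h hb hh x))).symm.trans ?_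
  refine Eq.trans ?_ (fc_globular (undGP A) hbn (Nat.lt_succ_self n) false false _)
  exact congrArg _ (hc_hp (c0 n T b h hb hh x) (pole hhn false)).symm

/-- first stage -/
noncomputable def ψ1 : NT ((HC C n).dg (T.glue b h hb hh)) ((und C).dg (S1 O n T D b hb hbn)) :=
  dgGlue (und C) D.G b (n + 1) (D.lastlt b hbn hb) (hbn.trans (Nat.lt_succ_self n))
    ((dgL (HC C n) T b h hb hh).comp D.ψ) ((dgR (HC C n) T b h hb hh).comp (ipN O (pole hhn false)))
    (m1 O n T D b h hb hh hbn hhn)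

theorem m2 (A : GlobModel C) (x : Dg ((HC C n).gp A) (T.glue b h hb hh)) :
    (undGP A).fc (pole (Nat.lt_succ_self n) true)
      (Dg.last (Q := undGP A) ((ψ1 O n T D b h hb hh hbn hhn).app A x)) =
    (undGP A).fc (pole hhn false)
      (((dgR (HC C n) T b h hb hh).comp (lN O hhn)).app A x) := by
  refine (congrArg ((undGP A).fc (pole (Nat.lt_succ_self n) true))
    (dgGlue_last (F := (HC C n).dg (T.glue b h hb hh)) (und C) D.G b (n + 1) _ _ _ _ (m1 O n T D b h hb hh hbn hhn) A x)).trans ?_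
  refine (O.fc_iv_t A (hcp (c0 n T b h hb hh x) (pole hhn false))).trans ?_
  refine (hc_hp (c0 n T b h hb hh x) (pole hhn false)).trans ?_
  exact (O.L_s hhn A (toW2c (c0 n T b h hb hh x))).symm

/-- second stage -/
noncomputable def ψ2 : NT ((HC C n).dg (T.glue b h hb hh))
    ((und C).dg (S2 O n T D b h hb hbn hhn)) :=
  dgGlue (und C) (S1 O n T D b hb hbn) n h (Nat.lt_succ_self n) hhn
    (ψ1 O n T D b h hb hh hbn hhn) ((dgR (HC C n) T b h hb hh).comp (lN O hhn))
    (m2 O n T D b h hb hh hbn hhn)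

theorem m3 (A : GlobModel C) (x : Dg ((HC C n).gp A) (T.glue b h hb hh)) :
    (undGP A).fc (pole hhn true)
      (Dg.last (Q := undGP A) ((ψ2 O n T D b h hb hh hbn hhn).app A x)) =
    (undGP A).fc (pole (Nat.lt_succ_self n) false)
      (((dgR (HC C n) T b h hb hh).comp (ipN O (pole hhn true))).app A x) := by
  refine (congrArg ((undGP A).fc (pole hhn true))
    (dgGlue_last (F := (HC C n).dg (T.glue b h hb hh)) (und C) (S1 O n T D b hb hbn) n h _ _ _ _ (m2 O n T D b h hb hh hbn hhn) A x)).trans ?_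
  refine (O.L_t hhn A (toW2c (c0 n T b h hb hh x))).trans ?_
  exact (O.fc_iv_s A (hcp (c0 n T b h hb hh x) (pole hhn true))).symm

/-- third stage -/
noncomputable def ψ3 : NT ((HC C n).dg (T.glue b h hb hh))
    ((und C).dg ((S2 O n T D b h hb hbn hhn).glue n (n + 1) hhn (Nat.lt_succ_self n))) :=
  dgGlue (und C) (S2 O n T D b h hb hbn hhn) n (n + 1) hhn (Nat.lt_succ_self n)
    (ψ2 O n T D b h hb hh hbn hhn) ((dgR (HC C n) T b h hb hh).comp (ipN O (pole hhn true)))
    (m3 O n T D b h hb hh hbn hhn)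

/-- parts of a diagram of the big shape -/
noncomputable def g1 {Q : GP.{u}}
    (g : Dg Q ((S2 O n T D b h hb hbn hhn).glue n (n + 1) hhn (Nat.lt_succ_self n))) :
    Dg Q (S2 O n T D b h hb hbn hhn) := g.res (Shape.inLeft _ n (n + 1) hhn (Nat.lt_succ_self n))

noncomputable def g2 {Q : GP.{u}}
    (g : Dg Q ((S2 O n T D b h hb hbn hhn).glue n (n + 1) hhn (Nat.lt_succ_self n))) :
    Dg Q (S1 O n T D b hb hbn) :=
  (g1 O n T D b h hb hbn hhn g).res
    (Shape.inLeft (S1 O n T D b hb hbn) n h (Nat.lt_succ_self n) hhn)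

noncomputable def gy {Q : GP.{u}}
    (g : Dg Q ((S2 O n T D b h hb hbn hhn).glue n (n + 1) hhn (Nat.lt_succ_self n))) : Q.c h :=
  ((g1 O n T D b h hb hbn hhn g).res
    (Shape.inRight (S1 O n T D b hb hbn) n h (Nat.lt_succ_self n) hhn)).cell

noncomputable def g3 {Q : GP.{u}}
    (g : Dg Q ((S2 O n T D b h hb hbn hhn).glue n (n + 1) hhn (Nat.lt_succ_self n))) : Dg Q D.G :=
  (g2 O n T D b h hb hbn hhn g).res
    (Shape.inLeft D.G b (n + 1) (D.lastlt b hbn hb) (hbn.trans (Nat.lt_succ_self n)))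

noncomputable def gq {Q : GP.{u}}
    (g : Dg Q ((S2 O n T D b h hb hbn hhn).glue n (n + 1) hhn (Nat.lt_succ_self n))) :
    Q.c (n + 1) :=
  ((g2 O n T D b h hb hbn hhn g).res
    (Shape.inRight D.G b (n + 1) (D.lastlt b hbn hb) (hbn.trans (Nat.lt_succ_self n)))).cell

theorem g3_gq {Q : GP.{u}}
    (g : Dg Q ((S2 O n T D b h hb hbn hhn).glue n (n + 1) hhn (Nat.lt_succ_self n))) :
    Q.fc (pole (D.lastlt b hbn hb) true) (g3 O n T D b h hb hbn hhn g).last =
      Q.fc (pole (hbn.trans (Nat.lt_succ_self n)) false) (gq O n T D b h hb hbn hhn g) :=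
  Dg.glue_cond D.G b (n + 1) (D.lastlt b hbn hb) (hbn.trans (Nat.lt_succ_self n))
    (g2 O n T D b h hb hbn hhn g)

theorem gq_gy {Q : GP.{u}}
    (g : Dg Q ((S2 O n T D b h hb hbn hhn).glue n (n + 1) hhn (Nat.lt_succ_self n))) :
    Q.fc (pole (Nat.lt_succ_self n) true) (gq O n T D b h hb hbn hhn g) =
      Q.fc (pole hhn false) (gy O n T D b h hb hbn hhn g) := by
  refine Eq.trans ?_ (Dg.glue_cond (S1 O n T D b hb hbn) n h (Nat.lt_succ_self n) hhn
    (g1 O n T D b h hb hbn hhn g))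
  exact congrArg (Q.fc (pole (Nat.lt_succ_self n) true))
    (Dg.last_glue D.G b (n + 1) (D.lastlt b hbn hb) (hbn.trans (Nat.lt_succ_self n))
      (g2 O n T D b h hb hbn hhn g)).symm

theorem cloLast_eq {Q : GP.{u}}
    (g : Dg Q (clo n (S2 O n T D b h hb hbn hhn).pasting hhn)) :
    cloLast g = gy O n T D b h hb hbn hhn g :=
  Dg.last_glue (S1 O n T D b hb hbn) n h (Nat.lt_succ_self n) hhn (g1 O n T D b h hb hbn hhn g)

theorem k0 (A : GlobModel C)
    (g : Dg (undGP A) (clo n (S2 O n T D b h hb hbn hhn).pasting hhn)) :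
    (undGP A).fc (fac n false) (O.iv A (gq O n T D b h hb hbn hhn g)) =
      (undGP A).fc (pole hhn false) ((O.L hhn).app A (cloW g)) := by
  refine (O.fc_iv_s A _).trans ?_
  refine (gq_gy O n T D b h hb hbn hhn g).trans ?_
  refine Eq.trans ?_ (O.L_s hhn A (cloW g)).symm
  exact congrArg _ (cloLast_eq O n T D b h hb hbn hhn g).symm

theorem k1 (A : GlobModel C)
    (g : Dg (undGP A) (clo n (S2 O n T D b h hb hbn hhn).pasting hhn)) :
    (undGP A).fc (fac n false) (O.iv A (cloR g)) =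
      (undGP A).fc (pole hhn true) ((O.L hhn).app A (cloW g)) :=
  (O.fc_iv_s A _).trans (O.L_t hhn A (cloW g)).symm

/-- the last cell of `θ` -/
noncomputable def θc : NT ((und C).dg (clo n (S2 O n T D b h hb hbn hhn).pasting hhn))
    ((HC C n).cel h) :=
  ⟨fun A g => hcMk hhn ((O.L hhn).app A (cloW g)) (O.iv A (gq O n T D b h hb hbn hhn g))
      (O.iv A (cloR g)) (k0 O n T D b h hb hbn hhn A g) (k1 O n T D b h hb hbn hhn A g),
    fun {A A'} φ g => by
      apply hc_ext_gt hhn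
      · exact (O.L hhn).nat φ (cloW (Q := undGP A) g)
      · intro ε
        cases ε
        · exact (O.map_iv φ (gq O n T D b h hb hbn hhn (Q := undGP A) g)).symm
        · exact (O.map_iv φ (cloR (Q := undGP A) g)).symm⟩

/-- the left part of `θ` -/
noncomputable def θl : NT ((und C).dg (clo n (S2 O n T D b h hb hbn hhn).pasting hhn))
    ((HC C n).dg T) :=
  (⟨fun A g => g3 O n T D b h hb hbn hhn (Q := undGP A) g, fun _ _ => rfl⟩ :
    NT ((und C).dg (clo n (S2 O n T D b h hb hbn hhn).pasting hhn)) ((und C).dg D.G)).comp D.θ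

theorem k2 (A : GlobModel C)
    (g : Dg (undGP A) (clo n (S2 O n T D b h hb hbn hhn).pasting hhn)) :
    ((HC C n).gp A).fc (pole hb true)
      (Dg.last (Q := (HC C n).gp A) ((θl O n T D b h hb hbn hhn).app A g)) =
    ((HC C n).gp A).fc (pole hh false) ((θc O n T D b h hb hbn hhn).app A g) := by
  apply hc_ext_lt hbn
  refine (D.lastθ b hbn hb A (g3 O n T D b h hb hbn hhn g)).trans ?_
  refine (g3_gq O n T D b h hb hbn hhn g).trans ?_
  refine Eq.trans ?_ (O.fc_L_low A hbn hhn false (cloW g)).symm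
  refine (fc_globular (undGP A) hbn (Nat.lt_succ_self n) false true _).symm.trans ?_
  refine Eq.trans ?_ (fc_globular (undGP A) hbn hhn false false _)
  refine congrArg _ ((gq_gy O n T D b h hb hbn hhn g).trans ?_)
  exact congrArg _ (cloLast_eq O n T D b h hb hbn hhn g).symm

/-- `θ` -/
noncomputable def θ' : NT ((und C).dg (clo n (S2 O n T D b h hb hbn hhn).pasting hhn))
    ((HC C n).dg (T.glue b h hb hh)) :=
  dgGlue (HC C n) T b h hb hh (θl O n T D b h hb hbn hhn) (θc O n T D b h hb hbn hhn)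
    (k2 O n T D b h hb hh hbn hhn)

theorem ψ_g1 (A : GlobModel C) (x : Dg ((HC C n).gp A) (T.glue b h hb hh)) :
    g1 O n T D b h hb hbn hhn (Q := undGP A) ((ψ3 O n T D b h hb hh hbn hhn).app A x) =
      (ψ2 O n T D b h hb hh hbn hhn).app A x :=
  dgGlue_left (F := (HC C n).dg (T.glue b h hb hh)) (und C) (S2 O n T D b h hb hbn hhn) n (n + 1) _ _ _ _
    (m3 O n T D b h hb hh hbn hhn) A x

theorem ψ_g2 (A : GlobModel C) (x : Dg ((HC C n).gp A) (T.glue b h hb hh)) :
    g2 O n T D b h hb hbn hhn (Q := undGP A) ((ψ3 O n T D b h hb hh hbn hhn).app A x) =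
      (ψ1 O n T D b h hb hh hbn hhn).app A x :=
  (congrArg (Dg.res (Q := undGP A)
      (Shape.inLeft (S1 O n T D b hb hbn) n h (Nat.lt_succ_self n) hhn))
    (ψ_g1 O n T D b h hb hh hbn hhn A x)).trans
  (dgGlue_left (F := (HC C n).dg (T.glue b h hb hh)) (und C) (S1 O n T D b hb hbn) n h _ _ _ _
    (m2 O n T D b h hb hh hbn hhn) A x)

theorem ψ_g3 (A : GlobModel C) (x : Dg ((HC C n).gp A) (T.glue b h hb hh)) :
    g3 O n T D b h hb hbn hhn (Q := undGP A) ((ψ3 O n T D b h hb hh hbn hhn).app A x) =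
      D.ψ.app A (x0 n T b h hb hh x) :=
  (congrArg (Dg.res (Q := undGP A)
      (Shape.inLeft D.G b (n + 1) (D.lastlt b hbn hb) (hbn.trans (Nat.lt_succ_self n))))
    (ψ_g2 O n T D b h hb hh hbn hhn A x)).trans
  (dgGlue_left (F := (HC C n).dg (T.glue b h hb hh)) (und C) D.G b (n + 1) _ _ _ _ (m1 O n T D b h hb hh hbn hhn) A x)

theorem ψ_gq (A : GlobModel C) (x : Dg ((HC C n).gp A) (T.glue b h hb hh)) :
    gq O n T D b h hb hbn hhn (Q := undGP A) ((ψ3 O n T D b h hb hh hbn hhn).app A x) =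
      O.iv A (hcp (c0 n T b h hb hh x) (pole hhn false)) :=
  (congrArg (fun z => (Dg.res (Q := undGP A)
      (Shape.inRight D.G b (n + 1) (D.lastlt b hbn hb) (hbn.trans (Nat.lt_succ_self n))) z).cell)
    (ψ_g2 O n T D b h hb hh hbn hhn A x)).trans
  (dgGlue_right (F := (HC C n).dg (T.glue b h hb hh)) (und C) D.G b (n + 1) _ _ _ _ (m1 O n T D b h hb hh hbn hhn) A x)

theorem ψ_last (A : GlobModel C) (x : Dg ((HC C n).gp A) (T.glue b h hb hh)) :
    cloLast (G := (S2 O n T D b h hb hbn hhn).pasting) (h := hhn) (Q := undGP A)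
      ((ψ3 O n T D b h hb hh hbn hhn).app A x) =
      (O.L hhn).app A (toW2c (c0 n T b h hb hh x)) := by
  refine (congrArg (fun z => Dg.last (Q := undGP A) z)
    (ψ_g1 O n T D b h hb hh hbn hhn A x)).trans ?_
  exact dgGlue_last (F := (HC C n).dg (T.glue b h hb hh)) (und C) (S1 O n T D b hb hbn) n h _ _ _ _
    (m2 O n T D b h hb hh hbn hhn) A x

theorem ψ_R (A : GlobModel C) (x : Dg ((HC C n).gp A) (T.glue b h hb hh)) :
    cloR (G := (S2 O n T D b h hb hbn hhn).pasting) (h := hhn) (Q := undGP A)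
      ((ψ3 O n T D b h hb hh hbn hhn).app A x) =
      O.iv A (hcp (c0 n T b h hb hh x) (pole hhn true)) :=
  dgGlue_right (F := (HC C n).dg (T.glue b h hb hh)) (und C) (S2 O n T D b h hb hbn hhn) n (n + 1) _ _ _ _
    (m3 O n T D b h hb hh hbn hhn) A x

theorem ψ_W (A : GlobModel C) (x : Dg ((HC C n).gp A) (T.glue b h hb hh)) :
    cloW (G := (S2 O n T D b h hb hbn hhn).pasting) (h := hhn) (Q := undGP A)
      ((ψ3 O n T D b h hb hh hbn hhn).app A x) =
      W2inv O A hhn (toW2c (c0 n T b h hb hh x)) :=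
  W2c.ext' (ψ_last O n T D b h hb hh hbn hhn A x) (fun _ => ψ_R O n T D b h hb hh hbn hhn A x)

theorem last_c0 {A : GlobModel C} (x : Dg ((HC C n).gp A) (T.glue b h hb hh)) :
    x.last = c0 n T b h hb hh x := Dg.last_glue T b h hb hh x

theorem θψ' (A : GlobModel C) (x : Dg ((HC C n).gp A) (T.glue b h hb hh)) :
    (θ' O n T D b h hb hh hbn hhn).app A ((ψ3 O n T D b h hb hh hbn hhn).app A x) =
      x.push ((thH O n).at A) := by
  apply dg_glue_ext' T b h hb hh
  · refine (dgGlue_left (F := (und C).dg (clo n (S2 O n T D b h hb hbn hhn).pasting hhn)) (HC C n) T b h hb hh _ _ (k2 O n T D b h hb hh hbn hhn) A _).trans ?_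
    refine (congrArg (D.θ.app A) (ψ_g3 O n T D b h hb hh hbn hhn A x)).trans ?_
    exact D.θψ A (x0 n T b h hb hh x)
  · refine (dgGlue_right (F := (und C).dg (clo n (S2 O n T D b h hb hbn hhn).pasting hhn)) (HC C n) T b h hb hh _ _ (k2 O n T D b h hb hh hbn hhn) A _).trans ?_
    apply hc_ext_gt hhn
    · refine (congrArg ((O.L hhn).app A) (ψ_W O n T D b h hb hh hbn hhn A x)).trans ?_
      exact (thH_y_gt O hhn A (c0 n T b h hb hh x)).symm
    · intro ε
      cases ε
      · exact congrArg (O.iv A) (ψ_gq O n T D b h hb hh hbn hhn A x)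
      · exact congrArg (O.iv A) (ψ_R O n T D b h hb hh hbn hhn A x)

end

end GCaseDAux

open GCaseDAux in
theorem gdo_glue_lt_gt (O : Ops C) (n : ℕ) (T : Shape) (D : GD O n T) (b h : ℕ)
    (hb : b < T.last) (hh : b < h) (hbn : b < n) (hhn : n < h) :
    Nonempty (GDo O n (T.glue b h hb hh) hhn) := by
  refine ⟨{ G := (S2 O n T D b h hb hbn hhn).pasting
            dim_le := ?_
            ψ := ψ3 O n T D b h hb hh hbn hhn
            θ := θ' O n T D b h hb hh hbn hhn
            θψ := θψ' O n T D b h hb hh hbn hhn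
            ψL := ?_
            ψR := ?_
            θy := ?_
            θp := ?_ }⟩
  · have h3 := D.dim_le
    show max (max D.G.dim (n + 1)) h ≤ max T.dim h
    omega
  · intro A x
    refine (ψ_last O n T D b h hb hh hbn hhn A x).trans ?_
    exact congrArg (fun z => (O.L hhn).app A (toW2c z)) (last_c0 n T b h hb hh x).symm
  · intro A x
    refine (ψ_R O n T D b h hb hh hbn hhn A x).trans ?_
    exact congrArg (fun z => O.iv A (hcp z (pole hhn true))) (last_c0 n T b h hb hh x).symm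
  · intro A g
    exact congrArg hcy (dgGlue_last (F := (und C).dg (clo n (S2 O n T D b h hb hbn hhn).pasting hhn)) (HC C n) T b h hb hh _ _ (k2 O n T D b h hb hh hbn hhn) A g)
  · intro A g
    exact congrArg (fun z => hcp z (pole hhn true))
      (dgGlue_last (F := (und C).dg (clo n (S2 O n T D b h hb hbn hhn).pasting hhn)) (HC C n) T b h hb hh _ _ (k2 O n T D b h hb hh hbn hhn) A g)

end Crest.Agent.R248
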