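import Crest.Agent.R248.DGlue

/-!
# R248 piece GCASEE: gluing a globe of dimension `h > n` along `b = n`

Write `x = (x₀, c)`, `c = (y, p₋, p₊)`. Open part `(clo n D.G hT).glue n h` (as a `Pasting h`), height
`max (max D.G.dim (n+1)) h ≤ max T.dim h`.
`ψ x := (D.ψ x₀ ∨_n L (toW2c c)) ∨_n inv p₊`; matching: `last (D.ψ x₀) = cloR (D.ψ x₀) = inv (p₊ of x₀.last)` (`D.ψR`, `Dg.last_glue`),
its target is `s (p₊ of x₀.last) = ` `n`-target of `hcy x₀.last` `=` `n`-source of `y` (`glue_cond`) `=` `n`-source of `L (toW2c c)`.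
`θ g`, `g = (g₀ ∨ ỹ) ∨ q₁`, `g₀ : Dg (clo n D.G hT)`: `D.θ g₀ ∨_n hcMk (L (cloW g)) (inv (cloR g₀)) (inv q₁)`; matching in `HC_n`
(`hc_ext_eq`): `y`: `D.θy`, `L_t`, `L_s`, `glue_cond`; `p`: `D.θp`.
`θψ`: `p₋`-component: `inv (cloR (D.ψ x₀)) = inv inv (p₊ of x₀.last) = inv inv p₋` (`p`-part of `glue_cond`).
-/

set_option autoImplicit false
set_option linter.unusedVariables false
open CategoryTheory CategoryTheory.Limits Opposite
open Crest.GeometryTopology.Coherator Crest.GeometryTopology.Coherator.GlobTheory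

universe u

namespace Crest.Agent.R248

variable {C : GlobTheory.{u}}

namespace CaseE

variable (O : Ops C) {n : ℕ} {T : Shape} {hT : n < T.last} (D : GDo O n T hT) (h : ℕ) (hh : n < h)

/-- the open part -/
def G : Pasting h := Pasting.glue (clo n D.G hT).pasting n h (Nat.lt_succ_self n) hh

/-- `inv p₊` -/
noncomputable def ivp : NT ((HC C n).cel h) ((und C).cel (n + 1)) :=
  ⟨fun A (c : ((HC C n).gp A).c h) => O.iv A (hcp c (pole hh true)),
    fun g c => (O.map_iv g _).symm⟩

/-- `L (toW2c c)` -/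
noncomputable def Lc : NT ((HC C n).cel h) ((und C).cel h) := ((toW2 n).cel h).comp (O.L hh)

/-- `D.ψ x₀` -/
noncomputable def ψ0 : NT ((HC C n).dg (T.glue n h hT hh)) ((und C).dg (clo n D.G hT)) :=
  (dgL (HC C n) T n h hT hh).comp D.ψ

theorem ψ0_last (A : GlobModel C) (x : Dg ((HC C n).gp A) (T.glue n h hT hh)) :
    Dg.last (Q := undGP A) ((ψ0 O D h hh).app A x) =
      O.iv A (hcp (Dg.last (x.res (T.inLeft n h hT hh))) (pole hT true)) :=
  (Dg.last_glue ⟨T.last, D.G⟩ n (n + 1) hT (Nat.lt_succ_self n) _).trans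
    (D.ψR A (x.res (T.inLeft n h hT hh)))

theorem match1 (A : GlobModel C) (x : Dg ((HC C n).gp A) (T.glue n h hT hh)) :
    (undGP A).fc (pole (Nat.lt_succ_self n) true)
        (Dg.last (Q := undGP A) ((ψ0 O D h hh).app A x)) =
      (undGP A).fc (pole hh false)
        (((dgR (HC C n) T n h hT hh).comp (Lc O h hh)).app A x) := by
  have e1 : ((undGP A).fc (pole (Nat.lt_succ_self n) true)
      (Dg.last (Q := undGP A) ((ψ0 O D h hh).app A x)) : (undGP A).c n) =
      hcy (((HC C n).gp A).fc (pole hT true) (Dg.last (x.res (T.inLeft n h hT hh)))) := by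
    rw [ψ0_last, O.fc_iv_t]
    exact HCc.hp (Dg.last (x.res (T.inLeft n h hT hh))) (pole hT true)
  have e2 := Dg.glue_cond T n h hT hh x
  rw [e1, e2]
  exact (O.L_s hh A (toW2c (Dg.cell (x.res (T.inRight n h hT hh))))).symm

theorem match2 (A : GlobModel C) (x : Dg ((HC C n).gp A) (T.glue n h hT hh)) :
    (undGP A).fc (pole hh true)
        (Dg.last (Q := undGP A) ((dgGlue (und C) (clo n D.G hT) n h (Nat.lt_succ_self n) hh
          (ψ0 O D h hh) ((dgR (HC C n) T n h hT hh).comp (Lc O h hh))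
          (match1 O D h hh)).app A x)) =
      (undGP A).fc (pole (Nat.lt_succ_self n) false)
        (((dgR (HC C n) T n h hT hh).comp (ivp O h hh)).app A x) := by
  have e1 := dgGlue_last (und C) (clo n D.G hT) n h (Nat.lt_succ_self n) hh
          (ψ0 O D h hh) ((dgR (HC C n) T n h hT hh).comp (Lc O h hh))
          (match1 O D h hh) A x
  refine (congrArg ((undGP A).fc (pole hh true)) e1).trans ?_
  exact (O.L_t hh A (toW2c (Dg.cell (x.res (T.inRight n h hT hh))))).trans
    (O.fc_iv_s A _).symm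

/-- the map `ψ` -/
noncomputable def ψ : NT ((HC C n).dg (T.glue n h hT hh)) ((und C).dg (clo n (G O D h hh) hh)) :=
  dgGlue (und C) ⟨h, G O D h hh⟩ n (n + 1) hh (Nat.lt_succ_self n)
    (dgGlue (und C) (clo n D.G hT) n h (Nat.lt_succ_self n) hh
          (ψ0 O D h hh) ((dgR (HC C n) T n h hT hh).comp (Lc O h hh))
          (match1 O D h hh))
    ((dgR (HC C n) T n h hT hh).comp (ivp O h hh)) (match2 O D h hh)

/-- the closed part of the open part of a diagram of shape `clo n G hh` -/
noncomputable def g0 {Q : GP.{u}} (g : Dg Q (clo n (G O D h hh) hh)) : Dg Q (clo n D.G hT) :=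
  Dg.res (Shape.inLeft (clo n D.G hT) n h (Nat.lt_succ_self n) hh) (cloL g)

theorem cloLast_eq {Q : GP.{u}} (g : Dg Q (clo n (G O D h hh) hh)) :
    cloLast g =
      Dg.cell (Dg.res (Shape.inRight (clo n D.G hT) n h (Nat.lt_succ_self n) hh) (cloL g)) :=
  Dg.last_glue (clo n D.G hT) n h (Nat.lt_succ_self n) hh (cloL g)

theorem g0_cond {Q : GP.{u}} (g : Dg Q (clo n (G O D h hh) hh)) :
    Q.fc (fac n true) (cloR (g0 O D h hh g)) = Q.fc (pole hh false) (cloLast g) := by
  have e1 := Dg.glue_cond (clo n D.G hT) n h (Nat.lt_succ_self n) hh (cloL g)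
  rw [cloLast_eq]
  refine Eq.trans (congrArg _ ?_) e1
  exact (Dg.last_glue ⟨T.last, D.G⟩ n (n + 1) hT (Nat.lt_succ_self n) _).symm

theorem ψL (A : GlobModel C) (x : Dg ((HC C n).gp A) (T.glue n h hT hh)) :
    cloLast (Q := undGP A) ((ψ O D h hh).app A x) =
      (O.L hh).app A (toW2c (Dg.cell (x.res (T.inRight n h hT hh)))) := by
  have e1 := dgGlue_left (und C) ⟨h, G O D h hh⟩ n (n + 1) hh (Nat.lt_succ_self n)
    (dgGlue (und C) (clo n D.G hT) n h (Nat.lt_succ_self n) hh
          (ψ0 O D h hh) ((dgR (HC C n) T n h hT hh).comp (Lc O h hh))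
          (match1 O D h hh))
    ((dgR (HC C n) T n h hT hh).comp (ivp O h hh)) (match2 O D h hh) A x
  refine (congrArg Dg.last e1).trans ?_
  exact dgGlue_last (und C) (clo n D.G hT) n h (Nat.lt_succ_self n) hh
          (ψ0 O D h hh) ((dgR (HC C n) T n h hT hh).comp (Lc O h hh))
          (match1 O D h hh) A x

theorem ψR (A : GlobModel C) (x : Dg ((HC C n).gp A) (T.glue n h hT hh)) :
    cloR (Q := undGP A) ((ψ O D h hh).app A x) =
      O.iv A (hcp (Dg.cell (x.res (T.inRight n h hT hh))) (pole hh true)) :=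
  dgGlue_right (und C) ⟨h, G O D h hh⟩ n (n + 1) hh (Nat.lt_succ_self n)
    (dgGlue (und C) (clo n D.G hT) n h (Nat.lt_succ_self n) hh
          (ψ0 O D h hh) ((dgR (HC C n) T n h hT hh).comp (Lc O h hh))
          (match1 O D h hh))
    ((dgR (HC C n) T n h hT hh).comp (ivp O h hh)) (match2 O D h hh) A x

theorem ψg0 (A : GlobModel C) (x : Dg ((HC C n).gp A) (T.glue n h hT hh)) :
    g0 O D h hh (Q := undGP A) ((ψ O D h hh).app A x) =
      D.ψ.app A (x.res (T.inLeft n h hT hh)) := by
  have e1 := dgGlue_left (und C) ⟨h, G O D h hh⟩ n (n + 1) hh (Nat.lt_succ_self n)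
    (dgGlue (und C) (clo n D.G hT) n h (Nat.lt_succ_self n) hh
          (ψ0 O D h hh) ((dgR (HC C n) T n h hT hh).comp (Lc O h hh))
          (match1 O D h hh))
    ((dgR (HC C n) T n h hT hh).comp (ivp O h hh)) (match2 O D h hh) A x
  refine (congrArg (Dg.res (Shape.inLeft (clo n D.G hT) n h (Nat.lt_succ_self n) hh)) e1).trans ?_
  exact dgGlue_left (und C) (clo n D.G hT) n h (Nat.lt_succ_self n) hh
          (ψ0 O D h hh) ((dgR (HC C n) T n h hT hh).comp (Lc O h hh))
          (match1 O D h hh) A x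

/-- the last cell of `θ g` -/
noncomputable def lc (A : GlobModel C) (g : Dg (undGP A) (clo n (G O D h hh) hh)) :
    ((HC C n).gp A).c h :=
  hcMk hh ((O.L hh).app A (cloW g)) (O.iv A (cloR (g0 O D h hh g))) (O.iv A (cloR g))
    (by rw [O.fc_iv_s, g0_cond]; exact (O.L_s hh A (cloW g)).symm)
    (by rw [O.fc_iv_s]; exact (O.L_t hh A (cloW g)).symm)

noncomputable def lcN : NT ((und C).dg (clo n (G O D h hh) hh)) ((HC C n).cel h) :=
  ⟨fun A g => lc O D h hh A g, fun {A A'} φ g => by
    refine hc_ext_gt hh ?_ fun ε => ?_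
    · exact (O.L hh).nat φ (cloW g)
    · cases ε
      · exact (O.map_iv φ _).symm
      · exact (O.map_iv φ _).symm⟩

/-- restriction to the closed part, naturally -/
noncomputable def g0N : NT ((und C).dg (clo n (G O D h hh) hh)) ((und C).dg (clo n D.G hT)) :=
  ⟨fun A g => g0 O D h hh (Q := undGP A) g, fun φ g => rfl⟩

theorem match3 (A : GlobModel C) (g : Dg (undGP A) (clo n (G O D h hh) hh)) :
    ((HC C n).gp A).fc (pole hT true)
        (Dg.last (Q := (HC C n).gp A) (((g0N O D h hh).comp D.θ).app A g)) =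
      ((HC C n).gp A).fc (pole hh false) ((lcN O D h hh).app A g) := by
  have hy : (undGP A).fc (pole hT true) (hcy (Dg.last (Q := (HC C n).gp A)
      (D.θ.app A (g0 O D h hh g)))) = (undGP A).fc (pole hh false) (hcy (lc O D h hh A g)) := by
    refine (congrArg ((undGP A).fc (pole hT true)) (D.θy A (g0 O D h hh g))).trans ?_
    refine (O.L_t hT A (cloW (g0 O D h hh g))).trans ?_
    refine (g0_cond O D h hh g).trans ?_
    exact (O.L_s hh A (cloW g)).symm
  exact hc_ext_eq hy (D.θp A (g0 O D h hh g))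

noncomputable def θ : NT ((und C).dg (clo n (G O D h hh) hh)) ((HC C n).dg (T.glue n h hT hh)) :=
  dgGlue (HC C n) T n h hT hh ((g0N O D h hh).comp D.θ) (lcN O D h hh) (match3 O D h hh)

theorem θψ (A : GlobModel C) (x : Dg ((HC C n).gp A) (T.glue n h hT hh)) :
    (θ O D h hh).app A ((ψ O D h hh).app A x) = x.push ((thH O n).at A) := by
  apply dg_glue_ext' T n h hT hh
  · refine (dgGlue_left (HC C n) T n h hT hh ((g0N O D h hh).comp D.θ) (lcN O D h hh)
      (match3 O D h hh) A _).trans ?_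
    refine (congrArg (D.θ.app A) (ψg0 O D h hh A x)).trans ?_
    exact D.θψ A _
  · refine (dgGlue_right (HC C n) T n h hT hh ((g0N O D h hh).comp D.θ) (lcN O D h hh)
      (match3 O D h hh) A _).trans ?_
    refine hc_ext_gt hh ?_ fun ε => ?_
    · refine Eq.trans ?_ (thH_y_gt O hh A (Dg.cell (x.res (T.inRight n h hT hh)))).symm
      exact congrArg ((O.L hh).app A) (W2c.ext' (ψL O D h hh A x) fun _ => ψR O D h hh A x)
    · cases ε
      · have e1 : O.iv A (cloR (g0 O D h hh (Q := undGP A) ((ψ O D h hh).app A x))) =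
            O.iv A (O.iv A (hcp (Dg.last (x.res (T.inLeft n h hT hh))) (pole hT true))) := by
          rw [ψg0]
          exact congrArg (O.iv A) (D.ψR A _)
        refine e1.trans ?_
        have e2 := congrArg (fun z => hcp z (ide n)) (Dg.glue_cond T n h hT hh x)
        exact congrArg (fun z => O.iv A (O.iv A z)) e2
      · exact congrArg (O.iv A) (ψR O D h hh A x)

end CaseE

theorem gdo_glue_eq (O : Ops C) (n : ℕ) (T : Shape) (hT : n < T.last) (D : GDo O n T hT)
    (h : ℕ) (hh : n < h) :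
    Nonempty (GDo O n (T.glue n h hT hh) hh) :=
  ⟨{ G := CaseE.G O D h hh
     dim_le := by
      show max (max D.G.dim (n + 1)) h ≤ max T.pasting.dim h
      have := D.dim_le
      have h2 : T.dim = T.pasting.dim := rfl
      omega
     ψ := CaseE.ψ O D h hh
     θ := CaseE.θ O D h hh
     θψ := CaseE.θψ O D h hh
     ψL := fun A x => (CaseE.ψL O D h hh A x).trans
      (congrArg (fun z => (O.L hh).app A (toW2c z)) (Dg.last_glue T n h hT hh x).symm)
     ψR := fun A x => (CaseE.ψR O D h hh A x).trans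
      (congrArg (fun z => O.iv A (hcp z (pole hh true))) (Dg.last_glue T n h hT hh x).symm)
     θy := fun A g => congrArg hcy (dgGlue_last (HC C n) T n h hT hh
      ((CaseE.g0N O D h hh).comp D.θ) (CaseE.lcN O D h hh) (CaseE.match3 O D h hh) A g)
     θp := fun A g => congrArg (fun z => hcp z (pole hh true)) (dgGlue_last (HC C n) T n h hT hh
      ((CaseE.g0N O D h hh).comp D.θ) (CaseE.lcN O D h hh) (CaseE.match3 O D h hh) A g) }⟩

end Crest.Agent.R248
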