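import Crest.Agent.R248.DGlue

/-!
# R248 piece GCASEF: gluing a globe along `b > n`

Write `x = (x₀, c)`, `c = (y, p₋, p₊)`. Open part `D.G.glue b h` (`Pasting h`), height `max D.G.dim h`.
`ψ x := (cloL (D.ψ x₀) ∨_b L (toW2c c)) ∨_n inv p₊`; first matching: `cloLast (D.ψ x₀) = L (toW2c x₀.last)` (`D.ψL`), `L_face`,
`(toW2 n).natF` and `glue_cond` (the `b`-target of `x₀.last` is the `b`-source of `c` in `HC`).
`θ g`, `g = (g₀ ∨_b ỹ) ∨_n q` (`g₀ : Dg ⟨_, D.G⟩`): `g₀' := g₀ ∨_n q : Dg (clo n D.G hT)` (matching: the `n`-target of `g₀.last` is that of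
its `b`-target `=` `b`-source of `ỹ`, `n < b`), `u := (D.θ g₀').last`, and
`θ g := D.θ g₀' ∨_b hcMk (L (cloW g)) (hcp u (pole _ false)) (inv q)`; source condition: `hp` of `u`, `D.θy`, `L_s`; matching in `HC_b`
(`hc_ext_gt` with `n < b`): `y`: `D.θy`, `L_face`, `W2c.ext`; `p`: `rfl` and `D.θp`.
`θψ`: `g₀'` of `ψ x` is `D.ψ x₀` (`dg_glue_ext'`, `D.ψR`, `p₊ of x₀.last = p₊`), `D.θψ`, and
`hcp u (pole _ false) = inv inv (p₋ of x₀.last) = inv inv p₋` by `Dg.last_push`, `thH_p`.
-/

set_option autoImplicit false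
set_option linter.unusedVariables false
open CategoryTheory CategoryTheory.Limits Opposite
open Crest.GeometryTopology.Coherator Crest.GeometryTopology.Coherator.GlobTheory

universe u

namespace Crest.Agent.R248

variable {C : GlobTheory.{u}}

namespace GCF

/-- `cloW`, naturally -/
noncomputable def cloWN (C : GlobTheory.{u}) (n : ℕ) {ℓ : ℕ} (G : Pasting ℓ) (h : n < ℓ) :
    NT ((und C).dg (clo n G h)) ((W2 C n).cel ℓ) :=
  ⟨fun A g => cloW g, fun g x => W2c.ext' rfl (fun _ => rfl)⟩

/-- the last whisker, naturally -/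
noncomputable def hcpN (C : GlobTheory.{u}) {n h : ℕ} (a : Ar n h) :
    NT ((HC C n).cel h) ((und C).cel (n + 1)) :=
  ⟨fun A c => hcp c a, fun g x => rfl⟩

noncomputable def LN (O : Ops C) {n h : ℕ} (hn : n < h) :
    NT ((HC C n).cel h) ((und C).cel h) :=
  ((toW2 n).cel h).comp (O.L hn)

/-- matching in dimension `b` of the whiskered cells -/
theorem L_match (O : Ops C) {n b ℓ h : ℕ} (hnb : n < b) (hb : b < ℓ) (hh : b < h)
    (A : GlobModel C) (u : W2c (undGP A) n ℓ) (v : W2c (undGP A) n h)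
    (hy : (undGP A).fc (pole hb true) u.y = (undGP A).fc (pole hh false) v.y)
    (hp : u.p (hnb.trans hb) = v.p (hnb.trans hh)) :
    (undGP A).fc (pole hb true) ((O.L (hnb.trans hb)).app A u) =
      (undGP A).fc (pole hh false) ((O.L (hnb.trans hh)).app A v) :=
  (O.L_face hnb (hnb.trans hb) (pole hb true) A u).trans
    ((congrArg ((O.L hnb).app A) (W2c.ext' hy fun _ => hp)).trans
      (O.L_face hnb (hnb.trans hh) (pole hh false) A v).symm)

end GCF

open GCF

theorem gdo_glue_gt (O : Ops C) (n : ℕ) (T : Shape) (hT : n < T.last) (D : GDo O n T hT)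
    (b h : ℕ) (hb : b < T.last) (hh : b < h) (hnb : n < b) :
    Nonempty (GDo O n (T.glue b h hb hh) (hnb.trans hh)) := by
  have hn : n < h := hnb.trans hh
  let S0 : Shape := ⟨T.last, D.G⟩
  let G' : Pasting h := .glue D.G b h hb hh
  let S1 : Shape := ⟨h, G'⟩
  -- the components of a diagram in `HC`
  let X0 : NT ((HC C n).dg (T.glue b h hb hh)) ((HC C n).dg T) := dgL (HC C n) T b h hb hh
  let Xc : NT ((HC C n).dg (T.glue b h hb hh)) ((HC C n).cel h) := dgR (HC C n) T b h hb hh
  have hX : ∀ (A : GlobModel C) (x : Dg ((HC C n).gp A) (T.glue b h hb hh)),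
      ((HC C n).gp A).fc (pole hb true) (Dg.last (X0.app A x)) =
        ((HC C n).gp A).fc (pole hh false) (Xc.app A x) := fun A x =>
    Dg.glue_cond T b h hb hh x
  have hXp : ∀ (A : GlobModel C) (x : Dg ((HC C n).gp A) (T.glue b h hb hh)) (ε : Bool),
      hcp (Dg.last (Q := (HC C n).gp A) (X0.app A x)) (pole hT ε) =
        hcp (Xc.app A x) (pole hn ε) := fun A x ε =>
    congrArg (fun c : ((HC C n).gp A).c b => hcp c (pole hnb ε)) (hX A x)
  have hXl : ∀ (A : GlobModel C) (x : Dg ((HC C n).gp A) (T.glue b h hb hh)),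
      Dg.last (Q := (HC C n).gp A) x = Xc.app A x := fun A x => Dg.last_glue T b h hb hh x
  -- the open part of `ψ`
  let Ψ0 : NT ((HC C n).dg (T.glue b h hb hh)) ((und C).dg S0) :=
    (X0.comp D.ψ).comp (dgL (und C) S0 n (n + 1) hT (Nat.lt_succ_self n))
  have m1 : ∀ (A : GlobModel C) (x : ((HC C n).dg (T.glue b h hb hh)).obj A),
      (undGP A).fc (pole hb true) (Dg.last (Q := undGP A) (T := S0) (Ψ0.app A x)) =
        (undGP A).fc (pole hh false) ((Xc.comp (LN O hn)).app A x) := by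
    intro A x
    refine (congrArg ((undGP A).fc (pole hb true)) (D.ψL A (X0.app A x))).trans ?_
    exact L_match O hnb hb hh A (toW2c (Dg.last (Q := (HC C n).gp A) (X0.app A x)))
      (toW2c (Xc.app A x)) (congrArg (fun c : ((HC C n).gp A).c b => hcy c) (hX A x))
      (hXp A x true)
  let Ψ1 : NT ((HC C n).dg (T.glue b h hb hh)) ((und C).dg S1) :=
    dgGlue (und C) S0 b h hb hh Ψ0 (Xc.comp (LN O hn)) m1
  have hΨ1 : ∀ (A : GlobModel C) (x : ((HC C n).dg (T.glue b h hb hh)).obj A),
      Dg.last (Q := undGP A) (T := S1) (Ψ1.app A x) = (O.L hn).app A (toW2c (Xc.app A x)) := fun A x =>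
    dgGlue_last (und C) S0 b h hb hh Ψ0 (Xc.comp (LN O hn)) m1 A x
  have m2 : ∀ (A : GlobModel C) (x : ((HC C n).dg (T.glue b h hb hh)).obj A),
      (undGP A).fc (pole hn true) (Dg.last (Q := undGP A) (T := S1) (Ψ1.app A x)) =
        (undGP A).fc (pole (Nat.lt_succ_self n) false)
          (((Xc.comp (hcpN C (pole hn true))).comp (O.inv n)).app A x) := by
    intro A x
    refine (congrArg ((undGP A).fc (pole hn true)) (hΨ1 A x)).trans ?_
    exact (O.L_t hn A (toW2c (Xc.app A x))).trans (O.fc_iv_s A _).symm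
  let Ψ : NT ((HC C n).dg (T.glue b h hb hh)) ((und C).dg (clo n G' hn)) :=
    dgGlue (und C) S1 n (n + 1) hn (Nat.lt_succ_self n) Ψ1
      ((Xc.comp (hcpN C (pole hn true))).comp (O.inv n)) m2
  have hΨL : ∀ (A : GlobModel C) (x : Dg ((HC C n).gp A) (T.glue b h hb hh)),
      cloL (Q := undGP A) (Ψ.app A x) = Ψ1.app A x := fun A x =>
    dgGlue_left (und C) S1 n (n + 1) hn (Nat.lt_succ_self n) Ψ1
      ((Xc.comp (hcpN C (pole hn true))).comp (O.inv n)) m2 A x
  have hΨR : ∀ (A : GlobModel C) (x : Dg ((HC C n).gp A) (T.glue b h hb hh)),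
      cloR (Q := undGP A) (Ψ.app A x) = O.iv A (hcp (Xc.app A x) (pole hn true)) := fun A x =>
    dgGlue_right (und C) S1 n (n + 1) hn (Nat.lt_succ_self n) Ψ1
      ((Xc.comp (hcpN C (pole hn true))).comp (O.inv n)) m2 A x
  have hΨLast : ∀ (A : GlobModel C) (x : Dg ((HC C n).gp A) (T.glue b h hb hh)),
      cloLast (Q := undGP A) (Ψ.app A x) = (O.L hn).app A (toW2c (Xc.app A x)) := fun A x =>
    (congrArg (fun d : Dg (undGP A) S1 => d.last) (hΨL A x)).trans (hΨ1 A x)
  -- the components of a diagram of the new shape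
  let G1 : NT ((und C).dg (clo n G' hn)) ((und C).dg S1) :=
    dgL (und C) S1 n (n + 1) hn (Nat.lt_succ_self n)
  let G0 : NT ((und C).dg (clo n G' hn)) ((und C).dg S0) := G1.comp (dgL (und C) S0 b h hb hh)
  let Gq : NT ((und C).dg (clo n G' hn)) ((und C).cel (n + 1)) :=
    dgR (und C) S1 n (n + 1) hn (Nat.lt_succ_self n)
  have hG : ∀ (A : GlobModel C) (g : Dg (undGP A) (clo n G' hn)),
      (undGP A).fc (pole hb true) (Dg.last (Q := undGP A) (T := S0) (G0.app A g)) =
        (undGP A).fc (pole hh false) (cloLast g) := fun A g =>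
    (Dg.glue_cond S0 b h hb hh (cloL g)).trans
      (congrArg ((undGP A).fc (pole hh false)) (Dg.last_glue S0 b h hb hh (cloL g)).symm)
  have hGn : ∀ (A : GlobModel C) (g : Dg (undGP A) (clo n G' hn)) (ε : Bool),
      (undGP A).fc (pole hT ε) (Dg.last (Q := undGP A) (T := S0) (G0.app A g)) =
        (undGP A).fc (pole hn ε) (cloLast g) := fun A g ε =>
    (fc_globular (undGP A) hnb hb ε true _).symm.trans
      ((congrArg ((undGP A).fc (pole hnb ε)) (hG A g)).trans
        (fc_globular (undGP A) hnb hh ε false _))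
  have m3 : ∀ (A : GlobModel C) (g : ((und C).dg (clo n G' hn)).obj A),
      (undGP A).fc (pole hT true) (Dg.last (Q := undGP A) (T := S0) (G0.app A g)) =
        (undGP A).fc (pole (Nat.lt_succ_self n) false) (Gq.app A g) := fun A g =>
    (hGn A g true).trans (clo_cond g)
  let G0' : NT ((und C).dg (clo n G' hn)) ((und C).dg (clo n D.G hT)) :=
    dgGlue (und C) S0 n (n + 1) hT (Nat.lt_succ_self n) G0 Gq m3
  have hG0L : ∀ (A : GlobModel C) (g : Dg (undGP A) (clo n G' hn)),
      cloL (Q := undGP A) (G0'.app A g) = G0.app A g := fun A g =>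
    dgGlue_left (und C) S0 n (n + 1) hT (Nat.lt_succ_self n) G0 Gq m3 A g
  have hG0Last : ∀ (A : GlobModel C) (g : Dg (undGP A) (clo n G' hn)),
      cloLast (Q := undGP A) (G0'.app A g) = Dg.last (Q := undGP A) (T := S0) (G0.app A g) := fun A g =>
    congrArg (fun d : Dg (undGP A) S0 => d.last) (hG0L A g)
  have hG0R : ∀ (A : GlobModel C) (g : Dg (undGP A) (clo n G' hn)),
      cloR (Q := undGP A) (G0'.app A g) = cloR g := fun A g =>
    dgGlue_right (und C) S0 n (n + 1) hT (Nat.lt_succ_self n) G0 Gq m3 A g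
  let Θ0 : NT ((und C).dg (clo n G' hn)) ((HC C n).dg T) := G0'.comp D.θ
  let U : NT ((und C).dg (clo n G' hn)) ((HC C n).cel T.last) := Θ0.comp (dgLast (HC C n) T)
  have hUy : ∀ (A : GlobModel C) (g : Dg (undGP A) (clo n G' hn)),
      hcy (U.app A g) = (O.L hT).app A (cloW (G0'.app A g)) := fun A g => D.θy A (G0'.app A g)
  have hUp : ∀ (A : GlobModel C) (g : Dg (undGP A) (clo n G' hn)),
      hcp (U.app A g) (pole hT true) = O.iv A (cloR g) := fun A g =>
    (D.θp A (G0'.app A g)).trans (congrArg (O.iv A) (hG0R A g))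
  have hd0 : ∀ (A : GlobModel C) (g : Dg (undGP A) (clo n G' hn)),
      (undGP A).fc (fac n false) (hcp (U.app A g) (pole hT false)) =
        (undGP A).fc (pole hn false) ((O.L hn).app A (cloW g)) := by
    intro A g
    have h1 : (undGP A).fc (fac n false) (hcp (U.app A g) (pole hT false)) =
        (undGP A).fc (pole hT false) (hcy (U.app A g)) := HCc.hp (U.app A g) (pole hT false)
    refine h1.trans ((congrArg ((undGP A).fc (pole hT false)) (hUy A g)).trans ?_)
    refine (O.L_s hT A (cloW (G0'.app A g))).trans ?_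
    refine (congrArg ((undGP A).fc (pole hT false)) (hG0Last A g)).trans ?_
    exact (hGn A g false).trans (O.L_s hn A (cloW g)).symm
  have hd1 : ∀ (A : GlobModel C) (g : Dg (undGP A) (clo n G' hn)),
      (undGP A).fc (fac n false) (O.iv A (cloR g)) =
        (undGP A).fc (pole hn true) ((O.L hn).app A (cloW g)) := fun A g =>
    (O.fc_iv_s A (cloR g)).trans (O.L_t hn A (cloW g)).symm
  let Dc : NT ((und C).dg (clo n G' hn)) ((HC C n).cel h) :=
    ⟨fun A g => hcMk hn ((O.L hn).app A (cloW g)) (hcp (U.app A g) (pole hT false))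
      (O.iv A (cloR g)) (hd0 A g) (hd1 A g), by
      intro A A' f g
      refine hc_ext_gt hn ?_ ?_
      · exact ((cloWN C n G' hn).comp (O.L hn)).nat f g
      · intro ε
        cases ε
        · exact (U.comp (hcpN C (pole hT false))).nat f g
        · exact (Gq.comp (O.inv n)).nat f g⟩
  have m4 : ∀ (A : GlobModel C) (g : ((und C).dg (clo n G' hn)).obj A),
      ((HC C n).gp A).fc (pole hb true) (Dg.last (Q := (HC C n).gp A) (Θ0.app A g)) =
        ((HC C n).gp A).fc (pole hh false) (Dc.app A g) := by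
    intro A g
    refine hc_ext_gt hnb ?_ ?_
    · refine (congrArg ((undGP A).fc (pole hb true)) (hUy A g)).trans ?_
      exact L_match O hnb hb hh A (cloW (G0'.app A g)) (cloW g)
        ((congrArg ((undGP A).fc (pole hb true)) (hG0Last A g)).trans (hG A g)) (hG0R A g)
    · intro ε
      cases ε
      · rfl
      · exact hUp A g
  let Θ : NT ((und C).dg (clo n G' hn)) ((HC C n).dg (T.glue b h hb hh)) :=
    dgGlue (HC C n) T b h hb hh Θ0 Dc m4
  -- the composite
  have hG0Ψ : ∀ (A : GlobModel C) (x : Dg ((HC C n).gp A) (T.glue b h hb hh)),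
      G0'.app A (Ψ.app A x) = D.ψ.app A (X0.app A x) := by
    intro A x
    refine dg_glue_ext' (Q := undGP A) S0 n (n + 1) hT (Nat.lt_succ_self n)
      ((hG0L A (Ψ.app A x)).trans ?_) ((hG0R A (Ψ.app A x)).trans ?_)
    · refine (congrArg (Dg.res (S0.inLeft b h hb hh)) (hΨL A x)).trans ?_
      exact dgGlue_left (und C) S0 b h hb hh Ψ0 (Xc.comp (LN O hn)) m1 A x
    · refine (hΨR A x).trans ?_
      exact (congrArg (O.iv A) (hXp A x true)).symm.trans (D.ψR A (X0.app A x)).symm
  have hΘ0Ψ : ∀ (A : GlobModel C) (x : Dg ((HC C n).gp A) (T.glue b h hb hh)),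
      Θ0.app A (Ψ.app A x) = Dg.push ((thH O n).at A) (X0.app A x) := fun A x =>
    (congrArg (D.θ.app A) (hG0Ψ A x)).trans (D.θψ A (X0.app A x))
  refine ⟨⟨G', max_le_max D.dim_le le_rfl, Ψ, Θ, ?_, ?_, ?_, ?_, ?_⟩⟩
  · intro A x
    refine dg_glue_ext' (Q := (HC C n).gp A) T b h hb hh ?_ ?_
    · exact (dgGlue_left (HC C n) T b h hb hh Θ0 Dc m4 A (Ψ.app A x)).trans (hΘ0Ψ A x)
    · refine (dgGlue_right (HC C n) T b h hb hh Θ0 Dc m4 A (Ψ.app A x)).trans ?_
      refine hc_ext_gt hn ?_ ?_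
      · refine Eq.trans ?_ (thH_y_gt O hn A (Xc.app A x)).symm
        exact congrArg ((O.L hn).app A) (W2c.ext' (hΨLast A x) fun _ => hΨR A x)
      · intro ε
        cases ε
        · have h1 : U.app A (Ψ.app A x) =
              (thH O n).app A T.last (Dg.last (Q := (HC C n).gp A) (X0.app A x)) :=
            congrArg (fun d : Dg ((HC C n).gp A) T => d.last) (hΘ0Ψ A x)
          refine (congrArg (fun c : ((HC C n).gp A).c T.last => hcp c (pole hT false)) h1).trans ?_
          exact congrArg (fun c => O.iv A (O.iv A c)) (hXp A x false)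
        · exact congrArg (O.iv A) (hΨR A x)
  · intro A x
    exact (hΨLast A x).trans (congrArg (fun c : ((HC C n).gp A).c h => (O.L hn).app A (toW2c c))
      (hXl A x).symm)
  · intro A x
    exact (hΨR A x).trans (congrArg (fun c : ((HC C n).gp A).c h => O.iv A (hcp c (pole hn true)))
      (hXl A x).symm)
  · intro A g
    exact congrArg (fun c : ((HC C n).gp A).c h => hcy c)
      (dgGlue_last (HC C n) T b h hb hh Θ0 Dc m4 A g)
  · intro A g
    exact congrArg (fun c : ((HC C n).gp A).c h => hcp c (pole hn true))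
      (dgGlue_last (HC C n) T b h hb hh Θ0 Dc m4 A g)

end Crest.Agent.R248
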