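import Crest.Agent.R248.GCaseA
import Crest.Agent.R248.GCaseB
import Crest.Agent.R248.GCaseC
import Crest.Agent.R248.GCaseD
import Crest.Agent.R248.GCaseE
import Crest.Agent.R248.GCaseF

/-!
# R248: the G-lemma (assembled by recursion on the pasting scheme)
-/

set_option autoImplicit false
set_option linter.unusedVariables false
open CategoryTheory CategoryTheory.Limits Opposite
open Crest.GeometryTopology.Coherator Crest.GeometryTopology.Coherator.GlobTheory

universe u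

namespace Crest.Agent.R248

variable {C : GlobTheory.{u}}

theorem glem_aux (O : Ops C) (n : ℕ) : ∀ {ℓ : ℕ} (P : Pasting ℓ),
    Nonempty (GD O n ⟨ℓ, P⟩) ∧ ∀ h : n < ℓ, Nonempty (GDo O n ⟨ℓ, P⟩ h) := by
  intro ℓ P
  induction P with
  | single h =>
    rcases lt_trichotomy h n with h1 | h1 | h1
    · exact ⟨gd_single_lt O n h h1, fun h2 => absurd h2 (by omega)⟩
    · subst h1
      exact ⟨gd_single_eq O h, fun h2 => absurd h2 (lt_irrefl _)⟩
    · obtain ⟨D⟩ := gdo_single_gt O n h h1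
      exact ⟨gd_of_gdo O n _ h1 D, fun _ => ⟨D⟩⟩
  | @glue last P b h hb hh ih =>
    rcases lt_trichotomy b n with h1 | h1 | h1
    · obtain ⟨⟨D⟩, -⟩ := ih
      rcases lt_trichotomy h n with h2 | h2 | h2
      · exact ⟨gd_glue_lt_lt O n ⟨last, P⟩ D b h hb hh h1 h2, fun h3 => absurd h3 (by omega)⟩
      · subst h2
        exact ⟨gd_glue_lt_eq O h ⟨last, P⟩ D b hb h1, fun h3 => absurd h3 (lt_irrefl _)⟩
      · obtain ⟨D'⟩ := gdo_glue_lt_gt O n ⟨last, P⟩ D b h hb hh h1 h2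
        exact ⟨gd_of_gdo O n _ h2 D', fun _ => ⟨D'⟩⟩
    · subst h1
      obtain ⟨-, h2⟩ := ih
      obtain ⟨D⟩ := h2 hb
      obtain ⟨D'⟩ := gdo_glue_eq O b ⟨last, P⟩ hb D h hh
      exact ⟨gd_of_gdo O b _ hh D', fun _ => ⟨D'⟩⟩
    · obtain ⟨-, h2⟩ := ih
      obtain ⟨D⟩ := h2 (h1.trans hb)
      obtain ⟨D'⟩ := gdo_glue_gt O n ⟨last, P⟩ (h1.trans hb) D b h hb hh h1
      exact ⟨gd_of_gdo O n _ (h1.trans hh) D', fun _ => ⟨D'⟩⟩

theorem glem (O : Ops C) (n : ℕ) (T : Shape) : Nonempty (GD O n T) :=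
  (glem_aux O n T.pasting).1

end Crest.Agent.R248
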