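import Crest.Agent.R248.Cyl

/-!
# R248 piece STEPLOW: property `LowP` (and `EProp`) at the base and at a step

* `low_base`: `p0 = id`, `p1 = η`.
* `low_step`: for `e < n`: `Ar n e` is empty, so an `e`-cell of `HC n` is its `y`, `conjApp_lt`; an `e`-cell of the step is
  `((y, ∅), κ)` with `X.p0 κ = y`; bijectivity from `hX` at `e`; `p1 = X.p1 κ = η (X.p0 κ) = η y`.
* `e_base`: `κ = y`.
* `e_step`: `e < n`: `κ` over `y` by `LowP` (of the step, `low_step`), boundary by injectivity of `p0` in dimensions `< e`.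
  `e = n`: cylinder data `p (ide n) := unit y` (any `(n+1)`-cell with source `y`), `κ'` over `t p` by `hX` (`n < n+1`);
  boundary again by `low_step` injectivity. `e > n`: `p a := ` the `p`-component of `d.v (n < e) ε` for `a = pole _ ε`
  (every `a : Ar n e` is a pole); `(y,p)` is a cell of `HC n` with boundary the `HC` part of `d`; `Conj (y,p)` has
  boundary `p0` of the `X.P`-part of `d` (`conj_natF`), so `hE` gives `κ'`.
-/

set_option autoImplicit false
open CategoryTheory CategoryTheory.Limits Opposite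
open Crest.GeometryTopology.Coherator Crest.GeometryTopology.Coherator.GlobTheory

universe u

namespace Crest.Agent.R248

variable {C : GlobTheory.{u}}

theorem low_base {N : ℕ} (b : BSys C N) : LowP b N (basePre b) := by
  intro e _ A
  exact ⟨Function.bijective_id, fun x => rfl⟩

theorem low_step {N : ℕ} (b : BSys C N) (O : Ops C) (n : ℕ) (X : Pre C b.B)
    (hX : LowP b (n + 1) X) : LowP b n (stepPre O n X) := by
  intro e he A
  have hemp : Ar n e → False := fun a => absurd (ar_le a) (not_le.2 he)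
  obtain ⟨⟨hinj, hsurj⟩, hp1⟩ := hX e (he.trans (Nat.lt_succ_self n)) A
  refine ⟨⟨?_, ?_⟩, ?_⟩
  · rintro ⟨⟨x, κ⟩, hx⟩ ⟨⟨x', κ'⟩, hx'⟩ hxx
    have h1 : x.y = x'.y := hxx
    have h2 : x = x' := HCc.ext' h1 fun a => (hemp a).elim
    have h3 : κ = κ' := by
      apply hinj
      have e1 : conjApp O n A e x = X.p0.app A e κ := hx
      have e2 : conjApp O n A e x' = X.p0.app A e κ' := hx'
      rw [← e1, ← e2, h2]
    subst h2; subst h3; rfl
  · intro y
    obtain ⟨κ, hκ⟩ := hsurj y
    let x : HCc (undGP A) n e := ⟨y, fun a => (hemp a).elim, fun a => (hemp a).elim⟩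
    refine ⟨⟨(x, κ), ?_⟩, rfl⟩
    show conjApp O n A e x = X.p0.app A e κ
    rw [conjApp_lt O A he, hκ]
  · rintro ⟨⟨x, κ⟩, hx⟩
    have e1 : conjApp O n A e x = X.p0.app A e κ := hx
    have e2 : HCc.y x = X.p0.app A e κ := (conjApp_lt O A he x).symm.trans e1
    show X.p1.app A e κ = b.e A (HCc.y x)
    rw [hp1 κ]
    exact congrArg (b.e A) e2.symm

theorem e_base {N : ℕ} (b : BSys C N) : EProp (basePre b) := by
  intro A e d y hy
  refine ⟨y, ?_, rfl⟩
  exact hy

theorem ar_pole {f e : ℕ} (h : f < e) (a : Ar f e) : ∃ ε, a = pole h ε := by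
  cases a with
  | refl => exact absurd h (lt_irrefl _)
  | pole h' ε => exact ⟨ε, rfl⟩

theorem pole_inj {f e : ℕ} (h : f < e) {ε ε' : Bool} (hh : pole h ε = pole h ε') : ε = ε' := by
  injection hh

/-- the boundary of a cell of the step over a given cell is given if it is so in dimensions `< n` -/
theorem step_bdy_low {N : ℕ} (b : BSys C N) (O : Ops C) (n : ℕ) (X : Pre C b.B)
    (hX : LowP b (n + 1) X) {A : GlobModel C} {e : ℕ} (he : e ≤ n)
    (d : Bd ((stepPre O n X).P.gp A) e) (y : (undGP A).c e)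
    (hy : (undGP A).bdy y = d.push ((stepPre O n X).p0.at A))
    (κ : ((stepPre O n X).P.gp A).c e) (hκ : (stepPre O n X).p0.app A e κ = y) :
    ((stepPre O n X).P.gp A).bdy κ = d := by
  apply Bd.ext'
  intro f hf ε
  apply (low_step b O n X hX f (hf.trans_le he) A).1.1
  have h1 : (stepPre O n X).p0.app A f (((stepPre O n X).P.gp A).fc (pole hf ε) κ) =
      (undGP A).fc (pole hf ε) y := by
    rw [(stepPre O n X).p0.natF A (pole hf ε) κ, hκ]
    rfl
  have h2 : (undGP A).fc (pole hf ε) y = (stepPre O n X).p0.app A f (d.v hf ε) :=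
    fc_of_bdy hy hf ε
  exact h1.trans h2

theorem e_step {N : ℕ} (b : BSys C N) (O : Ops C) (n : ℕ) (X : Pre C b.B)
    (hX : LowP b (n + 1) X) (hE : EProp X) : EProp (stepPre O n X) := by
  intro A e d y hy
  rcases lt_trichotomy e n with he | he | he
  · obtain ⟨κ, hκ⟩ := (low_step b O n X hX e he A).1.2 y
    exact ⟨κ, step_bdy_low b O n X hX he.le d y hy κ hκ, hκ⟩
  · subst he
    obtain ⟨κ, hκ⟩ := (hX e (Nat.lt_succ_self e) A).1.2 y
    let x : HCc (undGP A) e e :=
      ⟨y, fun _ => O.un A y, fun a => by rw [O.fc_un, ar_self a, (undGP A).fc_ide]⟩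
    have hx : conjApp O e A e x = X.p0.app A e κ := by
      rw [conjApp_eq, hκ]
      exact O.fc_un A true y
    refine ⟨⟨(x, κ), hx⟩, ?_, rfl⟩
    exact step_bdy_low b O e X hX le_rfl d y hy ⟨(x, κ), hx⟩ rfl
  · -- `n < e`
    have hyv : ∀ (f : ℕ) (hf : f < e) (ε : Bool), (undGP A).fc (pole hf ε) y =
        (d.v hf ε).1.1.y := fun f hf ε => fc_of_bdy hy hf ε
    let ep : Ar n e → Bool := fun a => Classical.choose (ar_pole he a)
    have hep : ∀ a, a = pole he (ep a) := fun a => Classical.choose_spec (ar_pole he a)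
    have hep' : ∀ ε, ep (pole he ε) = ε := fun ε => (pole_inj he (hep (pole he ε))).symm
    let x : HCc (undGP A) n e :=
      { y := y
        p := fun a => (d.v he (ep a)).1.1.p (ide n)
        hp := fun a => by
          rw [(d.v he (ep a)).1.1.hp (ide n), (undGP A).fc_ide, ← hyv n he (ep a), ← hep a] }
    -- the half cylinder part of the boundary
    have hx : ∀ (f : ℕ) (hf : f < e) (ε : Bool),
        ((HC C n).gp A).fc (pole hf ε) x = (d.v hf ε).1.1 := by
      intro f hf ε
      refine HCc.ext' (hyv f hf ε) fun a => ?_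
      show (d.v he (ep (sq a (pole hf ε)))).1.1.p (ide n) = (d.v hf ε).1.1.p a
      rcases Nat.lt_or_ge n f with hnf | hnf
      · obtain ⟨ε', rfl⟩ := ar_pole hnf a
        have h1 : sq (pole hnf ε') (pole hf ε) = pole he ε' := rfl
        rw [h1, hep']
        have h2 := d.glob hnf hf ε' ε
        have h3 : ((HC C n).gp A).fc (pole hnf ε') (d.v hf ε).1.1 = (d.v he ε').1.1 :=
          congrArg (fun w => w.1.1) h2
        rw [← h3]
        rfl
      · obtain rfl : f = n := le_antisymm hnf (ar_le a)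
        rw [ar_self a, ide_sq, hep']
    have hc : (undGP A).bdy (conjApp O n A e x) =
        (d.push ((PbG.snd (Conj O n) X.p0).at A)).push (X.p0.at A) := by
      apply Bd.ext'
      intro f hf ε
      show (undGP A).fc (pole hf ε) (conjApp O n A e x) = X.p0.app A f (d.v hf ε).1.2
      rw [← conj_natF, hx f hf ε]
      exact (d.v hf ε).2
    obtain ⟨κ, hκ1, hκ2⟩ := hE A e (d.push ((PbG.snd (Conj O n) X.p0).at A)) _ hc
    refine ⟨⟨(x, κ), hκ2.symm⟩, ?_, rfl⟩
    apply Bd.ext'
    intro f hf ε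
    refine Subtype.ext (Prod.ext (hx f hf ε) ?_)
    exact fc_of_bdy hκ1 hf ε

end Crest.Agent.R248
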