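import Crest.Agent.R248.CohFam
import Crest.Agent.R248.StepLow
import Crest.Agent.R248.GLem

/-!
# R248 piece HMAIN: the map `H` and the contractibility of the diagrams of a level

`CDat X` is the data of `CStP X`.
* `j_transfer`: transport the `J` of `X` along `a`, `c`.
* `exists_H1`: `H1 (y,p) := (c (ρ₂ (toW2c (y,p))), a ↦ c (ρ_p (p a)))` with `ρ₂` from `exists_rho2`, `ρ_p` from `exists_rhop`; the condition
  `hp`: both sides are (`c` of) `n`-cells of `X.P` with the same `p0` (`hX` injectivity in dimension `n`).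
* `exists_H`: `H ((y,p), κ) := (H1 (y,p), Λ (Conj (H1 (y,p)), κ))` with `Λ` from `LProp` for `M` (`j_transfer`); `conj_natM` for
  `f0.app A` and `f1.app A`. `P'(f1) H = (HC(f1) H1, δ (f1 (Conj (H1 w)))) = (HC(η) (thH w), δ (Conj (HC(η) (thH w)))) =
  P'(η) (dlt (thH w))` by naturality of `δ` and `Conj`.
* `contr_main`: let `D : GD O n T` (`glem`). For natural parallel `s, t : P'.dg T → cel i`: `D.θ ≫ push (dlt) ≫ s` and the same for `t` on
  `(und C).dg D.G`, which is contractible (`contr_dgG`, `D.G.dim ≤ max T.dim (n+1) ≤ i+1`): natural filler `γ`. Let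
  `x w := a (s_{M A} (push H w))`, `y w := a (t_{M A} (push H w))` in `X.P.cel i` (`s.atM M` etc.; parallel), `z w := γ (D.ψ (push fst w))`.
  `X.p0 (x w) = f0 (s_{M A} (push H w)) = s (push (P'(f0)) (push H w)) = s w` (naturality of `s` for `f0.app A : M A ⟶ A`).
  `X.p1 (x w) = f1 (s_{M A} (push H w)) = s_{B A} (push (P'(f1)) (push H w)) = s_{B A} (push (P'(η)) (push dlt (push thH (push fst w))))
   = η (s (push dlt (D.θ (D.ψ (push fst w))))) = η (source of z w)`. Apply `TProp` of `X` (`i < N`).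
-/

set_option autoImplicit false
set_option linter.unusedVariables false
open CategoryTheory CategoryTheory.Limits Opposite
open Crest.GeometryTopology.Coherator Crest.GeometryTopology.Coherator.GlobTheory

universe u

namespace Crest.Agent.R248

variable {C : GlobTheory.{u}}

/-- the data of `CStP` -/
structure CDat {B : GlobModel C ⥤ GlobModel C} (X : Pre C B) where
  M : GlobModel C ⥤ GlobModel C
  f0 : M ⟶ 𝟭 (GlobModel C)
  f1 : M ⟶ B
  a : NG ((und C).comp M) X.P
  c : NG X.P ((und C).comp M)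
  ac : ∀ A e x, a.app A e (c.app A e x) = x
  ca : ∀ A e x, c.app A e (a.app A e x) = x
  a0 : ∀ A e x, X.p0.app A e (a.app A e x) = (ofM M f0 f1).p0.app A e x
  a1 : ∀ A e x, X.p1.app A e (a.app A e x) = (ofM M f0 f1).p1.app A e x

theorem CStP.dat {B : GlobModel C ⥤ GlobModel C} {X : Pre C B} (h : CStP X) :
    Nonempty (CDat X) := by
  obtain ⟨M, f0, f1, a, c, h1, h2, h3, h4⟩ := h
  exact ⟨⟨M, f0, f1, a, c, h1, h2, h3, h4⟩⟩

theorem j_transfer {B : GlobModel C ⥤ GlobModel C} (O : Ops C) (n : ℕ) (X : Pre C B)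
    (D : CDat X) (hJ : JProp O n X) : JProp O n (ofM D.M D.f0 D.f1) := by
  intro e he
  obtain ⟨J, h1, h2, h3⟩ := hJ e he
  let Y := ofM D.M D.f0 D.f1
  have hcond : ∀ (A : GlobModel C) (w : (JDom Y e).obj A),
      X.p0.app A e (D.a.app A e w.1.1) = (undGP A).fc (fac e false) w.1.2 := fun A w =>
    (D.a0 A e w.1.1).trans w.2
  let m : NT (JDom Y e) (JDom X e) :=
    ⟨fun A w => ⟨(D.a.app A e w.1.1, w.1.2), hcond A w⟩, fun {A A'} g w =>
      Subtype.ext (Prod.ext (D.a.natM g e w.1.1) rfl)⟩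
  refine ⟨(m.comp J).comp (D.c.cel (e + 1)), fun A w => ?_, fun A w => ?_, fun A w => ?_⟩
  · have h4 := (D.c.natF A (fac e false) (J.app A (m.app A w))).symm
    exact h4.trans ((congrArg (D.c.app A e) (h1 A (m.app A w))).trans (D.ca A e w.1.1))
  · have h4 := (D.a0 A (e + 1) (D.c.app A (e + 1) (J.app A (m.app A w)))).symm
    exact h4.trans ((congrArg (X.p0.app A (e + 1)) (D.ac A (e + 1) _)).trans (h2 A (m.app A w)))
  · have h4 := (D.a1 A (e + 1) (D.c.app A (e + 1) (J.app A (m.app A w)))).symm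
    refine h4.trans ((congrArg (X.p1.app A (e + 1)) (D.ac A (e + 1) _)).trans
      ((h3 A (m.app A w)).trans ?_))
    exact congrArg (O.un (B.obj A)) (D.a1 A e w.1.1)

/-- the canonical cylinders over half cylinders -/
noncomputable def dlt {B : GlobModel C ⥤ GlobModel C} (O : Ops C) (n : ℕ) (X : Pre C B)
    (δ : NG (und C) X.P) (hδ : ∀ A e x, X.p0.app A e (δ.app A e x) = x) :
    NG (HC C n) (stepPre O n X).P where
  app A e w := ⟨(w, δ.app A e ((Conj O n).app A e w)), (hδ A e _).symm⟩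
  natF A f e a w := Subtype.ext (Prod.ext rfl (by
    show δ.app A f ((Conj O n).app A f _) = _
    rw [(Conj O n).natF, δ.natF]; rfl))
  natM {A A'} g e w := Subtype.ext (Prod.ext rfl (by
    show δ.app A' e ((Conj O n).app A' e _) = _
    rw [(Conj O n).natM, δ.natM]; rfl))

theorem exists_H1 {N : ℕ} (b : BSys C N) (hC : Ctr C) (O : Ops C) (n : ℕ) (X : Pre C b.B)
    (hX : LowP b (n + 1) X) (hR : RProp b (n + 1) X) (D : CDat X) :
    ∃ H1 : NG (HC C n) ((HC C n).comp D.M),
      (∀ (A : GlobModel C) (e : ℕ) (w : ((HC C n).gp A).c e),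
        ((HC C n).map (D.f0.app A)).app e (H1.app A e w) = w) ∧
      ∀ (A : GlobModel C) (e : ℕ) (w : ((HC C n).gp A).c e),
        ((HC C n).map (D.f1.app A)).app e (H1.app A e w) =
          ((HC C n).map (b.η A)).app e ((thH O n).app A e w) := by
  obtain ⟨ρ, hρ0, hρ1⟩ := exists_rho2 b hC O n X hX hR
  obtain ⟨π, hπ0, hπ1⟩ := exists_rhop b hC O n X hX hR
  -- the two components
  let Y : ∀ (A : GlobModel C) (e : ℕ) (w : HCc (undGP A) n e), (undGP (D.M.obj A)).c e :=
    fun A e w => D.c.app A e (ρ.app A e (toW2c w))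
  let Q : ∀ (A : GlobModel C) (p : (undGP A).c (n + 1)), (undGP (D.M.obj A)).c (n + 1) :=
    fun A p => D.c.app A (n + 1) (π.app A p)
  have hcond : ∀ (A : GlobModel C) (e : ℕ) (w : HCc (undGP A) n e) (a : Ar n e),
      (undGP (D.M.obj A)).fc (fac n false) (Q A (w.p a)) =
        (undGP (D.M.obj A)).fc a (Y A e w) := by
    intro A e w a
    have h1 : (undGP (D.M.obj A)).fc (fac n false) (Q A (w.p a)) =
        D.c.app A n ((X.P.gp A).fc (fac n false) (π.app A (w.p a))) :=
      (D.c.natF A (fac n false) (π.app A (w.p a))).symm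
    have h2 : (undGP (D.M.obj A)).fc a (Y A e w) =
        D.c.app A n ((X.P.gp A).fc a (ρ.app A e (toW2c w))) :=
      (D.c.natF A a (ρ.app A e (toW2c w))).symm
    have h3 : (X.P.gp A).fc (fac n false) (π.app A (w.p a)) =
        (X.P.gp A).fc a (ρ.app A e (toW2c w)) := by
      apply (hX n (Nat.lt_succ_self n) A).1.1
      have h4 : X.p0.app A n ((X.P.gp A).fc (fac n false) (π.app A (w.p a))) =
          (undGP A).fc (fac n false) (w.p a) :=
        (X.p0.natF A (fac n false) (π.app A (w.p a))).trans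
          (congrArg ((undGP A).fc (fac n false)) (hπ0 A (w.p a)))
      have h5 : X.p0.app A n ((X.P.gp A).fc a (ρ.app A e (toW2c w))) =
          (undGP A).fc a w.y :=
        (X.p0.natF A a (ρ.app A e (toW2c w))).trans
          (congrArg ((undGP A).fc a) (hρ0 A e (toW2c w)))
      exact h4.trans ((w.hp a).trans h5.symm)
    exact h1.trans ((congrArg (D.c.app A n) h3).trans h2.symm)
  have hYF : ∀ (A : GlobModel C) {f e : ℕ} (a : Ar f e) (w : HCc (undGP A) n e),
      Y A f (((HC C n).gp A).fc a w) = (undGP (D.M.obj A)).fc a (Y A e w) := by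
    intro A f e a w
    have h1 : toW2c (((HC C n).gp A).fc a w) = ((W2 C n).gp A).fc a (toW2c w) :=
      (toW2 n).natF A a w
    have h2 : ρ.app A f (toW2c (((HC C n).gp A).fc a w)) =
        (X.P.gp A).fc a (ρ.app A e (toW2c w)) :=
      (congrArg (ρ.app A f) h1).trans (ρ.natF A a (toW2c w))
    exact (congrArg (D.c.app A f) h2).trans (D.c.natF A a _)
  have hYM : ∀ {A A' : GlobModel C} (g : A ⟶ A') (e : ℕ) (w : HCc (undGP A) n e),
      Y A' e (((HC C n).map g).app e w) = ((und C).map (D.M.map g)).app e (Y A e w) := by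
    intro A A' g e w
    have h1 : toW2c (((HC C n).map g).app e w) = ((W2 C n).map g).app e (toW2c w) :=
      (toW2 n).natM g e w
    have h2 : ρ.app A' e (toW2c (((HC C n).map g).app e w)) =
        (X.P.map g).app e (ρ.app A e (toW2c w)) :=
      (congrArg (ρ.app A' e) h1).trans (ρ.natM g e (toW2c w))
    exact (congrArg (D.c.app A' e) h2).trans (D.c.natM g e _)
  have hQM : ∀ {A A' : GlobModel C} (g : A ⟶ A') (p : (undGP A).c (n + 1)),
      Q A' (((und C).map g).app (n + 1) p) = ((und C).map (D.M.map g)).app (n + 1) (Q A p) := by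
    intro A A' g p
    exact (congrArg (D.c.app A' (n + 1)) (π.nat g p)).trans (D.c.natM g (n + 1) _)
  let H1 : NG (HC C n) ((HC C n).comp D.M) :=
    { app := fun A e w => (⟨Y A e w, fun a => Q A (w.p a), hcond A e w⟩ :
        HCc (undGP (D.M.obj A)) n e)
      natF := fun A f e a w => HCc.ext' (hYF A a w) (fun _ => rfl)
      natM := fun {A A'} g e w => HCc.ext' (hYM g e w) (fun a => hQM g (w.p a)) }
  refine ⟨H1, fun A e w => ?_, fun A e w => ?_⟩
  · refine HCc.ext' ?_ (fun a => ?_)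
    · have h1 := (D.a0 A e (Y A e w)).symm
      exact h1.trans ((congrArg (X.p0.app A e) (D.ac A e _)).trans (hρ0 A e (toW2c w)))
    · have h1 := (D.a0 A (n + 1) (Q A (w.p a))).symm
      exact h1.trans ((congrArg (X.p0.app A (n + 1)) (D.ac A (n + 1) _)).trans (hπ0 A (w.p a)))
  · refine HCc.ext' ?_ (fun a => ?_)
    · have h1 := (D.a1 A e (Y A e w)).symm
      exact h1.trans ((congrArg (X.p1.app A e) (D.ac A e _)).trans (hρ1 A e (toW2c w)))
    · have h1 := (D.a1 A (n + 1) (Q A (w.p a))).symm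
      exact h1.trans ((congrArg (X.p1.app A (n + 1)) (D.ac A (n + 1) _)).trans (hπ1 A (w.p a)))

theorem exists_H {N : ℕ} (b : BSys C N) (hC : Ctr C) (O : Ops C) (n : ℕ) (X : Pre C b.B)
    (G : Good b O (n + 1) X) (D : CDat X) :
    ∃ (δ : NG (und C) X.P) (hδ : ∀ A e x, X.p0.app A e (δ.app A e x) = x)
      (H : NG (stepPre O n X).P ((stepPre O n X).P.comp D.M)),
      (∀ (A : GlobModel C) (e : ℕ) (w : ((stepPre O n X).P.gp A).c e),
        ((stepPre O n X).P.map (D.f0.app A)).app e (H.app A e w) = w) ∧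
      ∀ (A : GlobModel C) (e : ℕ) (w : ((stepPre O n X).P.gp A).c e),
        ((stepPre O n X).P.map (D.f1.app A)).app e (H.app A e w) =
          ((stepPre O n X).P.map (b.η A)).app e
            ((dlt O n X δ hδ).app A e ((thH O n).app A e w.1.1)) := by
  obtain ⟨δ, hδ, hL⟩ := G.l
  obtain ⟨Λ, hΛ1, hΛ2, hΛ3⟩ := hL D.M D.f0 D.f1 (j_transfer O (n + 1) X D G.j)
  obtain ⟨H1, hH1, hH2⟩ := exists_H1 b hC O n X G.low G.r D
  have hcond : ∀ (A : GlobModel C) (e : ℕ) (w : ((stepPre O n X).P.gp A).c e),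
      (ofM D.M D.f0 D.f1).p0.app A e ((Conj O n).app (D.M.obj A) e (H1.app A e w.1.1)) =
        X.p0.app A e w.1.2 := by
    intro A e w
    refine ((Conj O n).natM (D.f0.app A) e (H1.app A e w.1.1)).symm.trans ?_
    refine (congrArg ((Conj O n).app A e) (hH1 A e w.1.1)).trans ?_
    exact w.2
  let arg : ∀ (A : GlobModel C) (e : ℕ) (w : ((stepPre O n X).P.gp A).c e),
      ((PbG (ofM D.M D.f0 D.f1).p0 X.p0).gp A).c e := fun A e w =>
    ⟨((Conj O n).app (D.M.obj A) e (H1.app A e w.1.1), w.1.2), hcond A e w⟩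
  let H : NG (stepPre O n X).P ((stepPre O n X).P.comp D.M) :=
    { app := fun A e w => ⟨(H1.app A e w.1.1, Λ.app A e (arg A e w)), (hΛ1 A e (arg A e w)).symm⟩
      natF := fun A f e a w => by
        refine Subtype.ext (Prod.ext (H1.natF A a w.1.1) ?_)
        refine Eq.trans (congrArg (Λ.app A f) ?_) (Λ.natF A a (arg A e w))
        refine Subtype.ext (Prod.ext ?_ rfl)
        exact (congrArg ((Conj O n).app (D.M.obj A) f) (H1.natF A a w.1.1)).trans
          ((Conj O n).natF (D.M.obj A) a _)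
      natM := fun {A A'} g e w => by
        refine Subtype.ext (Prod.ext (H1.natM g e w.1.1) ?_)
        refine Eq.trans (congrArg (Λ.app A' e) ?_) (Λ.natM g e (arg A e w))
        refine Subtype.ext (Prod.ext ?_ rfl)
        exact (congrArg ((Conj O n).app (D.M.obj A') e) (H1.natM g e w.1.1)).trans
          ((Conj O n).natM (D.M.map g) e _) }
  refine ⟨δ, hδ, H, fun A e w => ?_, fun A e w => ?_⟩
  · exact Subtype.ext (Prod.ext (hH1 A e w.1.1) (hΛ2 A e (arg A e w)))
  · refine Subtype.ext (Prod.ext (hH2 A e w.1.1) ?_)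
    refine (hΛ3 A e (arg A e w)).trans ?_
    show δ.app (b.B.obj A) e (((und C).map (D.f1.app A)).app e
      ((Conj O n).app (D.M.obj A) e (H1.app A e w.1.1))) =
        (X.P.map (b.η A)).app e (δ.app A e ((Conj O n).app A e ((thH O n).app A e w.1.1)))
    have h1 : ((und C).map (D.f1.app A)).app e
        ((Conj O n).app (D.M.obj A) e (H1.app A e w.1.1)) =
        ((und C).map (b.η A)).app e ((Conj O n).app A e ((thH O n).app A e w.1.1)) :=
      ((Conj O n).natM (D.f1.app A) e (H1.app A e w.1.1)).symm.trans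
        ((congrArg ((Conj O n).app (b.B.obj A) e) (hH2 A e w.1.1)).trans
          ((Conj O n).natM (b.η A) e ((thH O n).app A e w.1.1)))
    exact (congrArg (δ.app (b.B.obj A) e) h1).trans (δ.natM (b.η A) e _)

theorem contr_dgG (hC : Ctr C) (G : Shape) (i : ℕ) (h : G.dim ≤ i + 1) :
    Contr ((und C).dg G) i :=
  contr_retract (nrvInvN G) (nrvN G) (fun A x => nrv_nrvInv A G x) i (contr_ev hC G i h)

theorem contr_main {N : ℕ} (b : BSys C N) (hC : Ctr C) (O : Ops C) (n : ℕ)
    (X : Pre C b.B) (G : Good b O (n + 1) X) (T : Shape) (i : ℕ) (hT : T.dim ≤ i)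
    (hni : n ≤ i) (hiN : i < N) : Contr ((stepPre O n X).P.dg T) i := by
  obtain ⟨D⟩ := G.c.dat
  obtain ⟨δ, hδ, H, hH0, hH1⟩ := exists_H b hC O n X G D
  obtain ⟨E⟩ := glem O n T
  intro s t hst
  -- the filler over the diagrams of shape `E.G`
  obtain ⟨γ, hγ0, hγ1⟩ := contr_dgG hC E.G i
    (E.dim_le.trans (max_le (hT.trans (Nat.le_succ i)) (Nat.succ_le_succ hni)))
    ((E.θ.comp ((dlt O n X δ hδ).dg T)).comp s) ((E.θ.comp ((dlt O n X δ hδ).dg T)).comp t)
    (fun A x => hst A _)
  -- comparison of the images under `f1` and `η`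
  have hcmp1 : ∀ (A : GlobModel C) (w : Dg ((stepPre O n X).P.gp A) T),
      ((stepPre O n X).P.dg T).map (b.η A) (((dlt O n X δ hδ).dg T).app A
        (E.θ.app A (E.ψ.app A (((PbG.fst (Conj O n) X.p0).dg T).app A w)))) =
      ((stepPre O n X).P.dg T).map (D.f1.app A) ((H.dg T).app A w) := by
    intro A w
    have h1 := E.θψ A (((PbG.fst (Conj O n) X.p0).dg T).app A w)
    rw [h1]
    exact Dg.ext (funext fun e => funext fun c => (hH1 A e (w.v e c)).symm)
  have hcmp0 : ∀ (A : GlobModel C) (w : Dg ((stepPre O n X).P.gp A) T),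
      ((stepPre O n X).P.dg T).map (D.f0.app A) ((H.dg T).app A w) = w := fun A w =>
    Dg.ext (funext fun e => funext fun c => hH0 A e (w.v e c))
  have key1 : ∀ (r : NT ((stepPre O n X).P.dg T) ((und C).cel i)) (A : GlobModel C)
      (w : Dg ((stepPre O n X).P.gp A) T),
      b.e A (r.app A (((dlt O n X δ hδ).dg T).app A
        (E.θ.app A (E.ψ.app A (((PbG.fst (Conj O n) X.p0).dg T).app A w))))) =
      X.p1.app A i ((((H.dg T).comp (r.atM D.M)).comp (D.a.cel i)).app A w) := by
    intro r A w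
    have h1 := r.nat (b.η A) (((dlt O n X δ hδ).dg T).app A
        (E.θ.app A (E.ψ.app A (((PbG.fst (Conj O n) X.p0).dg T).app A w))))
    have h2 := r.nat (D.f1.app A) ((H.dg T).app A w)
    rw [hcmp1 A w] at h1
    exact (h1.symm.trans h2).trans (D.a1 A i (r.app (D.M.obj A) ((H.dg T).app A w))).symm
  have key0 : ∀ (r : NT ((stepPre O n X).P.dg T) ((und C).cel i)) (A : GlobModel C)
      (w : Dg ((stepPre O n X).P.gp A) T),
      X.p0.app A i ((((H.dg T).comp (r.atM D.M)).comp (D.a.cel i)).app A w) = r.app A w := by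
    intro r A w
    have h2 := r.nat (D.f0.app A) ((H.dg T).app A w)
    refine (D.a0 A i (r.app (D.M.obj A) ((H.dg T).app A w))).trans (h2.symm.trans ?_)
    exact congrArg (r.app A) (hcmp0 A w)
  obtain ⟨z', hz0, hz1⟩ := G.t i hiN ((stepPre O n X).P.dg T)
    (((H.dg T).comp (s.atM D.M)).comp (D.a.cel i))
    (((H.dg T).comp (t.atM D.M)).comp (D.a.cel i))
    ((((PbG.fst (Conj O n) X.p0).dg T).comp E.ψ).comp γ)
    (fun A w f hf ε => by
      have h1 := hst (D.M.obj A) ((H.dg T).app A w) f hf ε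
      have h2 := D.a.natF A (pole hf ε) (s.app (D.M.obj A) ((H.dg T).app A w))
      have h3 := D.a.natF A (pole hf ε) (t.app (D.M.obj A) ((H.dg T).app A w))
      exact h2.symm.trans ((congrArg (D.a.app A f) h1).trans h3))
    (fun A w => (congrArg (fun v => b.e A v)
      (hγ0 A (E.ψ.app A (((PbG.fst (Conj O n) X.p0).dg T).app A w)))).trans (key1 s A w))
    (fun A w => (congrArg (fun v => b.e A v)
      (hγ1 A (E.ψ.app A (((PbG.fst (Conj O n) X.p0).dg T).app A w)))).trans (key1 t A w))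
  exact ⟨z', fun A w => (hz0 A w).trans (key0 s A w), fun A w => (hz1 A w).trans (key0 t A w)⟩

end Crest.Agent.R248
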