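import Crest.Agent.R248.ActM
import Crest.Agent.R248.RT

/-!
# R248 piece LEVELACT: the C-structure of a level from (Low), (R) and contractibility

`lvK X o f`: `f` is compatible with the actions of `o` along `p0` and `p1`.
* `lv_fill_lt` (`i + 1 < n`): `f x := ofCell` of the unique cell over `(dact o (push p0 x)).cell` (`hlow`, `NT.exists_inv`); its `p1` is
  `η` of it; `push p1 x = push η (push p0 x)` since `T.dim < n` (`Dg.ext_dim`, `hlow`), `dact_natural`.
  Boundary: injectivity of `p0` in dimension `i < n` (and `Dg.ofCell_cell`) and `lvK` of `l`, `r`.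
* `lv_fill_ge` (`n ≤ i + 1`): `hR` with `e = i+1`, `F = X.P.dg T` (`hctr T (i+1)` if `i + 1 < N`),
  `d := Bd.mk₂ (l x).cell (r x).cell`, `y := (dact o (push p0 x)).cell`, `y' := (dact o (push p1 x)).cell`
  (in `b.B.obj A`); boundary conditions from `lvK` of `l`, `r` (`dact_seq`, `dact_shape`, `Dg.cell_res_face`, `Bd.ext_succ`).
* `lv_rth`: `one`, `seq`, `shape`, `glue` formal (`dact_one`, `dact_seq`, `dact_shape`, `dg_glue_ext`, `Dg.push_res`).
-/

set_option autoImplicit false
set_option linter.unusedVariables false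
open CategoryTheory CategoryTheory.Limits Opposite
open Crest.GeometryTopology.Coherator Crest.GeometryTopology.Coherator.GlobTheory

universe u

namespace Crest.Agent.R248

variable {C : GlobTheory.{u}}

/-- compatibility with the actions along `p0` and `p1` -/
def lvK {B : GlobModel C ⥤ GlobModel C} (X : Pre C B) {S T : Shape} (o : C.arr S T)
    (f : NT (X.P.dg T) (X.P.dg S)) : Prop :=
  (∀ (A : GlobModel C) (x : Dg (X.P.gp A) T),
    Dg.push (X.p0.at A) (f.app A x) = dact A o (Dg.push (X.p0.at A) x)) ∧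
  ∀ (A : GlobModel C) (x : Dg (X.P.gp A) T),
    Dg.push (X.p1.at A) (f.app A x) = dact (B.obj A) o (Dg.push (X.p1.at A) x)

theorem lv_fill_lt {N : ℕ} (b : BSys C N) (n : ℕ) (X : Pre C b.B) (hlow : LowP b n X)
    (i : ℕ) (hi : i + 1 < n) (T : Shape) (hT : T.dim ≤ i + 1)
    (o : C.arr (Shape.globe (i + 1)) T) (l r : NT (X.P.dg T) (X.P.dg (Shape.globe i)))
    (hl : lvK X (C.seq (C.ofShape (Shape.σ i)) o) l)
    (hr : lvK X (C.seq (C.ofShape (Shape.τ i)) o) r)
    (hp : ∀ A x, (X.P.gp A).Par (Dg.cell (l.app A x)) (Dg.cell (r.app A x))) :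
    ∃ f : NT (X.P.dg T) (X.P.dg (Shape.globe (i + 1))), lvK X o f ∧
      f.comp (resN X.P (Shape.σ i)) = l ∧ f.comp (resN X.P (Shape.τ i)) = r := by
  obtain ⟨t, ht, -⟩ := NT.exists_inv (X.p0.cel (i + 1)) (fun A => (hlow (i + 1) hi A).1)
  have ht' : ∀ (A : GlobModel C) (z : (undGP A).c (i + 1)),
      X.p0.app A (i + 1) (t.app A z) = z := fun A z => ht A z
  -- `p1 = η p0` on diagrams of small dimension
  have hp1 : ∀ (S : Shape), S.dim < n → ∀ (A : GlobModel C) (x : Dg (X.P.gp A) S),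
      Dg.push (X.p1.at A) x = Dg.push ((und C).map (b.η A)) (Dg.push (X.p0.at A) x) := by
    intro S hS A x
    apply Dg.ext_dim
    intro e he s
    exact (hlow e (lt_of_le_of_lt he hS) A).2 (x.v e s)
  -- the value of the action
  let g : NT (X.P.dg T) ((und C).cel (i + 1)) :=
    ⟨fun A x => (dact A o (Dg.push (X.p0.at A) x)).cell, fun {A A'} k x => by
      have h1 : Dg.push (X.p0.at A') (Dg.push (X.P.map k) x) =
          Dg.push ((und C).map k) (Dg.push (X.p0.at A) x) := (X.p0.dg T).nat k x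
      have h2 : dact A' o (Dg.push (X.p0.at A') (Dg.push (X.P.map k) x)) =
          Dg.push ((und C).map k) (dact A o (Dg.push (X.p0.at A) x)) :=
        (congrArg (dact A' o) h1).trans (dact_natural k o (Dg.push (X.p0.at A) x))
      exact congrArg Dg.cell h2⟩
  let f : NT (X.P.dg T) (X.P.dg (Shape.globe (i + 1))) :=
    (g.comp t).comp (dgOf X.P (i + 1))
  have hf : ∀ (A : GlobModel C) (x : Dg (X.P.gp A) T),
      f.app A x = Dg.ofCell (t.app A (dact A o (Dg.push (X.p0.at A) x)).cell) := fun A x => rfl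
  -- compatibility along `p0`
  have hf0 : ∀ (A : GlobModel C) (x : Dg (X.P.gp A) T),
      Dg.push (X.p0.at A) (f.app A x) = dact A o (Dg.push (X.p0.at A) x) := by
    intro A x
    have h1 : (Dg.push (X.p0.at A) (f.app A x)).cell = (dact A o (Dg.push (X.p0.at A) x)).cell := by
      have h2 : Dg.cell (f.app A x) = t.app A (dact A o (Dg.push (X.p0.at A) x)).cell :=
        (congrArg Dg.cell (hf A x)).trans (Dg.cell_ofCell _)
      exact (congrArg (X.p0.app A (i + 1)) h2).trans (ht' A _)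
    exact (Dg.ofCell_cell _).symm.trans ((congrArg Dg.ofCell h1).trans (Dg.ofCell_cell _))
  have hf1 : ∀ (A : GlobModel C) (x : Dg (X.P.gp A) T),
      Dg.push (X.p1.at A) (f.app A x) = dact (b.B.obj A) o (Dg.push (X.p1.at A) x) := by
    intro A x
    have h1 := hp1 (Shape.globe (i + 1)) (show (Shape.globe (i + 1)).dim < n from hi) A (f.app A x)
    have h2 := hp1 T (lt_of_le_of_lt hT hi) A x
    have h3 : Dg.push ((und C).map (b.η A)) (Dg.push (X.p0.at A) (f.app A x)) =
        Dg.push ((und C).map (b.η A)) (dact A o (Dg.push (X.p0.at A) x)) :=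
      congrArg (Dg.push ((und C).map (b.η A))) (hf0 A x)
    have h4 := dact_natural (b.η A) o (Dg.push (X.p0.at A) x)
    exact h1.trans (h3.trans (h4.symm.trans (congrArg (dact (b.B.obj A) o) h2.symm)))
  -- boundary
  have hbd : ∀ (σ : Shape.globe i ⟶ Shape.globe (i + 1))
      (l : NT (X.P.dg T) (X.P.dg (Shape.globe i))), lvK X (C.seq (C.ofShape σ) o) l →
      f.comp (resN X.P σ) = l := by
    intro σ l hl
    apply NT.ext
    funext A x
    have h0 : Dg.push (X.p0.at A) (Dg.res σ (f.app A x)) =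
        Dg.res σ (dact A o (Dg.push (X.p0.at A) x)) :=
      (Dg.push_res (X.p0.at A) σ (f.app A x)).symm.trans (congrArg (Dg.res σ) (hf0 A x))
    have h1 : Dg.push (X.p0.at A) (Dg.res σ (f.app A x)) = Dg.push (X.p0.at A) (l.app A x) := by
      refine h0.trans ?_
      refine Eq.trans ?_ (hl.1 A x).symm
      rw [dact_seq, dact_shape]
    have h2 : X.p0.app A i (Dg.cell (Dg.res σ (f.app A x))) = X.p0.app A i (Dg.cell (l.app A x)) :=
      congrArg Dg.cell h1
    have h3 := (hlow i (lt_of_lt_of_le (Nat.lt_succ_self i) hi.le) A).1.1 h2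
    exact (Dg.ofCell_cell _).symm.trans ((congrArg Dg.ofCell h3).trans (Dg.ofCell_cell _))
  exact ⟨f, ⟨hf0, hf1⟩, hbd _ l hl, hbd _ r hr⟩

namespace LVA

theorem globe_ext {Q : GP.{u}} {n : ℕ} {x y : Dg Q (Shape.globe n)} (h : x.cell = y.cell) :
    x = y := by
  rw [← Dg.ofCell_cell x, h, Dg.ofCell_cell]

theorem dact_face (A : GlobModel C) {i : ℕ} {T : Shape} (o : C.arr (Shape.globe (i + 1)) T)
    (ε : Bool) (w : Dg (undGP A) T) :
    (undGP A).fc (fac i ε) (dact A o w).cell =
      (dact A (C.seq (C.ofShape (Shape.faceMap (Nat.lt_succ_self i) ε)) o) w).cell := by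
  rw [dact_seq, dact_shape, Dg.cell_res_face]

/-- the boundary of `i+1`-cells with ends `l`, `r` -/
noncomputable def bdN {P : GPF C} {F : Fam C} {i : ℕ} (l r : NT F (P.dg (Shape.globe i)))
    (hp : ∀ A x, (P.gp A).Par (Dg.cell (l.app A x)) (Dg.cell (r.app A x))) :
    NT F (P.bd (i + 1)) :=
  ⟨fun A x => Bd.mk₂ (Dg.cell (l.app A x)) (Dg.cell (r.app A x)) (hp A x), fun {A A'} g x => by
    refine Bd.ext_succ fun ε => ?_
    cases ε
    · refine (Bd.mk₂_false _ _ _).trans ?_
      refine (congrArg Dg.cell (l.nat g x)).trans ?_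
      exact (congrArg ((P.map g).app i) (Bd.mk₂_false _ _ _)).symm
    · refine (Bd.mk₂_true _ _ _).trans ?_
      refine (congrArg Dg.cell (r.nat g x)).trans ?_
      exact (congrArg ((P.map g).app i) (Bd.mk₂_true _ _ _)).symm⟩

end LVA

theorem lv_fill_ge {N : ℕ} (b : BSys C N) (n : ℕ) (X : Pre C b.B) (hR : RProp b n X)
    (hctr : ∀ (T : Shape) (e : ℕ), T.dim ≤ e → n ≤ e → e < N → Contr (X.P.dg T) e)
    (i : ℕ) (hi : n ≤ i + 1) (T : Shape) (hT : T.dim ≤ i + 1)
    (o : C.arr (Shape.globe (i + 1)) T) (l r : NT (X.P.dg T) (X.P.dg (Shape.globe i)))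
    (hl : lvK X (C.seq (C.ofShape (Shape.σ i)) o) l)
    (hr : lvK X (C.seq (C.ofShape (Shape.τ i)) o) r)
    (hp : ∀ A x, (X.P.gp A).Par (Dg.cell (l.app A x)) (Dg.cell (r.app A x))) :
    ∃ f : NT (X.P.dg T) (X.P.dg (Shape.globe (i + 1))), lvK X o f ∧
      f.comp (resN X.P (Shape.σ i)) = l ∧ f.comp (resN X.P (Shape.τ i)) = r := by
  have hc : Contr (X.P.dg T) (i + 1) ∨ N ≤ i + 1 := by
    rcases Nat.lt_or_ge (i + 1) N with h | h
    · exact Or.inl (hctr T (i + 1) hT hi h)
    · exact Or.inr h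
  obtain ⟨κ, h1, h2, h3⟩ := hR (i + 1) hi (X.P.dg T) hc (LVA.bdN l r hp)
    ⟨fun A x => (dact A o (Dg.push (X.p0.at A) x)).cell, fun {A A'} g x => by
      have e1 : Dg.push (X.p0.at A') ((X.P.dg T).map g x) =
          Dg.push ((und C).map g) (Dg.push (X.p0.at A) x) := (X.p0.dg T).nat g x
      exact (congrArg (fun w => (dact A' o w).cell) e1).trans
        (congrArg Dg.cell (dact_natural g o _))⟩
    ⟨fun A x => (dact (b.B.obj A) o (Dg.push (X.p1.at A) x)).cell, fun {A A'} g x => by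
      have e1 : Dg.push (X.p1.at A') ((X.P.dg T).map g x) =
          Dg.push ((und C).map (b.B.map g)) (Dg.push (X.p1.at A) x) := (X.p1.dg T).nat g x
      exact (congrArg (fun w => (dact (b.B.obj A') o w).cell) e1).trans
        (congrArg Dg.cell (dact_natural (b.B.map g) o _))⟩
    (fun A x => by
      refine Bd.ext_succ fun ε => ?_
      refine (LVA.dact_face A o ε _).trans ?_
      cases ε
      · refine (congrArg Dg.cell (hl.1 A x)).symm.trans ?_
        exact (congrArg ((X.p0.at A).app i) (Bd.mk₂_false _ _ (hp A x))).symm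
      · refine (congrArg Dg.cell (hr.1 A x)).symm.trans ?_
        exact (congrArg ((X.p0.at A).app i) (Bd.mk₂_true _ _ (hp A x))).symm)
    (fun A x => by
      refine Bd.ext_succ fun ε => ?_
      refine (LVA.dact_face (b.B.obj A) o ε _).trans ?_
      cases ε
      · refine (congrArg Dg.cell (hl.2 A x)).symm.trans ?_
        exact (congrArg ((X.p1.at A).app i) (Bd.mk₂_false _ _ (hp A x))).symm
      · refine (congrArg Dg.cell (hr.2 A x)).symm.trans ?_
        exact (congrArg ((X.p1.at A).app i) (Bd.mk₂_true _ _ (hp A x))).symm)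
  refine ⟨κ.comp (dgOf X.P (i + 1)), ⟨fun A x => ?_, fun A x => ?_⟩, ?_, ?_⟩
  · refine LVA.globe_ext ?_
    refine Eq.trans ?_ (h2 A x)
    exact congrArg ((X.p0.at A).app (i + 1)) (Dg.cell_ofCell (Q := X.P.gp A) (κ.app A x))
  · refine LVA.globe_ext ?_
    refine Eq.trans ?_ (h3 A x)
    exact congrArg ((X.p1.at A).app (i + 1)) (Dg.cell_ofCell (Q := X.P.gp A) (κ.app A x))
  · refine NT.ext (funext fun A => funext fun x => ?_)
    refine LVA.globe_ext ?_
    refine (Dg.cell_res_face (Q := X.P.gp A) (Nat.lt_succ_self i) false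
      (Dg.ofCell (κ.app A x))).trans ?_
    refine (congrArg ((X.P.gp A).fc (pole (Nat.lt_succ_self i) false))
      (Dg.cell_ofCell (Q := X.P.gp A) (κ.app A x))).trans ?_
    exact (fc_of_bdy (h1 A x) (Nat.lt_succ_self i) false).trans (Bd.mk₂_false _ _ (hp A x))
  · refine NT.ext (funext fun A => funext fun x => ?_)
    refine LVA.globe_ext ?_
    refine (Dg.cell_res_face (Q := X.P.gp A) (Nat.lt_succ_self i) true
      (Dg.ofCell (κ.app A x))).trans ?_
    refine (congrArg ((X.P.gp A).fc (pole (Nat.lt_succ_self i) true))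
      (Dg.cell_ofCell (Q := X.P.gp A) (κ.app A x))).trans ?_
    exact (fc_of_bdy (h1 A x) (Nat.lt_succ_self i) true).trans (Bd.mk₂_true _ _ (hp A x))

theorem lv_rth {N : ℕ} (b : BSys C N) (n : ℕ) (X : Pre C b.B) (hlow : LowP b n X)
    (hR : RProp b n X)
    (hctr : ∀ (T : Shape) (e : ℕ), T.dim ≤ e → n ≤ e → e < N → Contr (X.P.dg T) e) :
    RTh X.P (fun {S T} o f => lvK X o f) := by
  refine ⟨?_, ?_, ?_, ?_, ?_⟩
  · intro T
    exact ⟨fun A x => (dact_one A T _).symm, fun A x => (dact_one (b.B.obj A) T _).symm⟩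
  · intro R S T o f o' f' hf hf'
    refine ⟨fun A x => ?_, fun A x => ?_⟩
    · exact (hf.1 A _).trans ((congrArg (dact A o) (hf'.1 A x)).trans (dact_seq A o o' _).symm)
    · exact (hf.2 A _).trans ((congrArg (dact (b.B.obj A) o) (hf'.2 A x)).trans
        (dact_seq (b.B.obj A) o o' _).symm)
  · intro S T g
    exact ⟨fun A x => (dact_shape A g (Dg.push (X.p0.at A) x)).symm,
      fun A x => (dact_shape (b.B.obj A) g (Dg.push (X.p1.at A) x)).symm⟩
  · intro S c h hb hh T o f hL hR'
    refine ⟨fun A x => ?_, fun A x => ?_⟩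
    · refine dg_glue_ext (Q := undGP A) S c h hb hh ?_ ?_
      · exact (hL.1 A x).trans ((dact_seq A _ o _).trans (dact_shape A _ _))
      · exact (hR'.1 A x).trans ((dact_seq A _ o _).trans (dact_shape A _ _))
    · refine dg_glue_ext (Q := undGP (b.B.obj A)) S c h hb hh ?_ ?_
      · exact (hL.2 A x).trans ((dact_seq (b.B.obj A) _ o _).trans (dact_shape (b.B.obj A) _ _))
      · exact (hR'.2 A x).trans ((dact_seq (b.B.obj A) _ o _).trans (dact_shape (b.B.obj A) _ _))
  · intro i T hT o l r hl hr hp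
    rcases Nat.lt_or_ge (i + 1) n with h | h
    · exact lv_fill_lt b n X hlow i h T hT o l r hl hr hp
    · exact lv_fill_ge b n X hR hctr i h T hT o l r hl hr hp

theorem cst_level {N : ℕ} (b : BSys C N) (hT : Nonempty C.Tower) (n : ℕ) (X : Pre C b.B)
    (hlow : LowP b n X) (hR : RProp b n X)
    (hctr : ∀ (T : Shape) (e : ℕ), T.dim ≤ e → n ≤ e → e < N → Contr (X.P.dg T) e) :
    CStP X := by
  obtain ⟨Φ, hΦ⟩ := rt hT X.P (fun {S T} o f => lvK X o f) (lv_rth b n X hlow hR hctr)
  exact cst_of_act X Φ (fun o A x => (hΦ o).1 A x) (fun o A x => (hΦ o).2 A x)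

end Crest.Agent.R248
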