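import Crest.Agent.R248.Ops

/-!
# R248 piece OPSEX: existence of the operations

* unit: fill the natural parallel pair `(id, id) : cel e → cel e` by `contr_cel hC e e`.
* inv: fill `(t, s) : cel (n+1) → cel n` (parallel by `fc_globular`) by `contr_cel hC (n+1) n`.
* cmp: fill `(s x₁, t x₂) : V2 n → cel n` by `contr_V2 hC n n`.
* K: `grec (W3 C n) (und C) (n+1)` with `β : f < n+1`: for `f = n`: `ε = false ↦ s(q)`, `ε = true ↦ t(p)`; for `f < n`
  the face `pole _ ε` of `s(q)` (equal to that of `y`); uniformly: `β he hf ε w = (undGP A).fc (arrow f → n+1) (if ε then p else q)`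
  ... precisely: `β w := if ε then fc (pole (f<n+1) true) (w.p _) else fc (pole (f<n+1) false) (w.q _)`; check that
  for `f < n` both agree with the faces of `y` (`hq`, `hp`, `fc_globular`), which gives `hβ2`.
  `Φ = True`. `ext`: for `e ≥ n+1`, `e = i+1` with `n ≤ i`; `Contr.bd (contr_W3 hC n e i le_rfl)`.
* L: the same with `W2`, `β w := if ε = true then fc (pole (f<n+1) true) (w.p _) else fc (pole (f<e) false) w.y`.
-/

set_option autoImplicit false
open CategoryTheory CategoryTheory.Limits Opposite
open Crest.GeometryTopology.Coherator Crest.GeometryTopology.Coherator.GlobTheory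

universe u

namespace Crest.Agent.R248

variable {C : GlobTheory.{u}}

namespace OEaux

/-- the faces below dimension `n` of the two whiskers agree -/
theorem w3_face {Q : GP.{u}} {n e g : ℕ} (h : n < e) (hg : g < n) (ε : Bool) (x : W3c Q n e) :
    Q.fc (pole (hg.trans (Nat.lt_succ_self n)) ε) (x.q h) =
      Q.fc (pole (hg.trans (Nat.lt_succ_self n)) ε) (x.p h) := by
  rw [← fc_globular Q hg (Nat.lt_succ_self n) ε true (x.q h),
    ← fc_globular Q hg (Nat.lt_succ_self n) ε false (x.p h)]
  have h1 : Q.fc (pole (Nat.lt_succ_self n) true) (x.q h) = Q.fc (pole h false) x.y := x.hq h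
  have h2 : Q.fc (pole h true) x.y = Q.fc (pole (Nat.lt_succ_self n) false) (x.p h) := x.hp h
  rw [h1, ← h2, fc_globular, fc_globular]

theorem w2_face {Q : GP.{u}} {n e g : ℕ} (h : n < e) (hg : g < n) (ε : Bool) (x : W2c Q n e) :
    Q.fc (pole (hg.trans h) ε) x.y =
      Q.fc (pole (hg.trans (Nat.lt_succ_self n)) ε) (x.p h) := by
  rw [← fc_globular Q hg (Nat.lt_succ_self n) ε false (x.p h), ← fc_globular Q hg h ε true x.y]
  have h2 : Q.fc (pole h true) x.y = Q.fc (pole (Nat.lt_succ_self n) false) (x.p h) := x.hp h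
  rw [h2]

/-- prescribed faces for `K` -/
noncomputable def kβ (C : GlobTheory.{u}) (n : ℕ) {e f : ℕ} (he : n + 1 ≤ e) (hf : f < n + 1) :
    Bool → NT ((W3 C n).cel e) ((und C).cel f)
  | true => ⟨fun A (x : W3c (undGP A) n e) => (undGP A).fc (pole hf true) (x.p he),
      fun {A A'} g (x : W3c (undGP A) n e) => (((und C).map g).nat (pole hf true) (x.p he)).symm⟩
  | false => ⟨fun A (x : W3c (undGP A) n e) => (undGP A).fc (pole hf false) (x.q he),
      fun {A A'} g (x : W3c (undGP A) n e) => (((und C).map g).nat (pole hf false) (x.q he)).symm⟩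

/-- prescribed faces for `L` -/
noncomputable def lβ (C : GlobTheory.{u}) (n : ℕ) {e f : ℕ} (he : n + 1 ≤ e) (hf : f < n + 1) :
    Bool → NT ((W2 C n).cel e) ((und C).cel f)
  | true => ⟨fun A (x : W2c (undGP A) n e) => (undGP A).fc (pole hf true) (x.p he),
      fun {A A'} g (x : W2c (undGP A) n e) => (((und C).map g).nat (pole hf true) (x.p he)).symm⟩
  | false => ⟨fun A (x : W2c (undGP A) n e) => (undGP A).fc (pole (hf.trans_le he) false) x.y,
      fun {A A'} g (x : W2c (undGP A) n e) =>
        (((und C).map g).nat (pole (hf.trans_le he) false) x.y).symm⟩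

end OEaux

open OEaux

theorem exists_unit (hC : Ctr C) (e : ℕ) : ∃ s : NT ((und C).cel e) ((und C).cel (e + 1)),
    ∀ (ε : Bool) (A : GlobModel C) (x : (undGP A).c e),
      (undGP A).fc (fac e ε) (s.app A x) = x := by
  obtain ⟨γ, h1, h2⟩ := contr_cel hC e e (Nat.le_succ e) (NT.id _) (NT.id _)
    (fun A x f h ε => rfl)
  refine ⟨γ, fun ε A x => ?_⟩
  cases ε
  · exact h1 A x
  · exact h2 A x

theorem exists_inv (hC : Ctr C) (n : ℕ) : ∃ s : NT ((und C).cel (n + 1)) ((und C).cel (n + 1)),
    (∀ (A : GlobModel C) (x : (undGP A).c (n + 1)),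
      (undGP A).fc (fac n false) (s.app A x) = (undGP A).fc (fac n true) x) ∧
    ∀ (A : GlobModel C) (x : (undGP A).c (n + 1)),
      (undGP A).fc (fac n true) (s.app A x) = (undGP A).fc (fac n false) x := by
  obtain ⟨γ, h1, h2⟩ := contr_cel hC (n + 1) n le_rfl ((und C).face (fac n true))
    ((und C).face (fac n false)) (fun A x f h ε => by
      show (undGP A).fc (pole h ε) ((undGP A).fc (pole (Nat.lt_succ_self n) true) x) =
        (undGP A).fc (pole h ε) ((undGP A).fc (pole (Nat.lt_succ_self n) false) x)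
      rw [fc_globular, fc_globular])
  exact ⟨γ, h1, h2⟩

theorem exists_cmp (hC : Ctr C) (n : ℕ) : ∃ s : NT (V2 C n) ((und C).cel (n + 1)),
    (∀ (A : GlobModel C) (x : (V2 C n).obj A),
      (undGP A).fc (fac n false) (s.app A x) = (undGP A).fc (fac n false) x.1.1) ∧
    ∀ (A : GlobModel C) (x : (V2 C n).obj A),
      (undGP A).fc (fac n true) (s.app A x) = (undGP A).fc (fac n true) x.1.2 := by
  let s : NT (V2 C n) ((und C).cel n) :=
    ⟨fun A (x : { x : (undGP A).c (n + 1) × (undGP A).c (n + 1) //
      (undGP A).fc (fac n true) x.1 = (undGP A).fc (fac n false) x.2 }) =>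
        (undGP A).fc (fac n false) x.1.1,
      fun g x => (((und C).map g).nat (fac n false) x.1.1).symm⟩
  let t : NT (V2 C n) ((und C).cel n) :=
    ⟨fun A (x : { x : (undGP A).c (n + 1) × (undGP A).c (n + 1) //
      (undGP A).fc (fac n true) x.1 = (undGP A).fc (fac n false) x.2 }) =>
        (undGP A).fc (fac n true) x.1.2,
      fun g x => (((und C).map g).nat (fac n true) x.1.2).symm⟩
  obtain ⟨γ, h1, h2⟩ := contr_V2 hC n n le_rfl s t (fun A x f h ε => by
      show (undGP A).fc (pole h ε) ((undGP A).fc (pole (Nat.lt_succ_self n) false) x.1.1) =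
        (undGP A).fc (pole h ε) ((undGP A).fc (pole (Nat.lt_succ_self n) true) x.1.2)
      have h3 : (undGP A).fc (pole (Nat.lt_succ_self n) true) x.1.1 =
        (undGP A).fc (pole (Nat.lt_succ_self n) false) x.1.2 := x.2
      rw [fc_globular, ← fc_globular (undGP A) h (Nat.lt_succ_self n) ε true x.1.1, h3,
        fc_globular, fc_globular])
  exact ⟨γ, h1, h2⟩

theorem exists_K (hC : Ctr C) (n : ℕ) :
    ∃ K : ∀ {e : ℕ}, n < e → NT ((W3 C n).cel e) ((und C).cel e),
      (∀ {f e : ℕ} (hf : n < f) (he : n < e) (a : Ar f e) (A : GlobModel C)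
        (x : W3c (undGP A) n e),
        (undGP A).fc a ((K he).app A x) = (K hf).app A (((W3 C n).gp A).fc a x)) ∧
      (∀ {e : ℕ} (h : n < e) (A : GlobModel C) (x : W3c (undGP A) n e),
        (undGP A).fc (pole h false) ((K h).app A x) = (undGP A).fc (fac n false) (x.q h)) ∧
      ∀ {e : ℕ} (h : n < e) (A : GlobModel C) (x : W3c (undGP A) n e),
        (undGP A).fc (pole h true) ((K h).app A x) = (undGP A).fc (fac n true) (x.p h) := by
  obtain ⟨ρ, h1, h2, -⟩ := grec (W3 C n) (und C) (n + 1) (fun he hf ε => kβ C n he hf ε)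
    (fun he hg hf ε a A w => by cases ε <;> rfl)
    (fun {e f g} he hf hg ε ε' A w => by
      have hgn : g < n := hg.trans_le (Nat.lt_succ_iff.1 hf)
      have h3 := fun ε => w3_face (show n < e from he) hgn ε w
      cases ε' <;> cases ε
      · exact fc_globular (undGP A) hg hf false false _
      · exact (fc_globular (undGP A) hg hf true false _).trans (h3 true)
      · exact (fc_globular (undGP A) hg hf false true _).trans (h3 false).symm
      · exact fc_globular (undGP A) hg hf true true _)
    (fun _ _ _ _ => True)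
    (fun e he b _ _ => by
      obtain ⟨i, rfl⟩ : ∃ i, e = i + 1 := ⟨e - 1, by omega⟩
      obtain ⟨κ, hκ⟩ := Contr.bd (contr_W3 hC n (i + 1) i le_rfl) b
      exact ⟨κ, hκ, fun _ _ => trivial⟩)
  refine ⟨fun {e} h => ρ (show n + 1 ≤ e from h), ?_, ?_, ?_⟩
  · intro f e hf he a A x
    exact (h1 (show n + 1 ≤ f from hf) (show n + 1 ≤ e from he) a A x).symm
  · intro e h A x
    exact h2 (Nat.lt_succ_self n) (show n + 1 ≤ e from h) false A x
  · intro e h A x
    exact h2 (Nat.lt_succ_self n) (show n + 1 ≤ e from h) true A x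

theorem exists_L (hC : Ctr C) (n : ℕ) :
    ∃ L : ∀ {e : ℕ}, n < e → NT ((W2 C n).cel e) ((und C).cel e),
      (∀ {f e : ℕ} (hf : n < f) (he : n < e) (a : Ar f e) (A : GlobModel C)
        (x : W2c (undGP A) n e),
        (undGP A).fc a ((L he).app A x) = (L hf).app A (((W2 C n).gp A).fc a x)) ∧
      (∀ {e : ℕ} (h : n < e) (A : GlobModel C) (x : W2c (undGP A) n e),
        (undGP A).fc (pole h false) ((L h).app A x) = (undGP A).fc (pole h false) x.y) ∧
      ∀ {e : ℕ} (h : n < e) (A : GlobModel C) (x : W2c (undGP A) n e),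
        (undGP A).fc (pole h true) ((L h).app A x) = (undGP A).fc (fac n true) (x.p h) := by
  obtain ⟨ρ, h1, h2, -⟩ := grec (W2 C n) (und C) (n + 1) (fun he hf ε => lβ C n he hf ε)
    (fun {e g f} he hg hf ε a A w => by
      cases ε
      · show (undGP A).fc (pole (hf.trans_le hg) false) ((undGP A).fc a w.y) =
          (undGP A).fc (pole (hf.trans_le he) false) w.y
        rw [(undGP A).fc_fc, pole_sq]
      · rfl)
    (fun {e f g} he hf hg ε ε' A w => by
      have hgn : g < n := hg.trans_le (Nat.lt_succ_iff.1 hf)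
      have h3 := fun ε => w2_face (show n < e from he) hgn ε w
      cases ε' <;> cases ε
      · exact fc_globular (undGP A) hg (hf.trans_le he) false false _
      · exact (fc_globular (undGP A) hg (hf.trans_le he) true false _).trans (h3 true)
      · exact (fc_globular (undGP A) hg hf false true _).trans (h3 false).symm
      · exact fc_globular (undGP A) hg hf true true _)
    (fun _ _ _ _ => True)
    (fun e he b _ _ => by
      obtain ⟨i, rfl⟩ : ∃ i, e = i + 1 := ⟨e - 1, by omega⟩
      obtain ⟨κ, hκ⟩ := Contr.bd (contr_W2 hC n (i + 1) i le_rfl) b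
      exact ⟨κ, hκ, fun _ _ => trivial⟩)
  refine ⟨fun {e} h => ρ (show n + 1 ≤ e from h), ?_, ?_, ?_⟩
  · intro f e hf he a A x
    exact (h1 (show n + 1 ≤ f from hf) (show n + 1 ≤ e from he) a A x).symm
  · intro e h A x
    exact h2 (Nat.lt_succ_self n) (show n + 1 ≤ e from h) false A x
  · intro e h A x
    exact h2 (Nat.lt_succ_self n) (show n + 1 ≤ e from h) true A x

theorem exists_ops (hC : Ctr C) : Nonempty (Ops C) := by
  choose unit unit_f using fun e => exists_unit hC e
  choose inv inv_s inv_t using fun n => exists_inv hC n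
  choose cmp cmp_s cmp_t using fun n => exists_cmp hC n
  choose K K_face K_s K_t using fun n => exists_K hC n
  choose L L_face L_s L_t using fun n => exists_L hC n
  exact ⟨{
    unit := unit
    unit_f := unit_f
    inv := inv
    inv_s := inv_s
    inv_t := inv_t
    cmp := cmp
    cmp_s := cmp_s
    cmp_t := cmp_t
    K := fun {n e} h => K n h
    K_face := fun {n f e} hf he a A x => K_face n hf he a A x
    K_s := fun {n e} h A x => K_s n h A x
    K_t := fun {n e} h A x => K_t n h A x
    L := fun {n e} h => L n h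
    L_face := fun {n f e} hf he a A x => L_face n hf he a A x
    L_s := fun {n e} h A x => L_s n h A x
    L_t := fun {n e} h A x => L_t n h A x }⟩

end Crest.Agent.R248
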