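import Crest.Agent.R248.StepLow

/-!
# R248 piece STEPJ: property `JProp` (J) at the base and at a step

* `j_base` (`e ≥ N`): `J (c, β) := β`. `p1`: `η β` and `un (η c)` are `(e+1)`-cells of `B A` with the same faces, so equal
  by `b.high`; for the face `fac e true` use `b.high` in dimension `e`: `η (t β) = η (s β) = η c` (parallel).
* `exists_kap`: `hR` at `e = n+1`, `F = V2 C n` (`contr_V2 hC n (n+1)`); boundary: the unique `n`-cell of `X` over `s q`
  (`hX`, `NT.exists_inv`, faces of lower dimension likewise; `Bd.mk₂`).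
* `j_step_eq` (`e = n`): for `c = ((y,p),κ_c)`, `β` with `s β = y`: `J := ((β, P), κ (inv p, β))` with
  `P (pole _ false) = p (ide n)`, `P (pole _ true) = inv (cmp (inv p, β))`; `Conj (β,P) = K ⟨β, inv p, inv (cmp (inv p, β))⟩`.
  source: `hX` injectivity. `p1 = η (un (t p)) = un (η (t p)) = un (X.p1 κ_c)`.
* `j_step_gt` (`e > n`): `J := ((β, P), J_X (κ_c, Conj (β, P)))` with `P (pole _ ε) := p (pole _ ε)`.
-/

set_option autoImplicit false
open CategoryTheory CategoryTheory.Limits Opposite
open Crest.GeometryTopology.Coherator Crest.GeometryTopology.Coherator.GlobTheory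

universe u

namespace Crest.Agent.R248

variable {C : GlobTheory.{u}}

theorem j_base {N : ℕ} (b : BSys C N) (O : Ops C) : JProp O N (basePre b) := by
  intro e he
  refine ⟨PbF.snd _ _, fun A w => w.2.symm, fun A w => rfl, fun A w => ?_⟩
  show b.e A w.1.2 = O.un (b.B.obj A) (b.e A w.1.1)
  have hw : w.1.1 = (undGP A).fc (fac e false) w.1.2 := w.2
  have hn : ∀ ε : Bool, (undGP (b.B.obj A)).fc (fac e ε) (b.e A w.1.2) =
      b.e A ((undGP A).fc (fac e ε) w.1.2) := fun ε =>
    (((und C).map (b.η A)).nat (fac e ε) w.1.2).symm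
  apply b.high A (e + 1) (by omega)
  rw [par_iff_bdy]
  apply Bd.ext_succ
  intro ε
  show (undGP (b.B.obj A)).fc (fac e ε) (b.e A w.1.2) =
    (undGP (b.B.obj A)).fc (fac e ε) (O.un (b.B.obj A) (b.e A w.1.1))
  rw [O.fc_un]
  cases ε
  · rw [hn, hw]
  · apply b.high A e he
    intro f hf ε'
    show (undGP (b.B.obj A)).fc (pole hf ε')
        ((undGP (b.B.obj A)).fc (pole (Nat.lt_succ_self e) true) (b.e A w.1.2)) =
      (undGP (b.B.obj A)).fc (pole hf ε') (b.e A w.1.1)
    rw [hw, ← hn false]
    rw [fc_globular]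
    exact (fc_globular _ hf (Nat.lt_succ_self e) ε' false _).symm

/-- the whiskering data `(q, β, inv (q·β))` -/
noncomputable def kapW (O : Ops C) (n : ℕ) (A : GlobModel C) (x : (V2 C n).obj A) :
    W3c (undGP A) n (n + 1) where
  y := x.1.2
  q _ := x.1.1
  p _ := O.iv A ((O.cmp n).app A x)
  hq _ := x.2
  hp _ := ((O.fc_iv_s A _).trans (O.cmp_t n A x)).symm

theorem exists_kap {N : ℕ} (b : BSys C N) (hC : Ctr C) (O : Ops C) (n : ℕ) (X : Pre C b.B)
    (hX : LowP b (n + 1) X) (hR : RProp b (n + 1) X) :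
    ∃ κ : NT (V2 C n) (X.P.cel (n + 1)),
      (∀ (A : GlobModel C) (x : (V2 C n).obj A) (ε : Bool),
        X.p0.app A n ((X.P.gp A).fc (fac n ε) (κ.app A x)) =
          (undGP A).fc (fac n false) x.1.1) ∧
      (∀ (A : GlobModel C) (x : (V2 C n).obj A),
        X.p0.app A (n + 1) (κ.app A x) = (O.K (Nat.lt_succ_self n)).app A (kapW O n A x)) ∧
      ∀ (A : GlobModel C) (x : (V2 C n).obj A),
        X.p1.app A (n + 1) (κ.app A x) = b.e A (O.un A ((undGP A).fc (fac n false) x.1.1)) := by
  obtain ⟨t, ht1, -⟩ := NT.exists_inv (X.p0.cel n) (fun A => (hX n (Nat.lt_succ_self n) A).1)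
  -- the boundary
  let d : NT (V2 C n) (X.P.bd (n + 1)) :=
    ⟨fun A (x : (V2 C n).obj A) =>
      Bd.mk₂ (t.app A ((undGP A).fc (fac n false) x.1.1))
        (t.app A ((undGP A).fc (fac n false) x.1.1)) (fun _ _ _ => rfl), by
      intro A A' g x
      apply Bd.ext_succ
      intro ε
      have h : t.app A' ((undGP A').fc (fac n false) (((und C).map g).app (n + 1) x.1.1)) =
          (X.P.map g).app n (t.app A ((undGP A).fc (fac n false) x.1.1)) := by
        exact (congrArg (t.app A') (((und C).map g).nat (fac n false) x.1.1).symm).trans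
          (t.nat g _)
      cases ε
      · refine (Bd.mk₂_false _ _ _).trans (h.trans ?_)
        exact congrArg ((X.P.map g).app n) (Bd.mk₂_false _ _ _).symm
      · refine (Bd.mk₂_true _ _ _).trans (h.trans ?_)
        exact congrArg ((X.P.map g).app n) (Bd.mk₂_true _ _ _).symm⟩
  have hd : ∀ (A : GlobModel C) (x : (V2 C n).obj A) (ε : Bool),
      (d.app A x).v (Nat.lt_succ_self n) ε = t.app A ((undGP A).fc (fac n false) x.1.1) := by
    intro A x ε
    cases ε
    · exact Bd.mk₂_false _ _ (fun _ _ _ => rfl)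
    · exact Bd.mk₂_true _ _ (fun _ _ _ => rfl)
  have ht : ∀ (A : GlobModel C) (z : (undGP A).c n), X.p0.app A n (t.app A z) = z := ht1
  let y : NT (V2 C n) ((und C).cel (n + 1)) :=
    ⟨fun A x => (O.K (Nat.lt_succ_self n)).app A (kapW O n A x), by
      intro A A' g x
      refine Eq.trans ?_ ((O.K (Nat.lt_succ_self n)).nat g (kapW O n A x))
      refine congrArg _ (W3c.ext' rfl (fun _ => rfl) (fun _ => ?_))
      show O.iv A' ((O.cmp n).app A' ((V2 C n).map g x)) =
        ((und C).map g).app (n + 1) (O.iv A ((O.cmp n).app A x))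
      exact (congrArg (O.iv A') ((O.cmp n).nat g x)).trans (O.map_iv g _).symm⟩
  let y' : NT (V2 C n) (((und C).comp b.B).cel (n + 1)) :=
    ⟨fun A x => b.e A (O.un A ((undGP A).fc (fac n false) x.1.1)), by
      intro A A' g x
      refine Eq.trans ?_ (b.ηG.natM g (n + 1) (O.un A ((undGP A).fc (fac n false) x.1.1)))
      refine congrArg (b.e A') ?_
      show O.un A' ((undGP A').fc (fac n false) (((und C).map g).app (n + 1) x.1.1)) =
        ((und C).map g).app (n + 1) (O.un A ((undGP A).fc (fac n false) x.1.1))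
      exact (congrArg (O.un A') (((und C).map g).nat (fac n false) x.1.1).symm).trans
        (O.map_un g _).symm⟩
  have H0 : ∀ A x, (undGP A).bdy (y.app A x) = (d.app A x).push (X.p0.at A) := by
    intro A x
    apply Bd.ext_succ
    intro ε
    show (undGP A).fc (pole (Nat.lt_succ_self n) ε)
      ((O.K (Nat.lt_succ_self n)).app A (kapW O n A x)) =
      X.p0.app A n ((d.app A x).v (Nat.lt_succ_self n) ε)
    rw [hd, ht]
    cases ε
    · exact O.K_s (Nat.lt_succ_self n) A (kapW O n A x)
    · refine (O.K_t (Nat.lt_succ_self n) A (kapW O n A x)).trans ?_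
      exact (O.fc_iv_t A _).trans (O.cmp_s n A x)
  have H1 : ∀ A x, (undGP (b.B.obj A)).bdy (y'.app A x) = (d.app A x).push (X.p1.at A) := by
    intro A x
    apply Bd.ext_succ
    intro ε
    show (undGP (b.B.obj A)).fc (pole (Nat.lt_succ_self n) ε)
      (b.e A (O.un A ((undGP A).fc (fac n false) x.1.1))) =
      X.p1.app A n ((d.app A x).v (Nat.lt_succ_self n) ε)
    rw [hd]
    refine Eq.trans ?_ ((hX n (Nat.lt_succ_self n) A).2 _).symm
    refine Eq.trans ?_ (congrArg (b.e A) (ht A _)).symm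
    refine (((und C).map (b.η A)).nat (fac n ε) _).symm.trans ?_
    exact congrArg (b.e A) (O.fc_un A ε _)
  obtain ⟨κ, h1, h2, h3⟩ := hR (n + 1) le_rfl (V2 C n)
    (Or.inl (contr_V2 hC n (n + 1) (Nat.le_succ n))) d y y' H0 H1
  refine ⟨κ, fun A x ε => ?_, h2, h3⟩
  have := fc_of_bdy (h1 A x) (Nat.lt_succ_self n) ε
  rw [hd] at this
  show X.p0.app A n ((X.P.gp A).fc (pole (Nat.lt_succ_self n) ε) (κ.app A x)) = _
  rw [this, ht]

namespace JEq

variable {B : GlobModel C ⥤ GlobModel C} (O : Ops C) (n : ℕ) (X : Pre C B)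

/-- the half cylinder part -/
noncomputable def jc {A : GlobModel C} (w : (JDom (stepPre O n X) n).obj A) :
    HCc (undGP A) n n := w.1.1.1.1

/-- the `X`-part -/
noncomputable def jk {A : GlobModel C} (w : (JDom (stepPre O n X) n).obj A) :
    (X.P.gp A).c n := w.1.1.1.2

noncomputable def jb {A : GlobModel C} (w : (JDom (stepPre O n X) n).obj A) :
    (undGP A).c (n + 1) := w.1.2

noncomputable def jp {A : GlobModel C} (w : (JDom (stepPre O n X) n).obj A) :
    (undGP A).c (n + 1) := (jc O n X w).p (ide n)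

theorem jc_y {A : GlobModel C} (w : (JDom (stepPre O n X) n).obj A) :
    (jc O n X w).y = (undGP A).fc (fac n false) (jb O n X w) := w.2

theorem jp_s {A : GlobModel C} (w : (JDom (stepPre O n X) n).obj A) :
    (undGP A).fc (fac n false) (jp O n X w) = (undGP A).fc (fac n false) (jb O n X w) := by
  rw [jp, (jc O n X w).hp, (undGP A).fc_ide, jc_y]

theorem jconj {A : GlobModel C} (w : (JDom (stepPre O n X) n).obj A) :
    (undGP A).fc (fac n true) (jp O n X w) = X.p0.app A n (jk O n X w) := by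
  have h : conjApp O n A n (jc O n X w) = X.p0.app A n (jk O n X w) := w.1.1.2
  rw [conjApp_eq] at h
  exact h

/-- the composable pair `(inv p, β)` -/
noncomputable def jV {A : GlobModel C} (w : (JDom (stepPre O n X) n).obj A) :
    (V2 C n).obj A :=
  ⟨(O.iv A (jp O n X w), jb O n X w), by
    show (undGP A).fc (fac n true) (O.iv A (jp O n X w)) =
      (undGP A).fc (fac n false) (jb O n X w)
    rw [O.fc_iv_t, jp_s]⟩

/-- the cylinder data over `β` -/
noncomputable def jP {A : GlobModel C} (w : (JDom (stepPre O n X) n).obj A)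
    (a : Ar n (n + 1)) : (undGP A).c (n + 1) :=
  match a with
  | GlobeObj.Arrow.pole _ false => jp O n X w
  | GlobeObj.Arrow.pole _ true => O.iv A ((O.cmp n).app A (jV O n X w))

theorem jP_s {A : GlobModel C} (w : (JDom (stepPre O n X) n).obj A) (a : Ar n (n + 1)) :
    (undGP A).fc (fac n false) (jP O n X w a) = (undGP A).fc a (jb O n X w) := by
  match a with
  | GlobeObj.Arrow.pole _ false => exact jp_s O n X w
  | GlobeObj.Arrow.pole _ true =>
    exact (O.fc_iv_s A _).trans (O.cmp_t n A (jV O n X w))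

/-- the half cylinder over `β` -/
noncomputable def jH {A : GlobModel C} (w : (JDom (stepPre O n X) n).obj A) :
    HCc (undGP A) n (n + 1) where
  y := jb O n X w
  p := jP O n X w
  hp := jP_s O n X w

theorem jH_conj {A : GlobModel C} (w : (JDom (stepPre O n X) n).obj A) :
    conjApp O n A (n + 1) (jH O n X w) =
      (O.K (Nat.lt_succ_self n)).app A (kapW O n A (jV O n X w)) := by
  rw [conjApp_gt O A (Nat.lt_succ_self n)]
  congr 1

theorem jV_nat {A A' : GlobModel C} (g : A ⟶ A') (w : (JDom (stepPre O n X) n).obj A) :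
    jV O n X ((JDom (stepPre O n X) n).map g w) = (V2 C n).map g (jV O n X w) := by
  apply Subtype.ext
  apply Prod.ext
  · exact (O.map_iv g _).symm
  · rfl

theorem jH_nat {A A' : GlobModel C} (g : A ⟶ A') (w : (JDom (stepPre O n X) n).obj A) :
    jH O n X ((JDom (stepPre O n X) n).map g w) =
      (((HC C n).map g).app (n + 1) (jH O n X w) : HCc (undGP A') n (n + 1)) := by
  refine HCc.ext' rfl (fun a => ?_)
  match a with
  | GlobeObj.Arrow.pole _ false => rfl
  | GlobeObj.Arrow.pole _ true =>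
    show O.iv A' ((O.cmp n).app A' (jV O n X ((JDom (stepPre O n X) n).map g w))) =
      ((und C).map g).app (n + 1) (O.iv A ((O.cmp n).app A (jV O n X w)))
    rw [jV_nat, (O.cmp n).nat]
    exact (O.map_iv g _).symm

end JEq

theorem j_step_eq {N : ℕ} (b : BSys C N) (hC : Ctr C) (O : Ops C) (n : ℕ)
    (X : Pre C b.B) (hX : LowP b (n + 1) X) (hR : RProp b (n + 1) X) :
    ∃ J : NT (JDom (stepPre O n X) n) ((stepPre O n X).P.cel (n + 1)),
    (∀ (A : GlobModel C) (w : (JDom (stepPre O n X) n).obj A),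
      ((stepPre O n X).P.gp A).fc (fac n false) (J.app A w) = w.1.1) ∧
    (∀ (A : GlobModel C) (w : (JDom (stepPre O n X) n).obj A),
      (stepPre O n X).p0.app A (n + 1) (J.app A w) = w.1.2) ∧
    ∀ (A : GlobModel C) (w : (JDom (stepPre O n X) n).obj A),
      (stepPre O n X).p1.app A (n + 1) (J.app A w) =
        O.un (b.B.obj A) ((stepPre O n X).p1.app A n w.1.1) := by
  obtain ⟨κ, hκ1, hκ2, hκ3⟩ := exists_kap b hC O n X hX hR
  let J : NT (JDom (stepPre O n X) n) ((stepPre O n X).P.cel (n + 1)) :=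
    { app := fun A w => ⟨(JEq.jH O n X w, κ.app A (JEq.jV O n X w)), by
        show conjApp O n A (n + 1) (JEq.jH O n X w) = X.p0.app A (n + 1) (κ.app A (JEq.jV O n X w))
        rw [JEq.jH_conj, hκ2]⟩
      nat := fun {A A'} g w => by
        apply Subtype.ext
        apply Prod.ext
        · exact JEq.jH_nat O n X g w
        · show κ.app A' (JEq.jV O n X ((JDom (stepPre O n X) n).map g w)) =
            (X.P.cel (n + 1)).map g (κ.app A (JEq.jV O n X w))
          rw [JEq.jV_nat, κ.nat] }
  refine ⟨J, fun A w => ?_, fun A w => rfl, fun A w => ?_⟩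
  · apply Subtype.ext
    apply Prod.ext
    · refine HCc.ext' (JEq.jc_y O n X w).symm (fun a => ?_)
      rw [ar_self a]
      rfl
    · apply ((hX n (Nat.lt_succ_self n) A).1).1
      show X.p0.app A n ((X.P.gp A).fc (fac n false) (κ.app A (JEq.jV O n X w))) =
        X.p0.app A n (JEq.jk O n X w)
      rw [hκ1, ← JEq.jconj]
      exact O.fc_iv_s A (JEq.jp O n X w)
  · show X.p1.app A (n + 1) (κ.app A (JEq.jV O n X w)) =
      O.un (b.B.obj A) (X.p1.app A n (JEq.jk O n X w))
    rw [hκ3, (hX n (Nat.lt_succ_self n) A).2, ← JEq.jconj]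
    have h : (undGP A).fc (fac n false) (JEq.jV O n X w).1.1 =
        (undGP A).fc (fac n true) (JEq.jp O n X w) := O.fc_iv_s A (JEq.jp O n X w)
    rw [h]
    exact O.map_un (b.η A) _

/-- the sign of an arrow of globes (`false` for identities) -/
def arSign {n e : ℕ} : Ar n e → Bool
  | .refl _ => false
  | .pole _ ε => ε

theorem ar_eq_pole {n e : ℕ} (h : n < e) (a : Ar n e) : a = pole h (arSign a) := by
  cases a with
  | refl => exact absurd h (lt_irrefl _)
  | pole h' ε => rfl

/-- half cylinder data over a cell `β` with source face the base of a half cylinder -/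
def hcUp {Q : GP.{u}} {n e : ℕ} (he : n < e) (x : HCc Q n e) (β : Q.c (e + 1))
    (h : x.y = Q.fc (fac e false) β) : HCc Q n (e + 1) where
  y := β
  p a := x.p (pole he (arSign a))
  hp a := by
    have ha : a = pole (he.trans (Nat.lt_succ_self e)) (arSign a) := ar_eq_pole _ a
    rw [x.hp, h, Q.fc_fc, pole_sq']
    exact congrArg (fun b => Q.fc b β) ha.symm

theorem hcUp_fc (A : GlobModel C) {n e : ℕ} (he : n < e) (x : HCc (undGP A) n e)
    (β : (undGP A).c (e + 1)) (h : x.y = (undGP A).fc (fac e false) β) :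
    ((HC C n).gp A).fc (fac e false) (hcUp he x β h) = x :=
  HCc.ext' h.symm fun a => by
    have ha : a = pole he (arSign a) := ar_eq_pole _ a
    show x.p (pole he (arSign (sq a (fac e false)))) = x.p a
    rw [ha]
    rfl

theorem j_step_gt {B : GlobModel C ⥤ GlobModel C} (O : Ops C) (n : ℕ)
    (X : Pre C B) (hJ : JProp O (n + 1) X) (e : ℕ) (he : n < e) :
    ∃ J : NT (JDom (stepPre O n X) e) ((stepPre O n X).P.cel (e + 1)),
    (∀ (A : GlobModel C) (w : (JDom (stepPre O n X) e).obj A),
      ((stepPre O n X).P.gp A).fc (fac e false) (J.app A w) = w.1.1) ∧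
    (∀ (A : GlobModel C) (w : (JDom (stepPre O n X) e).obj A),
      (stepPre O n X).p0.app A (e + 1) (J.app A w) = w.1.2) ∧
    ∀ (A : GlobModel C) (w : (JDom (stepPre O n X) e).obj A),
      (stepPre O n X).p1.app A (e + 1) (J.app A w) =
        O.un (B.obj A) ((stepPre O n X).p1.app A e w.1.1) := by
  obtain ⟨JX, h1, h2, h3⟩ := hJ e he
  let up : ∀ (A : GlobModel C) (w : (JDom (stepPre O n X) e).obj A),
      HCc (undGP A) n (e + 1) := fun A w => hcUp he w.1.1.1.1 w.1.2 w.2
  have hup : ∀ (A : GlobModel C) (w : (JDom (stepPre O n X) e).obj A),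
      ((HC C n).gp A).fc (fac e false) (up A w) = w.1.1.1.1 :=
    fun A w => hcUp_fc A he w.1.1.1.1 w.1.2 w.2
  have hcomp : ∀ (A : GlobModel C) (w : (JDom (stepPre O n X) e).obj A),
      X.p0.app A e w.1.1.1.2 =
        (undGP A).fc (fac e false) ((Conj O n).app A (e + 1) (up A w)) := fun A w => by
    rw [← w.1.1.2]
    exact ((congrArg ((Conj O n).app A e) (hup A w)).symm.trans
      ((Conj O n).natF A (fac e false) (up A w)))
  let wX : ∀ (A : GlobModel C) (w : (JDom (stepPre O n X) e).obj A), (JDom X e).obj A :=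
    fun A w => ⟨(w.1.1.1.2, (Conj O n).app A (e + 1) (up A w)), hcomp A w⟩
  have hupM : ∀ {A A' : GlobModel C} (g : A ⟶ A') (w : (JDom (stepPre O n X) e).obj A),
      up A' ((JDom (stepPre O n X) e).map g w) = ((HC C n).map g).app (e + 1) (up A w) :=
    fun g w => HCc.ext' rfl fun _ => rfl
  have hwX : ∀ {A A' : GlobModel C} (g : A ⟶ A') (w : (JDom (stepPre O n X) e).obj A),
      wX A' ((JDom (stepPre O n X) e).map g w) = (JDom X e).map g (wX A w) :=
    fun g w => Subtype.ext (Prod.ext rfl
      ((congrArg _ (hupM g w)).trans ((Conj O n).natM g (e + 1) (up _ w))))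
  refine ⟨⟨fun A w => ⟨(up A w, JX.app A (wX A w)), (h2 A (wX A w)).symm⟩, fun {A A'} g w =>
    Subtype.ext (Prod.ext (hupM g w) ?_)⟩, fun A w => ?_, fun A w => rfl, fun A w => ?_⟩
  · exact (congrArg (JX.app A') (hwX g w)).trans (JX.nat g (wX A w))
  · exact Subtype.ext (Prod.ext (hup A w) (h1 A (wX A w)))
  · exact h3 A (wX A w)

theorem j_step {N : ℕ} (b : BSys C N) (hC : Ctr C) (O : Ops C) (n : ℕ)
    (X : Pre C b.B) (hX : LowP b (n + 1) X) (hR : RProp b (n + 1) X) (hJ : JProp O (n + 1) X) :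
    JProp O n (stepPre O n X) := by
  intro e he
  rcases Nat.lt_or_ge n e with h | h
  · exact j_step_gt O n X hJ e h
  · obtain rfl : e = n := Nat.le_antisymm h he
    exact j_step_eq b hC O e X hX hR

end Crest.Agent.R248
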