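import Crest.Agent.R248.Cyl

/-!
# R248 piece STEPL: property `LProp` (L) at the base and at a step

* `l_base`: `δ = id`; `Λ (U, κ) := U` (so `und (f0) U = κ`).
* `l_step`: `δ' (y) := ((y, a ↦ un (fc a y)), δ (Conj (y, a ↦ un (fc a y))))`. Given `M, f0, f1` and `J` of `ofM M f0 f1` in
  dimension `n`: for `(U, ((y,p),κ))` with `f0 U = y`: `P̂ a := J (fc a U, p a)` (`a : Ar n e`; the source of `p a` is
  `fc a y = f0 (fc a U)`), `U' := Conj (U, P̂)` in `M A`; `f0 U' = Conj (y,p) = X.p0 κ` (`conj_natM` and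
  `f0 (P̂ a) = p a`); `Λ' (U, ((y,p),κ)) := ((U, P̂), Λ (U', κ))`.
  Third property: `f1 (P̂ a) = un (f1 (fc a U)) = un (fc a (f1 U))`, `f1 U' = Conj (f1 U, units)`.
-/

set_option autoImplicit false
open CategoryTheory CategoryTheory.Limits Opposite
open Crest.GeometryTopology.Coherator Crest.GeometryTopology.Coherator.GlobTheory

universe u

namespace Crest.Agent.R248

variable {C : GlobTheory.{u}}

namespace StepLAux

/-- maps into a pullback -/
def lift {E P Q R : GPF C} (s : NG P R) (t : NG Q R) (a : NG E P) (b : NG E Q)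
    (h : ∀ (A : GlobModel C) (e : ℕ) (x : (E.gp A).c e),
      s.app A e (a.app A e x) = t.app A e (b.app A e x)) : NG E (PbG s t) where
  app A e x := ⟨(a.app A e x, b.app A e x), h A e x⟩
  natF A _ _ c x := Subtype.ext (Prod.ext (a.natF A c x) (b.natF A c x))
  natM g e x := Subtype.ext (Prod.ext (a.natM g e x) (b.natM g e x))

/-- the half cylinder of units -/
noncomputable def UH (O : Ops C) (n : ℕ) : NG (und C) (HC C n) where
  app A e (x : (undGP A).c e) :=
    { y := x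
      p := fun a => O.un A ((undGP A).fc a x)
      hp := fun a => O.fc_un A false _ }
  natF A {f e} a x := HCc.ext' rfl (fun b => by
    show O.un A ((undGP A).fc b ((undGP A).fc a x)) = O.un A ((undGP A).fc (sq b a) x)
    rw [(undGP A).fc_fc])
  natM {A A'} g e x := HCc.ext' rfl (fun b => by
    show O.un A' ((undGP A').fc b (((und C).map g).app e x)) =
      ((und C).map g).app _ (O.un A ((undGP A).fc b x))
    rw [O.map_un]
    exact congrArg _ (((und C).map g).nat b x).symm)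

/-- the domain of `Hat` -/
noncomputable def HD {B : GlobModel C ⥤ GlobModel C} (n : ℕ) (M : GlobModel C ⥤ GlobModel C)
    (f0 : M ⟶ 𝟭 (GlobModel C)) (f1 : M ⟶ B) : GPF C :=
  PbG (ofM M f0 f1).p0 (HC.y (C := C) n)

/-- cells of `HD` -/
abbrev HDc {B : GlobModel C ⥤ GlobModel C} (n : ℕ) (M : GlobModel C ⥤ GlobModel C)
    (f0 : M ⟶ 𝟭 (GlobModel C)) (f1 : M ⟶ B) (A : GlobModel C) (e : ℕ) : Type u :=
  { x : (undGP (M.obj A)).c e × HCc (undGP A) n e //
    (ofM M f0 f1).p0.app A e x.1 = x.2.y }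

/-- the argument of `J` -/
noncomputable def ja {B : GlobModel C ⥤ GlobModel C} (n : ℕ) (M : GlobModel C ⥤ GlobModel C)
    (f0 : M ⟶ 𝟭 (GlobModel C)) (f1 : M ⟶ B) (A : GlobModel C) (e : ℕ)
    (w : HDc n M f0 f1 A e) (a : Ar n e) : (JDom (ofM M f0 f1) n).obj A :=
  ⟨((undGP (M.obj A)).fc a w.1.1, w.1.2.p a), by
    show (ofM M f0 f1).p0.app A n _ = (undGP A).fc (fac n false) (w.1.2.p a)
    rw [w.1.2.hp a, ← w.2]
    exact (ofM M f0 f1).p0.natF A a w.1.1⟩

/-- the lifted half cylinder -/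
noncomputable def hat {B : GlobModel C ⥤ GlobModel C} (n : ℕ) (M : GlobModel C ⥤ GlobModel C)
    (f0 : M ⟶ 𝟭 (GlobModel C)) (f1 : M ⟶ B)
    (J : NT (JDom (ofM M f0 f1) n) ((ofM M f0 f1).P.cel (n + 1)))
    (hJ : ∀ (A : GlobModel C) (w : (JDom (ofM M f0 f1) n).obj A),
      ((ofM M f0 f1).P.gp A).fc (fac n false) (J.app A w) = w.1.1)
    (A : GlobModel C) (e : ℕ) (w : HDc n M f0 f1 A e) : HCc (undGP (M.obj A)) n e where
  y := w.1.1
  p a := J.app A (ja n M f0 f1 A e w a)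
  hp a := hJ A (ja n M f0 f1 A e w a)

noncomputable def Hat {B : GlobModel C ⥤ GlobModel C} (n : ℕ) (M : GlobModel C ⥤ GlobModel C)
    (f0 : M ⟶ 𝟭 (GlobModel C)) (f1 : M ⟶ B)
    (J : NT (JDom (ofM M f0 f1) n) ((ofM M f0 f1).P.cel (n + 1)))
    (hJ : ∀ (A : GlobModel C) (w : (JDom (ofM M f0 f1) n).obj A),
      ((ofM M f0 f1).P.gp A).fc (fac n false) (J.app A w) = w.1.1) :
    NG (HD n M f0 f1) ((HC C n).comp M) where
  app A e (w : HDc n M f0 f1 A e) := hat n M f0 f1 J hJ A e w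
  natF A {f e} a w := HCc.ext' rfl (fun b => by
    show J.app A _ = J.app A _
    refine congrArg _ (Subtype.ext (Prod.ext ?_ rfl))
    exact (undGP (M.obj A)).fc_fc b a _)
  natM {A A'} g e w := HCc.ext' rfl (fun b => by
    show J.app A' _ = ((und C).map (M.map g)).app _ (J.app A _)
    refine Eq.trans ?_ (J.nat g (ja n M f0 f1 A e w b))
    refine congrArg (J.app A') (Subtype.ext (Prod.ext ?_ rfl))
    exact (((und C).map (M.map g)).nat b w.1.1).symm)

theorem hat_f0 {B : GlobModel C ⥤ GlobModel C} (n : ℕ) (M : GlobModel C ⥤ GlobModel C)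
    (f0 : M ⟶ 𝟭 (GlobModel C)) (f1 : M ⟶ B)
    (J : NT (JDom (ofM M f0 f1) n) ((ofM M f0 f1).P.cel (n + 1)))
    (hJ : ∀ (A : GlobModel C) (w : (JDom (ofM M f0 f1) n).obj A),
      ((ofM M f0 f1).P.gp A).fc (fac n false) (J.app A w) = w.1.1)
    (hJ0 : ∀ (A : GlobModel C) (w : (JDom (ofM M f0 f1) n).obj A),
      (ofM M f0 f1).p0.app A (n + 1) (J.app A w) = w.1.2)
    (A : GlobModel C) (e : ℕ) (w : HDc n M f0 f1 A e) :
    ((HC C n).map (f0.app A)).app e (hat n M f0 f1 J hJ A e w) = w.1.2 :=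
  HCc.ext' w.2 (fun _ => hJ0 A _)

theorem hat_f1 {B : GlobModel C ⥤ GlobModel C} (O : Ops C) (n : ℕ)
    (M : GlobModel C ⥤ GlobModel C)
    (f0 : M ⟶ 𝟭 (GlobModel C)) (f1 : M ⟶ B)
    (J : NT (JDom (ofM M f0 f1) n) ((ofM M f0 f1).P.cel (n + 1)))
    (hJ : ∀ (A : GlobModel C) (w : (JDom (ofM M f0 f1) n).obj A),
      ((ofM M f0 f1).P.gp A).fc (fac n false) (J.app A w) = w.1.1)
    (hJ1 : ∀ (A : GlobModel C) (w : (JDom (ofM M f0 f1) n).obj A),
      (ofM M f0 f1).p1.app A (n + 1) (J.app A w) =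
        O.un (B.obj A) ((ofM M f0 f1).p1.app A n w.1.1))
    (A : GlobModel C) (e : ℕ) (w : HDc n M f0 f1 A e) :
    ((HC C n).map (f1.app A)).app e (hat n M f0 f1 J hJ A e w) =
      (UH O n).app (B.obj A) e ((ofM M f0 f1).p1.app A e w.1.1) :=
  HCc.ext' rfl (fun a => by
    refine (hJ1 A _).trans ?_
    show O.un _ _ = O.un _ _
    exact congrArg _ (((und C).map (f1.app A)).nat a _))

end StepLAux

open StepLAux in
theorem l_base {N : ℕ} (b : BSys C N) (O : Ops C) : LProp b O N (basePre b) := by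
  refine ⟨NG.id _, fun _ _ _ => rfl, fun M f0 f1 _ => ⟨PbG.fst _ _, fun _ _ _ => rfl,
    fun A e w => w.2, fun _ _ _ => rfl⟩⟩

open StepLAux in
theorem l_step {N : ℕ} (b : BSys C N) (O : Ops C) (n : ℕ) (X : Pre C b.B)
    (hL : LProp b O (n + 1) X) : LProp b O n (stepPre O n X) := by
  obtain ⟨δ, hδ, hΛ⟩ := hL
  refine ⟨lift (Conj O n) X.p0 (UH O n) (((UH O n).comp (Conj O n)).comp δ)
    (fun A e x => (hδ A e _).symm), fun _ _ _ => rfl, fun M f0 f1 hJP => ?_⟩
  obtain ⟨J, hJs, hJ0, hJ1⟩ := hJP n le_rfl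
  obtain ⟨Λ, h1, h2, h3⟩ := hΛ M f0 f1 (fun e he => hJP e (by omega))
  -- the map to `HD`
  let π : NG (PbG (ofM M f0 f1).p0 (stepPre O n X).p0) (HD n M f0 f1) :=
    lift (ofM M f0 f1).p0 (HC.y (C := C) n) (PbG.fst _ _)
      ((PbG.snd (ofM M f0 f1).p0 (stepPre O n X).p0).comp (PbG.fst (Conj O n) X.p0))
      (fun A e w => w.2)
  let H : NG (PbG (ofM M f0 f1).p0 (stepPre O n X).p0) ((HC C n).comp M) :=
    π.comp (Hat n M f0 f1 J hJs)
  have hH0 : ∀ (A : GlobModel C) (e : ℕ)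
      (w : ((PbG (ofM M f0 f1).p0 (stepPre O n X).p0).gp A).c e),
      ((HC C n).map (f0.app A)).app e (H.app A e w) = w.1.2.1.1 := fun A e w =>
    hat_f0 n M f0 f1 J hJs hJ0 A e (π.app A e w)
  have hH1 : ∀ (A : GlobModel C) (e : ℕ)
      (w : ((PbG (ofM M f0 f1).p0 (stepPre O n X).p0).gp A).c e),
      ((HC C n).map (f1.app A)).app e (H.app A e w) =
        (UH O n).app (b.B.obj A) e ((ofM M f0 f1).p1.app A e w.1.1) := fun A e w =>
    hat_f1 O n M f0 f1 J hJs hJ1 A e (π.app A e w)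
  let U' : NG (PbG (ofM M f0 f1).p0 (stepPre O n X).p0) ((und C).comp M) :=
    H.comp ((Conj O n).atM M)
  let ρ : NG (PbG (ofM M f0 f1).p0 (stepPre O n X).p0) (PbG (ofM M f0 f1).p0 X.p0) :=
    lift (ofM M f0 f1).p0 X.p0 U'
      ((PbG.snd (ofM M f0 f1).p0 (stepPre O n X).p0).comp (PbG.snd (Conj O n) X.p0))
      (fun A e w => by
        have e1 : (ofM M f0 f1).p0.app A e (U'.app A e w) =
            (Conj O n).app A e (((HC C n).map (f0.app A)).app e (H.app A e w)) :=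
          ((Conj O n).natM (f0.app A) e (H.app A e w)).symm
        rw [e1, hH0]
        exact w.1.2.2)
  let K : NG (PbG (ofM M f0 f1).p0 (stepPre O n X).p0) (X.P.comp M) := ρ.comp Λ
  refine ⟨⟨fun A e w => ⟨(H.app A e w, K.app A e w), (h1 A e (ρ.app A e w)).symm⟩,
    fun A f e a w => Subtype.ext (Prod.ext (H.natF A a w) (K.natF A a w)),
    fun {A A'} g e w => Subtype.ext (Prod.ext (H.natM g e w) (K.natM g e w))⟩,
    fun A e w => rfl, fun A e w => ?_, fun A e w => ?_⟩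
  · exact Subtype.ext (Prod.ext (hH0 A e w) (h2 A e (ρ.app A e w)))
  · refine Subtype.ext (Prod.ext (hH1 A e w) ((h3 A e (ρ.app A e w)).trans ?_))
    show δ.app _ e _ = δ.app _ e _
    refine congrArg _ ?_
    have e1 : (ofM M f0 f1).p1.app A e (U'.app A e w) =
        (Conj O n).app (b.B.obj A) e (((HC C n).map (f1.app A)).app e (H.app A e w)) :=
      ((Conj O n).natM (f1.app A) e (H.app A e w)).symm
    exact e1.trans (congrArg _ (hH1 A e w))

end Crest.Agent.R248
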