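import Crest.Agent.R248.StepLow
import Crest.Agent.R248.CohFam

/-!
# R248 piece STEPT: property `TProp` (T) at the base and at a step

* `t_base`: `η (s z) = η x` gives `s z = x` (`b.low`, `i < N`), take `z' := z`.
* `t_step_lt` (`i < n`): `z' := z`: `η (s z) = p1 x = η (p0 x)` by `low_step`.
* `t_step_eq` (`i = n`): `x = ((y_x, p_x), κ_x)`, `p1 x = X.p1 κ_x = η (X.p0 κ_x) = η (t p_x)` (`hX`, `conjApp_eq`), so `z`
  goes from `t p_x` to `t p_y`; `z' := cmp (cmp (p_x, z), inv p_y)`.
* `t_step_gt` (`i > n`): the `p`-components of `x` and `y` agree (look at the faces `pole (n < i) ε`). (1) `hT` for the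
  `X.P`-components gives natural `w'` from `K_i (toW3c x)` to `K_i (toW3c y)` (`conjApp_gt`). (2) let
  `Z := K_{i+1} ⟨w', inv q, inv p⟩` with `q := inv p₋`, `p := p₊` (those of `x`, equal to those of `y`): its source is
  `K_i (W3inv (toW3c x)) = kkApp (toW3c x)`, its target `kkApp (toW3c y)` (`K_face`). (3) with `ρ` from `exists_rho3`,
  `hT` for `ρ (toW3c x)`, `ρ (toW3c y)` (parallel since `toW3c x`, `toW3c y` are, `(toW3 O n).natF`) and `Z`.
-/

set_option autoImplicit false
open CategoryTheory CategoryTheory.Limits Opposite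
open Crest.GeometryTopology.Coherator Crest.GeometryTopology.Coherator.GlobTheory

universe u

namespace Crest.Agent.R248

variable {C : GlobTheory.{u}}

theorem t_base {N : ℕ} (b : BSys C N) : TProp b (basePre b) := by
  intro i hi F x y z _ hs ht
  exact ⟨z, fun A w => (b.low A i hi).1 (hs A w), fun A w => (b.low A i hi).1 (ht A w)⟩

theorem t_step_lt {N : ℕ} (b : BSys C N) (O : Ops C) (n : ℕ) (hn : n < N) (X : Pre C b.B)
    (hX : LowP b (n + 1) X) (i : ℕ) (hi : i < n) (F : Fam C)
    (x y : NT F ((stepPre O n X).P.cel i)) (z : NT F ((und C).cel (i + 1)))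
    (hs : ∀ A w, b.e A ((undGP A).fc (fac i false) (z.app A w)) =
      (stepPre O n X).p1.app A i (x.app A w))
    (ht : ∀ A w, b.e A ((undGP A).fc (fac i true) (z.app A w)) =
      (stepPre O n X).p1.app A i (y.app A w)) :
    ∃ z' : NT F ((und C).cel (i + 1)),
      (∀ A w, (undGP A).fc (fac i false) (z'.app A w) =
        (stepPre O n X).p0.app A i (x.app A w)) ∧
      ∀ A w, (undGP A).fc (fac i true) (z'.app A w) =
        (stepPre O n X).p0.app A i (y.app A w) := by
  have hlow := low_step b O n X hX i hi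
  refine ⟨z, fun A w => (b.low A i (hi.trans hn)).1 ?_, fun A w => (b.low A i (hi.trans hn)).1 ?_⟩
  · exact (hs A w).trans ((hlow A).2 (x.app A w))
  · exact (ht A w).trans ((hlow A).2 (y.app A w))

theorem t_step_eq {N : ℕ} (b : BSys C N) (O : Ops C) (n : ℕ) (hn : n < N) (X : Pre C b.B)
    (hX : LowP b (n + 1) X) (F : Fam C)
    (x y : NT F ((stepPre O n X).P.cel n)) (z : NT F ((und C).cel (n + 1)))
    (hs : ∀ A w, b.e A ((undGP A).fc (fac n false) (z.app A w)) =
      (stepPre O n X).p1.app A n (x.app A w))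
    (ht : ∀ A w, b.e A ((undGP A).fc (fac n true) (z.app A w)) =
      (stepPre O n X).p1.app A n (y.app A w)) :
    ∃ z' : NT F ((und C).cel (n + 1)),
      (∀ A w, (undGP A).fc (fac n false) (z'.app A w) =
        (stepPre O n X).p0.app A n (x.app A w)) ∧
      ∀ A w, (undGP A).fc (fac n true) (z'.app A w) =
        (stepPre O n X).p0.app A n (y.app A w) := by
  -- the `HC` component
  let px : ∀ A : GlobModel C, F.obj A → HCc (undGP A) n n := fun A w => (x.app A w).1.1
  let py : ∀ A : GlobModel C, F.obj A → HCc (undGP A) n n := fun A w => (y.app A w).1.1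
  have hpx : ∀ {A A' : GlobModel C} (g : A ⟶ A') (w : F.obj A),
      px A' (F.map g w) = ((HC C n).map g).app n (px A w) := fun g w =>
    congrArg (fun v => v.1.1) (x.nat g w)
  have hpy : ∀ {A A' : GlobModel C} (g : A ⟶ A') (w : F.obj A),
      py A' (F.map g w) = ((HC C n).map g).app n (py A w) := fun g w =>
    congrArg (fun v => v.1.1) (y.nat g w)
  have hzx : ∀ (A : GlobModel C) (w : F.obj A), (undGP A).fc (fac n true) ((px A w).p (ide n)) =
      (undGP A).fc (fac n false) (z.app A w) := by
    intro A w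
    apply (b.low A n hn).1
    have h1 := hs A w
    have h2 : X.p1.app A n (x.app A w).1.2 = b.e A (X.p0.app A n (x.app A w).1.2) :=
      (hX n (Nat.lt_succ_self n) A).2 _
    have h3 : conjApp O n A n (px A w) = X.p0.app A n (x.app A w).1.2 := (x.app A w).2
    rw [conjApp_eq] at h3
    exact (congrArg (b.e A) h3).trans (h2.symm.trans h1.symm)
  have hzy : ∀ (A : GlobModel C) (w : F.obj A), (undGP A).fc (fac n true) ((py A w).p (ide n)) =
      (undGP A).fc (fac n true) (z.app A w) := by
    intro A w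
    apply (b.low A n hn).1
    have h1 := ht A w
    have h2 : X.p1.app A n (y.app A w).1.2 = b.e A (X.p0.app A n (y.app A w).1.2) :=
      (hX n (Nat.lt_succ_self n) A).2 _
    have h3 : conjApp O n A n (py A w) = X.p0.app A n (y.app A w).1.2 := (y.app A w).2
    rw [conjApp_eq] at h3
    exact (congrArg (b.e A) h3).trans (h2.symm.trans h1.symm)
  let c1 : NT F (V2 C n) :=
    ⟨fun A w => ⟨((px A w).p (ide n), z.app A w), hzx A w⟩, fun {A A'} g w =>
      Subtype.ext (Prod.ext (by
        show (px A' (F.map g w)).p (ide n) = ((und C).map g).app _ ((px A w).p (ide n))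
        rw [hpx]; rfl) (z.nat g w))⟩
  let c2 : NT F (V2 C n) :=
    ⟨fun A w => ⟨((O.cmp n).app A (c1.app A w), O.iv A ((py A w).p (ide n))), by
        show (undGP A).fc (fac n true) ((O.cmp n).app A (c1.app A w)) =
          (undGP A).fc (fac n false) (O.iv A ((py A w).p (ide n)))
        rw [O.cmp_t, O.fc_iv_s]
        exact (hzy A w).symm⟩, fun {A A'} g w =>
      Subtype.ext (Prod.ext (by
        show (O.cmp n).app A' (c1.app A' (F.map g w)) =
          ((und C).map g).app _ ((O.cmp n).app A (c1.app A w))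
        rw [c1.nat, (O.cmp n).nat]; rfl) (by
        show O.iv A' ((py A' (F.map g w)).p (ide n)) =
          ((und C).map g).app _ (O.iv A ((py A w).p (ide n)))
        rw [hpy, O.map_iv]; rfl))⟩
  refine ⟨c2.comp (O.cmp n), fun A w => ?_, fun A w => ?_⟩
  · refine (O.cmp_s n A (c2.app A w)).trans ?_
    refine (O.cmp_s n A (c1.app A w)).trans ?_
    refine ((px A w).hp (ide n)).trans ?_
    exact (undGP A).fc_ide _
  · refine (O.cmp_t n A (c2.app A w)).trans ?_
    refine (O.fc_iv_t A _).trans ?_
    refine ((py A w).hp (ide n)).trans ?_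
    exact (undGP A).fc_ide _

/-- parallel cells of `HC n` in dimension `> n` have the same cylinder data -/
private theorem hc_par_p {n i : ℕ} (hi : n < i) (A : GlobModel C) {h h' : HCc (undGP A) n i}
    (hp : ((HC C n).gp A).Par h h') (ε : Bool) : h.p (pole hi ε) = h'.p (pole hi ε) := by
  have h1 := hp n hi ε
  have h2 : (((HC C n).gp A).fc (pole hi ε) h).p (ide n) =
      (((HC C n).gp A).fc (pole hi ε) h').p (ide n) := by rw [h1]
  exact h2

/-- the cell between the two conjugated cells, with the inverse whiskers -/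
private noncomputable def tcell {n : ℕ} (O : Ops C) (A : GlobModel C) {i : ℕ} (hi : n < i)
    (h : HCc (undGP A) n i)
    (w : (undGP A).c (i + 1))
    (hs : (undGP A).fc (fac i false) w = (O.K hi).app A (toW3c O A h)) :
    W3c (undGP A) n (i + 1) where
  y := w
  q _ := O.iv A (O.iv A (h.p (pole hi false)))
  p _ := O.iv A (h.p (pole hi true))
  hq _ := by
    rw [O.fc_iv_t]
    have h1 : (undGP A).fc (pole (hi.trans (Nat.lt_succ_self i)) false) w =
        (undGP A).fc (pole hi false) ((undGP A).fc (fac i false) w) :=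
      (fc_globular _ _ _ _ _ _).symm
    exact (h1.trans ((congrArg _ hs).trans (O.K_s hi A (toW3c O A h)))).symm
  hp _ := by
    rw [O.fc_iv_s]
    have h1 : (undGP A).fc (pole (hi.trans (Nat.lt_succ_self i)) true) w =
        (undGP A).fc (pole hi true) ((undGP A).fc (fac i false) w) :=
      (fc_globular _ _ _ _ _ _).symm
    exact h1.trans ((congrArg _ hs).trans (O.K_t hi A (toW3c O A h)))

private theorem tsgt_kk (O : Ops C) {n : ℕ} (A : GlobModel C) {e : ℕ} (h : n < e)
    (x : W3c (undGP A) n e) : kkApp O n A e x = (O.K h).app A (W3inv O A h x) :=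
  dif_pos h

private theorem tcell_false {n : ℕ} (O : Ops C) (A : GlobModel C) {i : ℕ} (hi : n < i)
    (h : HCc (undGP A) n i) (w : (undGP A).c (i + 1))
    (hs : (undGP A).fc (fac i false) w = (O.K hi).app A (toW3c O A h)) :
    (undGP A).fc (fac i false) ((O.K (hi.trans (Nat.lt_succ_self i))).app A
      (tcell O A hi h w hs)) = kkApp O n A i (toW3c O A h) := by
  refine (O.K_face hi (hi.trans (Nat.lt_succ_self i)) (fac i false) A
    (tcell O A hi h w hs)).trans (Eq.trans ?_ (tsgt_kk O A hi (toW3c O A h)).symm)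
  exact congrArg ((O.K hi).app A) (W3c.ext' hs (fun _ => rfl) (fun _ => rfl))

private theorem tcell_true {n : ℕ} (O : Ops C) (A : GlobModel C) {i : ℕ} (hi : n < i)
    (h : HCc (undGP A) n i) (h' : HCc (undGP A) n i)
    (w : (undGP A).c (i + 1))
    (hs : (undGP A).fc (fac i false) w = (O.K hi).app A (toW3c O A h))
    (ht : (undGP A).fc (fac i true) w = (O.K hi).app A (toW3c O A h'))
    (hp : ∀ ε, h.p (pole hi ε) = h'.p (pole hi ε)) :
    (undGP A).fc (fac i true) ((O.K (hi.trans (Nat.lt_succ_self i))).app A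
      (tcell O A hi h w hs)) = kkApp O n A i (toW3c O A h') := by
  refine (O.K_face hi (hi.trans (Nat.lt_succ_self i)) (fac i true) A
    (tcell O A hi h w hs)).trans (Eq.trans ?_ (tsgt_kk O A hi (toW3c O A h')).symm)
  exact congrArg ((O.K hi).app A) (W3c.ext' ht
    (fun _ => congrArg (fun c => O.iv A (O.iv A c)) (hp false))
    (fun _ => congrArg (O.iv A) (hp true)))

private theorem tsgt_par {P Q : GP.{u}} (φ : GPH P Q) {e : ℕ} {x y : P.c e} (h : P.Par x y) :
    Q.Par (φ.app e x) (φ.app e y) := by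
  intro f hf ε
  rw [← φ.nat, ← φ.nat, h f hf ε]

theorem t_step_gt {N : ℕ} (b : BSys C N) (hC : Ctr C) (O : Ops C) (n : ℕ) (X : Pre C b.B)
    (hX : LowP b (n + 1) X) (hR : RProp b (n + 1) X) (hT : TProp b X)
    (i : ℕ) (hi : n < i) (hiN : i < N) (F : Fam C)
    (x y : NT F ((stepPre O n X).P.cel i)) (z : NT F ((und C).cel (i + 1)))
    (hxy : ∀ A w, ((stepPre O n X).P.gp A).Par (x.app A w) (y.app A w))
    (hs : ∀ A w, b.e A ((undGP A).fc (fac i false) (z.app A w)) =
      (stepPre O n X).p1.app A i (x.app A w))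
    (ht : ∀ A w, b.e A ((undGP A).fc (fac i true) (z.app A w)) =
      (stepPre O n X).p1.app A i (y.app A w)) :
    ∃ z' : NT F ((und C).cel (i + 1)),
      (∀ A w, (undGP A).fc (fac i false) (z'.app A w) =
        (stepPre O n X).p0.app A i (x.app A w)) ∧
      ∀ A w, (undGP A).fc (fac i true) (z'.app A w) =
        (stepPre O n X).p0.app A i (y.app A w) := by
  -- components
  let P1 : NG (stepPre O n X).P (HC C n) := PbG.fst (Conj O n) X.p0
  let P2 : NG (stepPre O n X).P X.P := PbG.snd (Conj O n) X.p0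
  let hx : NT F ((HC C n).cel i) := x.comp (P1.cel i)
  let hy : NT F ((HC C n).cel i) := y.comp (P1.cel i)
  have hcomm : ∀ (A : GlobModel C) (w : ((stepPre O n X).P.gp A).c i),
      X.p0.app A i (P2.app A i w) = (O.K hi).app A (toW3c O A (P1.app A i w)) := by
    intro A w
    have h1 : conjApp O n A i (P1.app A i w) = X.p0.app A i (P2.app A i w) := w.2
    exact h1.symm.trans (conjApp_gt O A hi (P1.app A i w))
  obtain ⟨w', hw1, hw2⟩ := hT i hiN F (x.comp (P2.cel i)) (y.comp (P2.cel i)) z
    (fun A w => tsgt_par (P2.at A) (hxy A w)) hs ht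
  have hp : ∀ A w ε, HCc.p (hx.app A w) (pole hi ε) = HCc.p (hy.app A w) (pole hi ε) :=
    fun A w ε => hc_par_p hi A (tsgt_par (P1.at A) (hxy A w)) ε
  have hw1' : ∀ A w, (undGP A).fc (fac i false) (w'.app A w) =
      (O.K hi).app A (toW3c O A (hx.app A w)) := fun A w =>
    (hw1 A w).trans (hcomm A (x.app A w))
  have hw2' : ∀ A w, (undGP A).fc (fac i true) (w'.app A w) =
      (O.K hi).app A (toW3c O A (hy.app A w)) := fun A w =>
    (hw2 A w).trans (hcomm A (y.app A w))
  have hxn : ∀ {A A' : GlobModel C} (g : A ⟶ A') (w : F.obj A) (a : Ar n i),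
      HCc.p (hx.app A' (F.map g w)) a = ((und C).map g).app _ (HCc.p (hx.app A w) a) := by
    intro A A' g w a
    exact congrArg (fun h : HCc (undGP A') n i => h.p a) (hx.nat g w)
  let Z0 : NT F ((W3 C n).cel (i + 1)) :=
    ⟨fun A w => tcell O A hi (hx.app A w) (w'.app A w) (hw1' A w), by
      intro A A' g w
      refine W3c.ext' (w'.nat g w) (fun _ => ?_) (fun _ => ?_)
      · show O.iv A' (O.iv A' (HCc.p (hx.app A' (F.map g w)) (pole hi false))) =
          ((und C).map g).app _ (O.iv A (O.iv A (HCc.p (hx.app A w) (pole hi false))))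
        rw [O.map_iv, O.map_iv, hxn]
      · show O.iv A' (HCc.p (hx.app A' (F.map g w)) (pole hi true)) =
          ((und C).map g).app _ (O.iv A (HCc.p (hx.app A w) (pole hi true)))
        rw [O.map_iv, hxn]⟩
  let Z : NT F ((und C).cel (i + 1)) := Z0.comp (O.K (hi.trans (Nat.lt_succ_self i)))
  obtain ⟨ρ, hρ0, hρ1⟩ := exists_rho3 b hC O n X hX hR
  let T : NG (stepPre O n X).P X.P := P1.comp ((toW3 O n).comp ρ)
  obtain ⟨z', h1, h2⟩ := hT i hiN F (x.comp (T.cel i)) (y.comp (T.cel i)) Z
    (fun A w => tsgt_par (T.at A) (hxy A w))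
    (fun A w => (congrArg (b.e A) (tcell_false O A hi (hx.app A w) (w'.app A w)
      (hw1' A w))).trans (hρ1 A i (toW3c O A (hx.app A w))).symm)
    (fun A w => (congrArg (b.e A) (tcell_true O A hi (hx.app A w) (hy.app A w) (w'.app A w)
      (hw1' A w) (hw2' A w) (hp A w))).trans (hρ1 A i (toW3c O A (hy.app A w))).symm)
  exact ⟨z', fun A w => (h1 A w).trans (hρ0 A i (toW3c O A (hx.app A w))),
    fun A w => (h2 A w).trans (hρ0 A i (toW3c O A (hy.app A w)))⟩

theorem t_step {N : ℕ} (b : BSys C N) (hC : Ctr C) (O : Ops C) (n : ℕ) (hn : n < N)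
    (X : Pre C b.B) (hX : LowP b (n + 1) X) (hR : RProp b (n + 1) X) (hT : TProp b X) :
    TProp b (stepPre O n X) := by
  intro i hi F x y z hxy hs ht
  rcases lt_trichotomy i n with h | h | h
  · exact t_step_lt b O n hn X hX i h F x y z hs ht
  · subst h
    exact t_step_eq b O i hn X hX F x y z hs ht
  · exact t_step_gt b hC O n X hX hR hT i h hi F x y z hxy hs ht

end Crest.Agent.R248
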