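import Crest.Agent.R248.StepR
import Crest.Agent.R248.StepT
import Crest.Agent.R248.StepJ
import Crest.Agent.R248.StepL
import Crest.Agent.R248.LevelAct
import Crest.Agent.R248.HMain
import Crest.Agent.R248.Cosk
import Crest.Agent.R248.OpsEx

/-!
# R248: all levels are good (assembly)
-/

set_option autoImplicit false
set_option linter.unusedVariables false
open CategoryTheory CategoryTheory.Limits Opposite
open Crest.GeometryTopology.Coherator Crest.GeometryTopology.Coherator.GlobTheory

universe u

namespace Crest.Agent.R248

variable {C : GlobTheory.{u}}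

theorem good_base {N : ℕ} (b : BSys C N) (O : Ops C) : Good b O N (basePre b) where
  low := low_base b
  r := r_base b
  t := t_base b
  j := j_base b O
  e := e_base b
  l := l_base b O
  c := cst_base b

theorem good_step {N : ℕ} (b : BSys C N) (hT : Nonempty C.Tower) (hC : Ctr C) (O : Ops C)
    (n : ℕ) (hn : n < N) (X : Pre C b.B) (G : Good b O (n + 1) X) :
    Good b O n (stepPre O n X) where
  low := low_step b O n X G.low
  r := r_step b O n hn X G.low G.r
  t := t_step b hC O n hn X G.low G.r G.t
  j := j_step b hC O n X G.low G.r G.j
  e := e_step b O n X G.low G.e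
  l := l_step b O n X G.l
  c := cst_level b hT n _ (low_step b O n X G.low) (r_step b O n hn X G.low G.r)
    (fun T e h1 h2 h3 => contr_main b hC O n X G T e h1 h2 h3)

theorem exists_good {N : ℕ} (b : BSys C N) (hT : Nonempty C.Tower) (hC : Ctr C) (O : Ops C)
    (n : ℕ) (hn : n ≤ N) : ∃ X : Pre C b.B, Good b O n X := by
  induction hn using Nat.decreasingInduction with
  | of_succ k hk ih =>
    obtain ⟨X, G⟩ := ih
    exact ⟨_, good_step b hT hC O k hk X G⟩
  | self => exact ⟨_, good_base b O⟩

end Crest.Agent.R248
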