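import Crest.Agent.R248.FinA
import Crest.Agent.R248.FinB
import Crest.Agent.R248.GoodInd

/-!
# R248 piece FINC: the key homotopy

* `tfib_f0`: from `EProp` and the isomorphism `a`, `c`.
* `t_single`: `TProp` for the representable family `F.obj A := (Y ⟶ A)`, `x.app A g := (X.P.map g).app m x₀`, and
  `z.app A g := und.map g (un x')` where `η x' = p1 x₀` (`b.low`, `m < N`); evaluate the result at `𝟙 Y`.
* `exists_sigma`: `σ_X` from `tf_section` for `D.f0.app X`; `g := σ_X ≫ D.M.map i`, `g ≫ D.f0.app Y = i`; `J` of `ofM D.M D.f0 D.f1`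
  (`j_transfer`, dimension `n`) at `(g α, β)` (`α = dcell a`, `β = dcell b`, `po_source`) gives `d`; `σ` from `po_exists`.
  Both identities by `po_ext`: on `i` and on `β` (`f1 d = un (f1 (g α))`, `O.map_un`).
* `key`: take `N = max m n + 1`, `t_single` for `x₀ = D.a (σ z)`, `y₀ = D.a (σ (i (r z)))`.
-/

set_option autoImplicit false
set_option linter.unusedVariables false
open CategoryTheory CategoryTheory.Limits Opposite
open Crest.GeometryTopology.Coherator Crest.GeometryTopology.Coherator.GlobTheory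

universe u

namespace Crest.Agent.R248

variable {C : GlobTheory.{u}}

theorem tfib_f0 {B : GlobModel C ⥤ GlobModel C} (X : Pre C B) (D : CDat X) (hE : EProp X)
    (A : GlobModel C) : TFib (D.f0.app A) := by
  intro e d y h
  let d' : Bd (X.P.gp A) e := Bd.push (P := undGP (D.M.obj A)) (D.a.at A) d
  have h0 : ∀ (k : ℕ) (x : (undGP (D.M.obj A)).c k),
      X.p0.app A k (D.a.app A k x) = ((und C).map (D.f0.app A)).app k x := fun k x => D.a0 A k x
  obtain ⟨κ, hκ1, hκ2⟩ := hE A e d' y (by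
    rw [show (undGP A).bdy y = _ from h]
    exact Bd.ext' fun f hf ε => (h0 f _).symm)
  refine ⟨D.c.app A e κ, ?_, ?_⟩
  · refine Bd.ext' fun f hf ε => ?_
    show (undGP (D.M.obj A)).fc (pole hf ε) (D.c.app A e κ) = d.v hf ε
    refine (D.c.natF A (pole hf ε) κ).symm.trans ?_
    refine (congrArg (D.c.app A f) (fc_of_bdy hκ1 hf ε)).trans ?_
    exact D.ca A f (d.v hf ε)
  · refine (h0 e _).symm.trans ?_
    refine (congrArg (X.p0.app A e) (D.ac A e κ)).trans hκ2

theorem t_single {N : ℕ} (b : BSys C N) (O : Ops C) (X : Pre C b.B) (hT : TProp b X) (m : ℕ)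
    (hm : m < N) (Y : GlobModel C) (x₀ y₀ : (X.P.gp Y).c m) (hp : (X.P.gp Y).Par x₀ y₀)
    (h1 : X.p1.app Y m x₀ = X.p1.app Y m y₀) :
    ∃ w : (undGP Y).c (m + 1), (undGP Y).fc (fac m false) w = X.p0.app Y m x₀ ∧
      (undGP Y).fc (fac m true) w = X.p0.app Y m y₀ := by
  obtain ⟨x', hx'⟩ := (b.low Y m hm).2 (X.p1.app Y m x₀)
  let F : Fam C :=
    { obj := fun A => (Y ⟶ A)
      map := fun f g => g ≫ f
      map_id := fun A x => Category.comp_id x
      map_comp := fun f g x => (Category.assoc x f g).symm }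
  have hz : ∀ (z₀ : (X.P.gp Y).c m) (ε : Bool), X.p1.app Y m x₀ = X.p1.app Y m z₀ →
      ∀ (A : GlobModel C) (g : Y ⟶ A),
      b.e A ((undGP A).fc (fac m ε) (((und C).map g).app (m + 1) (O.un Y x'))) =
        X.p1.app A m ((X.P.map g).app m z₀) := by
    intro z₀ ε hz A g
    have h2 : (undGP A).fc (fac m ε) (((und C).map g).app (m + 1) (O.un Y x')) =
        ((und C).map g).app m x' := by
      refine (((und C).map g).nat (fac m ε) (O.un Y x')).symm.trans ?_
      exact congrArg (((und C).map g).app m) (O.fc_un Y ε x')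
    rw [h2]
    refine (b.ηG.natM g m x').trans ?_
    refine Eq.trans ?_ (X.p1.natM g m z₀).symm
    exact congrArg _ (Eq.trans hx' hz)
  obtain ⟨z', hz1, hz2⟩ := hT m hm F
    ⟨fun A g => (X.P.map g).app m x₀, fun f g => X.P.map_comp g f m x₀⟩
    ⟨fun A g => (X.P.map g).app m y₀, fun f g => X.P.map_comp g f m y₀⟩
    ⟨fun A g => ((und C).map g).app (m + 1) (O.un Y x'),
      fun f g => (und C).map_comp g f (m + 1) (O.un Y x')⟩
    (fun A g f hf ε => by
      show (X.P.gp A).fc (pole hf ε) ((X.P.map g).app m x₀) =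
        (X.P.gp A).fc (pole hf ε) ((X.P.map g).app m y₀)
      rw [← (X.P.map g).nat, ← (X.P.map g).nat, hp f hf ε])
    (fun A g => hz x₀ false rfl A g)
    (fun A g => hz y₀ true h1 A g)
  refine ⟨z'.app Y (𝟙 Y), ?_, ?_⟩
  · refine (hz1 Y (𝟙 Y)).trans ?_
    exact congrArg _ (X.P.map_id Y m x₀)
  · refine (hz2 Y (𝟙 Y)).trans ?_
    exact congrArg _ (X.P.map_id Y m y₀)

theorem exists_sigma {N : ℕ} (b : BSys C N) (O : Ops C) {X Y : GlobModel C} {n : ℕ}
    {a : GlobModel.diskModel C n ⟶ X} {i : X ⟶ Y} {β : GlobModel.diskModel C (n + 1) ⟶ Y}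
    (sq : IsPushout a (GlobModel.sourceIncl C n) i β) (hX : X.IsCellularModel)
    (L : Pre C b.B) (G : Good b O n L) (D : CDat L)
    (r : Y ⟶ X) (hr : i ≫ r = 𝟙 X)
    (hb : ((und C).map r).app (n + 1) (dcell β) = O.un X (dcell a)) :
    ∃ σ : Y ⟶ D.M.obj Y, σ ≫ D.f0.app Y = 𝟙 Y ∧
      σ ≫ D.f1.app Y = r ≫ i ≫ σ ≫ D.f1.app Y := by
  have hmc : ∀ {A A' A'' : GlobModel C} (f : A ⟶ A') (g : A' ⟶ A'') (e : ℕ) (x : (undGP A).c e),
      ((und C).map (f ≫ g)).app e x = ((und C).map g).app e (((und C).map f).app e x) :=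
    fun f g e x => (und C).map_comp f g e x
  have hmi : ∀ {A : GlobModel C} (e : ℕ) (x : (undGP A).c e),
      ((und C).map (𝟙 A)).app e x = x := fun e x => (und C).map_id _ e x
  obtain ⟨sX, hsX⟩ := tf_section (A := D.M.obj X) hX (D.f0.app X) (tfib_f0 L D G.e X)
  obtain ⟨g, hg⟩ : ∃ g : X ⟶ D.M.obj Y, g = sX ≫ D.M.map i := ⟨_, rfl⟩
  have hg0 : g ≫ D.f0.app Y = i := by
    rw [hg, Category.assoc, D.f0.naturality, ← Category.assoc]
    exact (congrArg (fun k => k ≫ i) hsX).trans (Category.id_comp i)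
  obtain ⟨J, hJs, hJ0, hJ1⟩ := j_transfer O n L D G.j n le_rfl
  have hw : (ofM D.M D.f0 D.f1).p0.app Y n (((und C).map g).app n (dcell a)) =
      (undGP Y).fc (fac n false) (dcell β) := by
    rw [po_source sq]
    have h1 := hmc g (D.f0.app Y) n (dcell a)
    rw [hg0] at h1
    exact h1.symm
  obtain ⟨w, hw'⟩ : ∃ w : (JDom (ofM D.M D.f0 D.f1) n).obj Y,
      w.1 = (((und C).map g).app n (dcell a), dcell β) := ⟨⟨(_, _), hw⟩, rfl⟩
  obtain ⟨d, hd⟩ : ∃ d : (undGP (D.M.obj Y)).c (n + 1), d = J.app Y w := ⟨_, rfl⟩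
  have hds : (undGP (D.M.obj Y)).fc (fac n false) d = ((und C).map g).app n (dcell a) := by
    rw [hd]
    exact (hJs Y w).trans (congrArg Prod.fst hw')
  have hd0 : ((und C).map (D.f0.app Y)).app (n + 1) d = dcell β := by
    rw [hd]
    exact (hJ0 Y w).trans (congrArg Prod.snd hw')
  have hd1 : ((und C).map (D.f1.app Y)).app (n + 1) d =
      O.un (b.B.obj Y) (((und C).map (D.f1.app Y)).app n (((und C).map g).app n (dcell a))) := by
    rw [hd]
    exact (hJ1 Y w).trans (congrArg (fun v => O.un (b.B.obj Y)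
      (((und C).map (D.f1.app Y)).app n (Prod.fst v))) hw')
  obtain ⟨σ, hσ1, hσ2⟩ := po_exists sq (D.M.obj Y) g d hds
  refine ⟨σ, ?_, ?_⟩
  · refine po_ext sq Y (σ ≫ D.f0.app Y) (𝟙 Y) ?_ ?_
    · rw [← Category.assoc, hσ1, Category.comp_id]
      exact hg0
    · rw [hmi]
      exact (hmc σ (D.f0.app Y) (n + 1) (dcell β)).trans
        ((congrArg (((und C).map (D.f0.app Y)).app (n + 1)) hσ2).trans hd0)
  · refine po_ext sq (b.B.obj Y) _ _ ?_ ?_
    · rw [← Category.assoc i r, hr, Category.id_comp]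
    · have h1 : ((und C).map (σ ≫ D.f1.app Y)).app (n + 1) (dcell β) =
          O.un (b.B.obj Y)
            (((und C).map (D.f1.app Y)).app n (((und C).map g).app n (dcell a))) :=
        (hmc σ (D.f1.app Y) (n + 1) (dcell β)).trans
          ((congrArg (((und C).map (D.f1.app Y)).app (n + 1)) hσ2).trans hd1)
      have h2 : r ≫ i ≫ σ ≫ D.f1.app Y = r ≫ g ≫ D.f1.app Y := by
        rw [← hσ1, Category.assoc]
      rw [h1, h2, hmc, hb]
      refine Eq.trans ?_ (hmc g (D.f1.app Y) (n + 1) (O.un X (dcell a))).symm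
      rw [O.map_un]
      exact (O.map_un (D.f1.app Y) (((und C).map g).app n (dcell a))).symm

theorem key (hT : Nonempty C.Tower) (hC : Ctr C) (O : Ops C) {X Y : GlobModel C} {n : ℕ}
    {a : GlobModel.diskModel C n ⟶ X} {i : X ⟶ Y} {β : GlobModel.diskModel C (n + 1) ⟶ Y}
    (sq : IsPushout a (GlobModel.sourceIncl C n) i β) (hX : X.IsCellularModel)
    (r : Y ⟶ X) (hr : i ≫ r = 𝟙 X)
    (hb : ((und C).map r).app (n + 1) (dcell β) = O.un X (dcell a))
    (m : ℕ) (z : (undGP Y).c m)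
    (hz : (undGP Y).Par z (((und C).map i).app m (((und C).map r).app m z))) :
    ∃ w : (undGP Y).c (m + 1), (undGP Y).fc (fac m false) w = z ∧
      (undGP Y).fc (fac m true) w = ((und C).map i).app m (((und C).map r).app m z) := by
  obtain ⟨b⟩ := exists_bsys hT (max m n + 1)
  obtain ⟨L, G⟩ := exists_good b hT hC O n ((le_max_right m n).trans (Nat.le_succ _))
  obtain ⟨D⟩ := G.c.dat
  obtain ⟨σ, h0, h1⟩ := exists_sigma b O sq hX L G D r hr hb
  have e0 : ∀ y : (undGP Y).c m,
      ((und C).map (D.f0.app Y)).app m (((und C).map σ).app m y) = y := fun y =>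
    congrArg (fun φ => ((und C).map φ).app m y) h0
  have e1 : ∀ y : (undGP Y).c m,
      ((und C).map (D.f1.app Y)).app m (((und C).map σ).app m y) =
      ((und C).map (D.f1.app Y)).app m (((und C).map σ).app m
        (((und C).map i).app m (((und C).map r).app m y))) := fun y =>
    congrArg (fun φ => ((und C).map φ).app m y) h1
  obtain ⟨w, hw0, hw1⟩ := t_single b O L G.t m
    (Nat.lt_succ_of_le (le_max_left m n)) Y
    (D.a.app Y m (((und C).map σ).app m z))
    (D.a.app Y m (((und C).map σ).app m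
      (((und C).map i).app m (((und C).map r).app m z))))
    (by
      intro f hf ε
      have h2 := D.a.natF Y (pole hf ε) (((und C).map σ).app m z)
      have h3 := D.a.natF Y (pole hf ε) (((und C).map σ).app m
        (((und C).map i).app m (((und C).map r).app m z)))
      refine h2.symm.trans (Eq.trans ?_ h3)
      refine congrArg (D.a.app Y f) ?_
      have h4 := ((und C).map σ).nat (pole hf ε) z
      have h5 := ((und C).map σ).nat (pole hf ε)
        (((und C).map i).app m (((und C).map r).app m z))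
      exact h4.symm.trans ((congrArg _ (hz f hf ε)).trans h5))
    ((D.a1 Y m _).trans ((e1 z).trans (D.a1 Y m _).symm))
  exact ⟨w, hw0.trans ((D.a0 Y m _).trans (e0 z)), hw1.trans ((D.a0 Y m _).trans (e0 _))⟩

end Crest.Agent.R248
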