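import Crest.Agent.R248.FinA
import Crest.Agent.R248.FinB

/-!
# R248 piece FIND: weak equivalence from the key homotopy

`(A.cells).cell n = (undGP A).c n`, `src n = fc (fac n false)`, `tgt n = fc (fac n true)`, `(cellsMap f).app n = ((und C).map f).app n`, all by `rfl`.
Injectivity: the retraction `r` induces a left inverse (for loops define `LoopsAt (i x) → LoopsAt x`, `z ↦ r z`, directly,
using `r (basePoint (i x)) = basePoint x`). Surjectivity: `z` (a `0`-cell, or a loop at `i x`) is parallel to `i (r z)`:
its faces are `i` of something, on which `i ∘ r` is the identity; `hkey` gives a `Step` from `z` to `i (r z)`.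
-/

set_option autoImplicit false
set_option linter.unusedVariables false
open CategoryTheory CategoryTheory.Limits Opposite
open Crest.GeometryTopology.Coherator Crest.GeometryTopology.Coherator.GlobTheory

universe u

namespace Crest.Agent.R248

variable {C : GlobTheory.{u}}

theorem fd_ri {X Y : GlobModel C} {i : X ⟶ Y} {r : Y ⟶ X} (hr : i ≫ r = 𝟙 X) (m : ℕ)
    (x : (undGP X).c m) :
    ((und C).map r).app m (((und C).map i).app m x) = x := by
  have h := (und C).map_comp i r m x
  rw [hr] at h
  exact h.symm.trans ((und C).map_id X m x)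

theorem fd_bp {X Y : GlobModel C} (f : X ⟶ Y) (e : C.UnitChoice) (x : X.cells.cell 0) (k : ℕ) :
    ((und C).map f).app k (X.basePoint e x k) =
      Y.basePoint e (((und C).map f).app 0 x) k := by
  induction k with
  | zero => rfl
  | succ k ih =>
    have h := (actN (e.unit k)).nat f (X.basePoint e x k)
    show ((und C).map f).app (k + 1) (X.act (e.unit k) (X.basePoint e x k)) =
      Y.act (e.unit k) (Y.basePoint e (((und C).map f).app 0 x) k)
    rw [← ih]
    exact h.symm

/-- parallelism in codimension one -/
theorem fd_par {Q : GP.{u}} {n : ℕ} {z z' : Q.c (n + 1)}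
    (h : ∀ ε, Q.fc (fac n ε) z = Q.fc (fac n ε) z') : Q.Par z z' := by
  rw [par_iff_bdy]
  exact Bd.ext_succ fun ε => h ε

theorem weq_components {X Y : GlobModel C} (i : X ⟶ Y) (r : Y ⟶ X)
    (hr : i ≫ r = 𝟙 X)
    (hkey : ∀ z : (undGP Y).c 0, ∃ w : (undGP Y).c 1, (undGP Y).fc (fac 0 false) w = z ∧
      (undGP Y).fc (fac 0 true) w = ((und C).map i).app 0 (((und C).map r).app 0 z)) :
    Function.Bijective (GlobModel.componentsMap i) := by
  constructor
  · have hl : Function.LeftInverse (GlobModel.componentsMap r) (GlobModel.componentsMap i) := by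
      intro a
      induction a using Quot.ind with
      | mk x => exact congrArg (Quot.mk _) (fd_ri hr 0 x)
    exact hl.injective
  · intro a
    induction a using Quot.ind with
    | mk z =>
      obtain ⟨w, h1, h2⟩ := hkey z
      exact ⟨Quot.mk _ (((und C).map r).app 0 z), (Quot.sound ⟨w, h1, h2⟩).symm⟩

theorem weq_homotopy (e : C.UnitChoice) {X Y : GlobModel C} (i : X ⟶ Y) (r : Y ⟶ X)
    (hr : i ≫ r = 𝟙 X)
    (hkey : ∀ (m : ℕ) (z : (undGP Y).c m),
      (undGP Y).Par z (((und C).map i).app m (((und C).map r).app m z)) →
      ∃ w : (undGP Y).c (m + 1), (undGP Y).fc (fac m false) w = z ∧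
        (undGP Y).fc (fac m true) w = ((und C).map i).app m (((und C).map r).app m z))
    (x : X.cells.cell 0) (n : ℕ) :
    Function.Bijective (GlobModel.homotopyMap i e x n) := by
  -- the retraction on loops
  have hbp : ∀ k, ((und C).map r).app k (Y.basePoint e ((GlobModel.cellsMap i).app 0 x) k) =
      X.basePoint e x k := by
    intro k
    have h := fd_bp i e x k
    have h2 := fd_ri hr k (X.basePoint e x k)
    rw [h] at h2
    exact h2
  let R : Y.LoopsAt e ((GlobModel.cellsMap i).app 0 x) n → X.LoopsAt e x n := fun z =>
    ⟨((und C).map r).app (n + 1) z.1,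
      (((und C).map r).nat (fac n false) z.1).symm.trans
        ((congrArg (((und C).map r).app n) z.2.1).trans (hbp n)),
      (((und C).map r).nat (fac n true) z.1).symm.trans
        ((congrArg (((und C).map r).app n) z.2.2).trans (hbp n))⟩
  constructor
  · let G : Y.HomotopyClasses e ((GlobModel.cellsMap i).app 0 x) n → X.HomotopyClasses e x n :=
      Quot.map R (by
        rintro a b ⟨c, hs, ht⟩
        exact ⟨((und C).map r).app (n + 2) c,
          (((und C).map r).nat (fac (n + 1) false) c).symm.trans
            (congrArg (((und C).map r).app (n + 1)) hs),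
          (((und C).map r).nat (fac (n + 1) true) c).symm.trans
            (congrArg (((und C).map r).app (n + 1)) ht)⟩)
    have hl : Function.LeftInverse G (GlobModel.homotopyMap i e x n) := by
      intro a
      induction a using Quot.ind with
      | mk z => exact congrArg (Quot.mk _) (Subtype.ext (fd_ri hr (n + 1) z.1))
    exact hl.injective
  · intro a
    induction a using Quot.ind with
    | mk z =>
      have hface : ∀ ε, (undGP Y).fc (fac n ε) z.1 =
          (undGP Y).fc (fac n ε) (((und C).map i).app (n + 1) (((und C).map r).app (n + 1) z.1)) := by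
        intro ε
        have hz : (undGP Y).fc (fac n ε) z.1 = ((und C).map i).app n (X.basePoint e x n) := by
          rw [fd_bp]
          cases ε
          · exact z.2.1
          · exact z.2.2
        have h1 : (undGP Y).fc (fac n ε) (((und C).map i).app (n + 1)
            (((und C).map r).app (n + 1) z.1)) =
            ((und C).map i).app n ((undGP X).fc (fac n ε) (((und C).map r).app (n + 1) z.1)) :=
          (((und C).map i).nat (fac n ε) _).symm
        have h2 : (undGP X).fc (fac n ε) (((und C).map r).app (n + 1) z.1) =
            ((und C).map r).app n ((undGP Y).fc (fac n ε) z.1) :=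
          (((und C).map r).nat (fac n ε) _).symm
        rw [h1, h2, hz, fd_ri hr]
      obtain ⟨w, h1, h2⟩ := hkey (n + 1) z.1 (fd_par hface)
      exact ⟨Quot.mk _ (R z), (Quot.sound ⟨w, h1, h2⟩).symm⟩

theorem weq (e : C.UnitChoice) {X Y : GlobModel C} (i : X ⟶ Y) (r : Y ⟶ X)
    (hr : i ≫ r = 𝟙 X)
    (hkey : ∀ (m : ℕ) (z : (undGP Y).c m),
      (undGP Y).Par z (((und C).map i).app m (((und C).map r).app m z)) →
      ∃ w : (undGP Y).c (m + 1), (undGP Y).fc (fac m false) w = z ∧
        (undGP Y).fc (fac m true) w = ((und C).map i).app m (((und C).map r).app m z)) :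
    GlobModel.IsWeakEquiv e i :=
  ⟨weq_components i r hr (fun z => hkey 0 z (fun f h => absurd h (Nat.not_lt_zero _))),
    fun x n => weq_homotopy e i r hr hkey x n⟩

end Crest.Agent.R248
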