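import Crest.Agent.R248.DGlue

/-!
# R248 piece GCASEA: closing open data; the globe of dimension `< n`

* `gd_of_gdo`: `G := clo n D.G hT` (height `max D.G.dim (n+1)`), `ψ, θ, θψ` those of `D`, `G.last = n+1`.
  `lastψ` (`b < n`): `last (ψ x) = cloR (ψ x) = inv (p₊)` (`Dg.last_glue`), `Ops.fc_iv_low`, then
  `fc (pole b<n+1) p₊ = fc (pole b<n true) (s p₊) = fc (pole b<n) (fc (pole n<last true) y)` (`HCc.hp`).
  `lastθ`: `fc (pole b true)` of `L (cloW g)` goes through its `n`-target `t (cloR g)` (`L_t`, `fc_globular`).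
* `gd_single_lt` (`h < n`): `G := globe h`, `ψ x := ofCell (hcy x.cell)`, `θ g := ofCell (hcMkL g.cell)`;
  `θψ`: `hc_ext_lt`, `thH_y_le`, `Dg.ofCell_cell`, `Dg.cell_push`.
-/

set_option autoImplicit false
set_option linter.unusedVariables false
open CategoryTheory CategoryTheory.Limits Opposite
open Crest.GeometryTopology.Coherator Crest.GeometryTopology.Coherator.GlobTheory

universe u

namespace Crest.Agent.R248

variable {C : GlobTheory.{u}}

theorem gd_of_gdo (O : Ops C) (n : ℕ) (T : Shape) (hT : n < T.last) (D : GDo O n T hT) :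
    Nonempty (GD O n T) := by
  refine ⟨{
    G := clo n D.G hT
    dim_le := ?_
    ψ := D.ψ
    θ := D.θ
    θψ := D.θψ
    lastlt := fun b hb _ => hb.trans (Nat.lt_succ_self n)
    lastψ := ?_
    lastθ := ?_ }⟩
  · exact max_le_max D.dim_le le_rfl
  · intro b hb hbT A x
    have h1 : Dg.last (Q := undGP A) (D.ψ.app A x) = O.iv A (hcp x.last (pole hT true)) :=
      (Dg.last_glue ⟨T.last, D.G⟩ n (n + 1) hT (Nat.lt_succ_self n)
        (show Dg (undGP A) (clo n D.G hT) from D.ψ.app A x)).trans (D.ψR A x)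
    refine (congrArg ((undGP A).fc (pole (hb.trans (Nat.lt_succ_self n)) true)) h1).trans ?_
    refine (O.fc_iv_low A hb true _).trans ?_
    refine (fc_globular (undGP A) hb (Nat.lt_succ_self n) true false _).symm.trans ?_
    refine (congrArg ((undGP A).fc (pole hb true)) (HCc.hp x.last (pole hT true))).trans ?_
    exact fc_globular (undGP A) hb hT true true _
  · intro b hb hbT A g
    have h1 : Dg.last g = cloR (n := n) (G := D.G) (h := hT) g :=
      Dg.last_glue ⟨T.last, D.G⟩ n (n + 1) hT (Nat.lt_succ_self n) g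
    refine (congrArg ((undGP A).fc (pole hbT true)) (D.θy A g)).trans ?_
    refine (fc_globular (undGP A) hb hT true true _).symm.trans ?_
    refine (congrArg ((undGP A).fc (pole hb true)) (O.L_t hT A (cloW g))).trans ?_
    refine (fc_globular (undGP A) hb (Nat.lt_succ_self n) true true _).trans ?_
    exact congrArg ((undGP A).fc (pole (hb.trans (Nat.lt_succ_self n)) true)) h1.symm

theorem gd_single_lt (O : Ops C) (n h : ℕ) (hh : h < n) :
    Nonempty (GD O n (Shape.globe h)) := by
  let mkL : NT ((und C).cel h) ((HC C n).cel h) :=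
    ⟨fun A y => hcMkL hh y, fun g x => hc_ext_lt hh rfl⟩
  let ψ : NT ((HC C n).dg (Shape.globe h)) ((und C).dg (Shape.globe h)) :=
    ((dgCell (HC C n) h).comp ((HC.y n).cel h)).comp (dgOf (und C) h)
  let θ : NT ((und C).dg (Shape.globe h)) ((HC C n).dg (Shape.globe h)) :=
    ((dgCell (und C) h).comp mkL).comp (dgOf (HC C n) h)
  refine ⟨{
    G := Shape.globe h
    dim_le := le_max_left _ _
    ψ := ψ
    θ := θ
    θψ := ?_
    lastlt := fun b _ hb => hb
    lastψ := ?_
    lastθ := ?_ }⟩
  · intro A x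
    show Dg.ofCell (Q := (HC C n).gp A)
      (hcMkL hh ((Dg.ofCell (Q := undGP A) (hcy x.cell)).cell)) = x.push ((thH O n).at A)
    rw [Dg.cell_ofCell, ← Dg.ofCell_cell (x.push ((thH O n).at A)), Dg.cell_push]
    congr 1
    exact hc_ext_lt hh (thH_y_le O hh.le A x.cell).symm
  · intro b hb hT A x
    show (undGP A).fc (pole hT true) (Dg.last (Q := undGP A) (Dg.ofCell (hcy x.cell))) = _
    rw [Dg.last_globe, Dg.cell_ofCell]
    rfl
  · intro b hb hT A g
    show (undGP A).fc (pole hT true) (hcy (Dg.last (Q := (HC C n).gp A)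
      (Dg.ofCell (Q := (HC C n).gp A) (hcMkL hh g.cell)))) = _
    rw [Dg.last_globe, Dg.cell_ofCell]
    rfl

end Crest.Agent.R248
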