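import Crest.Agent.R248.Bd

/-!
# R248 piece GREC: construction of natural globular maps by recursion on the dimension

`grec` constructs natural families `ρ_e : W_e → Q_e` for all `e ≥ m`, compatible with faces, with prescribed faces
`β` in dimensions `< m`, from the extension property `ext` (every natural boundary satisfying `Φ` extends).
PROOF: recursion on `k`, constructing `ρ_e` for `m ≤ e < k` with the three properties and extending the previous
stage (choose functions `∀ e, m ≤ e → e < k → NT ..`; or: strong recursion with a `Σ`-type of good initial families).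
At stage `k ≥ m`: the boundary `b(w).v (f<k) ε := ρ_f (W.fc (pole _ ε) w)` if `m ≤ f`, `β` if `f < m`; it is a
natural family of `Bd`s by the compatibilities; apply `ext`.
`grec0` is the case `m = 0`.
-/

set_option autoImplicit false
open CategoryTheory CategoryTheory.Limits Opposite
open Crest.GeometryTopology.Coherator Crest.GeometryTopology.Coherator.GlobTheory

universe u

namespace Crest.Agent.R248

variable {C : GlobTheory.{u}}

namespace GRecAux

/-- good initial families -/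
structure Good (W Q : GPF C) (m : ℕ)
    (β : ∀ {e f : ℕ}, m ≤ e → f < m → Bool → NT (W.cel e) (Q.cel f))
    (Φ : ∀ (A : GlobModel C) (e : ℕ), (W.gp A).c e → (Q.gp A).c e → Prop) (k : ℕ)
    (ρ : ∀ e : ℕ, m ≤ e → e < k → NT (W.cel e) (Q.cel e)) : Prop where
  nat : ∀ {f e : ℕ} (hf : m ≤ f) (he : m ≤ e) (hfk : f < k) (hek : e < k) (a : Ar f e)
    (A : GlobModel C) (w : (W.gp A).c e),
    (ρ f hf hfk).app A ((W.gp A).fc a w) = (Q.gp A).fc a ((ρ e he hek).app A w)
  bet : ∀ {f e : ℕ} (hf : f < m) (he : m ≤ e) (hek : e < k) (ε : Bool) (A : GlobModel C)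
    (w : (W.gp A).c e),
    (Q.gp A).fc (pole (hf.trans_le he) ε) ((ρ e he hek).app A w) = (β he hf ε).app A w
  phi : ∀ {e : ℕ} (he : m ≤ e) (hek : e < k) (A : GlobModel C) (w : (W.gp A).c e),
    Φ A e w ((ρ e he hek).app A w)

theorem step (W Q : GPF C) (m : ℕ)
    (β : ∀ {e f : ℕ}, m ≤ e → f < m → Bool → NT (W.cel e) (Q.cel f))
    (hβ1 : ∀ {e g f : ℕ} (he : m ≤ e) (hg : m ≤ g) (hf : f < m) (ε : Bool) (a : Ar g e)
      (A : GlobModel C) (w : (W.gp A).c e),
      (β hg hf ε).app A ((W.gp A).fc a w) = (β he hf ε).app A w)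
    (hβ2 : ∀ {e f g : ℕ} (he : m ≤ e) (hf : f < m) (hg : g < f) (ε ε' : Bool)
      (A : GlobModel C) (w : (W.gp A).c e),
      (Q.gp A).fc (pole hg ε) ((β he hf ε').app A w) = (β he (hg.trans hf) ε).app A w)
    (Φ : ∀ (A : GlobModel C) (e : ℕ), (W.gp A).c e → (Q.gp A).c e → Prop)
    (ext : ∀ (e : ℕ) (he : m ≤ e) (b : NT (W.cel e) (Q.bd e)),
      (∀ (A : GlobModel C) (w : (W.gp A).c e) (f : ℕ) (h : f < e) (hf : f < m) (ε : Bool),
        (b.app A w).v h ε = (β he hf ε).app A w) →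
      (∀ (A : GlobModel C) (w : (W.gp A).c e) (f : ℕ) (h : f < e), m ≤ f → ∀ ε : Bool,
        Φ A f ((W.gp A).fc (pole h ε) w) ((b.app A w).v h ε)) →
      ∃ κ : NT (W.cel e) (Q.cel e), (∀ A w, (Q.gp A).bdy (κ.app A w) = b.app A w) ∧
        ∀ A w, Φ A e w (κ.app A w))
    (k : ℕ) (ρ : ∀ e : ℕ, m ≤ e → e < k → NT (W.cel e) (Q.cel e))
    (hρ : Good W Q m β Φ k ρ) :
    ∃ ρ' : ∀ e : ℕ, m ≤ e → e < k + 1 → NT (W.cel e) (Q.cel e),
      Good W Q m β Φ (k + 1) ρ' ∧
      ∀ (e : ℕ) (he : m ≤ e) (h : e < k), ρ' e he (Nat.lt_succ_of_lt h) = ρ e he h := by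
  rcases Nat.lt_or_ge k m with hkm | hmk
  · refine ⟨fun e he h => absurd he (by omega), ⟨?_, ?_, ?_⟩, ?_⟩
    · intro f e hf he hfk; exact absurd hf (by omega)
    · intro f e hf he hek; exact absurd he (by omega)
    · intro e he hek; exact absurd he (by omega)
    · intro e he h; exact absurd he (by omega)
  · -- the boundary
    let bv : ∀ (A : GlobModel C) (w : (W.gp A).c k) (f : ℕ), f < k → Bool → (Q.gp A).c f :=
      fun A w f h ε => if hf : m ≤ f then (ρ f hf h).app A ((W.gp A).fc (pole h ε) w)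
        else (β hmk (not_le.1 hf) ε).app A w
    have hpos : ∀ (A : GlobModel C) (w : (W.gp A).c k) (f : ℕ) (h : f < k) (ε : Bool)
        (hf : m ≤ f), bv A w f h ε = (ρ f hf h).app A ((W.gp A).fc (pole h ε) w) :=
      fun A w f h ε hf => dif_pos hf
    have hneg : ∀ (A : GlobModel C) (w : (W.gp A).c k) (f : ℕ) (h : f < k) (ε : Bool)
        (hf : f < m), bv A w f h ε = (β hmk hf ε).app A w :=
      fun A w f h ε hf => dif_neg (not_le.2 hf)
    have hglob : ∀ (A : GlobModel C) (w : (W.gp A).c k) {g f : ℕ} (h : g < f) (h' : f < k)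
        (ε ε' : Bool), (Q.gp A).fc (pole h ε) (bv A w f h' ε') = bv A w g (h.trans h') ε := by
      intro A w g f h h' ε ε'
      rcases Nat.lt_or_ge g m with hg | hg
      · rcases Nat.lt_or_ge f m with hf | hf
        · exact (congrArg ((Q.gp A).fc (pole h ε)) (hneg A w f h' ε' hf)).trans
            ((hβ2 hmk hf h ε ε' A w).trans (hneg A w g (h.trans h') ε hg).symm)
        · exact (congrArg ((Q.gp A).fc (pole h ε)) (hpos A w f h' ε' hf)).trans
            ((hρ.bet hg hf h' ε A _).trans ((hβ1 hmk hf hg ε _ A w).trans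
              (hneg A w g (h.trans h') ε hg).symm))
      · have hf : m ≤ f := hg.trans h.le
        exact (congrArg ((Q.gp A).fc (pole h ε)) (hpos A w f h' ε' hf)).trans
          ((hρ.nat hg hf (h.trans h') h' (pole h ε) A _).symm.trans
            ((congrArg ((ρ g hg (h.trans h')).app A) (fc_globular (W.gp A) h h' ε ε' w)).trans
              (hpos A w g (h.trans h') ε hg).symm))
    have hnat : ∀ {A A' : GlobModel C} (g : A ⟶ A') (x : (W.gp A).c k) (f : ℕ) (hf : f < k)
        (ε : Bool), bv A' ((W.map g).app k x) f hf ε = (Q.map g).app f (bv A x f hf ε) := by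
      intro A A' g x f hf ε
      rcases Nat.lt_or_ge f m with hm | hm
      · exact (hneg A' _ f hf ε hm).trans (((β hmk hm ε).nat g x).trans
          (congrArg ((Q.map g).app f) (hneg A x f hf ε hm).symm))
      · exact (hpos A' _ f hf ε hm).trans ((congrArg ((ρ f hm hf).app A')
          ((W.map g).nat (pole hf ε) x).symm).trans (((ρ f hm hf).nat g _).trans
          (congrArg ((Q.map g).app f) (hpos A x f hf ε hm).symm)))
    let b : NT (W.cel k) (Q.bd k) :=
      ⟨fun A w => { v := fun {f} h ε => bv A w f h ε, glob := fun h h' ε ε' => hglob A w h h' ε ε' },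
        fun {A A'} g x => Bd.ext' fun f hf ε => hnat g x f hf ε⟩
    have hb1 : ∀ (A : GlobModel C) (w : (W.gp A).c k) (f : ℕ) (h : f < k) (hf : f < m) (ε : Bool),
        (b.app A w).v h ε = (β hmk hf ε).app A w := by
      intro A w f h hf ε
      exact hneg A w f h ε hf
    have hb2 : ∀ (A : GlobModel C) (w : (W.gp A).c k) (f : ℕ) (h : f < k) (hf : m ≤ f) (ε : Bool),
        (b.app A w).v h ε = (ρ f hf h).app A ((W.gp A).fc (pole h ε) w) := by
      intro A w f h hf ε
      exact hpos A w f h ε hf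
    obtain ⟨κ, hκ1, hκ2⟩ := ext k hmk b hb1 (fun A w f h hf ε => by
      rw [hb2 A w f h hf ε]
      exact hρ.phi hf h A _)
    let ρ' : ∀ e : ℕ, m ≤ e → e < k + 1 → NT (W.cel e) (Q.cel e) := fun e he h =>
      if hlt : e < k then ρ e he hlt
      else (Nat.le_antisymm (Nat.lt_succ_iff.1 h) (not_lt.1 hlt)) ▸ κ
    have h1 : ∀ (e : ℕ) (he : m ≤ e) (h : e < k) (h' : e < k + 1), ρ' e he h' = ρ e he h :=
      fun e he h h' => dif_pos h
    have h2 : ∀ (he : m ≤ k) (h' : k < k + 1), ρ' k he h' = κ := by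
      intro he h'
      show (if hlt : k < k then ρ k he hlt else _) = κ
      rw [dif_neg (lt_irrefl k)]
    refine ⟨ρ', ⟨?_, ?_, ?_⟩, fun e he h => h1 e he h (Nat.lt_succ_of_lt h)⟩
    · intro f e hf he hfk hek a A w
      rcases Nat.lt_or_ge e k with hlt | hge
      · have hfe := ar_le a
        have hfk' : f < k := lt_of_le_of_lt hfe hlt
        exact (congrArg (fun t : NT (W.cel f) (Q.cel f) => t.app A ((W.gp A).fc a w))
          (h1 f hf hfk' hfk)).trans ((hρ.nat hf he hfk' hlt a A w).trans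
          (congrArg (fun t : NT (W.cel e) (Q.cel e) => (Q.gp A).fc a (t.app A w))
            (h1 e he hlt hek).symm))
      · obtain rfl : e = k := Nat.le_antisymm (Nat.lt_succ_iff.1 hek) hge
        refine Eq.trans ?_ (congrArg (fun t : NT (W.cel e) (Q.cel e) => (Q.gp A).fc a (t.app A w))
            (h2 he hek).symm)
        cases a with
        | refl =>
          refine (congrArg (fun t : NT (W.cel f) (Q.cel f) => t.app A
            ((W.gp A).fc (GlobeObj.Arrow.refl f) w)) (h2 hf hfk)).trans ?_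
          have e1 : (W.gp A).fc (GlobeObj.Arrow.refl f) w = w := (W.gp A).fc_ide w
          have e2 : (Q.gp A).fc (GlobeObj.Arrow.refl f) (κ.app A w) = κ.app A w :=
            (Q.gp A).fc_ide _
          exact (congrArg (fun z => κ.app A z) e1).trans e2.symm
        | pole h ε =>
          refine (congrArg (fun t : NT (W.cel f) (Q.cel f) => t.app A
            ((W.gp A).fc (pole h ε) w)) (h1 f hf h hfk)).trans ?_
          exact (hb2 A w f h hf ε).symm.trans (fc_of_bdy (hκ1 A w) h ε).symm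
    · intro f e hf he hek ε A w
      rcases Nat.lt_or_ge e k with hlt | hge
      · exact (congrArg (fun t : NT (W.cel e) (Q.cel e) =>
          (Q.gp A).fc (pole (hf.trans_le he) ε) (t.app A w)) (h1 e he hlt hek)).trans
          (hρ.bet hf he hlt ε A w)
      · obtain rfl : e = k := Nat.le_antisymm (Nat.lt_succ_iff.1 hek) hge
        exact (congrArg (fun t : NT (W.cel e) (Q.cel e) =>
          (Q.gp A).fc (pole (hf.trans_le he) ε) (t.app A w)) (h2 he hek)).trans
          ((fc_of_bdy (hκ1 A w) _ ε).trans (hb1 A w f _ hf ε))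
    · intro e he hek A w
      rcases Nat.lt_or_ge e k with hlt | hge
      · exact (congrArg (fun t : NT (W.cel e) (Q.cel e) => Φ A e w (t.app A w))
          (h1 e he hlt hek)).mpr (hρ.phi he hlt A w)
      · obtain rfl : e = k := Nat.le_antisymm (Nat.lt_succ_iff.1 hek) hge
        exact (congrArg (fun t : NT (W.cel e) (Q.cel e) => Φ A e w (t.app A w))
          (h2 he hek)).mpr (hκ2 A w)

end GRecAux

theorem grec (W Q : GPF C) (m : ℕ)
    (β : ∀ {e f : ℕ}, m ≤ e → f < m → Bool → NT (W.cel e) (Q.cel f))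
    (hβ1 : ∀ {e g f : ℕ} (he : m ≤ e) (hg : m ≤ g) (hf : f < m) (ε : Bool) (a : Ar g e)
      (A : GlobModel C) (w : (W.gp A).c e),
      (β hg hf ε).app A ((W.gp A).fc a w) = (β he hf ε).app A w)
    (hβ2 : ∀ {e f g : ℕ} (he : m ≤ e) (hf : f < m) (hg : g < f) (ε ε' : Bool)
      (A : GlobModel C) (w : (W.gp A).c e),
      (Q.gp A).fc (pole hg ε) ((β he hf ε').app A w) = (β he (hg.trans hf) ε).app A w)
    (Φ : ∀ (A : GlobModel C) (e : ℕ), (W.gp A).c e → (Q.gp A).c e → Prop)
    (ext : ∀ (e : ℕ) (he : m ≤ e) (b : NT (W.cel e) (Q.bd e)),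
      (∀ (A : GlobModel C) (w : (W.gp A).c e) (f : ℕ) (h : f < e) (hf : f < m) (ε : Bool),
        (b.app A w).v h ε = (β he hf ε).app A w) →
      (∀ (A : GlobModel C) (w : (W.gp A).c e) (f : ℕ) (h : f < e), m ≤ f → ∀ ε : Bool,
        Φ A f ((W.gp A).fc (pole h ε) w) ((b.app A w).v h ε)) →
      ∃ κ : NT (W.cel e) (Q.cel e), (∀ A w, (Q.gp A).bdy (κ.app A w) = b.app A w) ∧
        ∀ A w, Φ A e w (κ.app A w)) :
    ∃ ρ : ∀ {e : ℕ}, m ≤ e → NT (W.cel e) (Q.cel e),
      (∀ {f e : ℕ} (hf : m ≤ f) (he : m ≤ e) (a : Ar f e) (A : GlobModel C) (w : (W.gp A).c e),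
        (ρ hf).app A ((W.gp A).fc a w) = (Q.gp A).fc a ((ρ he).app A w)) ∧
      (∀ {f e : ℕ} (hf : f < m) (he : m ≤ e) (ε : Bool) (A : GlobModel C) (w : (W.gp A).c e),
        (Q.gp A).fc (pole (hf.trans_le he) ε) ((ρ he).app A w) = (β he hf ε).app A w) ∧
      ∀ {e : ℕ} (he : m ≤ e) (A : GlobModel C) (w : (W.gp A).c e), Φ A e w ((ρ he).app A w) := by
  classical
  let S : ℕ → Type _ := fun k =>
    { ρ : ∀ e : ℕ, m ≤ e → e < k → NT (W.cel e) (Q.cel e) // GRecAux.Good W Q m β Φ k ρ }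
  have hstep : ∀ (k : ℕ) (s : S k), ∃ s' : S (k + 1), ∀ (e : ℕ) (he : m ≤ e) (h : e < k),
      s'.1 e he (Nat.lt_succ_of_lt h) = s.1 e he h := by
    intro k s
    obtain ⟨ρ', h1, h2⟩ := GRecAux.step W Q m β hβ1 hβ2 Φ ext k s.1 s.2
    exact ⟨⟨ρ', h1⟩, h2⟩
  choose nxt hnxt using hstep
  let s0 : S 0 := ⟨fun e _ h => absurd h (Nat.not_lt_zero e),
    ⟨fun _ _ h => absurd h (Nat.not_lt_zero _), fun _ _ h => absurd h (Nat.not_lt_zero _),
      fun _ h => absurd h (Nat.not_lt_zero _)⟩⟩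
  let sq : ∀ k, S k := fun k => Nat.rec s0 (fun k s => nxt k s) k
  have hsucc : ∀ (k e : ℕ) (he : m ≤ e) (h : e < k),
      (sq (k + 1)).1 e he (Nat.lt_succ_of_lt h) = (sq k).1 e he h :=
    fun k e he h => hnxt k (sq k) e he h
  have hagree : ∀ (j k e : ℕ) (he : m ≤ e) (h : e < k) (h' : e < k + j),
      (sq (k + j)).1 e he h' = (sq k).1 e he h := by
    intro j
    induction j with
    | zero => intro k e he h h'; rfl
    | succ j ih =>
      intro k e he h h'
      have h2 : e < k + j := by omega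
      have := hsucc (k + j) e he h2
      exact this.trans (ih k e he h h2)
  have hagree' : ∀ (k k' e : ℕ) (he : m ≤ e) (h : e < k) (h' : e < k'), k ≤ k' →
      (sq k').1 e he h' = (sq k).1 e he h := by
    intro k k' e he h h' hkk
    obtain ⟨j, rfl⟩ := Nat.exists_eq_add_of_le hkk
    exact hagree j k e he h h'
  refine ⟨fun {e} he => (sq (e + 1)).1 e he (Nat.lt_succ_self e), ?_, ?_, ?_⟩
  · intro f e hf he a A w
    have hfe := ar_le a
    have h1 := hagree' (f + 1) (e + 1) f hf (Nat.lt_succ_self f) (Nat.lt_succ_of_le hfe) (by omega)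
    have h2 := (sq (e + 1)).2.nat hf he (Nat.lt_succ_of_le hfe) (Nat.lt_succ_self e) a A w
    exact (congrArg (fun t : NT (W.cel f) (Q.cel f) => t.app A ((W.gp A).fc a w)) h1.symm).trans h2
  · intro f e hf he ε A w
    exact (sq (e + 1)).2.bet hf he _ ε A w
  · intro e he A w
    exact (sq (e + 1)).2.phi he _ A w

theorem grec0 (W Q : GPF C)
    (Φ : ∀ (A : GlobModel C) (e : ℕ), (W.gp A).c e → (Q.gp A).c e → Prop)
    (ext : ∀ (e : ℕ) (b : NT (W.cel e) (Q.bd e)),
      (∀ (A : GlobModel C) (w : (W.gp A).c e) (f : ℕ) (h : f < e) (ε : Bool),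
        Φ A f ((W.gp A).fc (pole h ε) w) ((b.app A w).v h ε)) →
      ∃ κ : NT (W.cel e) (Q.cel e), (∀ A w, (Q.gp A).bdy (κ.app A w) = b.app A w) ∧
        ∀ A w, Φ A e w (κ.app A w)) :
    ∃ ρ : NG W Q, ∀ (A : GlobModel C) (e : ℕ) (w : (W.gp A).c e), Φ A e w (ρ.app A e w) := by
  obtain ⟨ρ, h1, -, h3⟩ := grec W Q 0 (fun _ h _ => absurd h (Nat.not_lt_zero _))
    (fun _ _ h => absurd h (Nat.not_lt_zero _)) (fun _ h => absurd h (Nat.not_lt_zero _)) Φ
    (fun e _ b _ h => ext e b fun A w f hf ε => h A w f hf (Nat.zero_le f) ε)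
  exact ⟨⟨fun A e w => (ρ (Nat.zero_le e)).app A w,
    fun A f e a x => h1 (Nat.zero_le f) (Nat.zero_le e) a A x,
    fun g e x => (ρ (Nat.zero_le e)).nat g x⟩, fun A e w => h3 (Nat.zero_le e) A w⟩

end Crest.Agent.R248
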