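import Crest.Agent.R248.Diag

/-!
# R248 piece NERVE: a model is determined by its underlying globular presheaf and the action

`nrv A T x` is the diagram of all globes of `x`. Bijective: induction on the scheme: `A.sums` is a pullback
square (`IsPullback` in `Type u`), `dg_glue_ext`/`dg_glue_exists` say the same for diagrams; for a globe
`nrv A (globe n)` is inverse to `Dg.cell`.
-/

set_option autoImplicit false
open CategoryTheory CategoryTheory.Limits Opposite
open Crest.GeometryTopology.Coherator Crest.GeometryTopology.Coherator.GlobTheory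

universe u

namespace Crest.Agent.R248

variable {C : GlobTheory.{u}}

/-- the map of shapes classifying a cell of a shape -/
noncomputable def shHat {T : Shape} {e : ℕ} (t : shc T e) : Shape.globe e ⟶ T :=
  (show yoneda.obj (GlobeObj.mk e) ⟶ T.psh from yonedaEquiv.symm t)

theorem shHat_face {T : Shape} {f e : ℕ} (a : Ar f e) (t : shc T e) :
    shHat (shf T a t) =
      (show Shape.globe f ⟶ Shape.globe e from
        yoneda.map (show GlobeObj.mk f ⟶ GlobeObj.mk e from a)) ≫ shHat t :=
  (yonedaEquiv_symm_naturality_left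
    (show GlobeObj.mk f ⟶ GlobeObj.mk e from a) T.psh t).symm

theorem shHat_shm {S T : Shape} (g : S ⟶ T) {e : ℕ} (t : shc S e) :
    shHat (shm g t) = shHat t ≫ g :=
  (yonedaEquiv_symm_naturality_right (GlobeObj.mk e) (F := S.psh) (F' := T.psh) g t).symm

theorem NRV.act_one (A : GlobModel C) (T : Shape) (x : A.functor.obj (op (⟨T⟩ : C.Ob))) :
    A.act (C.one T) x = x := by
  have h := A.functor.map_id (op (⟨T⟩ : C.Ob))
  exact types_congr_hom h x

theorem NRV.act_seq (A : GlobModel C) {R S T : Shape} (o : C.arr R S) (o' : C.arr S T)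
    (x : A.functor.obj (op (⟨T⟩ : C.Ob))) :
    A.act (C.seq o o') x = A.act o (A.act o' x) := by
  have h := A.functor.map_comp
    (Quiver.Hom.op (X := (⟨S⟩ : C.Ob)) (Y := (⟨T⟩ : C.Ob)) o')
    (Quiver.Hom.op (X := (⟨R⟩ : C.Ob)) (Y := (⟨S⟩ : C.Ob)) o)
  exact types_congr_hom h x

theorem NRV.act_shape_comp (A : GlobModel C) {R S T : Shape} (f : R ⟶ S) (g : S ⟶ T)
    (x : A.functor.obj (op (⟨T⟩ : C.Ob))) :
    A.act (C.ofShape (f ≫ g)) x = A.act (C.ofShape f) (A.act (C.ofShape g) x) := by
  rw [C.ofShape_comp, NRV.act_seq]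

theorem NRV.act_shape_id (A : GlobModel C) (T : Shape) (x : A.functor.obj (op (⟨T⟩ : C.Ob))) :
    A.act (C.ofShape (𝟙 T)) x = x := by
  rw [C.ofShape_id, NRV.act_one]

/-- the nerve of a model -/
noncomputable def nrv (A : GlobModel C) (T : Shape) (x : A.functor.obj (op (⟨T⟩ : C.Ob))) :
    Dg (undGP A) T where
  v e t := A.act (C.ofShape (shHat t)) x
  nat := by
    intro f e a t
    rw [shHat_face, NRV.act_shape_comp]
    rfl

/-- compatibility with maps of shapes -/
theorem nrv_shape (A : GlobModel C) {S T : Shape} (g : S ⟶ T)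
    (x : A.functor.obj (op (⟨T⟩ : C.Ob))) :
    nrv A S (A.act (C.ofShape g) x) = (nrv A T x).res g := by
  refine Dg.ext (funext fun e => funext fun t => ?_)
  show A.act (C.ofShape (shHat t)) (A.act (C.ofShape g) x) = A.act (C.ofShape (shHat (shm g t))) x
  rw [shHat_shm, NRV.act_shape_comp]

theorem nrv_cell (A : GlobModel C) (n : ℕ) (x : A.functor.obj (op (⟨Shape.globe n⟩ : C.Ob))) :
    (nrv A (Shape.globe n) x).cell = x := by
  show A.act (C.ofShape (shHat (T := Shape.globe n) (ide n))) x = x
  have h : shHat (T := Shape.globe n) (e := n) (ide n) = 𝟙 (Shape.globe n) := by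
    show (yonedaEquiv.symm (𝟙 (GlobeObj.mk n)) :
      yoneda.obj (GlobeObj.mk n) ⟶ yoneda.obj (GlobeObj.mk n)) = 𝟙 _
    rw [Equiv.symm_apply_eq]
    rfl
  rw [h, NRV.act_shape_id]

theorem nrv_natural {A A' : GlobModel C} (g : A ⟶ A') (T : Shape)
    (x : A.functor.obj (op (⟨T⟩ : C.Ob))) :
    nrv A' T (g.app (op (⟨T⟩ : C.Ob)) x) = (nrv A T x).push ((und C).map g) := by
  refine Dg.ext (funext fun e => funext fun t => ?_)
  exact (types_congr_hom
    (g.naturality (Quiver.Hom.op (X := (⟨Shape.globe e⟩ : C.Ob)) (Y := (⟨T⟩ : C.Ob))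
      (C.ofShape (shHat t)))) x).symm

theorem NRV.bij_globe (A : GlobModel C) (n : ℕ) :
    Function.Bijective (nrv A (Shape.globe n)) := by
  constructor
  · intro x y h
    rw [← nrv_cell A n x, h, nrv_cell]
  · intro z
    let w : A.functor.obj (op (⟨Shape.globe n⟩ : C.Ob)) := z.cell
    have h : (nrv A (Shape.globe n) w).cell = z.cell := nrv_cell A n w
    refine ⟨w, ?_⟩
    have h2 : Dg.ofCell (nrv A (Shape.globe n) w).cell = Dg.ofCell z.cell := congrArg Dg.ofCell h
    rw [Dg.ofCell_cell, Dg.ofCell_cell] at h2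
    exact h2

theorem NRV.bij_glue (A : GlobModel C) (S : Shape) (b h : ℕ) (hb : b < S.last) (hh : b < h)
    (ih : Function.Bijective (nrv A S)) : Function.Bijective (nrv A (S.glue b h hb hh)) := by
  have hpb := A.sums S b h hb hh
  constructor
  · intro x y hxy
    have h1 : A.act (C.ofShape (S.inLeft b h hb hh)) x =
        A.act (C.ofShape (S.inLeft b h hb hh)) y := by
      apply ih.1
      rw [nrv_shape, nrv_shape, hxy]
    have h2 : A.act (C.ofShape (S.inRight b h hb hh)) x =
        A.act (C.ofShape (S.inRight b h hb hh)) y := by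
      rw [← nrv_cell A h (A.act (C.ofShape (S.inRight b h hb hh)) x), nrv_shape, hxy,
        ← nrv_shape, nrv_cell]
    exact Types.ext_of_isPullback hpb h1 h2
  · intro z
    obtain ⟨s, hs⟩ := ih.2 (z.res (S.inLeft b h hb hh))
    have hm : A.act (C.ofShape (S.hinge hb)) s =
        A.act (C.ofShape (Shape.faceMap hh false)) ((z.res (S.inRight b h hb hh)).cell) := by
      rw [← nrv_cell A b (A.act (C.ofShape (S.hinge hb)) s), nrv_shape, hs,
        Dg.cell_res_hinge, Dg.glue_cond]
      rfl
    obtain ⟨x₀, hx1, hx2⟩ := Types.exists_of_isPullback hpb s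
      ((z.res (S.inRight b h hb hh)).cell) hm
    let x : A.functor.obj (op (⟨S.glue b h hb hh⟩ : C.Ob)) := x₀
    refine ⟨x, ?_⟩
    have hx1' : A.act (C.ofShape (S.inLeft b h hb hh)) x = s := hx1
    have hx2' : A.act (C.ofShape (S.inRight b h hb hh)) x = (z.res (S.inRight b h hb hh)).cell :=
      hx2
    apply dg_glue_ext' S b h hb hh
    · rw [← nrv_shape, hx1', hs]
    · have h3 := nrv_shape A (S.inRight b h hb hh) x
      rw [← h3]
      exact (nrv_cell A h _).trans hx2'

theorem NRV.bij_aux (A : GlobModel C) : ∀ {n : ℕ} (P : Pasting n),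
    Function.Bijective (nrv A ⟨n, P⟩)
  | _, .single n => NRV.bij_globe A n
  | _, .glue (last := l) P b h hb hh => NRV.bij_glue A ⟨l, P⟩ b h hb hh (NRV.bij_aux A P)

theorem nrv_bijective (A : GlobModel C) (T : Shape) : Function.Bijective (nrv A T) := by
  obtain ⟨n, P⟩ := T
  exact NRV.bij_aux A P

end Crest.Agent.R248
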