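import Crest.Agent.R248.Nerve

/-!
# R248 piece NERVEB: the action of operations on diagrams

`dact A o = nrv ∘ act o ∘ nrv⁻¹`. Everything follows from `nrv_bijective`, `nrv_shape`, `nrv_natural`.
`homLift`: define `g.app (op ⟨T⟩) = nrvInv A' T ∘ push φ ∘ nrv A T`; naturality in `C.Ob` is the hypothesis `h`.
`und_faithful`: `nrv_natural` and injectivity of `nrv`.
-/

set_option autoImplicit false
open CategoryTheory CategoryTheory.Limits Opposite
open Crest.GeometryTopology.Coherator Crest.GeometryTopology.Coherator.GlobTheory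

universe u

namespace Crest.Agent.R248

variable {C : GlobTheory.{u}}

/-- inverse of the nerve -/
noncomputable def nrvInv (A : GlobModel C) (T : Shape) (x : Dg (undGP A) T) :
    A.functor.obj (op (⟨T⟩ : C.Ob)) :=
  (Equiv.ofBijective _ (nrv_bijective A T)).symm x

theorem nrv_nrvInv (A : GlobModel C) (T : Shape) (x : Dg (undGP A) T) :
    nrv A T (nrvInv A T x) = x :=
  (Equiv.ofBijective _ (nrv_bijective A T)).apply_symm_apply x

theorem nrvInv_nrv (A : GlobModel C) (T : Shape) (x : A.functor.obj (op (⟨T⟩ : C.Ob))) :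
    nrvInv A T (nrv A T x) = x :=
  (Equiv.ofBijective _ (nrv_bijective A T)).symm_apply_apply x

/-- nerve as a natural family -/
noncomputable def nrvN (T : Shape) : NT (ev C T) ((und C).dg T) :=
  ⟨fun A x => nrv A T x, fun g x => nrv_natural g T x⟩

noncomputable def nrvInvN (T : Shape) : NT ((und C).dg T) (ev C T) :=
  ⟨fun A x => nrvInv A T x, fun {A A'} g x => by
    apply (nrv_bijective A' T).1
    rw [nrv_nrvInv]
    show _ = nrv A' T (g.app (op (⟨T⟩ : C.Ob)) (nrvInv A T x))
    rw [nrv_natural, nrv_nrvInv]; rfl⟩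

/-- the action of an operation on diagrams -/
noncomputable def dact (A : GlobModel C) {S T : Shape} (o : C.arr S T) (x : Dg (undGP A) T) :
    Dg (undGP A) S :=
  nrv A S (A.act o (nrvInv A T x))

namespace NB

theorem act_one (A : GlobModel C) (T : Shape) (x : A.functor.obj (op (⟨T⟩ : C.Ob))) :
    A.act (C.one T) x = x := by
  have h := A.functor.map_id (op (⟨T⟩ : C.Ob))
  exact types_congr_hom h x

theorem act_seq (A : GlobModel C) {R S T : Shape} (o : C.arr R S) (o' : C.arr S T)
    (x : A.functor.obj (op (⟨T⟩ : C.Ob))) :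
    A.act (C.seq o o') x = A.act o (A.act o' x) := by
  have h := A.functor.map_comp
    (Quiver.Hom.op (X := (⟨S⟩ : C.Ob)) (Y := (⟨T⟩ : C.Ob)) o')
    (Quiver.Hom.op (X := (⟨R⟩ : C.Ob)) (Y := (⟨S⟩ : C.Ob)) o)
  exact types_congr_hom h x

theorem act_nat {A A' : GlobModel C} (g : A ⟶ A') {S T : Shape} (o : C.arr S T)
    (x : A.functor.obj (op (⟨T⟩ : C.Ob))) :
    g.app (op (⟨S⟩ : C.Ob)) (A.act o x) = A'.act o (g.app (op (⟨T⟩ : C.Ob)) x) :=
  types_congr_hom
    (g.naturality (Quiver.Hom.op (X := (⟨S⟩ : C.Ob)) (Y := (⟨T⟩ : C.Ob)) o)) x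

end NB

theorem dact_one (A : GlobModel C) (T : Shape) (x : Dg (undGP A) T) : dact A (C.one T) x = x := by
  unfold dact
  rw [NB.act_one, nrv_nrvInv]

theorem dact_seq (A : GlobModel C) {R S T : Shape} (o : C.arr R S) (o' : C.arr S T)
    (x : Dg (undGP A) T) : dact A (C.seq o o') x = dact A o (dact A o' x) := by
  unfold dact
  rw [NB.act_seq, nrvInv_nrv]

theorem dact_shape (A : GlobModel C) {S T : Shape} (g : S ⟶ T) (x : Dg (undGP A) T) :
    dact A (C.ofShape g) x = x.res g := by
  unfold dact
  rw [nrv_shape, nrv_nrvInv]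

theorem dact_natural {A A' : GlobModel C} (g : A ⟶ A') {S T : Shape} (o : C.arr S T)
    (x : Dg (undGP A) T) :
    dact A' o (x.push ((und C).map g)) = (dact A o x).push ((und C).map g) := by
  unfold dact
  rw [← nrv_natural]
  congr 1
  rw [NB.act_nat]
  congr 1
  apply (nrv_bijective A' T).1
  rw [nrv_nrvInv, nrv_natural, nrv_nrvInv]
  rfl

/-- an operation with globe source, applied to a diagram -/
noncomputable def opc (A : GlobModel C) {n : ℕ} {T : Shape} (o : C.arr (Shape.globe n) T)
    (x : Dg (undGP A) T) : (undGP A).c n :=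
  (dact A o x).cell

/-- model maps are the globular maps compatible with the action -/
theorem homLift {A A' : GlobModel C} (φ : GPH (undGP A) (undGP A'))
    (h : ∀ {S T : Shape} (o : C.arr S T) (x : Dg (undGP A) T),
      (dact A o x).push φ = dact A' o (x.push φ)) :
    ∃ g : A ⟶ A', (und C).map g = φ := by
  refine ⟨({ app := fun X => TypeCat.ofHom
               (fun x => nrvInv A' X.unop.shape ((nrv A X.unop.shape x).push φ))
             naturality := ?_ } : A.functor ⟶ A'.functor), ?_⟩
  · intro X Y f
    ext x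
    have h1 := h (S := Y.unop.shape) (T := X.unop.shape) f.unop (nrv A X.unop.shape x)
    have h2 : dact A (S := Y.unop.shape) (T := X.unop.shape) f.unop (nrv A X.unop.shape x) =
        nrv A Y.unop.shape (A.act (S := Y.unop.shape) (T := X.unop.shape) f.unop x) := by
      unfold dact
      rw [nrvInv_nrv]
    rw [h2] at h1
    have h3 : nrvInv A' Y.unop.shape
        ((nrv A Y.unop.shape (A.act (S := Y.unop.shape) (T := X.unop.shape) f.unop x)).push φ) =
        A'.act (S := Y.unop.shape) (T := X.unop.shape) f.unop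
          (nrvInv A' X.unop.shape ((nrv A X.unop.shape x).push φ)) := by
      rw [h1]
      unfold dact
      rw [nrvInv_nrv]
    exact h3
  · ext e x
    show nrvInv A' (Shape.globe e) ((nrv A (Shape.globe e) x).push φ) = φ.app e x
    rw [← nrv_cell A' e (nrvInv A' (Shape.globe e) ((nrv A (Shape.globe e) x).push φ)),
      nrv_nrvInv]
    show φ.app e ((nrv A (Shape.globe e) x).cell) = φ.app e x
    rw [nrv_cell]

theorem und_faithful {A A' : GlobModel C} (g g' : A ⟶ A')
    (h : ∀ e x, ((und C).map g).app e x = ((und C).map g').app e x) : g = g' := by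
  apply NatTrans.ext
  funext X
  ext x
  apply (nrv_bijective A' X.unop.shape).1
  have h1 := nrv_natural g X.unop.shape x
  have h2 := nrv_natural g' X.unop.shape x
  have h3 : (nrv A X.unop.shape x).push ((und C).map g) =
      (nrv A X.unop.shape x).push ((und C).map g') := by
    apply Dg.ext
    funext e t
    exact h e _
  exact h1.trans (h3.trans h2.symm)

end Crest.Agent.R248
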