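import Crest.Agent.R248.GRec
import Crest.Agent.R248.ContrW

/-!
# R248: operations of a coherator used in the proof (structure `Ops`), derived maps `KK`, `LL`, `HC`, `thH`

* `unit e`, `inv n` (inverse of `(n+1)`-cells), `cmp n` (composition of `(n+1)`-cells along `n`-cells),
* `K : W3_e → A_e` (`e > n`): `K(q,y,p)` whiskers `y` on both sides; source `s q`, target `t p`,
* `L : W2_e → A_e` (`e > n`): right whiskering `L(y,p)`; source that of `y`, target `t p`.
-/

set_option autoImplicit false
open CategoryTheory CategoryTheory.Limits Opposite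
open Crest.GeometryTopology.Coherator Crest.GeometryTopology.Coherator.GlobTheory

universe u

namespace Crest.Agent.R248

structure Ops (C : GlobTheory.{u}) where
  unit : ∀ e : ℕ, NT ((und C).cel e) ((und C).cel (e + 1))
  unit_f : ∀ (e : ℕ) (ε : Bool) (A : GlobModel C) (x : (undGP A).c e),
    (undGP A).fc (fac e ε) ((unit e).app A x) = x
  inv : ∀ n : ℕ, NT ((und C).cel (n + 1)) ((und C).cel (n + 1))
  inv_s : ∀ (n : ℕ) (A : GlobModel C) (x : (undGP A).c (n + 1)),
    (undGP A).fc (fac n false) ((inv n).app A x) = (undGP A).fc (fac n true) x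
  inv_t : ∀ (n : ℕ) (A : GlobModel C) (x : (undGP A).c (n + 1)),
    (undGP A).fc (fac n true) ((inv n).app A x) = (undGP A).fc (fac n false) x
  cmp : ∀ n : ℕ, NT (V2 C n) ((und C).cel (n + 1))
  cmp_s : ∀ (n : ℕ) (A : GlobModel C) (x : (V2 C n).obj A),
    (undGP A).fc (fac n false) ((cmp n).app A x) = (undGP A).fc (fac n false) x.1.1
  cmp_t : ∀ (n : ℕ) (A : GlobModel C) (x : (V2 C n).obj A),
    (undGP A).fc (fac n true) ((cmp n).app A x) = (undGP A).fc (fac n true) x.1.2
  K : ∀ {n e : ℕ}, n < e → NT ((W3 C n).cel e) ((und C).cel e)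
  K_face : ∀ {n f e : ℕ} (hf : n < f) (he : n < e) (a : Ar f e) (A : GlobModel C)
    (x : W3c (undGP A) n e),
    (undGP A).fc a ((K he).app A x) = (K hf).app A (((W3 C n).gp A).fc a x)
  K_s : ∀ {n e : ℕ} (h : n < e) (A : GlobModel C) (x : W3c (undGP A) n e),
    (undGP A).fc (pole h false) ((K h).app A x) = (undGP A).fc (fac n false) (x.q h)
  K_t : ∀ {n e : ℕ} (h : n < e) (A : GlobModel C) (x : W3c (undGP A) n e),
    (undGP A).fc (pole h true) ((K h).app A x) = (undGP A).fc (fac n true) (x.p h)
  L : ∀ {n e : ℕ}, n < e → NT ((W2 C n).cel e) ((und C).cel e)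
  L_face : ∀ {n f e : ℕ} (hf : n < f) (he : n < e) (a : Ar f e) (A : GlobModel C)
    (x : W2c (undGP A) n e),
    (undGP A).fc a ((L he).app A x) = (L hf).app A (((W2 C n).gp A).fc a x)
  L_s : ∀ {n e : ℕ} (h : n < e) (A : GlobModel C) (x : W2c (undGP A) n e),
    (undGP A).fc (pole h false) ((L h).app A x) = (undGP A).fc (pole h false) x.y
  L_t : ∀ {n e : ℕ} (h : n < e) (A : GlobModel C) (x : W2c (undGP A) n e),
    (undGP A).fc (pole h true) ((L h).app A x) = (undGP A).fc (fac n true) (x.p h)

variable {C : GlobTheory.{u}}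

/-! ## The operations in elementary notation -/

namespace Ops

variable (O : Ops C)

/-- unit cell in a model -/
def un (A : GlobModel C) {e : ℕ} (x : (undGP A).c e) : (undGP A).c (e + 1) := (O.unit e).app A x

/-- inverse in a model -/
def iv (A : GlobModel C) {n : ℕ} (x : (undGP A).c (n + 1)) : (undGP A).c (n + 1) :=
  (O.inv n).app A x

theorem fc_iv_s (A : GlobModel C) {n : ℕ} (x : (undGP A).c (n + 1)) :
    (undGP A).fc (fac n false) (O.iv A x) = (undGP A).fc (fac n true) x := O.inv_s n A x

theorem fc_iv_t (A : GlobModel C) {n : ℕ} (x : (undGP A).c (n + 1)) :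
    (undGP A).fc (fac n true) (O.iv A x) = (undGP A).fc (fac n false) x := O.inv_t n A x

theorem fc_un (A : GlobModel C) {e : ℕ} (ε : Bool) (x : (undGP A).c e) :
    (undGP A).fc (fac e ε) (O.un A x) = x := O.unit_f e ε A x

theorem map_iv {A A' : GlobModel C} (g : A ⟶ A') {n : ℕ} (x : (undGP A).c (n + 1)) :
    ((und C).map g).app (n + 1) (O.iv A x) = O.iv A' (((und C).map g).app (n + 1) x) :=
  ((O.inv n).nat g x).symm

theorem map_un {A A' : GlobModel C} (g : A ⟶ A') {e : ℕ} (x : (undGP A).c e) :
    ((und C).map g).app (e + 1) (O.un A x) = O.un A' (((und C).map g).app e x) :=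
  ((O.unit e).nat g x).symm

end Ops

/-! ## Double whiskering -/

/-- the whiskered cell with the inverse whiskers -/
noncomputable def W3inv (O : Ops C) (A : GlobModel C) {n e : ℕ} (h : n < e)
    (x : W3c (undGP A) n e) : W3c (undGP A) n e where
  y := (O.K h).app A x
  q _ := O.iv A (x.q h)
  p _ := O.iv A (x.p h)
  hq _ := by rw [O.fc_iv_t]; exact (O.K_s h A x).symm
  hp _ := by rw [O.fc_iv_s]; exact O.K_t h A x

noncomputable def W2inv (O : Ops C) (A : GlobModel C) {n e : ℕ} (h : n < e)
    (x : W2c (undGP A) n e) : W2c (undGP A) n e where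
  y := (O.L h).app A x
  p _ := O.iv A (x.p h)
  hp _ := by rw [O.fc_iv_s]; exact O.L_t h A x

/-- `K(inv q, K(q,y,p), inv p)` in dimensions `> n`, `y` in dimensions `≤ n` -/
noncomputable def kkApp (O : Ops C) (n : ℕ) (A : GlobModel C) (e : ℕ) (x : W3c (undGP A) n e) :
    (undGP A).c e :=
  if h : n < e then (O.K h).app A (W3inv O A h x) else x.y

noncomputable def llApp (O : Ops C) (n : ℕ) (A : GlobModel C) (e : ℕ) (x : W2c (undGP A) n e) :
    (undGP A).c e :=
  if h : n < e then (O.L h).app A (W2inv O A h x) else x.y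

/-- forget the whiskers -/
noncomputable def W3.y (n : ℕ) : NG (W3 C n) (und C) where
  app A e (x : W3c (undGP A) n e) := x.y
  natF _ _ _ _ _ := rfl
  natM _ _ _ := rfl

noncomputable def W2.y (n : ℕ) : NG (W2 C n) (und C) where
  app A e (x : W2c (undGP A) n e) := x.y
  natF _ _ _ _ _ := rfl
  natM _ _ _ := rfl

private theorem kkApp_gt (O : Ops C) {n : ℕ} (A : GlobModel C) {e : ℕ} (h : n < e)
    (x : W3c (undGP A) n e) : kkApp O n A e x = (O.K h).app A (W3inv O A h x) := by
  rw [kkApp, dif_pos h]

private theorem kkApp_le (O : Ops C) {n : ℕ} (A : GlobModel C) {e : ℕ} (h : ¬ n < e)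
    (x : W3c (undGP A) n e) : kkApp O n A e x = x.y := by
  rw [kkApp, dif_neg h]

private theorem llApp_gt (O : Ops C) {n : ℕ} (A : GlobModel C) {e : ℕ} (h : n < e)
    (x : W2c (undGP A) n e) : llApp O n A e x = (O.L h).app A (W2inv O A h x) := by
  rw [llApp, dif_pos h]

private theorem llApp_le (O : Ops C) {n : ℕ} (A : GlobModel C) {e : ℕ} (h : ¬ n < e)
    (x : W2c (undGP A) n e) : llApp O n A e x = x.y := by
  rw [llApp, dif_neg h]

/-- a face of dimension `≤ n` of a cell of dimension `> n` only depends on the `n`-faces -/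
private theorem fc_low_eq {Q : GP.{u}} {n f e : ℕ} (hn : n < e) (hf : f ≤ n) (a : Ar f e)
    (z w : Q.c e) (h : ∀ ε : Bool, Q.fc (pole hn ε) z = Q.fc (pole hn ε) w) :
    Q.fc a z = Q.fc a w := by
  cases a with
  | refl => exact absurd hn (by omega)
  | pole hfe ε =>
    rcases Nat.lt_or_ge f n with h1 | h1
    · have h2 : sq (pole h1 ε) (pole hn ε) = pole hfe ε := pole_sq h1 ε _ hfe
      have h3 := Q.fc_fc (pole h1 ε) (pole hn ε) z
      have h4 := Q.fc_fc (pole h1 ε) (pole hn ε) w
      rw [h2] at h3 h4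
      exact h3.symm.trans ((congrArg _ (h ε)).trans h4)
    · obtain rfl : f = n := by omega
      exact h ε

private theorem W3inv_fc (O : Ops C) {n : ℕ} (A : GlobModel C) {f e : ℕ} (hf : n < f)
    (he : n < e) (a : Ar f e) (x : W3c (undGP A) n e) :
    W3inv O A hf (((W3 C n).gp A).fc a x) = ((W3 C n).gp A).fc a (W3inv O A he x) :=
  W3c.ext' (O.K_face hf he a A x).symm (fun _ => rfl) (fun _ => rfl)

private theorem W2inv_fc (O : Ops C) {n : ℕ} (A : GlobModel C) {f e : ℕ} (hf : n < f)
    (he : n < e) (a : Ar f e) (x : W2c (undGP A) n e) :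
    W2inv O A hf (((W2 C n).gp A).fc a x) = ((W2 C n).gp A).fc a (W2inv O A he x) :=
  W2c.ext' (O.L_face hf he a A x).symm (fun _ => rfl)

theorem kk_natF (O : Ops C) (n : ℕ) (A : GlobModel C) {f e : ℕ} (a : Ar f e)
    (x : W3c (undGP A) n e) :
    kkApp O n A f (((W3 C n).gp A).fc a x) = (undGP A).fc a (kkApp O n A e x) := by
  by_cases he : n < e
  · by_cases hf : n < f
    · rw [kkApp_gt O A hf, kkApp_gt O A he, O.K_face hf he a A (W3inv O A he x),
        W3inv_fc O A hf he a x]
    · rw [kkApp_le O A hf, kkApp_gt O A he]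
      show (undGP A).fc a x.y = _
      refine fc_low_eq he (by omega) a _ _ (fun ε => ?_)
      cases ε with
      | false =>
        rw [O.K_s he A]
        exact (x.hq he).symm.trans (O.fc_iv_s A (x.q he)).symm
      | true =>
        rw [O.K_t he A]
        exact (x.hp he).trans (O.fc_iv_t A (x.p he)).symm
  · have hf : ¬ n < f := fun h => he (h.trans_le (ar_le a))
    rw [kkApp_le O A hf, kkApp_le O A he]
    rfl

theorem kk_natM (O : Ops C) (n : ℕ) {A A' : GlobModel C} (g : A ⟶ A') (e : ℕ)
    (x : W3c (undGP A) n e) :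
    kkApp O n A' e (((W3 C n).map g).app e x) = ((und C).map g).app e (kkApp O n A e x) := by
  by_cases he : n < e
  · rw [kkApp_gt O A' he, kkApp_gt O A he]
    refine Eq.trans (congrArg ((O.K he).app A') ?_) ((O.K he).nat g (W3inv O A he x))
    exact W3c.ext' ((O.K he).nat g x) (fun _ => (O.map_iv g _).symm)
      (fun _ => (O.map_iv g _).symm)
  · rw [kkApp_le O A' he, kkApp_le O A he]
    rfl

theorem ll_natF (O : Ops C) (n : ℕ) (A : GlobModel C) {f e : ℕ} (a : Ar f e)
    (x : W2c (undGP A) n e) :
    llApp O n A f (((W2 C n).gp A).fc a x) = (undGP A).fc a (llApp O n A e x) := by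
  by_cases he : n < e
  · by_cases hf : n < f
    · rw [llApp_gt O A hf, llApp_gt O A he, O.L_face hf he a A (W2inv O A he x),
        W2inv_fc O A hf he a x]
    · rw [llApp_le O A hf, llApp_gt O A he]
      show (undGP A).fc a x.y = _
      refine fc_low_eq he (by omega) a _ _ (fun ε => ?_)
      cases ε with
      | false =>
        rw [O.L_s he A]
        exact (O.L_s he A x).symm
      | true =>
        rw [O.L_t he A]
        exact (x.hp he).trans (O.fc_iv_t A (x.p he)).symm
  · have hf : ¬ n < f := fun h => he (h.trans_le (ar_le a))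
    rw [llApp_le O A hf, llApp_le O A he]
    rfl

theorem ll_natM (O : Ops C) (n : ℕ) {A A' : GlobModel C} (g : A ⟶ A') (e : ℕ)
    (x : W2c (undGP A) n e) :
    llApp O n A' e (((W2 C n).map g).app e x) = ((und C).map g).app e (llApp O n A e x) := by
  by_cases he : n < e
  · rw [llApp_gt O A' he, llApp_gt O A he]
    refine Eq.trans (congrArg ((O.L he).app A') ?_) ((O.L he).nat g (W2inv O A he x))
    exact W2c.ext' ((O.L he).nat g x) (fun _ => (O.map_iv g _).symm)
  · rw [llApp_le O A' he, llApp_le O A he]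
    rfl

noncomputable def KK (O : Ops C) (n : ℕ) : NG (W3 C n) (und C) :=
  ⟨kkApp O n, fun A _ _ a x => kk_natF O n A a x, fun g e x => kk_natM O n g e x⟩

noncomputable def LL (O : Ops C) (n : ℕ) : NG (W2 C n) (und C) :=
  ⟨llApp O n, fun A _ _ a x => ll_natF O n A a x, fun g e x => ll_natM O n g e x⟩

/-! ## Half cylinders -/

variable (C) in
/-- an `e`-cell with an `(n+1)`-cell out of each of its `n`-cells (as seen by `Ar n e`) -/
structure HCc (Q : GP.{u}) (n e : ℕ) where
  y : Q.c e
  p : Ar n e → Q.c (n + 1)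
  hp : ∀ a : Ar n e, Q.fc (fac n false) (p a) = Q.fc a y

theorem HCc.ext' {Q : GP.{u}} {n e : ℕ} {x x' : HCc Q n e} (h1 : x.y = x'.y)
    (h3 : ∀ a, x.p a = x'.p a) : x = x' := by
  cases x; cases x'
  obtain rfl : _ = _ := h1
  obtain rfl : _ = _ := funext h3
  rfl

variable (C) in
noncomputable def HC (n : ℕ) : GPF C where
  gp A :=
    { c := HCc (undGP A) n
      fc := fun {f e} a x =>
        { y := (undGP A).fc a x.y
          p := fun b => x.p (sq b a)
          hp := fun b => by rw [x.hp, (undGP A).fc_fc] }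
      fc_ide := fun x => HCc.ext' ((undGP A).fc_ide _) (fun a => by
        show x.p (sq a (ide _)) = x.p a
        rw [sq_ide])
      fc_fc := fun a b x => HCc.ext' ((undGP A).fc_fc a b _) (fun c => by
        show x.p (sq (sq c a) b) = x.p (sq c (sq a b))
        congr 1
        cases c <;> cases a <;> cases b <;> rfl) }
  map {A A'} g :=
    { app := fun e x =>
        { y := ((und C).map g).app e x.y
          p := fun a => ((und C).map g).app _ (x.p a)
          hp := fun a => ((und C).map g).face_eq _ _ (x.hp a) }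
      nat := fun a x => HCc.ext' (((und C).map g).nat a _) (fun _ => rfl) }
  map_id A e x := HCc.ext' ((und C).map_id A e _) (fun _ => rfl)
  map_comp f g e x := HCc.ext' ((und C).map_comp f g e _) (fun _ => rfl)

/-- forget the cylinder data -/
noncomputable def HC.y (n : ℕ) : NG (HC C n) (und C) where
  app A e (x : HCc (undGP A) n e) := x.y
  natF _ _ _ _ _ := rfl
  natM _ _ _ := rfl

/-- the whiskering data `(inv p₋, y, p₊)` of a half cylinder -/
noncomputable def toW3c (O : Ops C) (A : GlobModel C) {n e : ℕ} (x : HCc (undGP A) n e) :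
    W3c (undGP A) n e where
  y := x.y
  q h := O.iv A (x.p (pole h false))
  p h := x.p (pole h true)
  hq h := by rw [O.fc_iv_t]; exact x.hp _
  hp h := (x.hp _).symm

def toW2c {Q : GP.{u}} {n e : ℕ} (x : HCc Q n e) : W2c Q n e where
  y := x.y
  p h := x.p (pole h true)
  hp h := (x.hp _).symm

noncomputable def toW3 (O : Ops C) (n : ℕ) : NG (HC C n) (W3 C n) where
  app A e (x : HCc (undGP A) n e) := toW3c O A x
  natF A {f e} a x := W3c.ext' rfl
    (fun h => by
      show O.iv A (x.p (sq (pole h false) a)) = O.iv A (x.p (pole (h.trans_le (ar_le a)) false))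
      rw [pole_sq h false a (h.trans_le (ar_le a))])
    (fun h => by
      show x.p (sq (pole h true) a) = x.p (pole (h.trans_le (ar_le a)) true)
      rw [pole_sq h true a (h.trans_le (ar_le a))])
  natM {A A'} g e x := W3c.ext' rfl (fun h => (O.map_iv g _).symm) (fun _ => rfl)

noncomputable def toW2 (n : ℕ) : NG (HC C n) (W2 C n) where
  app A e (x : HCc (undGP A) n e) := toW2c x
  natF A {f e} a x := W2c.ext' rfl
    (fun h => by
      show x.p (sq (pole h true) a) = x.p (pole (h.trans_le (ar_le a)) true)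
      rw [pole_sq h true a (h.trans_le (ar_le a))])
  natM {A A'} g e x := W2c.ext' rfl (fun _ => rfl)

/-- conjugation of a cell by its cylinder data -/
noncomputable def conjApp (O : Ops C) (n : ℕ) (A : GlobModel C) (e : ℕ)
    (x : HCc (undGP A) n e) : (undGP A).c e :=
  if h : n < e then (O.K h).app A (toW3c O A x)
  else if h' : n = e then
    (undGP A).fc (pole (show e < n + 1 by omega) true) (x.p (h' ▸ ide n))
  else x.y

theorem conjApp_gt (O : Ops C) {n : ℕ} (A : GlobModel C) {e : ℕ} (h : n < e)
    (x : HCc (undGP A) n e) : conjApp O n A e x = (O.K h).app A (toW3c O A x) := by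
  rw [conjApp, dif_pos h]

theorem conjApp_eq (O : Ops C) {n : ℕ} (A : GlobModel C)
    (x : HCc (undGP A) n n) : conjApp O n A n x = (undGP A).fc (fac n true) (x.p (ide n)) := by
  rw [conjApp, dif_neg (lt_irrefl n), dif_pos rfl]

theorem conjApp_lt (O : Ops C) {n : ℕ} (A : GlobModel C) {e : ℕ} (h : e < n)
    (x : HCc (undGP A) n e) : conjApp O n A e x = x.y := by
  rw [conjApp, dif_neg (by omega), dif_neg (by omega)]

private theorem conj_low (O : Ops C) {n : ℕ} (A : GlobModel C) {f : ℕ} (hf : f < n) (ε : Bool)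
    (w : HCc (undGP A) n n) :
    (undGP A).fc (pole hf ε) (conjApp O n A n w) = (undGP A).fc (pole hf ε) w.y := by
  rw [conjApp_eq]
  have h1 := (undGP A).fc_fc (pole hf ε) (fac n true) (w.p (ide n))
  have h2 := (undGP A).fc_fc (pole hf ε) (fac n false) (w.p (ide n))
  rw [pole_sq hf ε _ (by omega : f < n + 1)] at h1 h2
  rw [h1, ← h2, w.hp (ide n), (undGP A).fc_ide]

private theorem conj_fac (O : Ops C) {n : ℕ} (A : GlobModel C) {e : ℕ} (he : n < e) (ε : Bool)
    (x : HCc (undGP A) n e) :
    conjApp O n A n (((HC C n).gp A).fc (pole he ε) x) =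
      (undGP A).fc (pole he ε) (conjApp O n A e x) := by
  rw [conjApp_eq, conjApp_gt O A he]
  cases ε with
  | false =>
    rw [O.K_s he A]
    exact (O.fc_iv_s A (x.p (pole he false))).symm
  | true =>
    rw [O.K_t he A]
    rfl

theorem conj_natF (O : Ops C) (n : ℕ) (A : GlobModel C) {f e : ℕ} (a : Ar f e)
    (x : HCc (undGP A) n e) :
    conjApp O n A f (((HC C n).gp A).fc a x) = (undGP A).fc a (conjApp O n A e x) := by
  cases a with
  | refl =>
    exact (congrArg _ (((HC C n).gp A).fc_ide x)).trans ((undGP A).fc_ide _).symm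
  | pole hfe ε =>
    rcases Nat.lt_trichotomy n f with hf | hf | hf
    · rw [conjApp_gt O A hf, conjApp_gt O A (hf.trans hfe),
        O.K_face hf (hf.trans hfe) (pole hfe ε) A (toW3c O A x)]
      exact congrArg _ ((toW3 O n).natF A (pole hfe ε) x)
    · subst hf
      exact conj_fac O A hfe ε x
    · rw [conjApp_lt O A hf]
      rcases Nat.lt_trichotomy n e with he | he | he
      · have h1 := (undGP A).fc_fc (pole hf ε) (pole he ε) (conjApp O n A e x)
        rw [pole_sq hf ε _ hfe] at h1
        refine Eq.trans ?_ h1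
        rw [← conj_fac O A he ε x, conj_low O A hf ε]
        have h2 := (undGP A).fc_fc (pole hf ε) (pole he ε) x.y
        rw [pole_sq hf ε _ hfe] at h2
        exact h2.symm
      · subst he
        exact (conj_low O A hf ε x).symm
      · rw [conjApp_lt O A he]
        rfl

theorem conj_natM (O : Ops C) (n : ℕ) {A A' : GlobModel C} (g : A ⟶ A') (e : ℕ)
    (x : HCc (undGP A) n e) :
    conjApp O n A' e (((HC C n).map g).app e x) = ((und C).map g).app e (conjApp O n A e x) := by
  rcases Nat.lt_trichotomy n e with he | he | he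
  · rw [conjApp_gt O A' he, conjApp_gt O A he]
    exact (congrArg _ ((toW3 O n).natM g e x)).trans ((O.K he).nat g (toW3c O A x))
  · subst he
    rw [conjApp_eq, conjApp_eq]
    exact (((und C).map g).nat (fac n true) (x.p (ide n))).symm
  · rw [conjApp_lt O A' he, conjApp_lt O A he]
    rfl

noncomputable def Conj (O : Ops C) (n : ℕ) : NG (HC C n) (und C) :=
  ⟨conjApp O n, fun A _ _ a x => conj_natF O n A a x, fun g e x => conj_natM O n g e x⟩

/-- `thH (y,p) = (L(L(y,p₊),inv p₊), inv inv p)` -/
noncomputable def thH (O : Ops C) (n : ℕ) : NG (HC C n) (HC C n) where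
  app A e (x : HCc (undGP A) n e) :=
    { y := (LL O n).app A e (toW2c x)
      p := fun a => O.iv A (O.iv A (x.p a))
      hp := fun a => by
        rw [O.fc_iv_s, O.fc_iv_t, x.hp]
        have h := (LL O n).natF A a ((toW2 n).app A e x)
        refine Eq.trans ?_ h
        show _ = llApp O n A n _
        rw [llApp, dif_neg (lt_irrefl n)]
        rfl }
  natF A {f e} a x := HCc.ext' (by
      show (LL O n).app A f (toW2c (((HC C n).gp A).fc a x)) =
        (undGP A).fc a ((LL O n).app A e (toW2c x))
      exact (congrArg _ ((toW2 n).natF A a x)).trans ((LL O n).natF A a _))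
    (fun _ => rfl)
  natM {A A'} g e x := HCc.ext' (by
      show (LL O n).app A' e (toW2c (((HC C n).map g).app e x)) =
        ((und C).map g).app e ((LL O n).app A e (toW2c x))
      exact (congrArg _ ((toW2 n).natM g e x)).trans ((LL O n).natM g e _))
    (fun a => by
      show O.iv A' (O.iv A' (((und C).map g).app _ (x.p a))) =
        ((und C).map g).app _ (O.iv A (O.iv A (x.p a)))
      rw [O.map_iv, O.map_iv])

end Crest.Agent.R248
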