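import Crest.Agent.R248.DGlue

/-!
# R248: recursion theorem, definitions

`Act P`: an action of the theory `C` on the diagrams of `P`. `RTh P K`: the closure and filler properties of a
predicate `K o f` ("`f` is an admissible interpretation of `o`"). `rt` (in `RT.lean`): `Act P` exists with `K o (a o)`.
`BigTh C`: a large theory over `C` with the filler lifting property; `pairTh`: pairs `(o, f)` with `K o f`.
-/

set_option autoImplicit false
set_option linter.unusedVariables false
open CategoryTheory CategoryTheory.Limits Opposite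
open Crest.GeometryTopology.Coherator Crest.GeometryTopology.Coherator.GlobTheory

universe u

namespace Crest.Agent.R248

variable {C : GlobTheory.{u}}

/-- restriction of diagrams, naturally -/
noncomputable def resN (P : GPF C) {S T : Shape} (g : S ⟶ T) : NT (P.dg T) (P.dg S) :=
  ⟨fun A x => Dg.res g x, fun _ _ => Dg.push_res _ _ _⟩

/-- an action of the theory on the diagrams of a functor to globular presheaves -/
structure Act (P : GPF C) where
  a : ∀ {S T : Shape}, C.arr S T → NT (P.dg T) (P.dg S)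
  one : ∀ (T : Shape) (A : GlobModel C) (x : Dg (P.gp A) T), (a (C.one T)).app A x = x
  seq : ∀ {R S T : Shape} (o : C.arr R S) (o' : C.arr S T) (A : GlobModel C)
    (x : Dg (P.gp A) T), (a (C.seq o o')).app A x = (a o).app A ((a o').app A x)
  shape : ∀ {S T : Shape} (g : S ⟶ T) (A : GlobModel C) (x : Dg (P.gp A) T),
    (a (C.ofShape g)).app A x = Dg.res g x

/-- closure and filler properties of a predicate on pairs (operation, natural family) -/
structure RTh (P : GPF C) (K : ∀ {S T : Shape}, C.arr S T → NT (P.dg T) (P.dg S) → Prop) :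
    Prop where
  one : ∀ T : Shape, K (C.one T) (NT.id _)
  seq : ∀ {R S T : Shape} (o : C.arr R S) (f : NT (P.dg S) (P.dg R)) (o' : C.arr S T)
    (f' : NT (P.dg T) (P.dg S)), K o f → K o' f' → K (C.seq o o') (f'.comp f)
  shape : ∀ {S T : Shape} (g : S ⟶ T), K (C.ofShape g) (resN P g)
  glue : ∀ (S : Shape) (b h : ℕ) (hb : b < S.last) (hh : b < h) (T : Shape)
    (o : C.arr (S.glue b h hb hh) T) (f : NT (P.dg T) (P.dg (S.glue b h hb hh))),
    K (C.seq (C.ofShape (S.inLeft b h hb hh)) o) (f.comp (resN P (S.inLeft b h hb hh))) →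
    K (C.seq (C.ofShape (S.inRight b h hb hh)) o) (f.comp (resN P (S.inRight b h hb hh))) →
    K o f
  fill : ∀ (i : ℕ) (T : Shape), T.dim ≤ i + 1 → ∀ (o : C.arr (Shape.globe (i + 1)) T)
    (l r : NT (P.dg T) (P.dg (Shape.globe i))),
    K (C.seq (C.ofShape (Shape.σ i)) o) l → K (C.seq (C.ofShape (Shape.τ i)) o) r →
    (∀ A x, (P.gp A).Par (Dg.cell (l.app A x)) (Dg.cell (r.app A x))) →
    ∃ f : NT (P.dg T) (P.dg (Shape.globe (i + 1))), K o f ∧
      f.comp (resN P (Shape.σ i)) = l ∧ f.comp (resN P (Shape.τ i)) = r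

/-- a large theory over `C` with the filler lifting property -/
structure BigTh (C : GlobTheory.{u}) where
  D : GlobTheory.{u + 1}
  p : ∀ {S T : Shape}, D.arr S T → C.arr S T
  p_one : ∀ T : Shape, p (D.one T) = C.one T
  p_seq : ∀ {R S T : Shape} (o : D.arr R S) (o' : D.arr S T),
    p (D.seq o o') = C.seq (p o) (p o')
  p_shape : ∀ {S T : Shape} (g : S ⟶ T), p (D.ofShape g) = C.ofShape g
  fill : ∀ (q : D.Admissible) (z : C.arr (Shape.globe (q.n + 1)) q.shape),
    C.seq (C.ofShape (Shape.σ q.n)) z = p q.lower →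
    C.seq (C.ofShape (Shape.τ q.n)) z = p q.upper →
    ∃ w : D.arr (Shape.globe (q.n + 1)) q.shape, p w = z ∧
      D.seq (D.ofShape (Shape.σ q.n)) w = q.lower ∧
      D.seq (D.ofShape (Shape.τ q.n)) w = q.upper

/-- pairs of an operation and an interpretation, as a pretheory -/
noncomputable def pairPre (P : GPF C)
    (K : ∀ {S T : Shape}, C.arr S T → NT (P.dg T) (P.dg S) → Prop) (hK : RTh P @K) :
    PreTheory.{u + 1} where
  arr S T := { x : C.arr S T × NT (P.dg T) (P.dg S) // K x.1 x.2 }
  one T := ⟨(C.one T, NT.id _), hK.one T⟩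
  seq x y := ⟨(C.seq x.1.1 y.1.1, y.1.2.comp x.1.2), hK.seq _ _ _ _ x.2 y.2⟩
  one_seq x := Subtype.ext (Prod.ext (C.one_seq _) rfl)
  seq_one x := Subtype.ext (Prod.ext (C.seq_one _) rfl)
  seq_assoc x y z := Subtype.ext (Prod.ext (C.seq_assoc _ _ _) rfl)
  ofShape g := ⟨(C.ofShape g, resN P g), hK.shape g⟩
  ofShape_id S := Subtype.ext (Prod.ext (C.ofShape_id S) (NT.ext (funext fun A =>
    funext fun x => Dg.res_id x)))
  ofShape_comp f g := Subtype.ext (Prod.ext (C.ofShape_comp f g) (NT.ext (funext fun A =>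
    funext fun x => Dg.res_comp f g x)))

end Crest.Agent.R248
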