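import Crest.Agent.R248.RTDefs

/-!
# R248 piece RTPAIR: pairs `(o, f)` with `K o f` form a (large) globular theory with the filler lifting property

* `pair_sums`: `IsPushout` in `(pairPre P K hK).Ob`. Commutativity: from that of `C` and of shapes (`ofShape_comp`).
  For a cocone `(o₁,f₁) : S → T`, `(o₂,f₂) : globe h → T` (agreeing on the hinge): `o` from `C.respectsSums`, `f := dgGlue` of
  `f₁` and `f₂.comp (dgCell P h)` (matching condition: the second components of the cocone condition,
  `Dg.cell_res_hinge`, `Dg.cell_res_face`); `K o f` by `hK.glue`. Uniqueness: `IsPushout.hom_ext` for `C` and `dg_glue_ext`.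
* `pairBig`: `fill` from `hK.fill`; `OpsParallel` of the pairs gives `Par` of the cells (for `i = 0` nothing, for
  `i = k+1` the second components of the two equations, `Dg.cell_res_face`, and `fc_globular` for lower faces).
-/

set_option autoImplicit false
set_option linter.unusedVariables false
open CategoryTheory CategoryTheory.Limits Opposite
open Crest.GeometryTopology.Coherator Crest.GeometryTopology.Coherator.GlobTheory

universe u

namespace Crest.Agent.R248

variable {C : GlobTheory.{u}}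

theorem shape_sq (S : Shape) (b h : ℕ) (hb : b < S.last) (hh : b < h) :
    S.hinge hb ≫ S.inLeft b h hb hh = Shape.faceMap hh false ≫ S.inRight b h hb hh :=
  pushout.condition (f := GlobPsh.globeRepFace hb true ≫ S.apex)
    (g := GlobPsh.globeRepFace hh false)

theorem pair_desc (P : GPF C)
    (K : ∀ {S T : Shape}, C.arr S T → NT (P.dg T) (P.dg S) → Prop) (hK : RTh P @K)
    (S : Shape) (b h : ℕ) (hb : b < S.last) (hh : b < h) {T : Shape}
    (x : (pairPre P @K hK).arr S T) (y : (pairPre P @K hK).arr (Shape.globe h) T)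
    (hxy : (pairPre P @K hK).seq ((pairPre P @K hK).ofShape (S.hinge hb)) x =
      (pairPre P @K hK).seq ((pairPre P @K hK).ofShape (Shape.faceMap hh false)) y) :
    ∃ z : (pairPre P @K hK).arr (S.glue b h hb hh) T,
      (pairPre P @K hK).seq ((pairPre P @K hK).ofShape (S.inLeft b h hb hh)) z = x ∧
      (pairPre P @K hK).seq ((pairPre P @K hK).ofShape (S.inRight b h hb hh)) z = y := by
  have h1 : C.seq (C.ofShape (S.hinge hb)) x.1.1 =
      C.seq (C.ofShape (Shape.faceMap hh false)) y.1.1 := congrArg (fun w => w.1.1) hxy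
  have h2 : x.1.2.comp (resN P (S.hinge hb)) = y.1.2.comp (resN P (Shape.faceMap hh false)) :=
    congrArg (fun w => w.1.2) hxy
  have sq := C.respectsSums S b h hb hh
  obtain ⟨o, ho1, ho2⟩ : ∃ o : C.arr (S.glue b h hb hh) T,
      C.seq (C.ofShape (S.inLeft b h hb hh)) o = x.1.1 ∧
      C.seq (C.ofShape (S.inRight b h hb hh)) o = y.1.1 :=
    ⟨sq.desc (W := (⟨T⟩ : C.Ob)) x.1.1 y.1.1 h1, sq.inl_desc (W := (⟨T⟩ : C.Ob)) x.1.1 y.1.1 h1,
      sq.inr_desc (W := (⟨T⟩ : C.Ob)) x.1.1 y.1.1 h1⟩
  have hc : ∀ A w, (P.gp A).fc (pole hb true) (Dg.last (x.1.2.app A w)) =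
      (P.gp A).fc (pole hh false) ((y.1.2.comp (dgCell P h)).app A w) := by
    intro A w
    have h3 : Dg.res (S.hinge hb) (x.1.2.app A w) =
        Dg.res (Shape.faceMap hh false) (y.1.2.app A w) :=
      congrFun (congrFun (congrArg NT.app h2) A) w
    exact (Dg.cell_res_hinge S hb (x.1.2.app A w)).symm.trans
      ((congrArg Dg.cell h3).trans (Dg.cell_res_face hh false (y.1.2.app A w)))
  obtain ⟨f, hf⟩ : ∃ f, f = dgGlue P S b h hb hh x.1.2 (y.1.2.comp (dgCell P h)) hc := ⟨_, rfl⟩
  have hf1 : f.comp (resN P (S.inLeft b h hb hh)) = x.1.2 := by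
    rw [hf]
    exact NT.ext (funext fun A => funext fun w => dgGlue_left P S b h hb hh _ _ hc A w)
  have hf2 : f.comp (resN P (S.inRight b h hb hh)) = y.1.2 := by
    rw [hf]
    refine NT.ext (funext fun A => funext fun w => ?_)
    show Dg.res (S.inRight b h hb hh) ((dgGlue P S b h hb hh _ _ hc).app A w) = y.1.2.app A w
    exact (Dg.ofCell_cell _).symm.trans
      ((congrArg Dg.ofCell (dgGlue_right P S b h hb hh _ _ hc A w)).trans
        (Dg.ofCell_cell (y.1.2.app A w)))
  have hK' : K o f := hK.glue S b h hb hh T o f (by rw [ho1, hf1]; exact x.2)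
    (by rw [ho2, hf2]; exact y.2)
  exact ⟨⟨(o, f), hK'⟩, Subtype.ext (Prod.ext ho1 hf1), Subtype.ext (Prod.ext ho2 hf2)⟩

theorem pair_ext (P : GPF C)
    (K : ∀ {S T : Shape}, C.arr S T → NT (P.dg T) (P.dg S) → Prop) (hK : RTh P @K)
    (S : Shape) (b h : ℕ) (hb : b < S.last) (hh : b < h) {T : Shape}
    (z z' : (pairPre P @K hK).arr (S.glue b h hb hh) T)
    (h1 : (pairPre P @K hK).seq ((pairPre P @K hK).ofShape (S.inLeft b h hb hh)) z =
      (pairPre P @K hK).seq ((pairPre P @K hK).ofShape (S.inLeft b h hb hh)) z')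
    (h2 : (pairPre P @K hK).seq ((pairPre P @K hK).ofShape (S.inRight b h hb hh)) z =
      (pairPre P @K hK).seq ((pairPre P @K hK).ofShape (S.inRight b h hb hh)) z') : z = z' := by
  have sq := C.respectsSums S b h hb hh
  have e1 : z.1.1 = z'.1.1 := sq.hom_ext (W := (⟨T⟩ : C.Ob)) (congrArg (fun w => w.1.1) h1)
    (congrArg (fun w => w.1.1) h2)
  have e2 : z.1.2 = z'.1.2 := by
    refine NT.ext (funext fun A => funext fun w => ?_)
    have h3 : z.1.2.comp (resN P (S.inLeft b h hb hh)) =
        z'.1.2.comp (resN P (S.inLeft b h hb hh)) := congrArg (fun w => w.1.2) h1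
    have h4 : z.1.2.comp (resN P (S.inRight b h hb hh)) =
        z'.1.2.comp (resN P (S.inRight b h hb hh)) := congrArg (fun w => w.1.2) h2
    exact dg_glue_ext S b h hb hh (congrFun (congrFun (congrArg NT.app h3) A) w)
      (congrFun (congrFun (congrArg NT.app h4) A) w)
  exact Subtype.ext (Prod.ext e1 e2)

theorem pair_sums (P : GPF C)
    (K : ∀ {S T : Shape}, C.arr S T → NT (P.dg T) (P.dg S) → Prop) (hK : RTh P @K) :
    (pairPre P @K hK).RespectsSums := by
  intro S b h hb hh
  have hw : (pairPre P @K hK).incl.map (S.hinge hb) ≫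
      (pairPre P @K hK).incl.map (S.inLeft b h hb hh) =
      (pairPre P @K hK).incl.map (Shape.faceMap hh false) ≫
      (pairPre P @K hK).incl.map (S.inRight b h hb hh) := by
    rw [← Functor.map_comp, ← Functor.map_comp, shape_sq]
  have hd : ∀ s : PushoutCocone ((pairPre P @K hK).incl.map (S.hinge hb))
      ((pairPre P @K hK).incl.map (Shape.faceMap hh false)),
      ∃ z : (pairPre P @K hK).incl.obj (S.glue b h hb hh) ⟶ s.pt,
        (pairPre P @K hK).incl.map (S.inLeft b h hb hh) ≫ z = s.inl ∧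
        (pairPre P @K hK).incl.map (S.inRight b h hb hh) ≫ z = s.inr := fun s =>
    pair_desc P @K hK S b h hb hh (T := s.pt.shape) s.inl s.inr s.condition
  refine ⟨⟨hw⟩, ⟨PushoutCocone.IsColimit.mk hw (fun s => Classical.choose (hd s))
    (fun s => (Classical.choose_spec (hd s)).1) (fun s => (Classical.choose_spec (hd s)).2)
    fun s m h1 h2 => ?_⟩⟩
  exact pair_ext P @K hK S b h hb hh (T := s.pt.shape) m _
    (h1.trans (Classical.choose_spec (hd s)).1.symm)
    (h2.trans (Classical.choose_spec (hd s)).2.symm)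

/-- the theory of pairs -/
noncomputable def pairTh (P : GPF C)
    (K : ∀ {S T : Shape}, C.arr S T → NT (P.dg T) (P.dg S) → Prop) (hK : RTh P @K) :
    GlobTheory.{u + 1} :=
  { pairPre P @K hK with respectsSums := pair_sums P @K hK }

/-- parallel pairs give parallel cells -/
theorem pair_par (P : GPF C)
    (K : ∀ {S T : Shape}, C.arr S T → NT (P.dg T) (P.dg S) → Prop) (hK : RTh P @K) {T : Shape} :
    ∀ (n : ℕ) (l r : (pairTh P @K hK).arr (Shape.globe n) T),
      (pairTh P @K hK).OpsParallel n l r → ∀ (A : GlobModel C) (x : (P.dg T).obj A),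
      (P.gp A).Par (Dg.cell (l.1.2.app A x)) (Dg.cell (r.1.2.app A x))
  | 0, l, r, _, A, x => fun f h ε => absurd h (Nat.not_lt_zero _)
  | k + 1, l, r, hp, A, x => by
    have h1 : ∀ ε : Bool, (P.gp A).fc (fac k ε) (Dg.cell (l.1.2.app A x)) =
        (P.gp A).fc (fac k ε) (Dg.cell (r.1.2.app A x)) := by
      intro ε
      cases ε
      · have e1 := congrArg (fun w => Dg.cell (w.1.2.app A x)) hp.1
        have e2 : Dg.cell (Dg.res (Shape.faceMap (Nat.lt_succ_self k) false) (l.1.2.app A x)) =
          Dg.cell (Dg.res (Shape.faceMap (Nat.lt_succ_self k) false) (r.1.2.app A x)) := e1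
        exact (Dg.cell_res_face _ false _).symm.trans (e2.trans (Dg.cell_res_face _ false _))
      · have e1 := congrArg (fun w => Dg.cell (w.1.2.app A x)) hp.2
        have e2 : Dg.cell (Dg.res (Shape.faceMap (Nat.lt_succ_self k) true) (l.1.2.app A x)) =
          Dg.cell (Dg.res (Shape.faceMap (Nat.lt_succ_self k) true) (r.1.2.app A x)) := e1
        exact (Dg.cell_res_face _ true _).symm.trans (e2.trans (Dg.cell_res_face _ true _))
    intro f h ε
    rcases Nat.lt_or_ge f k with hf | hf
    · rw [← fc_globular _ hf (Nat.lt_succ_self k) ε false, ← fc_globular _ hf (Nat.lt_succ_self k) ε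
        false, h1]
    · obtain rfl : f = k := Nat.le_antisymm (Nat.lt_succ_iff.1 h) hf
      exact h1 ε

theorem pair_fill (P : GPF C)
    (K : ∀ {S T : Shape}, C.arr S T → NT (P.dg T) (P.dg S) → Prop) (hK : RTh P @K)
    (q : (pairTh P @K hK).Admissible) (z : C.arr (Shape.globe (q.n + 1)) q.shape)
    (h1 : C.seq (C.ofShape (Shape.σ q.n)) z = q.lower.1.1)
    (h2 : C.seq (C.ofShape (Shape.τ q.n)) z = q.upper.1.1) :
    ∃ w : (pairTh P @K hK).arr (Shape.globe (q.n + 1)) q.shape, w.1.1 = z ∧
      (pairTh P @K hK).seq ((pairTh P @K hK).ofShape (Shape.σ q.n)) w = q.lower ∧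
      (pairTh P @K hK).seq ((pairTh P @K hK).ofShape (Shape.τ q.n)) w = q.upper := by
  obtain ⟨f, hf, hl, hr⟩ := hK.fill q.n q.shape q.dim_le z q.lower.1.2 q.upper.1.2
    (by rw [h1]; exact q.lower.2) (by rw [h2]; exact q.upper.2)
    (fun A x => pair_par P @K hK q.n q.lower q.upper q.parallel A x)
  exact ⟨⟨(z, f), hf⟩, rfl, Subtype.ext (Prod.ext h1 hl), Subtype.ext (Prod.ext h2 hr)⟩

/-- the theory of pairs over `C` -/
noncomputable def pairBig (P : GPF C)
    (K : ∀ {S T : Shape}, C.arr S T → NT (P.dg T) (P.dg S) → Prop) (hK : RTh P @K) :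
    BigTh C where
  D := pairTh P @K hK
  p x := x.1.1
  p_one T := rfl
  p_seq o o' := rfl
  p_shape g := rfl
  fill q z h1 h2 := pair_fill P @K hK q z h1 h2

end Crest.Agent.R248
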