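import Crest.Agent.R248.StepLow

/-!
# R248 piece STEPR: property `RProp` (R) at the base and at a step

* `r_base`: `e ≥ N`: take `κ := y`. `p1 κ = η y` and `y'` have the same boundary (`η` of the boundary of `y`), so they are
  equal by `b.high`.
* `r_step`, `e = n` (then `n < N`, so `Contr F n`): `η` is bijective on `n`-cells (`b.low`), so `y' = η ∘ y''` for a natural
  `y''` (`NT.exists_inv`). `y ∥ y''`: faces `f < n`: `face y = p0 d_f`, `η (face y'') = face y' = p1 d_f = η (p0 d_f)`
  by `low_step`, and `η` is injective on `f`-cells. Fill by `Contr F n`: natural `p : y → y''`. Take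
  `κ := ((y, p), κ'')` with `κ''` the unique `n`-cell of `X` over `y''` (`hX`, natural by `NT.exists_inv`);
  `p1 κ = X.p1 κ'' = η y'' = y'`. Boundary: by injectivity of `p0` of the step in dimensions `< n` (`low_step`).
* `r_step`, `e > n`: `p a := ` the `p`-component of `d.v (n < e) ε` for `a = pole _ ε`; `(y,p)` is a natural cell of
  `HC n` with boundary the `HC` part of `d`; `Conj (y,p)` has boundary `p0` of the `X.P` part of `d`; apply `hR`
  (`n + 1 ≤ e`) to the `X.P`-part of `d`, `Conj (y,p)`, `y'`.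
-/

set_option autoImplicit false
open CategoryTheory CategoryTheory.Limits Opposite
open Crest.GeometryTopology.Coherator Crest.GeometryTopology.Coherator.GlobTheory

universe u

namespace Crest.Agent.R248

variable {C : GlobTheory.{u}}

namespace StepRaux

theorem push_id {e : ℕ} (A : GlobModel C) (d : Bd (undGP A) e) :
    d.push ((NG.id (und C)).at A) = d := Bd.ext' fun _ _ _ => rfl

theorem push_push {P Q R : GP.{u}} {e : ℕ} (φ : GPH P Q) (ψ : GPH Q R) (χ : GPH P R)
    (h : ∀ (f : ℕ) (x : P.c f), ψ.app f (φ.app f x) = χ.app f x) (d : Bd P e) :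
    (d.push φ).push ψ = d.push χ := Bd.ext' fun f hf ε => h f (d.v hf ε)

/-- the side of an arrow -/
def side {f e : ℕ} : Ar f e → Bool
  | .refl _ => false
  | .pole _ ε => ε

theorem eq_pole {f e : ℕ} (h : f < e) (a : Ar f e) : a = pole h (side a) := by
  cases a with
  | refl => exact absurd h (lt_irrefl _)
  | pole _ _ => rfl

end StepRaux

theorem r_base {N : ℕ} (b : BSys C N) : RProp b N (basePre b) := by
  intro e he F _ d y y' h0 h1
  have hy : ∀ A x, (undGP A).bdy (y.app A x) = d.app A x :=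
    fun A x => (h0 A x).trans (StepRaux.push_id A (d.app A x))
  refine ⟨y, hy, fun _ _ => rfl, fun A x => ?_⟩
  refine b.high A e he _ _ ((par_iff_bdy _ _).2 ?_)
  refine Eq.trans ?_ (h1 A x).symm
  show (undGP (b.B.obj A)).bdy (b.e A (y.app A x)) = _
  rw [← hy A x]
  exact bdy_push (P := undGP A) (Q := undGP (b.B.obj A)) ((und C).map (b.η A)) (y.app A x)

/-- the case `e = n` of `r_step` -/
theorem r_step_eq {N : ℕ} (b : BSys C N) (O : Ops C) (n : ℕ) (hn : n < N) (X : Pre C b.B)
    (hX : LowP b (n + 1) X) (F : Fam C) (hF : Contr F n)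
    (d : NT F ((stepPre O n X).P.bd n)) (y : NT F ((und C).cel n))
    (y' : NT F (((und C).comp b.B).cel n))
    (h0 : ∀ A x, (undGP A).bdy (y.app A x) = (d.app A x).push ((stepPre O n X).p0.at A))
    (h1 : ∀ A x, (undGP (b.B.obj A)).bdy (y'.app A x) =
      (d.app A x).push ((stepPre O n X).p1.at A)) :
    ∃ κ : NT F ((stepPre O n X).P.cel n),
      (∀ A x, ((stepPre O n X).P.gp A).bdy (κ.app A x) = d.app A x) ∧
      (∀ A x, (stepPre O n X).p0.app A n (κ.app A x) = y.app A x) ∧
      ∀ A x, (stepPre O n X).p1.app A n (κ.app A x) = y'.app A x := by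
  have hlow : LowP b n (stepPre O n X) := low_step b O n X hX
  obtain ⟨t, ht1, ht2⟩ := NT.exists_inv (b.ηG.cel n) (fun A => b.low A n hn)
  obtain ⟨t', ht1', -⟩ := NT.exists_inv (X.p0.cel n) (fun A => (hX n (Nat.lt_succ_self n) A).1)
  have hη : ∀ A x, b.e A (t.app A (y'.app A x)) = y'.app A x := fun A x => ht1 A (y'.app A x)
  have hpar : ∀ A x, (undGP A).Par (y.app A x) ((y'.comp t).app A x) := by
    intro A x f hf ε
    have e0 : (undGP A).fc (pole hf ε) (y.app A x) =
        (stepPre O n X).p0.app A f ((d.app A x).v hf ε) := fc_of_bdy (h0 A x) hf ε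
    have e1 : (undGP (b.B.obj A)).fc (pole hf ε) (y'.app A x) =
        (stepPre O n X).p1.app A f ((d.app A x).v hf ε) := fc_of_bdy (h1 A x) hf ε
    rw [(hlow f hf A).2, ← e0, ← hη A x] at e1
    refine ((b.low A f (hf.trans hn)).1 ?_).symm
    refine Eq.trans ?_ e1
    exact ((und C).map (b.η A)).nat (pole hf ε) (t.app A (y'.app A x))
  obtain ⟨γ, hγ1, hγ2⟩ := hF y (y'.comp t) hpar
  let hc : ∀ A (x : F.obj A), HCc (undGP A) n n := fun A x =>
    { y := y.app A x
      p := fun _ => γ.app A x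
      hp := fun a => by rw [hγ1, ar_self a]; exact ((undGP A).fc_ide _).symm }
  have hconj : ∀ A x, conjApp O n A n (hc A x) = X.p0.app A n (t'.app A (t.app A (y'.app A x))) := by
    intro A x
    rw [conjApp_eq]
    exact (hγ2 A x).trans (ht1' A _).symm
  refine ⟨⟨fun A x => ⟨(hc A x, t'.app A (t.app A (y'.app A x))), hconj A x⟩, ?_⟩, ?_, ?_, ?_⟩
  · intro A A' g x
    refine Subtype.ext (Prod.ext ?_ ?_)
    · refine HCc.ext' (y.nat g x) (fun a => γ.nat g x)
    · show t'.app A' (t.app A' (y'.app A' (F.map g x))) = (X.P.map g).app n (t'.app A (t.app A (y'.app A x)))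
      rw [y'.nat, t.nat]
      exact t'.nat g _
  · intro A x
    refine Bd.ext' fun f hf ε => (hlow f hf A).1.1 ?_
    refine Eq.trans ?_ (fc_of_bdy (h0 A x) hf ε)
    exact ((stepPre O n X).p0.natF A (pole hf ε) _)
  · intro A x
    rfl
  · intro A x
    show X.p1.app A n (t'.app A (t.app A (y'.app A x))) = _
    refine ((hX n (Nat.lt_succ_self n) A).2 _).trans (Eq.trans ?_ (hη A x))
    exact congrArg (b.e A) (ht1' A _)

/-- the case `e > n` of `r_step` -/
theorem r_step_gt {N : ℕ} (b : BSys C N) (O : Ops C) (n : ℕ) (X : Pre C b.B)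
    (hR : RProp b (n + 1) X) (e : ℕ) (he : n < e) (F : Fam C) (hF : Contr F e ∨ N ≤ e)
    (d : NT F ((stepPre O n X).P.bd e)) (y : NT F ((und C).cel e))
    (y' : NT F (((und C).comp b.B).cel e))
    (h0 : ∀ A x, (undGP A).bdy (y.app A x) = (d.app A x).push ((stepPre O n X).p0.at A))
    (h1 : ∀ A x, (undGP (b.B.obj A)).bdy (y'.app A x) =
      (d.app A x).push ((stepPre O n X).p1.at A)) :
    ∃ κ : NT F ((stepPre O n X).P.cel e),
      (∀ A x, ((stepPre O n X).P.gp A).bdy (κ.app A x) = d.app A x) ∧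
      (∀ A x, (stepPre O n X).p0.app A e (κ.app A x) = y.app A x) ∧
      ∀ A x, (stepPre O n X).p1.app A e (κ.app A x) = y'.app A x := by
  -- the half cylinder part
  have h0' : ∀ A x (f : ℕ) (hf : f < e) (ε : Bool),
      ((d.app A x).v hf ε).1.1.y = (undGP A).fc (pole hf ε) (y.app A x) :=
    fun A x f hf ε => (fc_of_bdy (h0 A x) hf ε).symm
  let hc : ∀ A (x : F.obj A), HCc (undGP A) n e := fun A x =>
    { y := y.app A x
      p := fun a => ((d.app A x).v he (StepRaux.side a)).1.1.p (ide n)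
      hp := fun a => by
        rw [((d.app A x).v he (StepRaux.side a)).1.1.hp, h0' A x n he, (undGP A).fc_ide,
          ← StepRaux.eq_pole he a] }
  have hcnat : ∀ {A A' : GlobModel C} (g : A ⟶ A') (x : F.obj A),
      hc A' (F.map g x) = ((HC C n).map g).app e (hc A x) := by
    intro A A' g x
    refine HCc.ext' (y.nat g x) (fun a => ?_)
    show ((d.app A' (F.map g x)).v he (StepRaux.side a)).1.1.p (ide n) = _
    rw [d.nat]
    rfl
  have hcface : ∀ A x (f : ℕ) (hf : f < e) (ε : Bool),
      ((HC C n).gp A).fc (pole hf ε) (hc A x) = ((d.app A x).v hf ε).1.1 := by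
    intro A x f hf ε
    refine HCc.ext' (h0' A x f hf ε).symm (fun c => ?_)
    show ((d.app A x).v he (StepRaux.side (sq c (pole hf ε)))).1.1.p (ide n) = _
    cases c with
    | refl => rfl
    | pole hc' ε' =>
      have := (d.app A x).glob hc' hf ε' ε
      show ((d.app A x).v he ε').1.1.p (ide n) = _
      rw [← this]
      rfl
  let yc : NT F ((und C).cel e) :=
    ⟨fun A x => conjApp O n A e (hc A x), fun {A A'} g x => by
      show conjApp O n A' e (hc A' (F.map g x)) = _
      rw [hcnat]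
      exact conj_natM O n g e (hc A x)⟩
  let dX : NT F (X.P.bd e) :=
    ⟨fun A x => (d.app A x).push ((PbG.snd (Conj O n) X.p0).at A), fun {A A'} g x => by
      rw [d.nat]; rfl⟩
  obtain ⟨κ, hκ1, hκ2, hκ3⟩ := hR e he F hF dX yc y' (fun A x => Bd.ext' fun f hf ε => by
      show (undGP A).fc (pole hf ε) (conjApp O n A e (hc A x)) = X.p0.app A f ((d.app A x).v hf ε).1.2
      refine (conj_natF O n A (pole hf ε) (hc A x)).symm.trans ?_
      rw [hcface]
      exact ((d.app A x).v hf ε).2) (fun A x => (h1 A x).trans rfl)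
  refine ⟨⟨fun A x => ⟨(hc A x, κ.app A x), (hκ2 A x).symm⟩, ?_⟩, ?_, ?_, ?_⟩
  · intro A A' g x
    exact Subtype.ext (Prod.ext (hcnat g x) (κ.nat g x))
  · intro A x
    refine Bd.ext' fun f hf ε => Subtype.ext (Prod.ext (hcface A x f hf ε) ?_)
    exact fc_of_bdy (hκ1 A x) hf ε
  · intro A x
    rfl
  · intro A x
    exact hκ3 A x

theorem r_step {N : ℕ} (b : BSys C N) (O : Ops C) (n : ℕ) (hn : n < N) (X : Pre C b.B)
    (hX : LowP b (n + 1) X) (hR : RProp b (n + 1) X) : RProp b n (stepPre O n X) := by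
  intro e he F hF d y y' h0 h1
  rcases Nat.lt_or_ge n e with h | h
  · exact r_step_gt b O n X hR e h F hF d y y' h0 h1
  · obtain rfl : e = n := Nat.le_antisymm h he
    refine r_step_eq b O e hn X hX F ?_ d y y' h0 h1
    rcases hF with hF | hF
    · exact hF
    · omega

end Crest.Agent.R248
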